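import Vale.Agent.P082.PartM

/-! The test polynomial, the star inequality and averages. -/

namespace Vale.Agent.P082

open scoped InnerProductSpace ComplexOrder ComplexConjugate
open Vale.Agent.P104 Finset

lemma A.log_est (K : ℕ) {z : ℂ} (hz : ‖z‖ < 1) :
    ‖Complex.log (1 - z) + ∑ n ∈ Icc 1 K, z ^ n / n‖ ≤ ‖z‖ ^ (K + 1) * (1 - ‖z‖)⁻¹ := by
  have h := Complex.norm_log_sub_logTaylor_le K (z := -z) (by simpa using hz)
  have e : Complex.logTaylor (K + 1) (-z) = -∑ n ∈ Icc 1 K, z ^ n / n := by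
    rw [Complex.logTaylor, range_eq_Ico, sum_eq_sum_Ico_succ_bot (by omega), ← sum_neg_distrib]
    simp only [CharP.cast_eq_zero, div_zero, zero_add]
    refine sum_congr rfl fun n _ => ?_
    rw [neg_pow z, pow_succ, ← mul_assoc, mul_right_comm _ (-1), ← mul_pow]
    simp [neg_div]
  rw [e, norm_neg, sub_neg_eq_add, ← sub_eq_add_neg] at h
  refine h.trans (div_le_self ?_ (by simp))
  have := sub_pos.2 hz
  positivity

theorem exists_poly (ω : ℝ) : ∃ (K : ℕ) (α : ℕ → ℝ), (∀ n, 0 ≤ α n ∧ α n ≤ 1) ∧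
    ω ≤ ∑ n ∈ Finset.Icc 1 K, α n ∧
    ∀ {A : Type*} [CStarAlgebra A] (v : A), v ∈ unitary A →
      ‖∑ n ∈ Finset.Icc 1 K, (α n : ℂ) • (v ^ n - star v ^ n)‖ ≤ 8 := by
  set r : ℝ := 1 - Real.exp (-(|ω| + 1)) with hr
  have h0 := Real.exp_pos (-(|ω| + 1))
  have h1 : Real.exp (-(|ω| + 1)) < 1 := Real.exp_lt_one_iff.2 (by linarith [abs_nonneg ω])
  have r0 : 0 < r := by linarith
  have r1 : r < 1 := by linarith
  obtain ⟨K, hK⟩ := exists_pow_lt_of_lt_one (show 0 < (1 - r) / 2 by linarith) r1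
  have est : ∀ w : ℂ, ‖w‖ = 1 →
      ‖Complex.log (1 - r * w) + ∑ n ∈ Icc 1 K, ((r ^ n / n : ℝ) : ℂ) * w ^ n‖ ≤ 1 / 2 := by
    intro w hw
    have e : ‖(r : ℂ) * w‖ = r := by simp [hw, abs_of_pos r0]
    have := A.log_est K (z := r * w) (by rwa [e])
    rw [e, ← div_eq_mul_inv] at this
    have e2 : ∑ n ∈ Icc 1 K, ((r : ℂ) * w) ^ n / n =
        ∑ n ∈ Icc 1 K, ((r ^ n / n : ℝ) : ℂ) * w ^ n :=
      sum_congr rfl fun n _ => by push_cast; rw [mul_pow]; ring
    rw [e2] at this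
    refine this.trans ((div_le_iff₀ (by linarith)).2 ?_)
    rw [pow_succ]
    nlinarith [pow_pos r0 K]
  refine ⟨K, fun n => r ^ n / n, fun n => ⟨by positivity, ?_⟩, ?_, fun v hv => ?_⟩
  · rcases n.eq_zero_or_pos with rfl | hn
    · simp
    · exact div_le_one_of_le₀ ((pow_le_one₀ r0.le r1.le).trans (by exact_mod_cast hn)) (by simp)
  · have := (abs_le.1 ((Complex.abs_re_le_norm _).trans (est 1 norm_one))).1
    simp only [mul_one, one_pow, Complex.add_re, Complex.re_sum, Complex.ofReal_re,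
      Complex.log_re] at this
    have e : ‖1 - (r : ℂ)‖ = Real.exp (-(|ω| + 1)) := by
      rw [← Complex.ofReal_one, ← Complex.ofReal_sub, Complex.norm_real, hr, sub_sub_cancel,
        Real.norm_of_nonneg h0.le]
    rw [e, Real.log_exp] at this
    linarith [le_abs_self ω]
  · haveI : IsStarNormal v := isStarNormal_of_mem_unitary hv
    have e : ∑ n ∈ Icc 1 K, ((r ^ n / n : ℝ) : ℂ) • (v ^ n - star v ^ n) =
        cfc (fun w : ℂ => ∑ n ∈ Icc 1 K, ((r ^ n / n : ℝ) : ℂ) * (w ^ n - star w ^ n)) v := by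
      rw [← Finset.sum_fn, cfc_sum _ _ _ fun n _ => by fun_prop]
      refine sum_congr rfl fun n _ => ?_
      rw [cfc_const_mul .., cfc_sub .., cfc_pow_id .., cfc_pow .., cfc_star_id ..]
    rw [e]
    refine norm_cfc_le (by norm_num) fun w hw => ?_
    have hw1 : ‖w‖ = 1 := by simpa using spectrum.subset_circle_of_unitary hv hw
    have h2 := abs_le.1 ((Complex.abs_im_le_norm _).trans (est w hw1))
    have h3 := abs_le.1 (Complex.abs_arg_le_pi (1 - r * w))
    have e2 : ∑ n ∈ Icc 1 K, ((r ^ n / n : ℝ) : ℂ) * (w ^ n - star w ^ n) =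
        (∑ n ∈ Icc 1 K, ((r ^ n / n : ℝ) : ℂ) * w ^ n) -
          conj (∑ n ∈ Icc 1 K, ((r ^ n / n : ℝ) : ℂ) * w ^ n) := by
      simp only [map_sum, map_mul, Complex.conj_ofReal, map_pow, mul_sub, sum_sub_distrib,
        RCLike.star_def]
    rw [e2, Complex.sub_conj, norm_mul, Complex.norm_I, mul_one, Complex.norm_real,
      Real.norm_eq_abs, abs_le]
    rw [Complex.add_im, Complex.log_im] at h2
    constructor <;> linarith [Real.pi_lt_d2]

variable {H : Type*} [NormedAddCommGroup H] [InnerProductSpace ℂ H] [CompleteSpace H]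
variable {S : Set (H →L[ℂ] H)}

lemma A.inner_star (x : vN S) (α β : H) :
    ⟪(x : H →L[ℂ] H) α, β⟫_ℂ = ⟪α, ((star x : vN S) : H →L[ℂ] H) β⟫_ℂ := by
  rw [StarMemClass.coe_star, ContinuousLinearMap.star_eq_adjoint,
    ContinuousLinearMap.adjoint_inner_right]

lemma A.mul_apply (x y : vN S) (α : H) :
    ((x * y : vN S) : H →L[ℂ] H) α = (x : H →L[ℂ] H) ((y : H →L[ℂ] H) α) := rfl

lemma A.norm_isom {x : vN S} (hx : star x * x = 1) (α : H) : ‖(x : H →L[ℂ] H) α‖ = ‖α‖ := by
  have : ⟪(x : H →L[ℂ] H) α, (x : H →L[ℂ] H) α⟫_ℂ = ⟪α, α⟫_ℂ := by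
    rw [A.inner_star, ← A.mul_apply, hx]; rfl
  rw [inner_self_eq_norm_sq_to_K, inner_self_eq_norm_sq_to_K] at this
  exact (sq_eq_sq₀ (norm_nonneg _) (norm_nonneg _)).1 (by exact_mod_cast this)

theorem exists_avg (t : Tr (vN S)) (m : Mean (unitary (vN S))) {u : vN S →ₗ[ℂ] H} (hu : P1 t u) :
    ∃ Hm, IsAvg m u Hm ∧ P1 t Hm ∧ ∀ C γ, P2 t u C γ → P2 t Hm C γ := by
  have n1 : ∀ (w : unitary (vN S)) (a y : vN S),
      ‖(y : H →L[ℂ] H) (((star w : vN S) : H →L[ℂ] H) (u (w * a)))‖ ^ 2 ≤ t.N y * ‖a‖ ^ 2 :=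
    fun w a y => by
      have := hu (y * star (w : vN S)) (w * a)
      rwa [t.N_mul_unitary (Unitary.star_mem w.2), CStarRing.norm_coe_unitary_mul] at this
  have n2 : ∀ (y a : vN S) (w : unitary (vN S)),
      ‖(y : H →L[ℂ] H) (((star w : vN S) : H →L[ℂ] H) (u (w * a)))‖ ≤ √(t.N y * ‖a‖ ^ 2) :=
    fun y a w => Real.le_sqrt_of_sq_le (n1 w a y)
  choose x hx _ using fun a => exists_vec m
    (fun w => ((star w : vN S) : H →L[ℂ] H) (u (w * a))) _ (n2 1 a)
  have b : ∀ a η, Bd fun w : unitary (vN S) =>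
      ⟪η, ((star w : vN S) : H →L[ℂ] H) (u (w * a))⟫_ℂ := fun a η => bd_inner (n2 1 a) η
  refine ⟨{ toFun := x
            map_add' := fun a a' => ext_inner_left ℂ fun η => by
              simp only [inner_add_right, hx, mul_add, map_add, m.add _ _ (b a η) (b a' η)]
            map_smul' := fun c a => ext_inner_left ℂ fun η => by
              simp only [inner_smul_right, hx, mul_smul_comm, map_smul, m.smul _ _ (b a η),
                RingHom.id_apply] }, fun a η => ?_, fun y a => ?_, fun C γ h ι _ a => ?_⟩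
  · simp only [A.inner_star]
    exact hx a η
  · have := jensen m (fun (_ : Unit) (w : unitary (vN S)) =>
      (y : H →L[ℂ] H) (((star w : vN S) : H →L[ℂ] H) (u (w * a))))
      (fun _ => (y : H →L[ℂ] H) (x a)) (fun _ => ⟨_, n2 y a⟩) fun _ η => by
        simp only [← ContinuousLinearMap.adjoint_inner_left (y : H →L[ℂ] H), hx]
    simp only [univ_unique, sum_singleton] at this
    exact this.trans (re_le m ⟨t.N y * ‖a‖ ^ 2, fun w => by
      rw [Complex.norm_real, Real.norm_of_nonneg (sq_nonneg _)]; exact n1 w a y⟩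
      fun w => by rw [Complex.ofReal_re]; exact n1 w a y)
  · have k : ∀ w : unitary (vN S), ∑ k, ‖((star w : vN S) : H →L[ℂ] H) (u (w * a k))‖ ^ 2 ≤
        C * ∑ k, t.N (a k) + γ * (‖∑ k, star (a k) * a k‖ + ‖∑ k, a k * star (a k)‖) := fun w => by
      have h1 := h ι fun k => w * a k
      have e1 : ∀ k, star (w * a k) * (w * a k) = star (a k) * a k := fun k => by
        rw [star_mul, mul_assoc, ← mul_assoc (star (w : vN S)), w.2.1, one_mul]
      have e2 : ∑ k, w * a k * star (w * a k) =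
          w * (∑ k, a k * star (a k)) * (star w : unitary (vN S)) := by
        simp only [star_mul, mul_sum, sum_mul, mul_assoc, Unitary.coe_star]
      simp only [e1, e2, t.N_unitary_mul w.2, CStarRing.norm_mul_coe_unitary,
        CStarRing.norm_coe_unitary_mul] at h1
      simpa only [A.norm_isom (x := star (w : vN S)) (by simpa using w.2.2)] using h1
    exact (jensen m _ (fun k => x (a k)) (fun k => ⟨_, n2 1 (a k)⟩) fun k η => hx _ η).trans
      (re_le m ⟨_, fun w => by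
        rw [Complex.norm_real, Real.norm_of_nonneg (by positivity)]; exact k w⟩
        fun w => by rw [Complex.ofReal_re]; exact k w)

end Vale.Agent.P082
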