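import Vale.Agent.P082.A1

/-! The star inequality. -/

namespace Vale.Agent.P082

open scoped InnerProductSpace ComplexOrder ComplexConjugate
open Vale.Agent.P104 Finset

variable {H : Type*} [NormedAddCommGroup H] [InnerProductSpace ℂ H] [CompleteSpace H]
variable {S : Set (H →L[ℂ] H)}

lemma A.amgm {x y : H} {a b c : ℝ} (hc : 0 ≤ c) (hx : ‖x‖ ^ 2 ≤ a) (hy : ‖y‖ ^ 2 ≤ b * c ^ 2) :
    ‖⟪x, y⟫_ℂ‖ ≤ c * (a + b) / 2 := by
  refine (norm_inner_le_norm _ _).trans ?_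
  rcases hc.eq_or_lt with rfl | hc
  · have : ‖y‖ = 0 := by nlinarith [norm_nonneg y]
    simp [this]
  · refine le_of_mul_le_mul_left ?_ hc
    nlinarith [sq_nonneg (c * ‖x‖ - ‖y‖), mul_le_mul_of_nonneg_left hx (sq_nonneg c)]

theorem star_ineq (t : Tr (vN S)) {u : vN S →ₗ[ℂ] H} (hu : P1 t u) {η : H} (hη : TB t η 1)
    (K : ℕ) (α : ℕ → ℝ) (hα : ∀ v : vN S, v ∈ unitary (vN S) →
      ‖∑ n ∈ Finset.Icc 1 K, (α n : ℂ) • (v ^ n - star v ^ n)‖ ≤ 8)
    {v : vN S} (hv : v ∈ unitary (vN S)) :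
    ‖∑ n ∈ Finset.Icc 1 K, (α n : ℂ) * (cf u η (v ^ n) - cf u η (star v ^ n))‖ ≤
      16 * t.N 1 := by
  let V : unitary (vN S) := ⟨v, hv⟩
  let P : ℤ → vN S := fun d => (V ^ d : unitary (vN S))
  have P1' : ∀ n : ℕ, P n = v ^ n := fun n => by simp [P, V]
  have P2' : ∀ n : ℕ, P (-n) = star v ^ n := fun n => by
    simp [P, V, ← Unitary.star_eq_inv]
  have P3 : ∀ a b, P (a + b) = P a * P b := fun a b => by simp [P, zpow_add]
  have P4 : ∀ a, t.N (P a) = t.N 1 := fun a => by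
    simpa using t.N_unitary_mul (V ^ a).2 1
  set R := 10 * K + 10 with hR
  have R0 : 0 < R := by omega
  let D1 : Fin R → vN S := fun s => ∑ i ∈ range (2 * K + 1), ru R ((s : ℕ) * (i + K : ℤ)) • P (i + K)
  let D2 : Fin R → vN S := fun s => ∑ j ∈ range (4 * K + 1), ru R ((s : ℕ) * (j : ℤ)) • P j
  have key : ∀ (d : ℤ) (x : H), |d| ≤ K → ∑ s : Fin R, ⟪(D2 s : H →L[ℂ] H) η,
      (D1 s : H →L[ℂ] H) (ru R ((s : ℕ) * d) • x)⟫_ℂ =
        R * (2 * K + 1) * ⟪(P d : H →L[ℂ] H) η, x⟫_ℂ := by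
    intro d x hd
    rw [abs_le] at hd
    have e : ∀ s : Fin R, ⟪(D2 s : H →L[ℂ] H) η, (D1 s : H →L[ℂ] H) (ru R ((s : ℕ) * d) • x)⟫_ℂ =
        ∑ i ∈ range (2 * K + 1), ∑ j ∈ range (4 * K + 1),
          (conj (ru R ((s : ℕ) * (j : ℤ))) * ru R ((s : ℕ) * (i + K + d : ℤ))) *
            ⟪(P j : H →L[ℂ] H) η, (P (i + K) : H →L[ℂ] H) x⟫_ℂ := fun s => by
      simp only [D1, D2, AddSubmonoidClass.coe_finset_sum, SetLike.val_smul,
        ContinuousLinearMap.sum_apply, ContinuousLinearMap.smul_apply, map_smul, inner_sum,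
        sum_inner, inner_smul_left, inner_smul_right, mul_sum, mul_add (s : ℤ) (_ + _) d, ru_add]
      exact sum_congr rfl fun i _ => sum_congr rfl fun j _ => by ring
    simp only [e]
    rw [sum_comm]
    refine (sum_congr rfl (g := fun _ => R * ⟪(P d : H →L[ℂ] H) η, x⟫_ℂ) fun i hi => ?_).trans (by
      rw [sum_const, card_range, nsmul_eq_mul]; push_cast; ring)
    rw [mem_range] at hi
    rw [sum_comm, sum_eq_single (i + K + d : ℤ).toNat]
    · have e1 : (((i + K + d : ℤ).toNat : ℕ) : ℤ) = i + K + d := by omega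
      rw [← sum_mul, ru_orth R0 (by rw [e1]; simp; omega), e1, if_pos rfl, P3 (i + K) d,
        A.mul_apply, A.inner_star, ← A.mul_apply, (V ^ (i + K : ℤ)).2.1]
      rfl
    · intro j hj h
      rw [mem_range] at hj
      rw [← sum_mul, ru_orth R0 (by rw [abs_lt]; omega), if_neg (by omega), zero_mul]
    · intro h
      exact absurd (mem_range.2 (by omega)) h
  have nD : ∀ (L : ℕ) (c : ℤ), L ≤ R → ∑ s : Fin R,
      t.N (∑ j ∈ range L, ru R ((s : ℕ) * (j + c : ℤ)) • P (j + c)) = R * (L * t.N 1) := by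
    intro L c hL
    simp only [t.N_eq, map_sum, map_smul]
    rw [orth_norm (fun (j : ℕ) (s : Fin R) => ru R ((s : ℕ) * (j + c : ℤ))) _ R fun i hi j hj => by
      rw [mem_range] at hi hj
      rw [ru_orth R0 (by rw [abs_lt]; omega)]
      simp]
    simp only [← t.N_eq, P4, sum_const, card_range, nsmul_eq_mul]
  let A : Fin R → vN S := fun s => ∑ n ∈ Icc 1 K, (α n : ℂ) •
    (ru R ((s : ℕ) * (n : ℤ)) • P n - ru R ((s : ℕ) * (-n : ℤ)) • P (-n))
  have nA : ∀ s, ‖A s‖ ≤ 8 := fun s => by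
    have h1 : ru R (s : ℕ) * conj (ru R (s : ℕ)) = 1 := by rw [conj_ru, ← ru_add]; simp
    have := hα (ru R (s : ℕ) • v) ⟨by
      rw [star_smul, smul_mul_smul_comm, hv.1, RCLike.star_def, mul_comm, h1, one_smul], by
      rw [star_smul, smul_mul_smul_comm, hv.2, RCLike.star_def, h1, one_smul]⟩
    convert this using 3 with n
    rw [star_smul, smul_pow, smul_pow, RCLike.star_def, conj_ru, ← ru_mul_nat, ← ru_mul_nat, P1',
      P2', mul_comm (n : ℤ), mul_comm (n : ℤ), neg_mul, mul_neg]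
  have tot : ∑ s : Fin R, ⟪(D2 s : H →L[ℂ] H) η, (D1 s : H →L[ℂ] H) (u (A s))⟫_ℂ =
      R * (2 * K + 1) * ∑ n ∈ Icc 1 K, (α n : ℂ) * (cf u η (v ^ n) - cf u η (star v ^ n)) := by
    simp only [A, map_sum, map_smul u, map_sub, inner_sum, map_smul _ (α _ : ℂ), inner_smul_right,
      inner_sub_right]
    rw [sum_comm, mul_sum]
    refine sum_congr rfl fun n hn => ?_
    rw [mem_Icc] at hn
    rw [← mul_sum, sum_sub_distrib, key n _ (by simpa using hn.2), key (-n) _ (by simpa using hn.2),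
      P1', P2', cf, cf]
    ring
  have bd := norm_sum_le_of_le (univ : Finset (Fin R)) fun s _ => P082.A.amgm (by norm_num : (0 : ℝ) ≤ 8)
    (hη (D2 s)) ((hu (D1 s) (A s)).trans (mul_le_mul_of_nonneg_left
      (pow_le_pow_left₀ (norm_nonneg _) (nA s) 2) (t.N_nonneg _)))
  have n1 := nD (2 * K + 1) K (by omega)
  have n2 := nD (4 * K + 1) 0 (by omega)
  simp only [add_zero] at n2
  rw [tot, ← sum_div, ← mul_sum, sum_add_distrib, ← mul_sum, n1, n2, norm_mul, norm_mul,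
    Complex.norm_natCast, show ‖(2 * K + 1 : ℂ)‖ = 2 * K + 1 by norm_cast] at bd
  have hp : (0 : ℝ) < R * (2 * K + 1) := by positivity
  refine le_of_mul_le_mul_left (bd.trans ?_) hp
  push_cast
  have := mul_nonneg (mul_nonneg (Nat.cast_nonneg (α := ℝ) R) (t.N_nonneg 1))
    (show (0 : ℝ) ≤ K + 1 by positivity)
  nlinarith

end Vale.Agent.P082
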