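import Vale.Agent.P082.A2

/-! Group side of Lemma A. -/

namespace Vale.Agent.P082.A

open Finset

variable {Γ : Type*} [Group Γ]

/-- Cumulative products. -/
def cum (l m k : ℕ → Γ) : ℕ → Γ
  | 0 => 1
  | j + 1 => cum l m k j * ((l j)⁻¹ * m (j + 1) * k (j + 1))

lemma cum_lam {l l' m k : ℕ → Γ} {j : ℕ} (h : ∀ i, i ≠ j → l' i = l i) (i : ℕ) (hi : j < i) :
    (cum l' m k i)⁻¹ * cum l' m k j * (l' j)⁻¹ = (cum l m k i)⁻¹ * cum l m k j * (l j)⁻¹ := by
  induction i, hi using Nat.le_induction with
  | base => simp only [cum]; group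
  | succ i hi ih =>
    simp only [cum, mul_inv_rev, mul_assoc, h i (by omega)] at ih ⊢
    rw [ih]

lemma cum_mu {l m m' k : ℕ → Γ} {j : ℕ} (h : ∀ i, i ≠ j → m' i = m i) (i : ℕ) (hi : i < j) :
    cum l m' k i = cum l m k i := by
  induction i with
  | zero => rfl
  | succ i ih => simp only [cum, ih (by omega), h (i + 1) (by omega)]

lemma exists_walk {e : Mean Γ} (he : Absorbs e Set.univ) {N : ℕ} (κ : Fin N → Γ) :
    ∃ (M : Mean (Fin N × Bool → Γ)) (g : (Fin N × Bool → Γ) → Fin N → Γ), ∀ χ : Γ → ℂ, Bd χ →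
      ∀ i j : Fin N,
      (j < i → M.I (fun x => e.I fun w => χ (w * ((g x i)⁻¹ * g x j))) = e.I χ) ∧
      (i < j → M.I (fun x => e.I fun w => χ (w * ((g x i)⁻¹ * g x j))) =
        e.I fun w => χ (w * κ j)) := by
  obtain ⟨M, hM⟩ := exists_iter he (Fin N × Bool)
  let ex : (Fin N → Γ) → ℕ → Γ := fun f j => if h : j < N then f ⟨j, h⟩ else 1
  have hex : ∀ f (j : Fin N), ex f j = f j := fun f j => by simp [ex]
  have hup : ∀ (x : Fin N × Bool → Γ) (j : Fin N) (b : Bool) g (i : ℕ), i ≠ j →
      ex (fun i => Function.update x (j, b) g (i, b)) i = ex (fun i => x (i, b)) i := by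
    intro x j b g i hi
    simp only [ex]
    split_ifs with h
    · exact Function.update_of_ne (fun e => hi (congrArg (fun p => (p.1 : ℕ)) e)) _ _
    · rfl
  have hup' : ∀ (x : Fin N × Bool → Γ) (j : Fin N) (b : Bool) g,
      (fun i => Function.update x (j, b) g (i, !b)) = fun i => x (i, !b) := fun x j b g =>
    funext fun i => Function.update_of_ne (by simp) _ _
  let G : (Fin N × Bool → Γ) → ℕ → Γ := fun x =>
    cum (ex fun i => x (i, false)) (ex fun i => x (i, true)) (ex κ)
  refine ⟨M, fun x i => G x i, fun χ hχ i j => ⟨fun h => ?_, fun h => ?_⟩⟩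
  · have := hM (j, false) (fun x => (G x i)⁻¹ * G x j * (ex (fun i => x (i, false)) j)⁻¹) χ hχ
      fun x g => by
        have e1 := hup' x j false g
        simp only [Bool.not_false] at e1
        simp only [G, e1]
        exact cum_lam (hup x j false g) i h
    simpa only [hex, inv_mul_cancel_right] using this
  · obtain ⟨j', hj'⟩ : ∃ j', (j : ℕ) = j' + 1 := ⟨j - 1, by have : (i : ℕ) < j := h; omega⟩
    have := hM (j, true) (fun x => (G x i)⁻¹ * G x j' * (ex (fun i => x (i, false)) j')⁻¹)
      (fun w => χ (w * κ j)) (hχ.comp _) fun x g => by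
        have e1 := hup' x j true g
        simp only [Bool.not_true] at e1
        simp only [G, e1]
        rw [cum_mu (hup x j true g) i h, cum_mu (hup x j true g) j' (by omega)]
    rw [← this]
    congr 1
    funext x
    have e2 : G x j = G x j' * ((ex (fun i => x (i, false)) j')⁻¹ * x (j, true) * κ j) := by
      rw [← hex κ j, ← hex (fun i => x (i, true)) j, hj']; rfl
    simp only [e2, mul_assoc]

end Vale.Agent.P082.A
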