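import Vale.Agent.P082.A3
import Vale.Agent.P104.F2

/-! Schur estimate, shifts and counting for Lemma A. -/

namespace Vale.Agent.P082.A

open scoped InnerProductSpace ComplexOrder ComplexConjugate
open Vale.Agent.P104 Vale.Agent.P104.F Finset

lemma four {A : Type*} [CStarAlgebra A] : ∃ c : Fin 4 → ℂ, (∀ i, ‖c i‖ ≤ 1 / 2) ∧
    ∀ x : A, ‖x‖ ≤ 1 → ∃ U : Fin 4 → unitary A, x = ∑ i, c i • (U i : A) := by
  let _ := CStarAlgebra.spectralOrder A
  let _ := CStarAlgebra.spectralOrderedRing A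
  refine ⟨![2⁻¹, 2⁻¹, 2⁻¹ * Complex.I, 2⁻¹ * Complex.I], fun i => by fin_cases i <;> simp,
    fun x hx => ?_⟩
  let u₁ := selfAdjoint.unitarySelfAddISMul (realPart x) ((realPart.norm_le x).trans hx)
  let u₂ := selfAdjoint.unitarySelfAddISMul (imaginaryPart x) ((imaginaryPart.norm_le x).trans hx)
  refine ⟨![u₁, star u₁, u₂, star u₂], ?_⟩
  simp only [Fin.sum_univ_four, Matrix.cons_val, Matrix.cons_val_zero, Matrix.cons_val_one,
    Unitary.coe_star, u₁, u₂, selfAdjoint.star_coe_unitarySelfAddISMul]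
  simp only [selfAdjoint.unitarySelfAddISMul_coe]
  conv_lhs => rw [← realPart_add_I_smul_imaginaryPart x]
  module

section alg
variable {R : Type*} [Ring R] [StarRing R] {I : Type} [Fintype I] [DecidableEq I]
  [AddCommGroup I] {E : I → I → R} {z : R}

/-- The shift unitary. -/
def sh (E : I → I → R) (z : R) (k : I) : R := ∑ j, E (j + k) j + (1 - z)

lemma sh_mul (h : MU E z) (k l : I) : sh E z k * sh E z l = sh E z (k + l) := by
  simp only [sh, add_mul, mul_add, sum_mul, mul_sum, mul_sub, sub_mul, one_mul, mul_one, h.mul,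
    h.mul_z, h.z_mul, h.z_idem, sum_ite_eq', mem_univ, if_true, sub_self, add_zero,
    sum_const_zero, sub_zero, zero_add, add_assoc, add_comm l k]
  abel

lemma star_sh (h : MU E z) (k : I) : star (sh E z k) = sh E z (-k) := by
  simp only [sh, star_add, star_sum, h.st, star_sub, star_one, h.z_sa]
  rw [← Equiv.sum_comp (Equiv.addRight (-k))]
  simp

lemma sh_zero (h : MU E z) : sh E z 0 = 1 := by simp [sh, h.sum_eq]

lemma sh_unitary (h : MU E z) (k : I) : sh E z k ∈ unitary R := by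
  constructor <;> simp [star_sh h, sh_mul h, sh_zero h]

lemma sh_pow (h : MU E z) (k : I) (n : ℕ) : sh E z k ^ n = sh E z (n • k) := by
  induction n with
  | zero => simp [sh_zero h]
  | succ n ih => rw [pow_succ, ih, sh_mul h, succ_nsmul]

lemma sum_band {W : Type*} [AddCommGroup W] [Module ℂ W] (s : Finset ℕ) (α : ℕ → ℂ) (k : I)
    (f : I → I → W) : ∑ i, ∑ j, (∑ n ∈ s, α n * ((if i = j + n • k then 1 else 0) -
      if i = j + n • (-k) then 1 else 0)) • f i j =
      ∑ n ∈ s, α n • (∑ j, f (j + n • k) j - ∑ j, f (j + n • (-k)) j) := by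
  simp only [sum_smul, mul_smul, sub_smul, ite_smul, one_smul, zero_smul]
  rw [sum_comm]
  simp only [sum_comm (s := univ) (t := s), ← smul_sum, sum_sub_distrib, sum_ite_eq', mem_univ,
    if_true]

end alg

lemma comb {N : ℕ} [NeZero N] (K : ℕ) (hK : K < N) (α : ℕ → ℝ) (hα : ∀ n, 0 ≤ α n ∧ α n ≤ 1)
    (Φ : Fin N → Fin N → ℂ) (p q : Fin N → ℂ) (b : ℝ) (h1 : ∀ i j, ‖Φ i j‖ ≤ b)
    (h2 : ∀ j, ‖p j‖ ≤ b) (h3 : ∀ j, ‖q j‖ ≤ b) (h4 : ∀ i j, j < i → Φ i j = p j)
    (h5 : ∀ i j, i < j → Φ i j = q j) :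
    ‖∑ n ∈ Icc 1 K, (α n : ℂ) • (∑ j, Φ (j + n • 1) j - ∑ j, Φ (j + n • (-1)) j) -
      (∑ n ∈ Icc 1 K, α n : ℝ) * (∑ j, p j - ∑ j, q j)‖ ≤ K * (4 * K * b) := by
  have b0 : 0 ≤ b := (norm_nonneg _).trans (h2 0)
  have v : ∀ n : ℕ, n ≤ K → ((n • 1 : Fin N) : ℕ) = n := by
    intro n hn
    induction n with
    | zero => simp
    | succ n ih =>
      rw [succ_nsmul, Fin.val_add, ih (by omega), Fin.val_one', Nat.add_mod_mod,
        Nat.mod_eq_of_lt (by omega)]
  have aux : ∀ (f g : Fin N → ℂ) (s : Finset (Fin N)), s.card ≤ K → (∀ j, ‖f j‖ ≤ b) →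
      (∀ j, ‖g j‖ ≤ b) → (∀ j ∉ s, f j = g j) → ‖∑ j, f j - ∑ j, g j‖ ≤ K * (2 * b) := by
    intro f g s hs hf hg h
    rw [← sum_sub_distrib, ← sum_subset (subset_univ s) fun j _ hj => by rw [h j hj, sub_self]]
    refine (norm_sum_le_of_le s (n := fun _ => 2 * b) fun j _ =>
      (norm_sub_le _ _).trans (by linarith [hf j, hg j])).trans ?_
    rw [sum_const, nsmul_eq_mul]
    exact mul_le_mul_of_nonneg_right (by exact_mod_cast hs) (by positivity)
  push_cast
  rw [sum_mul, ← sum_sub_distrib]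
  refine (norm_sum_le_of_le _ (n := fun _ => 4 * K * b) fun n hn => ?_).trans (by simp)
  rw [mem_Icc] at hn
  have a1 := aux (fun j => Φ (j + n • 1) j) p (univ.filter fun j => (j.rev : ℕ) < K)
    (by
      refine (card_le_card_of_injOn (fun j => (j.rev : ℕ)) (t := range K) ?_ ?_).trans (by simp)
      · intro j hj; simpa using hj
      · intro i _ j _ e; exact Fin.rev_injective (Fin.ext e))
    (fun j => h1 _ _) h2 fun j hj => h4 _ _ (by
      simp only [mem_filter, mem_univ, true_and, Fin.val_rev] at hj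
      rw [Fin.lt_def, Fin.val_add, v n hn.2, Nat.mod_eq_of_lt (by omega)]; omega)
  have a2 := aux (fun j => Φ (j + n • (-1)) j) q (univ.filter fun j => (j : ℕ) < K)
    (by
      refine (card_le_card_of_injOn (fun j : Fin N => (j : ℕ)) (t := range K) ?_ ?_).trans
        (by simp)
      · intro j hj; simpa using hj
      · intro i _ j _ e; exact Fin.ext e)
    (fun j => h1 _ _) h3 fun j hj => h5 _ _ (by
      simp only [mem_filter, mem_univ, true_and] at hj
      rw [smul_neg, ← sub_eq_add_neg, Fin.lt_def, Fin.sub_val_of_le (by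
        rw [Fin.le_def, v n hn.2]; omega), v n hn.2]; omega)
  rw [smul_eq_mul, ← mul_sub, norm_mul, Complex.norm_real, Real.norm_of_nonneg (hα n).1,
    sub_sub_sub_comm]
  refine (mul_le_of_le_one_left (norm_nonneg _) (hα n).2).trans ((norm_sub_le _ _).trans ?_)
  linarith

end Vale.Agent.P082.A
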