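import Vale.Agent.P082.A4

/-! Schur estimate and modularisation for Lemma A. -/

namespace Vale.Agent.P082.A

open scoped InnerProductSpace ComplexOrder ComplexConjugate
open Vale.Agent.P104 Vale.Agent.P104.F Finset

variable {H : Type*} [NormedAddCommGroup H] [InnerProductSpace ℂ H] [CompleteSpace H]
variable {S : Set (H →L[ℂ] H)} {I : Type} [Fintype I] [DecidableEq I]
variable {E : I → I → vN S} {z : vN S}

omit [CompleteSpace H] in
lemma two {x y : H} {p q n n' : ℝ} (hp : 0 ≤ p) (hq : 0 ≤ q) (hn : 0 ≤ n) (hx : ‖x‖ ^ 2 ≤ p ^ 2 * n')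
    (hy : ‖y‖ ^ 2 ≤ n' * q ^ 2) (h : n' ≤ n) : ‖⟪x, y⟫_ℂ‖ ≤ p * q * n := by
  refine (norm_inner_le_norm _ _).trans (abs_le_of_sq_le_sq' ?_ (by positivity)).2
  have h1 := hx.trans (mul_le_mul_of_nonneg_left h (sq_nonneg p))
  have h2 := hy.trans (mul_le_mul_of_nonneg_right h (sq_nonneg q))
  calc _ = ‖x‖ ^ 2 * ‖y‖ ^ 2 := by ring
    _ ≤ (p ^ 2 * n) * (n * q ^ 2) := mul_le_mul h1 h2 (by positivity) (by positivity)
    _ = _ := by ring

lemma N_E (t : Tr (vN S)) (h : MU E z) (i j : I) : Fintype.card I * t.N (E i j) = t.N z := by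
  have : ∀ k, t.N (E i j) = (t.τ (E k k)).re := fun k => by
    have e1 : E j j = E j k * E k j := by simp [h.mul]
    have e2 : E k k = E k j * E j k := by simp [h.mul]
    rw [Tr.N, h.st, h.mul, if_pos rfl, e1, t.comm, ← e2]
  rw [t.N_proj h.z_sa h.z_idem, ← h.sum_eq, map_sum, Complex.re_sum]
  simp only [← this, sum_const, card_univ, nsmul_eq_mul]

lemma N_z (t : Tr (vN S)) (h : MU E z) : t.N z ≤ t.N 1 := by
  simpa using t.N_proj_mul_le h.z_sa h.z_idem 1

lemma pu_dg (h : MU E z) : PU (dg E z) := by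
  have := pu_option (q := fun i => E i i) (fun k => h.st k k)
    (fun k k' => by rw [h.mul]; split_ifs with e <;> simp [e]) h.sum_eq
  convert this using 2 with o
  cases o <;> rfl

lemma th_E (h : MU E z) (θ : Option I → Bool) (i j : I) :
    th (dg E z) θ * E i j = sg (θ (some i)) • E i j := by
  have e : E i j = dg E z (some i) * E i j := by simp [dg, h.mul]
  rw [e, ← mul_assoc, (pu_dg h).th_mul, smul_mul_assoc]

lemma E_th (h : MU E z) (θ : Option I → Bool) (i j : I) :
    E i j * th (dg E z) θ = sg (θ (some j)) • E i j := by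
  have e : E i j = E i j * dg E z (some j) := by simp [dg, h.mul]
  rw [e, mul_assoc, (pu_dg h).mul_th, mul_smul_comm]

lemma schur (t : Tr (vN S)) {u : vN S →ₗ[ℂ] H} (hu : P1 t u) {ζ : H} {β : ℝ} (hβ : 0 ≤ β)
    (hζ : TB t ζ β) (h : MU E z) (c : I → I → ℂ) (a : vN S) :
    ‖∑ i, ∑ j, c i j • ⟪(E i j : H →L[ℂ] H) ζ, u (E i j * a)⟫_ℂ‖ ≤
      β * (‖∑ i, ∑ j, c i j • E i j‖ * ‖a‖) * t.N 1 := by
  obtain ⟨o⟩ := h.ne
  let Y : (Option I → Bool) → vN S := fun θ => ∑ i, sg (θ (some i)) • E o i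
  have nY : ∀ θ, t.N (Y θ) = t.N z := fun θ => by
    rw [← t.N_star, star_sum, t.N_sum_of_orth _ _ fun i _ j _ hij => by
      simp [h.st, h.mul, hij], ← N_E t h o o]
    have : ∀ i, t.N (star (sg (θ (some i)) • E o i)) = t.N (E o o) := fun i => by
      rw [t.N_star, t.N_smul, norm_sg, one_pow, one_mul]
      exact mul_left_cancel₀ h.card_pos.ne' ((N_E t h o i).trans (N_E t h o o).symm)
    simp only [this, sum_const, card_univ, nsmul_eq_mul]
  have key := orth_sum (innerₛₗ ℂ) (fun (p : I × I) (ω : (Option I → Bool) × (Option I → Bool)) =>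
    sg (ω.1 (some p.1)) * sg (ω.2 (some p.2))) univ
    (Fintype.card ((Option I → Bool) × (Option I → Bool))) (fun p _ q _ => by
      have : ∀ ω : (Option I → Bool) × (Option I → Bool),
          conj (sg (ω.1 (some p.1)) * sg (ω.2 (some p.2))) * (sg (ω.1 (some q.1)) *
            sg (ω.2 (some q.2))) = (sg (ω.1 (some p.1)) * sg (ω.1 (some q.1))) *
              (sg (ω.2 (some p.2)) * sg (ω.2 (some q.2))) := fun ω => by
        rw [map_mul, conj_sg, conj_sg]; ring
      simp only [this, Fintype.sum_prod_type, ← mul_sum, ← sum_mul, sg_orth, Fintype.card_prod,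
        Prod.ext_iff, Option.some.injEq]
      split_ifs <;> simp_all)
    (fun p => (E p.1 p.2 : H →L[ℂ] H) ζ) fun p => c p.1 p.2 • u (E p.1 p.2 * a)
  have bd : ∀ ω : (Option I → Bool) × (Option I → Bool), ‖innerₛₗ ℂ
      (∑ p : I × I, (sg (ω.1 (some p.1)) * sg (ω.2 (some p.2))) • (E p.1 p.2 : H →L[ℂ] H) ζ)
      (∑ p : I × I, (sg (ω.1 (some p.1)) * sg (ω.2 (some p.2))) •
        c p.1 p.2 • u (E p.1 p.2 * a))‖ ≤ β * (‖∑ i, ∑ j, c i j • E i j‖ * ‖a‖) * t.N 1 := by
    rintro ⟨θ, θ'⟩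
    have e1 : ∑ p : I × I, (sg (θ (some p.1)) * sg (θ' (some p.2))) • (E p.1 p.2 : H →L[ℂ] H) ζ =
        ((star (Y θ) * Y θ' : vN S) : H →L[ℂ] H) ζ := by
      simp only [Y, star_sum, star_smul, star_sg, h.st, sum_mul, mul_sum, smul_mul_smul_comm, h.mul,
        if_true, AddSubmonoidClass.coe_finset_sum, SetLike.val_smul, ContinuousLinearMap.sum_apply,
        ContinuousLinearMap.smul_apply, Fintype.sum_prod_type]
      exact sum_comm
    have e2 : ∑ p : I × I, (sg (θ (some p.1)) * sg (θ' (some p.2))) • c p.1 p.2 • u (E p.1 p.2 * a) =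
        u (th (dg E z) θ * (∑ i, ∑ j, c i j • E i j) * th (dg E z) θ' * a) := by
      simp only [sum_mul, mul_sum, mul_smul_comm, smul_mul_assoc, th_E h, E_th h, map_sum, map_smul,
        Fintype.sum_prod_type, smul_smul]
      exact sum_congr rfl fun i _ => sum_congr rfl fun j _ => by congr 1; ring
    rw [innerₛₗ_apply_apply, e1, e2, mul_apply, inner_star, star_star]
    refine two hβ (by positivity) (t.N_nonneg _) (nY θ' ▸ hζ (Y θ')) ((hu _ _).trans ?_) (N_z t h)
    rw [nY]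
    refine mul_le_mul_of_nonneg_left (pow_le_pow_left₀ (norm_nonneg _) ((norm_mul_le _ _).trans ?_) 2)
      (t.N_nonneg _)
    rw [CStarRing.norm_mul_mem_unitary _ ((pu_dg h).th_unitary θ'),
      CStarRing.norm_mem_unitary_mul _ ((pu_dg h).th_unitary θ)]
  have := norm_sum_le_of_le univ fun ω _ => bd ω
  rw [key, sum_const, card_univ, nsmul_eq_mul, norm_smul, Complex.norm_natCast,
    Fintype.sum_prod_type] at this
  simpa only [innerₛₗ_apply_apply, inner_smul_right, smul_eq_mul] using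
    le_of_mul_le_mul_left this (by exact_mod_cast Fintype.card_pos)

lemma kill (t : Tr (vN S)) {u : vN S →ₗ[ℂ] H} (hu : P1 t u) {y : vN S} (hy : t.N y = 0) (a : vN S) :
    (y : H →L[ℂ] H) (u a) = 0 := by
  have := hu y a
  rw [hy, zero_mul] at this
  exact norm_eq_zero.1 (pow_eq_zero_iff two_ne_zero |>.1 (le_antisymm this (by positivity)))

lemma modularise [AddCommGroup I] (t : Tr (vN S)) (h : MU E z) (ht : t.N (1 - z) = 0) :
    ∃ m : Mean (unitary (vN S)), ∀ u u' : vN S →ₗ[ℂ] H, P1 t u → IsAvg m u u' →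
      (∀ i j a, u' (E i j * a) = (E i j : H →L[ℂ] H) (u' a)) ∧ ∀ a, u' ((1 - z) * a) = 0 := by
  let W : I × (Option I → Bool) → unitary (vN S) := fun p =>
    ⟨sh E z p.1 * th (dg E z) p.2, mul_mem (sh_unitary h _) ((pu_dg h).th_unitary _)⟩
  refine ⟨(Mean.unif _).map W, fun u u' hu hu' => ?_⟩
  have key : ∀ η a, ⟪η, u' a⟫_ℂ = (Fintype.card I : ℂ)⁻¹ *
      ∑ j, ∑ i, ⟪(E i j : H →L[ℂ] H) η, u (E i j * a)⟫_ℂ := by
    intro η a
    have hW : ∀ p, (W p : vN S) =
        ∑ o, sg (p.2 o) • Option.elim o (1 - z) fun j => E (j + p.1) j := fun p => by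
      have e : (1 - z) * th (dg E z) p.2 = sg (p.2 none) • (1 - z) := (pu_dg h).mul_th p.2 none
      simp only [W, sh, add_mul, sum_mul, E_th h, e, Fintype.sum_option, Option.elim, add_comm]
    rw [hu', Mean.map_I _ _ (by
      refine ⟨‖η‖ * √(t.N 1 * ‖a‖ ^ 2), fun w => (norm_inner_le_norm _ _).trans ?_⟩
      rw [norm_isom w.2.1]
      refine mul_le_mul_of_nonneg_left (Real.le_sqrt_of_sq_le ?_) (norm_nonneg _)
      simpa [CStarRing.norm_coe_unitary_mul] using hu 1 (w * a)), Mean.unif_I,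
      Fintype.sum_prod_type]
    have e : ∀ k : I, ∑ θ, ⟪((W (k, θ) : vN S) : H →L[ℂ] H) η, u (W (k, θ) * a)⟫_ℂ =
        Fintype.card (Option I → Bool) *
          ∑ j, ⟪(E (j + k) j : H →L[ℂ] H) η, u (E (j + k) j * a)⟫_ℂ := fun k => by
      have := rademacher_sum (innerₛₗ ℂ) univ
        (fun o => ((Option.elim o (1 - z) fun j => E (j + k) j : vN S) : H →L[ℂ] H) η)
        fun o => u ((Option.elim o (1 - z) fun j => E (j + k) j) * a)
      simp only [innerₛₗ_apply_apply, smul_eq_mul] at this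
      rw [Fintype.sum_option, Option.elim, inner_star, star_sub, star_one, h.z_sa, kill t hu ht,
        inner_zero_right, zero_add] at this
      simpa only [hW, AddSubmonoidClass.coe_finset_sum, SetLike.val_smul, sum_mul, smul_mul_assoc,
        ContinuousLinearMap.sum_apply, ContinuousLinearMap.smul_apply, map_sum, map_smul,
        Option.elim_some] using this
    simp only [e, ← mul_sum, Fintype.card_prod, Nat.cast_mul]
    rw [sum_comm, mul_inv, mul_assoc, inv_mul_cancel_left₀ card_signs_ne]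
    congr 1
    exact sum_congr rfl fun j _ => Equiv.sum_comp (Equiv.addLeft j)
      fun i => ⟪(E i j : H →L[ℂ] H) η, u (E i j * a)⟫_ℂ
  refine ⟨fun k l a => ext_inner_left ℂ fun η => ?_, fun a => ext_inner_left ℂ fun η => ?_⟩
  · rw [← h.st l k, ← inner_star, h.st, key, key]
    simp only [← mul_apply, h.mul, h.mul', apply_ite u, map_zero, apply_ite (inner ℂ _),
      inner_zero_right]
    congr 1
    refine (sum_eq_single k (by simp +contextual) (by simp)).trans
      (Eq.trans ?_ (sum_eq_single l (by simp +contextual) (by simp)).symm)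
    simp
  · simp [key, ← mul_assoc, mul_sub, h.mul_z]

end Vale.Agent.P082.A
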