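import Vale.Agent.P082.Mean
import Vale.Agent.P104.F2

/-! Part B of P082: the block estimate. -/

namespace Vale.Agent.P082.B

open scoped InnerProductSpace ComplexOrder ComplexConjugate
open Vale.Agent.P104 Vale.Agent.P104.F Finset

variable {H : Type*} [NormedAddCommGroup H] [InnerProductSpace ℂ H] [CompleteSpace H]
variable {S : Set (H →L[ℂ] H)}

lemma cut0 (β : H →L[ℂ] H) {r : ℝ} (hr : 0 < r) : ∃ g : ℝ → ℝ,
    IsSelfAdjoint (cfc g (star β * β)) ∧ ‖β * cfc g (star β * β)‖ ≤ r ∧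
    (1 - cfc g (star β * β)) * (star β * β) * (1 - cfc g (star β * β)) ≤
      ((r ^ 2)⁻¹ : ℝ) • (star β * β * (star β * β)) ∧
    (1 - cfc g (star β * β)) * (star β * β) * (1 - cfc g (star β * β)) ≤ star β * β ∧
    (1 - cfc g (star β * β)) * (1 - cfc g (star β * β)) ≤ 1 := by
  set X := star β * β with hX
  have h0 : 0 ≤ X := star_mul_self_nonneg β
  have hs : IsSelfAdjoint X := h0.isSelfAdjoint
  have hsp : ∀ x ∈ spectrum ℝ X, 0 ≤ x := fun x hx => spectrum_nonneg_of_nonneg h0 hx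
  let g : ℝ → ℝ := fun x => r ^ 2 / (r ^ 2 + |x|)
  have hg : Continuous g := continuous_const.div (by fun_prop) fun x => by positivity
  have e1 : 1 - cfc g X = cfc (fun x => 1 - g x) X := by
    rw [cfc_sub _ _ X continuousOn_const hg.continuousOn, cfc_const_one ℝ X]
  have hg1 : Continuous fun x => 1 - g x := by fun_prop
  have e2 : (1 - cfc g X) * X * (1 - cfc g X) = cfc (fun x => (1 - g x) * x * (1 - g x)) X := by
    rw [cfc_mul _ _ X (by fun_prop) hg1.continuousOn, cfc_mul _ _ X hg1.continuousOn (by fun_prop),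
      cfc_id' ℝ X, e1]
  have k1 : ∀ x, 0 ≤ x → 1 - g x = x / (r ^ 2 + x) := fun x hx => by
    simp only [g, abs_of_nonneg hx]; field_simp; ring
  refine ⟨g, cfc_predicate g X, ?_, ?_, ?_, ?_⟩
  · have e3 : star (β * cfc g X) * (β * cfc g X) = cfc (fun x => g x * x * g x) X := by
      rw [cfc_mul _ _ X (by fun_prop) hg.continuousOn, cfc_mul _ _ X hg.continuousOn (by fun_prop),
        cfc_id' ℝ X, star_mul, (cfc_predicate g X : IsSelfAdjoint _).star_eq, hX]
      simp only [mul_assoc]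
    have e4 : ‖cfc (fun x => g x * x * g x) X‖ ≤ r ^ 2 := by
      refine norm_cfc_le (by positivity) fun x hx => ?_
      have hx0 := hsp x hx
      simp only [g, abs_of_nonneg hx0]
      rw [Real.norm_of_nonneg (by positivity), div_mul_eq_mul_div, div_mul_div_comm,
        div_le_iff₀ (by positivity)]
      have : 0 ≤ r ^ 2 * (r ^ 2 * r ^ 2 + r ^ 2 * x + x * x) := by positivity
      nlinarith
    rw [← e3, CStarRing.norm_star_mul_self] at e4
    nlinarith [norm_nonneg (β * cfc g X)]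
  · have e3 : ((r ^ 2)⁻¹ : ℝ) • (X * X) = cfc (fun x => (r ^ 2)⁻¹ * (x * x)) X := by
      rw [cfc_const_mul _ _ X (by fun_prop), cfc_mul _ _ X (by fun_prop) (by fun_prop), cfc_id' ℝ X]
    rw [e2, e3]
    refine cfc_mono (fun x hx => ?_) (by fun_prop) (by fun_prop)
    have hx0 := hsp x hx
    rw [k1 x hx0, div_mul_eq_mul_div, div_mul_div_comm, ← div_eq_inv_mul,
      div_le_div_iff₀ (by positivity) (by positivity)]
    have : 0 ≤ x * x * (r ^ 2 * r ^ 2 + r ^ 2 * x + x * x) := by positivity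
    nlinarith
  · rw [e2]
    nth_rw 2 [← cfc_id' ℝ X]
    refine cfc_mono (fun x hx => ?_) (by fun_prop) (by fun_prop)
    have hx0 := hsp x hx
    rw [k1 x hx0, div_mul_eq_mul_div, div_mul_div_comm, div_le_iff₀ (by positivity)]
    have : 0 ≤ x * (r ^ 2 * r ^ 2 + 2 * r ^ 2 * x) := by positivity
    nlinarith
  · rw [e1, ← cfc_mul _ _ X hg1.continuousOn hg1.continuousOn]
    refine cfc_le_one _ _ fun x hx => ?_
    have hx0 := hsp x hx
    rw [k1 x hx0, div_mul_div_comm, div_le_one (by positivity)]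
    have : 0 ≤ r ^ 2 * r ^ 2 + 2 * r ^ 2 * x := by positivity
    nlinarith

lemma cut (β : vN S) {r : ℝ} (hr : 0 < r) : ∃ β' β'' : vN S, β = β' + β'' ∧
    (∀ x : vN S, x * β = β * x → x * star β = star β * x → x * β' = β' * x) ∧ ‖β'‖ ≤ r ∧
    star β'' * β'' ≤ (((r ^ 2)⁻¹ : ℝ) : ℂ) • (star β * β * (star β * β)) ∧
    star β'' * β'' ≤ star β * β ∧ β'' * star β'' ≤ β * star β := by
  obtain ⟨g, h1, h2, h3, h4, h5⟩ := cut0 (β : H →L[ℂ] H) hr
  let G : vN S := ⟨cfc g (star (β : H →L[ℂ] H) * β), cfc_mem_vN (star β * β).2 g⟩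
  have hG : star G = G := Subtype.ext h1.star_eq
  have e : star (β * (1 - G)) * (β * (1 - G)) = (1 - G) * (star β * β) * (1 - G) := by
    rw [star_mul, star_sub, star_one, hG]; simp only [mul_assoc]
  refine ⟨β * G, β * (1 - G), by rw [← mul_add, add_sub_cancel, mul_one], fun x hx hx' => ?_, h2,
    ?_, ?_, ?_⟩
  · have c : Commute (star (β : H →L[ℂ] H) * β) x := by
      have : star β * β * x = x * (star β * β) := by
        rw [mul_assoc, ← hx, ← mul_assoc, ← hx', mul_assoc]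
      exact congrArg Subtype.val this
    have c2 : G * x = x * G := Subtype.ext (Commute.cfc_real c g).eq
    rw [← mul_assoc, hx, mul_assoc, ← c2, mul_assoc]
  · rw [e]
    rw [← Complex.coe_smul] at h3
    exact h3
  · rw [e]; exact h4
  · have h6 : (1 - G) * (1 - G) ≤ 1 := h5
    have := star_right_conjugate_le_conjugate h6 β
    rw [mul_one] at this
    rw [star_mul, star_sub, star_one, hG]
    simpa only [mul_assoc] using this

lemma nsq (y : vN S) (v : H) :
    ‖(y : H →L[ℂ] H) v‖ ^ 2 = (⟪v, ((star y * y : vN S) : H →L[ℂ] H) v⟫_ℂ).re := by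
  change _ = (⟪v, (star (y : H →L[ℂ] H)) ((y : H →L[ℂ] H) v)⟫_ℂ).re
  rw [ContinuousLinearMap.star_eq_adjoint, ContinuousLinearMap.adjoint_inner_right,
    ← inner_self_eq_norm_sq (𝕜 := ℂ)]
  rfl

lemma sum_nsq {ι : Type*} [Fintype ι] {x : ι → vN S} {z : vN S}
    (hx : ∑ i, star (x i) * x i = star z * z) (v : H) :
    ∑ i, ‖(x i : H →L[ℂ] H) v‖ ^ 2 = ‖(z : H →L[ℂ] H) v‖ ^ 2 := by
  simp only [nsq, ← hx]
  rw [← Complex.re_sum, ← inner_sum, AddSubmonoidClass.coe_finset_sum,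
    ContinuousLinearMap.sum_apply]

lemma norm_le_of_le {x : vN S} {c : ℝ} (hc : 0 ≤ c) (h0 : 0 ≤ x) (h : x ≤ (c : ℂ) • 1) :
    ‖x‖ ≤ c := by
  have h1 : (x : H →L[ℂ] H) ≤ c • 1 := by rw [← Complex.coe_smul]; exact h
  exact C.norm_le_of_le hc h0 h1

variable {I : Type} [Fintype I] [DecidableEq I] {E : I → I → vN S} {z : vN S}

lemma pu_dg (h : MU E z) : PU (dg E z) := by
  have := pu_option (q := fun k => E k k) (fun k => h.st k k)
    (fun k k' => by rw [h.mul]; split_ifs with e <;> simp [e]) h.sum_eq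
  have e : dg E z = fun o : Option I => o.elim (1 - z) fun k => E k k :=
    funext fun o => by cases o <;> rfl
  rw [e]; exact this

lemma z_le (h : MU E z) : z ≤ 1 := by
  have : 1 - z = star (1 - z) * (1 - z) := by simp [h.z_sa, mul_sub, sub_mul, h.z_idem]
  rw [← sub_nonneg, this]; exact star_mul_self_nonneg _

lemma norm_z_apply (h : MU E z) (v : H) : ‖(z : H →L[ℂ] H) v‖ ≤ ‖v‖ := by
  have h0 : 0 ≤ z := by rw [← h.z_idem]; nth_rw 1 [← h.z_sa]; exact star_mul_self_nonneg _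
  have h1 : ‖z‖ ≤ 1 := norm_le_of_le zero_le_one h0 (by simpa using z_le h)
  exact ((z : H →L[ℂ] H).le_opNorm v).trans (mul_le_of_le_one_left (norm_nonneg _) h1)

/-- The modularity defect. -/
noncomputable def dl (Hm : vN S →ₗ[ℂ] H) (a x : vN S) : H := Hm (x * a) - (x : H →L[ℂ] H) (Hm a)

lemma dl_add (Hm : vN S →ₗ[ℂ] H) (a x y : vN S) : dl Hm a (x + y) = dl Hm a x + dl Hm a y := by
  simp only [dl, add_mul, map_add, MulMemClass.coe_mul, AddMemClass.coe_add,
    ContinuousLinearMap.add_apply]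
  abel

lemma dl_smul (Hm : vN S →ₗ[ℂ] H) (a x : vN S) (c : ℂ) : dl Hm a (c • x) = c • dl Hm a x := by
  simp [dl, smul_sub]

lemma dl_unit {Hm : vN S →ₗ[ℂ] H} {ε : ℝ} (h3 : Mod E z Hm ε) (a x : vN S) (i j : I) :
    (E i j : H →L[ℂ] H) (dl Hm a x) = dl Hm a (E i j * x) := by
  simp only [dl, map_sub, mul_assoc, h3.unit, MulMemClass.coe_mul, ContinuousLinearMap.mul_apply]

lemma dl_diag (hE : MU E z) {Hm : vN S →ₗ[ℂ] H} {ε r : ℝ} (hr : 0 < r) (h3 : Mod E z Hm ε)
    (a : vN S) (i : I) (κ : I → vN S) (h1 : ∀ j i i', E i i' * κ j = κ j * E i i')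
    (h2 : ∀ j, ‖κ j‖ ≤ r) : ∑ j, ‖dl Hm a (κ j * E i j)‖ ^ 2 ≤ r ^ 2 * (ε * ‖a‖ ^ 2) := by
  have hr' : (r : ℂ) ≠ 0 := by exact_mod_cast hr.ne'
  have h := h3.diag (fun j => (r : ℂ)⁻¹ • κ j) (fun j i i' => by
    rw [mul_smul_comm, smul_mul_assoc, h1]) (fun j => by
    rw [norm_smul, norm_inv, Complex.norm_real, Real.norm_of_nonneg hr.le]
    exact inv_mul_le_one_of_le₀ (h2 j) hr.le) a
  change ‖dl Hm a _‖ ^ 2 ≤ _ at h
  set D := ∑ j, ((r : ℂ)⁻¹ • κ j) * E j j with hD
  have e : ∀ j, dl Hm a (κ j * E i j) = (r : ℂ) • (E i j : H →L[ℂ] H) (dl Hm a D) := fun j => by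
    rw [dl_unit h3, ← dl_smul, hD, mul_sum, sum_eq_single j]
    · rw [smul_mul_assoc, mul_smul_comm, smul_smul, mul_inv_cancel₀ hr', one_smul, ← mul_assoc, h1,
        mul_assoc, hE.mul, if_pos rfl]
    · intro k _ hk
      rw [smul_mul_assoc, mul_smul_comm, ← mul_assoc, h1, mul_assoc, hE.mul, if_neg hk.symm]; simp
    · simp
  simp only [e, norm_smul, mul_pow, ← mul_sum, Complex.norm_real, Real.norm_of_nonneg hr.le]
  refine mul_le_mul_of_nonneg_left (le_trans ?_ h) (by positivity)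
  rw [sum_nsq (z := z) (by simp [hE.st, hE.mul, hE.sum_eq, hE.z_sa, hE.z_idem])]
  exact pow_le_pow_left₀ (norm_nonneg _) (norm_z_apply hE _) 2

lemma dl_split (hE : MU E z) {Hm : vN S →ₗ[ℂ] H} {ε : ℝ} (h3 : Mod E z Hm ε) (a x : vN S)
    (hx : z * x = x) : ‖dl Hm a x‖ ^ 2 = ∑ i, ‖dl Hm a (E i i * x)‖ ^ 2 := by
  have e : (z : H →L[ℂ] H) (dl Hm a x) = dl Hm a x := by
    have : (z : H →L[ℂ] H) (Hm (x * a)) = Hm (z * (x * a)) := by
      rw [← hE.sum_eq, sum_mul, map_sum, AddSubmonoidClass.coe_finset_sum,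
        ContinuousLinearMap.sum_apply]
      simp only [h3.unit]
    rw [dl, map_sub, this, ← mul_assoc, hx, ← ContinuousLinearMap.mul_apply, ← MulMemClass.coe_mul,
      hx]
  simp only [← dl_unit h3]
  rw [sum_nsq (z := z) (by simp [hE.st, hE.mul, hE.sum_eq, hE.z_sa, hE.z_idem]), e]

lemma tails (t : Tr (vN S)) {Hm : vN S →ₗ[ℂ] H} {C γ D : ℝ} (hC : 0 ≤ C) (hγ : 0 ≤ γ)
    (h1 : P1 t Hm) (h2 : P2 t Hm C γ) {ι : Type} [Fintype ι] (x : ι → vN S)
    (x1 : ∑ k, star (x k) * x k ≤ 1) (x2 : ∑ k, x k * star (x k) ≤ 1) (x3 : ∑ k, t.N (x k) ≤ D)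
    (a : vN S) : ∑ k, ‖dl Hm a (x k)‖ ^ 2 ≤ (2 * (C + 1) * D + 4 * γ) * ‖a‖ ^ 2 := by
  have ha : star a * a ≤ ((‖a‖ ^ 2 : ℝ) : ℂ) • 1 := by
    have := CStarAlgebra.star_mul_le_algebraMap_norm_sq (a := (a : H →L[ℂ] H))
    rw [Algebra.algebraMap_eq_smul_one, ← Complex.coe_smul] at this
    exact this
  have ha' : a * star a ≤ ((‖a‖ ^ 2 : ℝ) : ℂ) • 1 := by
    have := CStarAlgebra.mul_star_le_algebraMap_norm_sq (a := (a : H →L[ℂ] H))
    rw [Algebra.algebraMap_eq_smul_one, ← Complex.coe_smul] at this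
    exact this
  have n1 : ‖∑ k, star (x k * a) * (x k * a)‖ ≤ ‖a‖ ^ 2 := by
    refine norm_le_of_le (by positivity) (sum_nonneg fun k _ => star_mul_self_nonneg _) ?_
    have := star_left_conjugate_le_conjugate x1 a
    simp only [mul_sum, sum_mul, mul_one] at this
    simp only [star_mul]
    refine le_trans ?_ ha
    simpa only [mul_assoc] using this
  have n2 : ‖∑ k, x k * a * star (x k * a)‖ ≤ ‖a‖ ^ 2 := by
    refine norm_le_of_le (by positivity) (sum_nonneg fun k _ => mul_star_self_nonneg _) ?_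
    have hp : (0 : ℂ) ≤ ((‖a‖ ^ 2 : ℝ) : ℂ) := by positivity
    refine le_trans ?_ (smul_le_smul_of_nonneg_left x2 hp)
    rw [smul_sum]
    refine sum_le_sum fun k _ => ?_
    have := star_right_conjugate_le_conjugate ha' (x k)
    simpa only [star_mul, mul_assoc, mul_smul_comm, smul_mul_assoc, mul_one, one_mul] using this
  have n3 : ∑ k, t.N (x k * a) ≤ ‖a‖ ^ 2 * D := by
    refine (sum_le_sum fun k _ => t.N_mul_le_norm' _ _).trans ?_
    rw [← mul_sum]
    exact mul_le_mul_of_nonneg_left x3 (by positivity)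
  have n4 := h2 ι fun k => x k * a
  have n5 : ∑ k, ‖(x k : H →L[ℂ] H) (Hm a)‖ ^ 2 ≤ D * ‖a‖ ^ 2 := by
    refine (sum_le_sum fun k _ => h1 _ _).trans ?_
    rw [← sum_mul]
    exact mul_le_mul_of_nonneg_right x3 (by positivity)
  have n6 : ∑ k, ‖dl Hm a (x k)‖ ^ 2 ≤
      2 * ∑ k, ‖Hm (x k * a)‖ ^ 2 + 2 * ∑ k, ‖(x k : H →L[ℂ] H) (Hm a)‖ ^ 2 := by
    rw [mul_sum, mul_sum, ← sum_add_distrib]
    refine sum_le_sum fun k _ => ?_
    have := norm_add_sq_le_two (Hm (x k * a)) (-(x k : H →L[ℂ] H) (Hm a))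
    rwa [norm_neg, ← sub_eq_add_neg] at this
  have n7 := mul_le_mul_of_nonneg_left n3 hC
  have n8 := mul_le_mul_of_nonneg_left (add_le_add n1 n2) hγ
  nlinarith

end Vale.Agent.P082.B

namespace Vale.Agent.P082

open scoped InnerProductSpace ComplexOrder ComplexConjugate
open Vale.Agent.P104 Vale.Agent.P104.F Finset B

variable {H : Type*} [NormedAddCommGroup H] [InnerProductSpace ℂ H] [CompleteSpace H]
variable {S : Set (H →L[ℂ] H)}

theorem t1 (t : Tr (vN S)) {I : Type} [Fintype I] [DecidableEq I] [AddCommGroup I] {z : vN S}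
    (hz : IsCentral S z) {E : I → I → vN S} (hE : MU E z) {Hm : vN S →ₗ[ℂ] H} {ε C γ CQ L : ℝ}
    (hε : 0 ≤ ε) (hC : 0 ≤ C) (hγ : 0 ≤ γ) (hL : 0 < L) (h1 : P1 t Hm) (h2 : P2 t Hm C γ)
    (h3 : Mod E z Hm ε) {B : vN S} (hB : B ∈ unitary (vN S))
    (hQ : Qf t (dg E z) B ≤ CQ / Fintype.card I) (a : vN S) :
    ∑ j, ‖Hm (B * (dg E z j * a)) - (B : H →L[ℂ] H) (Hm (dg E z j * a))‖ ^ 2 ≤
      (16 * L ^ 2 * ε + 16 * (C + 1) * CQ / L ^ 2 + 16 * γ) * ‖a‖ ^ 2 := by
  have hN := hE.card_pos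
  set r : ℝ := L / Real.sqrt (Fintype.card I) with hr
  have hr0 : 0 < r := by positivity
  have hr2 : r ^ 2 = L ^ 2 / Fintype.card I := by rw [hr, div_pow, Real.sq_sqrt hN.le]
  have hQ0 : 0 ≤ Qf t (dg E z) B := sum_nonneg fun _ _ => sum_nonneg fun _ _ => t.N_nonneg _
  have hCQ : 0 ≤ CQ := by
    have := hQ0.trans hQ
    rwa [le_div_iff₀ hN, zero_mul] at this
  choose β' β'' c1 c2 c3 c4 c5 c6 using fun i j => cut (F.cf E B i j) hr0
  have d1 : ∀ i j k l, E k l * β' i j = β' i j * E k l := fun i j k l =>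
    c2 i j _ (hE.comm_cf B i j k l) (hE.comm_star (hE.comm_cf B i j) k l)
  have d2 : ∀ i j k l, E k l * β'' i j = β'' i j * E k l := fun i j k l => by
    have := hE.comm_cf B i j k l
    rw [c1, mul_add, add_mul, d1] at this
    exact add_left_cancel this
  have e0 : ‖Hm (B * (dg E z none * a)) - (B : H →L[ℂ] H) (Hm (dg E z none * a))‖ ^ 2 = 0 := by
    have : B * ((1 - z) * a) = (1 - z) * (B * a) := by
      rw [← mul_assoc, ← mul_assoc, mul_sub, sub_mul 1, central_comm hz, mul_one, one_mul]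
    simp only [dg, this, h3.zero]; simp
  have e1 : ∀ j, ‖Hm (B * (dg E z (some j) * a)) -
      (B : H →L[ℂ] H) (Hm (dg E z (some j) * a))‖ ^ 2 = ∑ i, ‖dl Hm a (E i i * B * E j j)‖ ^ 2 := by
    intro j
    have := dl_split hE h3 a (B * E j j) (by
      rw [← mul_assoc, central_comm hz, mul_assoc, hE.z_mul])
    simp only [mul_assoc, ← this]
    simp only [dg, dl, h3.unit, mul_assoc, MulMemClass.coe_mul, ContinuousLinearMap.mul_apply]
  have e2 : ∀ i j, ‖dl Hm a (E i i * B * E j j)‖ ^ 2 ≤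
      2 * ‖dl Hm a (β' i j * E i j)‖ ^ 2 + 2 * ‖dl Hm a (β'' i j * E i j)‖ ^ 2 := by
    intro i j
    rw [← hE.cf_mul, c1, add_mul, dl_add]
    exact norm_add_sq_le_two _ _
  have e3 : ∑ i, ∑ j, ‖dl Hm a (β' i j * E i j)‖ ^ 2 ≤ L ^ 2 * (ε * ‖a‖ ^ 2) := by
    refine (sum_le_sum fun i _ => dl_diag hE hr0 h3 a i (β' i) (d1 i) (c3 i)).trans (le_of_eq ?_)
    rw [sum_const, card_univ, nsmul_eq_mul, hr2]
    field_simp
  have f1 : ∀ i j, star (F.cf E B i j * E i j) * (F.cf E B i j * E i j) =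
      E j j * star B * E i i * B * E j j := fun i j => by
    rw [hE.cf_mul]
    simp only [star_mul, hE.st, mul_assoc, hE.mul', if_true]
  have f2 : ∀ i j, F.cf E B i j * E i j * star (F.cf E B i j * E i j) =
      E i i * B * E j j * star B * E i i := fun i j => by
    rw [hE.cf_mul]
    simp only [star_mul, hE.st, mul_assoc, hE.mul', if_true]
  have e4 := tails t hC hγ h1 h2 (D := CQ / L ^ 2) (fun k : I × I => β'' k.1 k.2 * E k.1 k.2)
    (by
      refine le_trans (sum_le_sum fun k _ => ?_) (le_trans (le_of_eq ?_) (z_le hE))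
        (b := ∑ k : I × I, E k.2 k.2 * star B * E k.1 k.1 * B * E k.2 k.2)
      · have := star_left_conjugate_le_conjugate (c5 k.1 k.2) (E k.1 k.2)
        rw [← f1]
        simpa only [star_mul, mul_assoc] using this
      · rw [Fintype.sum_prod_type, sum_comm]
        simp only [← sum_mul, ← mul_sum, hE.sum_eq]
        simp only [mul_assoc, central_comm hz B, ← mul_assoc z, ← mul_assoc (star B), hB.1, one_mul,
          hE.z_mul, hE.mul, if_true, hE.sum_eq])
    (by
      refine le_trans (sum_le_sum fun k _ => ?_) (le_trans (le_of_eq ?_) (z_le hE))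
        (b := ∑ k : I × I, E k.1 k.1 * B * E k.2 k.2 * star B * E k.1 k.1)
      · have := star_right_conjugate_le_conjugate (c6 k.1 k.2) (E k.1 k.2)
        rw [← f2, ← d2, ← hE.comm_cf]
        simpa only [star_mul, mul_assoc] using this
      · rw [Fintype.sum_prod_type]
        simp only [← sum_mul, ← mul_sum, hE.sum_eq]
        simp only [mul_assoc, central_comm hz (star B), ← mul_assoc z, ← mul_assoc B, hB.2, one_mul,
          hE.z_mul, hE.mul, if_true, hE.sum_eq])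
    (by
      have g1 : ∀ i j, t.N (β'' i j * E i j) ≤
          (r ^ 2)⁻¹ * t.N (E j j * star B * E i i * B * E j j) := by
        intro i j
        have := t.re_mono (star_left_conjugate_le_conjugate (c4 i j) (E i j))
        rw [mul_smul_comm, smul_mul_assoc, map_smul, smul_eq_mul, Complex.re_ofReal_mul] at this
        rw [← f1, Tr.N, Tr.N]
        have g2 : star (E i j) * (star (F.cf E B i j) * F.cf E B i j *
            (star (F.cf E B i j) * F.cf E B i j)) * E i j =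
            star (star (F.cf E B i j * E i j) * (F.cf E B i j * E i j)) *
              (star (F.cf E B i j * E i j) * (F.cf E B i j * E i j)) := by
          have g3 : E i j * (E j i * star (F.cf E B i j)) = star (F.cf E B i j) * E i i := by
            rw [← mul_assoc, hE.mul, if_pos rfl, hE.comm_star (hE.comm_cf B i j)]
          have g4 : E i i * (F.cf E B i j * E i j) = F.cf E B i j * E i j := by
            rw [← mul_assoc, hE.comm_cf, mul_assoc, hE.mul, if_pos rfl]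
          simp only [star_mul, star_star, mul_assoc, hE.st]
          rw [← mul_assoc (E j i) (star _) (_ * E i j), ← mul_assoc (E i j), g3, mul_assoc, g4]
        rw [g2] at this
        simpa only [star_mul, mul_assoc] using this
      refine (sum_le_sum fun k _ => g1 _ _).trans ?_
      rw [← mul_sum, Fintype.sum_prod_type, sum_comm]
      have g5 : ∑ j, ∑ i, t.N (E j j * star B * E i i * B * E j j) ≤ Qf t (dg E z) B := by
        rw [Qf, Fintype.sum_option]
        refine le_add_of_nonneg_of_le (sum_nonneg fun _ _ => t.N_nonneg _)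
          (sum_le_sum fun j _ => ?_)
        rw [Fintype.sum_option]
        exact le_add_of_nonneg_of_le (t.N_nonneg _) le_rfl
      refine (mul_le_mul_of_nonneg_left (g5.trans hQ) (by positivity)).trans (le_of_eq ?_)
      rw [hr2]; field_simp) a
  rw [Fintype.sum_prod_type] at e4
  rw [Fintype.sum_option, e0, zero_add]
  simp only [e1]
  rw [sum_comm]
  refine (sum_le_sum fun i _ => sum_le_sum fun j _ => e2 i j).trans ?_
  simp only [sum_add_distrib, ← mul_sum]
  have p1 : 0 ≤ L ^ 2 * (ε * ‖a‖ ^ 2) := by positivity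
  have p2 : 0 ≤ (C + 1) * (CQ / L ^ 2) * ‖a‖ ^ 2 := by positivity
  have p3 : 0 ≤ γ * ‖a‖ ^ 2 := by positivity
  rw [mul_div_assoc]
  nlinarith

end Vale.Agent.P082
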