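import Vale.Agent.P082.Mean
import Vale.Agent.P104.F3

/-! Part B of P082: matrix units in general position (algebra). -/

namespace Vale.Agent.P082.B

open scoped InnerProductSpace ComplexOrder ComplexConjugate
open Vale.Agent.P104 Vale.Agent.P104.F Finset

variable {R : Type*} [Ring R] [StarRing R] [Algebra ℂ R] [StarModule ℂ R]
variable {I : Type} [Fintype I] [DecidableEq I]

lemma exists_part {E : I → I → R} {z : R} (h : MU E z) (t : Tr R) {ι : Type} [Fintype ι]
    (y : ι → R) : ∃ f : I → I → R, MU f z ∧ ∑ i, ∑ k, t.N (f k k * y i * f k k) ≤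
        3 * ∑ i, t.N (Phi E (y i)) + 3 * (∑ i, t.N (y i)) / Fintype.card I := by
  have := h.ne
  obtain ⟨w, hw1, hw2, hw3⟩ := exists_flat I
  obtain ⟨o⟩ := h.ne
  have hK := h.card_pos
  have hw4 : ∀ k i, conj (w k i) * w k i = 1 := fun k i => by
    rw [Complex.conj_mul', hw2]; simp
  have b1 : ∀ θ k k', star (col E w o θ k) * col E w o θ k' =
      if k = k' then (Fintype.card I : ℂ) • E o o else 0 := by
    intro θ k k'
    have := h.col_mul w o θ k k' 1
    simp only [mul_one, h.mul, smul_ite, smul_zero, sum_ite_eq, mem_univ, if_true, sg_mul_self,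
      one_smul, ← sum_smul, hw1 k, hw1 k', hw3] at this
    rw [this]; split_ifs <;> simp
  have b2 : ∀ θ k, col E w o θ k * E o o = col E w o θ k := fun θ k => by
    simp [col, sum_mul, h.mul]
  have b3 : ∀ θ, ∑ k, col E w o θ k * star (col E w o θ k) = (Fintype.card I : ℂ) • z := by
    intro θ
    simp only [col, star_sum, star_smul, h.st, sum_mul, mul_sum, smul_mul_assoc, mul_smul_comm,
      smul_sum, smul_smul, star_mul', star_sg, h.mul, if_true]
    rw [sum_comm, ← h.sum_eq, smul_sum]
    refine sum_congr rfl fun i _ => ?_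
    rw [sum_comm]
    have : ∀ j, ∑ k, (sg (θ i) * star (w k i) * (sg (θ j) * w k j)) • E j i =
        if i = j then (Fintype.card I : ℂ) • E i i else 0 := by
      intro j
      rw [← sum_smul]
      have : ∑ k, sg (θ i) * star (w k i) * (sg (θ j) * w k j) =
          sg (θ i) * sg (θ j) * ∑ k, conj (w k i) * w k j := by
        rw [mul_sum]; exact sum_congr rfl fun k _ => by simp only [Complex.star_def]; ring
      rw [this, hw3]
      split_ifs with e
      · subst e; simp
      · simp
    simp only [this, sum_ite_eq, mem_univ, if_true]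
  have b4 : ∀ θ k m, t.N (col E w o θ k * m) = Fintype.card I * t.N (E o o * m) := by
    intro θ k m
    have e1 : star (E o o * m) * (E o o * m) = star m * (E o o * m) := by
      rw [star_mul, h.st, mul_assoc, h.mul', if_pos rfl]
    rw [Tr.N, Tr.N, e1, star_mul, mul_assoc, ← mul_assoc (star (col E w o θ k)), b1, if_pos rfl]
    simp
  have b2' : ∀ θ k, E o o * star (col E w o θ k) = star (col E w o θ k) := fun θ k => by
    rw [← h.st o o, ← star_mul, b2]
  have b5 : ∀ θ k x, t.N (((Fintype.card I : ℂ)⁻¹ • (col E w o θ k * star (col E w o θ k))) * x *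
      ((Fintype.card I : ℂ)⁻¹ • (col E w o θ k * star (col E w o θ k)))) =
      ((Fintype.card I : ℝ) ^ 2)⁻¹ * t.N (star (col E w o θ k) * x * col E w o θ k) := by
    intro θ k x
    simp only [smul_mul_assoc, mul_smul_comm, t.N_smul, mul_assoc, b4]
    rw [← mul_assoc (E o o), b2', ← t.N_star]
    simp only [star_mul, star_star, mul_assoc, b4]
    rw [← mul_assoc (E o o), b2', ← t.N_star]
    simp only [star_mul, star_star, mul_assoc, norm_inv, Complex.norm_natCast]
    field_simp
  have b6 : ∀ x, t.N (∑ i, E o i * x * E i o) = Fintype.card I * t.N (Phi E x) := by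
    intro x
    have e1 : ∑ i, E o i * x * E i o = (Fintype.card I : ℂ) • (E o o * Phi E x) := by
      simp [Phi, mul_sum, mul_assoc, h.mul', smul_smul, h.card_ne, ← smul_sum]
    have e2 := h.τ_diag t (c := star (Phi E x) * Phi E x) (fun i j => by
      rw [← mul_assoc, h.comm_star (h.comm_Phi x), mul_assoc, h.comm_Phi, mul_assoc]) o
    have e3 : star (E o o * Phi E x) * (E o o * Phi E x) = star (Phi E x) * Phi E x * E o o := by
      rw [star_mul, h.st, mul_assoc, h.mul', if_pos rfl, h.comm_Phi, mul_assoc]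
    rw [mul_assoc _ _ z, h.Phi_mul_z, ← e3, t.τ_self, t.τ_self] at e2
    have e4 : (Fintype.card I : ℝ) * t.N (E o o * Phi E x) = t.N (Phi E x) := by exact_mod_cast e2
    rw [e1, t.N_smul, ← e4, Complex.norm_natCast]; ring
  have b7 : ∀ x, ∑ i, ∑ j, t.N (E o i * x * E j o) ≤ t.N x := by
    intro x
    have pu := pu_option (q := fun k => E k k) (fun k => h.st k k)
      (fun k k' => by rw [h.mul]; split_ifs with e <;> simp [e]) h.sum_eq
    have e1 : ∀ i m, t.N (E o i * m) = t.N (E i i * m) := fun i m => by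
      simp only [Tr.N, star_mul, h.st, mul_assoc, h.mul', if_true]
    have e2 : ∀ j m, t.N (m * E j o) = t.N (m * E j j) := fun j m => by
      rw [← t.N_star, star_mul, h.st, e1, ← t.N_star, star_mul, star_star, h.st]
    have e3 : ∀ m, ∑ i, t.N (E i i * m) ≤ t.N m := fun m => by
      rw [← pu.sum_N_mul t m, Fintype.sum_option]
      exact le_add_of_nonneg_left (t.N_nonneg _)
    have e4 : ∀ m, ∑ i, t.N (m * E i i) ≤ t.N m := fun m => by
      rw [← pu.sum_N_mul' t m, Fintype.sum_option]
      exact le_add_of_nonneg_left (t.N_nonneg _)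
    simp only [e2]
    refine (sum_le_sum fun i _ => e4 _).trans ?_
    simp only [e1]; exact e3 x
  obtain ⟨θ, hθ⟩ := exists_le_of_sum_le_card (fun θ : I → Bool => ∑ i, ∑ k,
    ((Fintype.card I : ℝ) ^ 2)⁻¹ * t.N (star (col E w o θ k) * y i * col E w o θ k))
    (3 * ∑ i, t.N (Phi E (y i)) + 3 * (∑ i, t.N (y i)) / Fintype.card I) (by
      rw [sum_comm, mul_sum, mul_sum, sum_div, ← sum_add_distrib, mul_sum]
      refine sum_le_sum fun i _ => ?_
      rw [sum_comm]
      have : ∀ k, ∑ θ : I → Bool, ((Fintype.card I : ℝ) ^ 2)⁻¹ *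
          t.N (star (col E w o θ k) * y i * col E w o θ k) ≤ ((Fintype.card I : ℝ) ^ 2)⁻¹ *
          (Fintype.card (I → Bool) * (3 * (Fintype.card I * t.N (Phi E (y i))) +
            3 * t.N (y i))) := by
        intro k
        rw [← mul_sum]
        refine mul_le_mul_of_nonneg_left ?_ (by positivity)
        simp only [h.col_mul]
        refine (t.chaos_N _).trans (mul_le_mul_of_nonneg_left ?_ (by positivity))
        simp only [hw4, one_smul, b6, t.N_smul, norm_mul, Complex.norm_conj, hw2, one_pow, one_mul]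
        linarith [b7 (y i)]
      refine (sum_le_sum fun k _ => this k).trans (le_of_eq ?_)
      rw [sum_const, card_univ, nsmul_eq_mul]
      field_simp)
  refine ⟨fun k k' => (Fintype.card I : ℂ)⁻¹ • (col E w o θ k * star (col E w o θ k')),
    ⟨⟨o⟩, fun k k' => by simp, fun k k' l l' => ?_, ?_⟩, by simpa only [b5] using hθ⟩
  · simp only [smul_mul_assoc, mul_smul_comm, mul_assoc]
    rw [← mul_assoc (star (col E w o θ k')), b1]
    split_ifs with e
    · rw [smul_mul_assoc, b2', mul_smul_comm, smul_smul, smul_smul, mul_assoc,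
        inv_mul_cancel₀ h.card_ne, mul_one]
    · simp
  · rw [← smul_sum, b3, smul_smul, inv_mul_cancel₀ h.card_ne, one_smul]

omit [Algebra ℂ R] [StarModule ℂ R] in
lemma mu_reindex {E : I → I → R} {z : R} (h : MU E z) {J : Type} [Fintype J] [DecidableEq J]
    (e : J ≃ I) : MU (fun a b => E (e a) (e b)) z where
  ne := let ⟨i⟩ := h.ne; ⟨e.symm i⟩
  st _ _ := h.st _ _
  mul _ _ _ _ := by simp only [h.mul, e.apply_eq_iff_eq]
  sum_eq := (e.sum_comp fun i => E i i).trans h.sum_eq

omit [Algebra ℂ R] [StarModule ℂ R] in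
lemma pu_dg' {E : I → I → R} {z : R} (h : MU E z) : PU (dg E z) := by
  have := pu_option (q := fun k => E k k) (fun k => h.st k k)
    (fun k k' => by rw [h.mul]; split_ifs with e <;> simp [e]) h.sum_eq
  have e : dg E z = fun o : Option I => o.elim (1 - z) fun k => E k k :=
    funext fun o => by cases o <;> rfl
  rw [e]; exact this

omit [StarModule ℂ R] in
lemma N_blocks (t : Tr R) {J : Type*} [Fintype J] {q : J → R} (h1 : ∀ j, star (q j) = q j)
    (h2 : ∀ j j', j ≠ j' → q j * q j' = 0) (y : R) :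
    t.N ((∑ j, q j) * y * ∑ j, q j) = ∑ j, ∑ j', t.N (q j * y * q j') := by
  have a1 : ∀ x, t.N ((∑ j, q j) * x) = ∑ j, t.N (q j * x) := fun x => by
    rw [sum_mul, t.N_sum_of_orth]
    intro j _ j' _ h
    rw [star_mul, h1, mul_assoc, ← mul_assoc (q j), h2 j j' h]; simp
  have a2 : ∀ x, t.N (x * ∑ j, q j) = ∑ j, t.N (x * q j) := fun x => by
    rw [← t.N_star, star_mul, star_sum]
    simp only [h1, a1]
    exact sum_congr rfl fun j _ => by rw [← t.N_star, star_mul, star_star, h1]
  simp only [mul_assoc, a1]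
  simp only [← mul_assoc, a2]

lemma shift_avg {G J : Type} [Fintype G] [DecidableEq G] [AddCommGroup G] [Fintype J]
    [DecidableEq J] (Φ : G → G → ℝ) (g : G) {j j' : J} (h : j ≠ j') :
    (Fintype.card G : ℝ) ^ 2 * ∑ τ : J → G, Φ (g + τ j) (g + τ j') =
      Fintype.card (J → G) * ∑ a, ∑ b, Φ a b := by
  have e : ∀ a b : G, ∑ τ : J → G, Φ (g + τ j) (g + τ j') =
      ∑ τ : J → G, Φ (g + τ j + a) (g + τ j' + b) := by
    intro a b
    rw [← Equiv.sum_comp (Equiv.addRight (Pi.single j a + Pi.single j' b : J → G))]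
    simp [h, h.symm, add_assoc]
  calc _ = ∑ a : G, ∑ b : G, ∑ τ : J → G, Φ (g + τ j) (g + τ j') := by
        simp only [sum_const, card_univ, nsmul_eq_mul]; ring
    _ = ∑ a : G, ∑ b : G, ∑ τ : J → G, Φ (g + τ j + a) (g + τ j' + b) :=
        sum_congr rfl fun a _ => sum_congr rfl fun b _ => e a b
    _ = ∑ τ : J → G, ∑ a : G, ∑ b : G, Φ (g + τ j + a) (g + τ j' + b) := by
        rw [sum_comm (γ := J → G)]
        exact sum_congr rfl fun a _ => sum_comm
    _ = ∑ τ : J → G, ∑ a : G, ∑ b : G, Φ a b := by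
        refine sum_congr rfl fun τ _ => ?_
        rw [← Equiv.sum_comp (Equiv.addLeft (g + τ j)) (fun a => ∑ b, Φ a b)]
        refine sum_congr rfl fun a _ => ?_
        rw [← Equiv.sum_comp (Equiv.addLeft (g + τ j')) (fun b => Φ _ b)]
        rfl
    _ = _ := by simp only [sum_const, card_univ, nsmul_eq_mul]

omit [StarModule ℂ R] in
lemma group {G J : Type} [Fintype G] [DecidableEq G] [AddCommGroup G] [Fintype J] [DecidableEq J]
    {f : G × J → G × J → R} {z : R} (h : MU f z) (t : Tr R) {ι : Type} [Fintype ι] (y : ι → R) :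
    ∃ E : G → G → R, MU E z ∧ ∑ i, ∑ g, t.N (E g g * y i * E g g) ≤
      ∑ i, ∑ k, t.N (f k k * y i * f k k) + (∑ i, t.N (y i)) / Fintype.card G := by
  have hG : (0 : ℝ) < Fintype.card G := by exact_mod_cast Fintype.card_pos
  let E : (J → G) → G → G → R := fun τ g g' => ∑ j, f (g + τ j, j) (g' + τ j, j)
  have hE : ∀ τ, MU (E τ) z := fun τ => ⟨⟨0⟩, fun g g' => by simp [E, star_sum, h.st],
    fun g g' k k' => by
      simp only [E, sum_mul, mul_sum, h.mul, Prod.mk.injEq]
      rw [sum_comm]
      have : ∀ j, ∑ j', (if g' + τ j = k + τ j' ∧ j = j' then f (g + τ j, j) (k' + τ j', j')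
          else 0) = if g' = k then f (g + τ j, j) (k' + τ j, j) else 0 := fun j => by
        rw [sum_eq_single j] <;> simp +contextual [eq_comm]
      simp only [this]
      split_ifs <;> simp,
    by
      rw [← h.sum_eq, Fintype.sum_prod_type, sum_comm, sum_comm (γ := G)]
      exact sum_congr rfl fun j _ => Equiv.sum_comp (Equiv.addRight (τ j)) fun g => f (g, j) (g, j)⟩
  obtain ⟨τ, hτ⟩ := exists_le_of_sum_le_card
    (fun τ : J → G => ∑ i, ∑ g, t.N (E τ g g * y i * E τ g g))
    (∑ i, ∑ k, t.N (f k k * y i * f k k) + (∑ i, t.N (y i)) / Fintype.card G) (by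
      rw [sum_comm, sum_div, ← sum_add_distrib, mul_sum]
      refine sum_le_sum fun i _ => ?_
      let Φ : G × J → G × J → ℝ := fun k k' => t.N (f k k * y i * f k' k')
      have e1 : ∀ τ g, t.N (E τ g g * y i * E τ g g) =
          ∑ j, ∑ j', Φ (g + τ j, j) (g + τ j', j') := fun τ g =>
        N_blocks t (fun j => h.st _ _) (fun j j' hj => by simp [h.mul, hj]) _
      have e2 : ∀ g j j', ∑ τ : J → G, Φ (g + τ j, j) (g + τ j', j') ≤
          (if j = j' then ∑ τ : J → G, Φ (g + τ j, j) (g + τ j, j) else 0) +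
            Fintype.card (J → G) / (Fintype.card G : ℝ) ^ 2 * ∑ a, ∑ b, Φ (a, j) (b, j') := by
        intro g j j'
        split_ifs with e
        · subst e
          exact le_add_of_nonneg_right (mul_nonneg (by positivity)
            (sum_nonneg fun _ _ => sum_nonneg fun _ _ => t.N_nonneg _))
        · rw [zero_add, div_mul_eq_mul_div, ← shift_avg (fun a b => Φ (a, j) (b, j')) g e]
          exact le_of_eq (by field_simp)
      have e3 : ∑ j, ∑ j', ∑ a, ∑ b, Φ (a, j) (b, j') ≤ t.N (y i) := by
        have pu := pu_dg' h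
        have : ∑ k, ∑ k', Φ k k' ≤ t.N (y i) := by
          rw [← pu.sum_N_mul t, Fintype.sum_option]
          refine le_add_of_nonneg_of_le (t.N_nonneg _) (sum_le_sum fun k _ => ?_)
          rw [← pu.sum_N_mul' t, Fintype.sum_option]
          exact le_add_of_nonneg_of_le (t.N_nonneg _) le_rfl
        refine le_trans (le_of_eq ?_) this
        simp only [Fintype.sum_prod_type]
        rw [sum_comm (γ := G)]
        refine sum_congr rfl fun j _ => ?_
        rw [sum_comm]
        exact sum_congr rfl fun a _ => sum_comm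
      have e4 : ∑ g, ∑ j, ∑ τ : J → G, Φ (g + τ j, j) (g + τ j, j) =
          Fintype.card (J → G) * ∑ k, Φ k k := by
        have : ∀ τ : J → G, ∑ g, ∑ j, Φ (g + τ j, j) (g + τ j, j) = ∑ k, Φ k k := fun τ => by
          rw [Fintype.sum_prod_type, sum_comm, sum_comm (γ := G)]
          exact sum_congr rfl fun j _ => Equiv.sum_comp (Equiv.addRight (τ j)) fun g => Φ (g, j) (g, j)
        calc _ = ∑ τ : J → G, ∑ g, ∑ j, Φ (g + τ j, j) (g + τ j, j) := by
              rw [sum_comm (γ := J → G)]
              exact sum_congr rfl fun g _ => sum_comm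
          _ = _ := by simp only [this, sum_const, card_univ, nsmul_eq_mul]
      simp only [e1]
      calc _ = ∑ g, ∑ j, ∑ j', ∑ τ : J → G, Φ (g + τ j, j) (g + τ j', j') := by
            rw [sum_comm]
            refine sum_congr rfl fun g _ => ?_
            rw [sum_comm]
            exact sum_congr rfl fun j _ => sum_comm
        _ ≤ _ := sum_le_sum fun g _ => sum_le_sum fun j _ => sum_le_sum fun j' _ => e2 g j j'
        _ ≤ _ := by
            simp only [sum_add_distrib, sum_ite_eq, mem_univ, if_true, e4, ← mul_sum, sum_const,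
              card_univ, nsmul_eq_mul]
            rw [mul_add]
            refine add_le_add le_rfl ?_
            refine (mul_le_mul_of_nonneg_left (mul_le_mul_of_nonneg_left e3 hG.le)
              (by positivity)).trans (le_of_eq ?_)
            field_simp)
  exact ⟨E τ, hE τ, hτ⟩

/-- The sum trace on a finite product. -/
noncomputable def piTr (t : Tr R) (ι : Type) [Fintype ι] : Tr (ι → R) where
  τ := ∑ i, t.τ ∘ₗ LinearMap.proj i
  comm x y := by simp [t.comm (x _)]
  pos x := by simpa using sum_nonneg fun i _ => t.pos (x i)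

omit [StarModule ℂ R] in
lemma piTr_N (t : Tr R) {ι : Type} [Fintype ι] (x : ι → R) : (piTr t ι).N x = ∑ i, t.N (x i) := by
  simp [piTr, Tr.N]

omit [Algebra ℂ R] [StarModule ℂ R] in
lemma pu_pi {κ : Type*} [Fintype κ] {Q : κ → R} (h : PU Q) (ι : Type) :
    PU fun k (_ : ι) => Q k :=
  ⟨fun k => funext fun _ => h.sa k, fun k => funext fun _ => h.idem k,
    fun k k' e => funext fun _ => h.orth k k' e, funext fun _ => by simp [h.sum_eq]⟩

lemma exists_Qf_pi {Λ κ : Type*} [Fintype Λ] [DecidableEq Λ] [Fintype κ] (t : Tr R) {P : Λ → R}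
    {Q : κ → R} (hP : PU P) (hQ : PU Q) {ι : Type} [Fintype ι] {a : ι → R}
    (ha : ∀ i, a i ∈ unitary R) : ∃ θ, ∀ i, Qf t Q (th P θ * a i) ≤
      3 * ∑ l, ∑ k, ∑ _i : ι, t.N (Q k * P l * Q k) +
      3 * ∑ l, ∑ k, ∑ i, t.N (Q k * (star (a i) * P l * a i) * Q k) := by
  obtain ⟨θ, hθ⟩ := exists_Qf (piTr t ι) (pu_pi hP ι) (pu_pi hQ ι) (a := a)
    ⟨funext fun i => (ha i).1, funext fun i => (ha i).2⟩
  refine ⟨θ, fun i => le_trans ?_
    (by simpa only [piTr_N, Pi.mul_apply, Pi.star_apply] using hθ)⟩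
  simp only [Qf, piTr_N]
  refine sum_le_sum fun k _ => sum_le_sum fun k' _ => le_trans (le_of_eq ?_)
    (single_le_sum (fun i _ => t.N_nonneg _) (mem_univ i))
  simp [th]

end Vale.Agent.P082.B
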