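import Vale.Agent.P082.PartM
import Vale.Agent.P104.E3
import Vale.Agent.P104.VB
import Vale.Agent.P104.PartC0

/-! Part C of P082, file 1: averaging functions along families. -/

namespace Vale.Agent.P082.C

open scoped InnerProductSpace ComplexOrder ComplexConjugate
open Vale.Agent.P104

section mean
variable {Γ : Type*}

lemma I_nonneg (m : Mean Γ) {f : Γ → ℂ} (h : ∀ g, 0 ≤ f g) : 0 ≤ m.I f := by
  by_cases hf : Bd f
  · have h1 : (m.I f).im = 0 := by
      have := I_conj m f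
      rw [show (fun g => conj (f g)) = f from
        funext fun g => Complex.conj_eq_iff_im.2 (Complex.nonneg_iff.1 (h g)).2.symm] at this
      exact Complex.conj_eq_iff_im.1 this.symm
    have h2 := re_mono m (Bd.const 0) hf fun g => (Complex.nonneg_iff.1 (h g)).1
    rw [m.const] at h2
    exact Complex.nonneg_iff.2 ⟨h2, h1.symm⟩
  · rw [m.junk f hf]

lemma I_mono (m : Mean Γ) {f f' : Γ → ℂ} (hf : Bd f) (hf' : Bd f') (h : ∀ g, f g ≤ f' g) :
    m.I f ≤ m.I f' := by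
  rw [← sub_nonneg, ← m.sub hf' hf]
  exact I_nonneg m fun g => sub_nonneg.2 (h g)

lemma bd_list {α : Type*} (l : List α) {f : α → Γ → ℂ} (hf : ∀ a, Bd (f a)) :
    Bd fun g => (l.map fun a => f a g).sum := by
  induction l with
  | nil => simpa using Bd.const 0
  | cons a l ih => simpa using (hf a).add ih

lemma I_list (m : Mean Γ) {α : Type*} (l : List α) {f : α → Γ → ℂ} (hf : ∀ a, Bd (f a)) :
    m.I (fun g => (l.map fun a => f a g).sum) = (l.map fun a => m.I (f a)).sum := by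
  induction l with
  | nil => simpa using m.const 0
  | cons a l ih =>
    simp only [List.map_cons, List.sum_cons]
    rw [m.add _ _ (hf a) (bd_list l hf), ih]

lemma bd_of_le {f f' : Γ → ℂ} (hf' : Bd f') (h0 : ∀ g, 0 ≤ f g) (h : ∀ g, f g ≤ f' g) : Bd f := by
  obtain ⟨C, hC⟩ := hf'
  exact ⟨C, fun g => (CStarAlgebra.norm_le_norm_of_nonneg_of_le (h0 g) (h g)).trans (hC g)⟩

end mean

lemma list_comm {α β : Type*} (l : List α) (l' : List β) (f : α → β → ℂ) :
    (l.map fun a => (l'.map fun b => f a b).sum).sum =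
      (l'.map fun b => (l.map fun a => f a b).sum).sum := by
  induction l with
  | nil => simp
  | cons a l ih => simp [ih, List.sum_map_add]

lemma list_flat {α β : Type*} (l : List α) (k : α → List β) (f : β → ℂ) :
    ((l.flatMap k).map f).sum = (l.map fun a => ((k a).map f).sum).sum := by
  induction l with
  | nil => simp
  | cons a l ih => simp [ih]

/-- A monoid of finite families acting on a set. -/
structure Act (Γ R X : Type*) [Monoid Γ] [Monoid R] where
  fam : Γ → List R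
  act : R → X → X
  fam_one : fam 1 = [1]
  fam_mul : ∀ g h, fam (g * h) = (fam g).flatMap fun m => (fam h).map fun m' => m * m'
  act_one : ∀ x, act 1 x = x
  act_mul : ∀ m m' x, act (m * m') x = act m (act m' x)

namespace Act
variable {Γ R X : Type*} [Monoid Γ] [Monoid R] (D : Act Γ R X)

/-- Sum over a family. -/
noncomputable def P (g : Γ) (φ : X → ℂ) (x : X) : ℂ := ((D.fam g).map fun m => φ (D.act m x)).sum

/-- Admissible functions. -/
def Adm (φ : X → ℂ) : Prop := ∀ x, Bd fun g => D.P g φ x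

/-- Average along a mean. -/
noncomputable def A (μ : Mean Γ) (φ : X → ℂ) (x : X) : ℂ := μ.I fun g => D.P g φ x

variable {D} {φ ψ : X → ℂ}

lemma P_one (φ : X → ℂ) : D.P 1 φ = φ := by
  ext x; simp [P, D.fam_one, D.act_one]

lemma P_mul (g h : Γ) (φ : X → ℂ) (x : X) : D.P (g * h) φ x = D.P h (D.P g φ) x := by
  simp only [P, D.fam_mul, list_flat, List.map_map, Function.comp_def, D.act_mul]
  exact list_comm _ _ _

lemma P_A (hφ : D.Adm φ) (μ : Mean Γ) (h : Γ) (x : X) :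
    D.P h (D.A μ φ) x = μ.I fun g => D.P (g * h) φ x := by
  simp only [P_mul]
  exact (I_list μ (D.fam h) (f := fun m g => D.P g φ (D.act m x)) fun m => hφ _).symm

lemma Adm.A (hφ : D.Adm φ) (μ : Mean Γ) : D.Adm (D.A μ φ) := fun x => by
  obtain ⟨C, hC⟩ := hφ x
  exact ⟨C, fun h => by simp only [P_A hφ]; exact μ.norm_le _ C fun g => hC _⟩

lemma A_A (hφ : D.Adm φ) (ν μ : Mean Γ) : D.A ν (D.A μ φ) = D.A (ν.conv μ) φ := by
  ext x
  rw [A, A, Mean.conv_I _ _ (hφ x)]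
  simp only [P_A hφ]

lemma A_dirac (hφ : D.Adm φ) (g : Γ) : D.A (Mean.dirac g) φ = D.P g φ := by
  ext x; exact Mean.dirac_I g (hφ x)

lemma A_abs {e σ : Mean Γ} {Q : Set (Mean Γ)} (he : Absorbs e Q) (hσ : σ ∈ Q) (hφ : D.Adm φ) :
    D.A e (D.A σ (D.A e φ)) = D.A e φ := by
  ext x
  rw [A, A, ← he σ hσ _ (hφ x)]
  simp only [P_A (hφ.A e), P_A hφ, mul_assoc]

lemma P_add (g : Γ) (φ ψ : X → ℂ) (x : X) :
    D.P g (fun y => φ y + ψ y) x = D.P g φ x + D.P g ψ x := by
  simp [P, List.sum_map_add]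

lemma P_smul (g : Γ) (c : ℂ) (φ : X → ℂ) (x : X) :
    D.P g (fun y => c * φ y) x = c * D.P g φ x := by
  simp [P, List.sum_map_mul_left]

lemma Adm.add (hφ : D.Adm φ) (hψ : D.Adm ψ) : D.Adm fun y => φ y + ψ y := fun x => by
  simp only [P_add]; exact (hφ x).add (hψ x)

lemma Adm.smul (hφ : D.Adm φ) (c : ℂ) : D.Adm fun y => c * φ y := fun x => by
  simp only [P_smul]; exact (hφ x).smul c

lemma A_add (hφ : D.Adm φ) (hψ : D.Adm ψ) (μ : Mean Γ) :
    D.A μ (fun y => φ y + ψ y) = fun x => D.A μ φ x + D.A μ ψ x := by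
  ext x
  simp only [A, P_add]; exact μ.add _ _ (hφ x) (hψ x)

lemma A_smul (hφ : D.Adm φ) (c : ℂ) (μ : Mean Γ) :
    D.A μ (fun y => c * φ y) = fun x => c * D.A μ φ x := by
  ext x
  simp only [A, P_smul]; exact μ.smul _ _ (hφ x)

lemma P_mono (h : φ ≤ ψ) (g : Γ) : D.P g φ ≤ D.P g ψ := fun _ =>
  List.sum_le_sum fun _ _ => h _

lemma P_nonneg (h : 0 ≤ φ) (g : Γ) : 0 ≤ D.P g φ := fun _ =>
  List.sum_nonneg fun y hy => by
    obtain ⟨m, _, rfl⟩ := List.mem_map.1 hy
    exact h _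

lemma A_mono (hφ : D.Adm φ) (hψ : D.Adm ψ) (h : φ ≤ ψ) (μ : Mean Γ) : D.A μ φ ≤ D.A μ ψ :=
  fun x => I_mono μ (hφ x) (hψ x) fun g => P_mono h g x

lemma A_nonneg (h : 0 ≤ φ) (μ : Mean Γ) : 0 ≤ D.A μ φ :=
  fun x => I_nonneg μ fun g => P_nonneg h g x

lemma Adm.of_le (hψ : D.Adm ψ) (h0 : 0 ≤ φ) (h : φ ≤ ψ) : D.Adm φ := fun x =>
  bd_of_le (hψ x) (fun g => P_nonneg h0 g x) fun g => P_mono h g x

end Act

section
variable {H : Type*} [NormedAddCommGroup H] [InnerProductSpace ℂ H] [CompleteSpace H]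
variable {S : Set (H →L[ℂ] H)}
variable {K : Type*} [NormedAddCommGroup K] [InnerProductSpace ℂ K] [CompleteSpace K]

lemma list_inner (π : vN S →⋆ₐ[ℂ] (K →L[ℂ] K)) (l : List (vN S)) (α β : K) :
    (l.map fun m => ⟪π m α, π m β⟫_ℂ).sum = ⟪α, π (l.map fun m => star m * m).sum β⟫_ℂ := by
  induction l with
  | nil => simp
  | cons a l ih =>
    simp only [List.map_cons, List.sum_cons, ih, map_add, map_mul, map_star,
      add_apply, inner_add_right, mul_apply_eq_comp, E.inner_star_right]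

lemma list_ofReal {α : Type*} (l : List α) (f : α → ℝ) :
    (l.map fun a => (f a : ℂ)).sum = ((l.map f).sum : ℝ) := by
  induction l with
  | nil => simp
  | cons a l ih => simp [ih]

lemma exists_sq {x : vN S} (hx : 0 ≤ x) : ∃ b : vN S, star b * b = x := by
  have hx' : 0 ≤ (x : H →L[ℂ] H) := hx
  refine ⟨⟨CFC.sqrt x, sqrt_mem_vN x.2⟩, Subtype.ext ?_⟩
  change star (CFC.sqrt (x : H →L[ℂ] H)) * CFC.sqrt (x : H →L[ℂ] H) = x
  rw [(CFC.sqrt_nonneg (x : H →L[ℂ] H)).isSelfAdjoint.star_eq, CFC.sqrt_mul_sqrt_self _ hx']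

lemma list_sq (π : vN S →⋆ₐ[ℂ] (K →L[ℂ] K)) (l : List (vN S)) (α : K) :
    (((l.map fun m => ‖π m α‖ ^ 2).sum : ℝ) : ℂ) =
      ⟪α, π (l.map fun m => star m * m).sum α⟫_ℂ := by
  rw [← list_inner, ← list_ofReal]
  simp [inner_self_eq_norm_sq_to_K]

lemma list_col (π : vN S →⋆ₐ[ℂ] (K →L[ℂ] K)) {l : List (vN S)}
    (hl : (l.map fun m => star m * m).sum ≤ 1) (α : K) :
    (l.map fun m => ‖π m α‖ ^ 2).sum ≤ ‖α‖ ^ 2 := by
  obtain ⟨b, hb⟩ := exists_sq (sub_nonneg.2 hl)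
  have h := list_sq π (b :: l) α
  rw [List.map_cons, List.map_cons, List.sum_cons, List.sum_cons, hb, sub_add_cancel, map_one,
    one_apply_eq_self, inner_self_eq_norm_sq_to_K] at h
  have h' : ‖π b α‖ ^ 2 + (l.map fun m => ‖π m α‖ ^ 2).sum = ‖α‖ ^ 2 :=
    Complex.ofReal_injective (by rw [h]; simp)
  nlinarith [sq_nonneg ‖π b α‖]

end

end Vale.Agent.P082.C
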