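import Vale.Agent.P082.C1

/-! Part C of P082, file 2: the completely bounded core argument. -/

namespace Vale.Agent.P082.C

open scoped InnerProductSpace ComplexOrder ComplexConjugate
open Vale.Agent.P104 Act

variable {H : Type*} [NormedAddCommGroup H] [InnerProductSpace ℂ H] [CompleteSpace H]
variable {S : Set (H →L[ℂ] H)}
variable {K : Type*} [NormedAddCommGroup K] [InnerProductSpace ℂ K] [CompleteSpace K]

/-- The operator `∑ π(m)* Y m`. -/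
noncomputable def avg (π : vN S →⋆ₐ[ℂ] (K →L[ℂ] K)) (l : List (vN S)) (Y : H →L[ℂ] K) :
    H →L[ℂ] K :=
  (l.map fun m => star (π m) ∘L Y ∘L (m : H →L[ℂ] H)).sum

lemma inner_avg (π : vN S →⋆ₐ[ℂ] (K →L[ℂ] K)) (l : List (vN S)) (Y : H →L[ℂ] K) (κ : K) (η : H) :
    ⟪κ, avg π l Y η⟫_ℂ = (l.map fun m => ⟪π m κ, Y ((m : H →L[ℂ] H) η)⟫_ℂ).sum := by
  induction l with
  | nil => simp [avg]
  | cons a l ih =>
    simp only [avg, List.map_cons, List.sum_cons, add_apply, inner_add_right,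
      ContinuousLinearMap.comp_apply, E.inner_star_right] at ih ⊢
    rw [ih]

omit [CompleteSpace K] in
lemma list_am {α : Type*} (l : List α) (a b : α → K) :
    ‖(l.map fun m => ⟪a m, b m⟫_ℂ).sum‖ ≤
      ((l.map fun m => ‖a m‖ ^ 2).sum + (l.map fun m => ‖b m‖ ^ 2).sum) / 2 := by
  induction l with
  | nil => simp
  | cons x l ih =>
    simp only [List.map_cons, List.sum_cons]
    have h1 := norm_add_le ⟪a x, b x⟫_ℂ (l.map fun m => ⟪a m, b m⟫_ℂ).sum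
    have h2 := norm_inner_le_norm (𝕜 := ℂ) (a x) (b x)
    nlinarith [sq_nonneg (‖a x‖ - ‖b x‖)]

lemma list_colH {l : List (vN S)} (hl : (l.map fun m => star m * m).sum ≤ 1) (α : H) :
    (l.map fun m : vN S => ‖(m : H →L[ℂ] H) α‖ ^ 2).sum ≤ ‖α‖ ^ 2 :=
  list_col (vN S).subtype hl α

omit [CompleteSpace K] in
lemma list_q {l : List (vN S)} (hl : (l.map fun m => star m * m).sum ≤ 1) (Y : H →L[ℂ] K)
    (η : H) : (l.map fun m : vN S => ‖Y ((m : H →L[ℂ] H) η)‖ ^ 2).sum ≤ ‖Y‖ ^ 2 * ‖η‖ ^ 2 := by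
  refine le_trans ?_ (mul_le_mul_of_nonneg_left (list_colH hl η) (sq_nonneg _))
  rw [← List.sum_map_mul_left]
  refine List.sum_le_sum fun m _ => ?_
  rw [← mul_pow]
  exact pow_le_pow_left₀ (norm_nonneg _) (Y.le_opNorm _) 2

lemma avg_bound (π : vN S →⋆ₐ[ℂ] (K →L[ℂ] K)) {l : List (vN S)}
    (hl : (l.map fun m => star m * m).sum ≤ 1) (Y : H →L[ℂ] K) (κ : K) (η : H) :
    ‖(l.map fun m => ⟪π m κ, Y ((m : H →L[ℂ] H) η)⟫_ℂ).sum‖ ≤
      (‖κ‖ ^ 2 + (l.map fun m : vN S => ‖Y ((m : H →L[ℂ] H) η)‖ ^ 2).sum) / 2 := by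
  have := list_am l (fun m => π m κ) fun m => Y ((m : H →L[ℂ] H) η)
  linarith [list_col π hl κ]

lemma norm_avg (π : vN S →⋆ₐ[ℂ] (K →L[ℂ] K)) {l : List (vN S)}
    (hl : (l.map fun m => star m * m).sum ≤ 1) (Y : H →L[ℂ] K) : ‖avg π l Y‖ ≤ ‖Y‖ := by
  refine ContinuousLinearMap.opNorm_le_bound _ (norm_nonneg _) fun η => ?_
  have h1 := avg_bound π hl Y (avg π l Y η) η
  rw [← inner_avg, inner_self_eq_norm_sq_to_K] at h1
  have h2 := list_q hl Y η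
  simp only [norm_pow, RCLike.norm_ofReal, abs_norm] at h1
  refine le_of_sq_le_sq ?_ (by positivity)
  rw [mul_pow]; linarith

/-- A monoid of contractive families. -/
structure Ctx (Γ : Type*) [Monoid Γ] (S : Set (H →L[ℂ] H)) where
  fam : Γ → List (vN S)
  h1 : fam 1 = [1]
  hmul : ∀ g h, fam (g * h) = (fam g).flatMap fun m => (fam h).map fun m' => m * m'
  hle : ∀ g, (((fam g).map fun m => star m * m).sum : vN S) ≤ 1

variable {Γ : Type*} [Monoid Γ] (c : Ctx Γ S) (π : vN S →⋆ₐ[ℂ] (K →L[ℂ] K))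

/-- The action on `H`. -/
noncomputable def Ctx.D1 : Act Γ (vN S) H :=
  ⟨c.fam, fun m η => (m : H →L[ℂ] H) η, c.h1, c.hmul, fun _ => rfl, fun _ _ _ => rfl⟩

/-- The action on `H × K`. -/
noncomputable def Ctx.D2 : Act Γ (vN S) (H × K) :=
  ⟨c.fam, fun m x => ((m : H →L[ℂ] H) x.1, π m x.2), c.h1, c.hmul, fun _ => by simp,
    fun _ _ _ => by simp⟩

/-- The form of an operator. -/
noncomputable def ps (Y : H →L[ℂ] K) (x : H × K) : ℂ := ⟪x.2, Y x.1⟫_ℂ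

/-- The square norm function of an operator. -/
noncomputable def qq (Y : H →L[ℂ] K) (η : H) : ℂ := ((‖Y η‖ ^ 2 : ℝ) : ℂ)

omit [CompleteSpace H] [CompleteSpace K] in
lemma ps_inj {Y Y' : H →L[ℂ] K} (h : ps Y = ps Y') : Y = Y' := by
  ext η
  exact ext_inner_left ℂ fun κ => congrFun h (η, κ)

omit [CompleteSpace H] [CompleteSpace K] in
lemma qq_nonneg (Y : H →L[ℂ] K) : 0 ≤ qq Y := fun _ => by
  simp only [qq, Pi.zero_apply]; positivity

lemma P_ps (g : Γ) (Y : H →L[ℂ] K) : (c.D2 π).P g (ps Y) = ps (avg π (c.fam g) Y) := by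
  ext x; exact (inner_avg π _ Y x.2 x.1).symm

omit [CompleteSpace K] in
lemma P_qq (g : Γ) (Y : H →L[ℂ] K) (η : H) : c.D1.P g (qq Y) η =
    (((c.fam g).map fun m : vN S => ‖Y ((m : H →L[ℂ] H) η)‖ ^ 2).sum : ℝ) := list_ofReal _ _

lemma adm_ps (Y : H →L[ℂ] K) : (c.D2 π).Adm (ps Y) := fun x =>
  ⟨‖x.2‖ * (‖Y‖ * ‖x.1‖), fun g => by
    simp only [P_ps, ps]
    refine (norm_inner_le_norm _ _).trans ?_
    gcongr
    exact ((avg π _ Y).le_opNorm _).trans (by gcongr; exact norm_avg π (c.hle g) Y)⟩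

omit [CompleteSpace K] in
lemma adm_qq (Y : H →L[ℂ] K) : c.D1.Adm (qq Y) := fun η =>
  ⟨‖Y‖ ^ 2 * ‖η‖ ^ 2, fun g => by
    simp only [P_qq]
    rw [Complex.norm_real, Real.norm_of_nonneg (List.sum_nonneg fun y hy => by
      obtain ⟨m, _, rfl⟩ := List.mem_map.1 hy; positivity)]
    exact list_q (c.hle g) Y η⟩

lemma exists_B (μ : Mean Γ) (Y : H →L[ℂ] K) : ∃ Y' : H →L[ℂ] K, ps Y' = (c.D2 π).A μ (ps Y) := by
  obtain ⟨T, hT, -⟩ := exists_op μ (fun g => avg π (c.fam g) Y) ‖Y‖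
    fun g => norm_avg π (c.hle g) Y
  refine ⟨T, funext fun x => ?_⟩
  simp only [A, P_ps]
  exact hT x.1 x.2

variable {π}

lemma ks {μ : Mean Γ} {Y Y' : H →L[ℂ] K} (h : ps Y' = (c.D2 π).A μ (ps Y)) :
    qq Y' ≤ c.D1.A μ (qq Y) := fun η => by
  have h0 := A_nonneg (D := c.D1) (qq_nonneg Y) μ η
  have h1 := congrFun h (η, Y' η)
  have hb : Bd fun g => (((‖Y' η‖ ^ 2 / 2 : ℝ) : ℂ)) + (1 / 2 : ℂ) * c.D1.P g (qq Y) η :=
    (Bd.const _).add ((adm_qq c Y η).smul _)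
  have h2 := re_mono μ (adm_ps c π Y (η, Y' η)) hb fun g => by
    refine (Complex.re_le_norm _).trans ((avg_bound π (c.hle g) Y (Y' η) η).trans (le_of_eq ?_))
    rw [P_qq, show (1 / 2 : ℂ) = ((1 / 2 : ℝ) : ℂ) by simp, ← Complex.ofReal_mul,
      ← Complex.ofReal_add, Complex.ofReal_re]
    ring
  rw [μ.add _ _ (Bd.const _) ((adm_qq c Y η).smul _), μ.const, μ.smul _ _ (adm_qq c Y η)] at h2
  change ((c.D2 π).A μ (ps Y) (η, Y' η)).re ≤ (_ + _ * c.D1.A μ (qq Y) η).re at h2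
  rw [← h1, ps, show (⟪Y' η, Y' η⟫_ℂ).re = ‖Y' η‖ ^ 2 from inner_self_eq_norm_sq (𝕜 := ℂ) _] at h2
  obtain ⟨h3, h4⟩ := Complex.nonneg_iff.1 h0
  refine Complex.le_def.2 ⟨?_, by rw [← h4]; exact Complex.ofReal_im _⟩
  simp only [qq, Complex.ofReal_re]
  simp only [Complex.add_re, Complex.mul_re, Complex.ofReal_re, ← h4] at h2
  norm_num at h2
  linarith

section main
variable {Q : Set (Mean Γ)} (hQ : Good Q) {e : Mean Γ} (he : Absorbs e Q)
include hQ he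

lemma A_ee {R X : Type*} [Monoid R] {D : Act Γ R X} {φ : X → ℂ} (hφ : D.Adm φ) :
    D.A e (D.A e φ) = D.A e φ := by
  have := A_abs he hQ.one hφ
  rwa [A_dirac (hφ.A e), P_one] at this

lemma const_k (heQ : e ∈ Q) {Y Y0 Y1 : H →L[ℂ] K} (h0 : ps Y0 = (c.D2 π).A e (ps Y))
    {σ σ' : Mean Γ} (hσ : σ ∈ Q) (hσ' : σ' ∈ Q) (h1 : ps Y1 = (c.D2 π).A σ (ps Y0)) :
    c.D1.A e (c.D1.A σ' (qq Y1)) = c.D1.A e (qq Y0) := by
  have a0 := adm_qq c Y0
  have a1 := adm_qq c Y1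
  apply le_antisymm
  · have b1 : qq Y0 ≤ c.D1.A e (qq Y0) := ks c (by rw [h0, A_ee hQ he (adm_ps c π Y)])
    have b2 : qq Y1 ≤ c.D1.A σ (c.D1.A e (qq Y0)) := (ks c h1).trans (A_mono a0 (a0.A e) b1 σ)
    have b3 := A_mono (a1.A σ') (((a0.A e).A σ).A σ') (A_mono a1 ((a0.A e).A σ) b2 σ') e
    rwa [A_A (a0.A e) σ' σ, A_abs he (hQ.conv _ hσ' _ hσ) a0] at b3
  · have b1 : qq Y0 ≤ c.D1.A (e.conv σ') (qq Y1) := ks c (by
      rw [← A_A (adm_ps c π Y1), h1, A_A (adm_ps c π Y0) σ' σ, h0,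
        A_abs he (hQ.conv _ hσ' _ hσ) (adm_ps c π Y)])
    rw [← A_A a1] at b1
    have b2 := A_mono a0 ((a1.A σ').A e) b1 e
    rwa [A_ee hQ he (a1.A σ')] at b2

lemma para (heQ : e ∈ Q) {Y Y0 Y1 : H →L[ℂ] K} (h0 : ps Y0 = (c.D2 π).A e (ps Y))
    {σ σ' : Mean Γ} (hσ : σ ∈ Q) (hσ' : σ' ∈ Q) (h1 : ps Y1 = (c.D2 π).A σ (ps Y0)) :
    c.D1.A e (c.D1.A σ' (qq (Y1 - Y0))) = 0 := by
  have hd : ps Y0 = (c.D2 π).A (Mean.dirac 1) (ps Y0) := by
    rw [A_dirac (adm_ps c π Y0), P_one]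
  have hm : Mean.mix ![σ, Mean.dirac 1] ∈ Q := hQ.mix 1 _ fun i => by
    fin_cases i
    exacts [hσ, hQ.one]
  have h3 : ps ((1 / 2 : ℂ) • (Y1 + Y0)) = (c.D2 π).A (Mean.mix ![σ, Mean.dirac 1]) (ps Y0) := by
    ext x
    have b1 := congrFun h1 x
    have b2 := congrFun hd x
    rw [A, Mean.mix_I, Fin.sum_univ_two]
    simp only [A] at b1 b2
    simp only [Matrix.cons_val_zero, Matrix.cons_val_one, ← b1, ← b2, ps, smul_apply, add_apply,
      inner_smul_right, inner_add_right]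
    simp
  have k1 := const_k c hQ he heQ h0 hσ hσ' h1
  have k2 := const_k c hQ he heQ h0 hQ.one hσ' hd
  have k3 := const_k c hQ he heQ h0 hm hσ' h3
  have par : (fun η => qq (Y1 - Y0) η + 4 * qq ((1 / 2 : ℂ) • (Y1 + Y0)) η) =
      fun η => 2 * qq Y1 η + 2 * qq Y0 η := by
    ext η
    have := parallelogram_law_with_norm ℂ (Y1 η) (Y0 η)
    simp only [qq, sub_apply, smul_apply, add_apply, norm_smul]
    norm_cast
    norm_num
    nlinarith
  have a := fun Z : H →L[ℂ] K => adm_qq c Z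
  have k4 := congrArg (fun φ => c.D1.A e (c.D1.A σ' φ)) par
  rw [A_add (a _) ((a _).smul _), A_add ((a _).smul _) ((a _).smul _), A_smul (a _), A_smul (a _),
    A_smul (a _), A_add ((a _).A _) (((a _).A _).smul _),
    A_add (((a _).A _).smul _) (((a _).A _).smul _), A_smul ((a _).A _), A_smul ((a _).A _),
    A_smul ((a _).A _), k1, k2, k3] at k4
  ext η
  have := congrFun k4 η
  rw [Pi.zero_apply]
  linear_combination this

end main

end Vale.Agent.P082.C
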