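import Vale.Agent.P082.W1
import Vale.Agent.P104.VB

/-! Part W: maps into commutative algebras. -/

namespace Vale.Agent.P082.W

open scoped InnerProductSpace ComplexOrder ComplexConjugate
open Vale.Agent.P104

universe v

lemma exists_compl {D : Type*} [CStarAlgebra D] (h : D) (hh : IsSelfAdjoint h) {K : ℝ}
    (hK : ‖h‖ ≤ K) : ∃ Z : D, h + star Z * Z = algebraMap ℝ D K := by
  letI := CStarAlgebra.spectralOrder D
  haveI := CStarAlgebra.spectralOrderedRing D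
  have h1 : h ≤ algebraMap ℝ D K := by
    refine hh.le_algebraMap_norm_self.trans ?_
    rw [← sub_nonneg, ← map_sub, Algebra.algebraMap_eq_smul_one]
    exact smul_nonneg (sub_nonneg.mpr hK) zero_le_one
  have h2 := sub_nonneg.mpr h1
  refine ⟨CFC.sqrt (algebraMap ℝ D K - h), ?_⟩
  rw [(CFC.sqrt_nonneg _).isSelfAdjoint.star_eq, CFC.sqrt_mul_sqrt_self _ h2]
  abel

open scoped Matrix.Norms.L2Operator Matrix in
lemma comm_compl {B : Type*} [CommCStarAlgebra B] {ι κ : Type} [Fintype ι] [Fintype κ]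
    [DecidableEq κ] (y : ι → κ → B) {K : ℝ} (hK : 0 ≤ K)
    (h : ∀ (α : EuclideanSpace ℂ κ) (β : EuclideanSpace ℂ ι),
      ‖∑ i, ∑ j, (conj (β i) * α j) • y i j‖ ≤ K * ‖β‖ * ‖α‖) :
    ∃ z : κ → κ → B, ∀ j j', ∑ i, star (y i j) * y i j' + ∑ l, star (z l j) * z l j' =
      if j = j' then ((K ^ 2 : ℝ) : ℂ) • 1 else 0 := by
  let g := gelfandStarTransform B
  let A : WeakDual.characterSpace ℂ B → Matrix ι κ ℂ := fun ω => Matrix.of fun i j => g (y i j) ω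
  have hA : ∀ ω, ‖A ω‖ ≤ K := by
    intro ω
    rw [Matrix.l2_opNorm_def]
    refine ContinuousLinearMap.opNorm_le_bound _ hK fun α => ?_
    set β : EuclideanSpace ℂ ι := (Matrix.toEuclideanLin (𝕜 := ℂ) (m := ι) (n := κ)).trans
      LinearMap.toContinuousLinearMap (A ω) α with hβ
    have hβ' : ∀ i, β i = ∑ j, g (y i j) ω * α j := fun i => rfl
    have e1 : g (∑ i, ∑ j, (conj (β i) * α j) • y i j) ω = ⟪β, β⟫_ℂ := by
      simp only [map_sum, map_smul, ContinuousMap.sum_apply, ContinuousMap.smul_apply,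
        smul_eq_mul, PiLp.inner_apply, RCLike.inner_apply]
      refine Finset.sum_congr rfl fun i _ => ?_
      conv_rhs => rw [mul_comm]; arg 2; rw [hβ']
      rw [Finset.mul_sum]
      exact Finset.sum_congr rfl fun j _ => by ring
    have e2 := (g (∑ i, ∑ j, (conj (β i) * α j) • y i j)).norm_coe_le_norm ω
    rw [e1, StarAlgEquiv.norm_map, inner_self_eq_norm_sq_to_K] at e2
    have e3 : ‖β‖ ^ 2 ≤ K * ‖β‖ * ‖α‖ := by
      refine le_trans ?_ (e2.trans (h α β))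
      simp
    rcases (norm_nonneg β).eq_or_lt with h0 | h0
    · rw [← h0]; positivity
    · nlinarith
  let hh : C(WeakDual.characterSpace ℂ B, Matrix κ κ ℂ) :=
    ⟨fun ω => (A ω)ᴴ * A ω, by
      have : Continuous A := continuous_matrix fun i j => (g (y i j)).continuous
      exact this.matrix_conjTranspose.matrix_mul this⟩
  obtain ⟨Z, hZ⟩ := exists_compl hh (by
    ext ω : 1
    change ((A ω)ᴴ * A ω)ᴴ = (A ω)ᴴ * A ω
    rw [Matrix.conjTranspose_mul, Matrix.conjTranspose_conjTranspose]) (K := K ^ 2) (by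
    refine (ContinuousMap.norm_le _ (by positivity)).mpr fun ω => ?_
    change ‖(A ω)ᴴ * A ω‖ ≤ _
    rw [Matrix.l2_opNorm_conjTranspose_mul_self, ← sq]
    exact pow_le_pow_left₀ (norm_nonneg _) (hA ω) 2)
  refine ⟨fun l j => g.symm ⟨fun ω => Z ω l j, Z.continuous.matrix_elem l j⟩, fun j j' => ?_⟩
  apply EquivLike.injective g
  ext ω
  have := congrFun (congrFun (DFunLike.congr_fun hZ ω) j) j'
  simp only [map_add, map_sum, map_mul, map_star, StarAlgEquiv.apply_symm_apply,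
    ContinuousMap.add_apply, ContinuousMap.sum_apply, ContinuousMap.mul_apply,
    ContinuousMap.star_apply, ContinuousMap.coe_mk]
  refine Eq.trans ?_ (this.trans ?_)
  · rfl
  · rw [Algebra.algebraMap_eq_smul_one]
    split_ifs with hj
    · subst hj; simp
    · simp [hj]

variable {H : Type v} [NormedAddCommGroup H] [InnerProductSpace ℂ H] [CompleteSpace H]
variable {S : Set (H →L[ℂ] H)}

lemma sum_sq_eq {ι κ : Type*} [Fintype ι] [Fintype κ] (a : ι → κ → H →L[ℂ] H) (ζ : κ → H) :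
    ((∑ i, ‖∑ j, a i j (ζ j)‖ ^ 2 : ℝ) : ℂ) =
      ∑ j, ∑ j', ⟪ζ j, (∑ i, star (a i j) * a i j') (ζ j')⟫_ℂ := by
  have h0 : ∀ x : H, ((‖x‖ ^ 2 : ℝ) : ℂ) = ⟪x, x⟫_ℂ := fun x => by
    rw [inner_self_eq_norm_sq_to_K]; simp
  have h1 : ∀ j j', ⟪ζ j, (∑ i, star (a i j) * a i j') (ζ j')⟫_ℂ =
      ∑ i, ⟪a i j (ζ j), a i j' (ζ j')⟫_ℂ := by
    intro j j'
    rw [ContinuousLinearMap.sum_apply, inner_sum]
    refine Finset.sum_congr rfl fun i _ => ?_
    rw [ContinuousLinearMap.mul_apply, ContinuousLinearMap.star_eq_adjoint,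
      ContinuousLinearMap.adjoint_inner_right]
  simp only [Complex.ofReal_sum, h0, h1, sum_inner, inner_sum]
  rw [Finset.sum_comm]
  conv_rhs => rw [Finset.sum_comm]
  refine Finset.sum_congr rfl fun j' _ => ?_
  rw [Finset.sum_comm]

lemma comb_le {ι κ : Type*} [Fintype ι] [Fintype κ] (x : ι → κ → H →L[ℂ] H)
    (hx : ∀ ξ : κ → H, ∑ i, ‖∑ j, x i j (ξ j)‖ ^ 2 ≤ ∑ j, ‖ξ j‖ ^ 2)
    (α : EuclideanSpace ℂ κ) (β : EuclideanSpace ℂ ι) :
    ‖∑ i, ∑ j, (conj (β i) * α j) • x i j‖ ≤ ‖β‖ * ‖α‖ := by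
  refine ContinuousLinearMap.opNorm_le_bound _ (by positivity) fun ξ => ?_
  have h1 := hx fun j => α j • ξ
  have e : (∑ i, ∑ j, (conj (β i) * α j) • x i j) ξ = ∑ i, conj (β i) • ∑ j, x i j (α j • ξ) := by
    simp only [ContinuousLinearMap.sum_apply, ContinuousLinearMap.smul_apply, map_smul,
      Finset.smul_sum, smul_smul]
  rw [e]
  refine (norm_sum_le _ _).trans ?_
  simp only [norm_smul, RCLike.norm_conj, mul_pow, ← Finset.sum_mul,
    ← EuclideanSpace.norm_sq_eq] at h1 ⊢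
  have h2 := Finset.sum_mul_sq_le_sq_mul_sq Finset.univ (fun i => ‖β i‖)
    fun i => ‖∑ j, x i j (α j • ξ)‖
  rw [← EuclideanSpace.norm_sq_eq] at h2
  refine (sq_le_sq₀ (by positivity) (by positivity)).mp (h2.trans ?_)
  rw [mul_assoc, mul_pow, mul_pow]
  exact mul_le_mul_of_nonneg_left h1 (by positivity)

lemma comm_bound {B : Type*} [CommCStarAlgebra B] (ρ : B →⋆ₐ[ℂ] (H →L[ℂ] H))
    (hρ : ∀ b, ‖b‖ = ‖ρ b‖) {ι κ : Type} [Fintype ι] [Fintype κ] (y : ι → κ → B) {K : ℝ}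
    (hK : 0 ≤ K) (h : ∀ (α : EuclideanSpace ℂ κ) (β : EuclideanSpace ℂ ι),
      ‖∑ i, ∑ j, (conj (β i) * α j) • ρ (y i j)‖ ≤ K * ‖β‖ * ‖α‖) (ξ : κ → H) :
    ∑ i, ‖∑ j, ρ (y i j) (ξ j)‖ ^ 2 ≤ K ^ 2 * ∑ j, ‖ξ j‖ ^ 2 := by
  classical
  obtain ⟨z, hz⟩ := comm_compl y hK (fun α β => by
    rw [hρ]; simpa only [map_sum, map_smul] using h α β)
  have e1 := sum_sq_eq (fun i j => ρ (y i j)) ξ
  have e2 := sum_sq_eq (fun l j => ρ (z l j)) ξ
  have e3 : ((∑ i, ‖∑ j, ρ (y i j) (ξ j)‖ ^ 2 + ∑ l, ‖∑ j, ρ (z l j) (ξ j)‖ ^ 2 : ℝ) : ℂ)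
      = ((K ^ 2 * ∑ j, ‖ξ j‖ ^ 2 : ℝ) : ℂ) := by
    rw [Complex.ofReal_add, e1, e2, ← Finset.sum_add_distrib, Finset.mul_sum, Complex.ofReal_sum]
    refine Finset.sum_congr rfl fun j _ => ?_
    rw [← Finset.sum_add_distrib]
    have : ∀ j', ∑ i, star (ρ (y i j)) * ρ (y i j') + ∑ l, star (ρ (z l j)) * ρ (z l j') =
        if j = j' then ((K ^ 2 : ℝ) : ℂ) • 1 else 0 := by
      intro j'
      have := congrArg ρ (hz j j')
      simpa only [apply_ite ρ, map_add, map_sum, map_mul, map_star, map_smul, map_one, map_zero]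
        using this
    simp only [← inner_add_right, ← ContinuousLinearMap.add_apply, this]
    rw [Finset.sum_eq_single j]
    · simp [inner_smul_right, inner_self_eq_norm_sq_to_K]
    · intro j' _ hj; simp [hj.symm]
    · simp
  have e4 := Complex.ofReal_injective e3
  have : 0 ≤ ∑ l, ‖∑ j, ρ (z l j) (ξ j)‖ ^ 2 := by positivity
  linarith

/-- bounded maps with commuting values are completely bounded -/
theorem cb_comm (φ : vN S →L[ℂ] (H →L[ℂ] H))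
    (h : ∀ a b, φ a * φ b = φ b * φ a ∧ star (φ a) * φ b = φ b * star (φ a)) :
    CB S φ ‖φ‖ := by
  intro ι κ _ _ x hx ξ
  let Y : Set (H →L[ℂ] H) := Set.range φ
  have hY : Y ⊆ vN Y := by
    rintro _ ⟨b, rfl⟩
    refine mem_vN.mpr ?_
    rintro _ ⟨a, rfl⟩
    exact h a b
  letI : CommCStarAlgebra (vN (vN Y : Set (H →L[ℂ] H))) :=
    { (inferInstance : CStarAlgebra (vN (vN Y : Set (H →L[ℂ] H)))) with
      mul_comm := fun a b => Subtype.ext (mem_vN.mp b.2 a (vN_anti hY a.2)).1 }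
  have hm : ∀ a, φ a ∈ vN (vN Y : Set (H →L[ℂ] H)) := fun a => mem_vN.mpr fun g hg =>
    ⟨(mem_vN.mp hg _ ⟨a, rfl⟩).1.symm, (mem_vN.mp (star_mem hg) _ ⟨a, rfl⟩).1.symm⟩
  refine comm_bound (B := vN (vN Y : Set (H →L[ℂ] H))) (vN (vN Y : Set (H →L[ℂ] H))).subtype
    (fun _ => rfl) (fun i j => ⟨φ (x i j), hm _⟩) (norm_nonneg φ) (fun α β => ?_) ξ
  have h1 := comb_le _ hx α β
  have h2 := φ.le_opNorm (∑ i, ∑ j, (conj (β i) * α j) • x i j)
  have h3 : ‖∑ i, ∑ j, (conj (β i) * α j) • x i j‖ =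
      ‖∑ i, ∑ j, (conj (β i) * α j) • (x i j : H →L[ℂ] H)‖ := by
    change ‖((_ : vN S) : H →L[ℂ] H)‖ = _
    simp
  rw [h3] at h2
  rw [mul_assoc]
  refine le_trans (le_of_eq ?_) (h2.trans (mul_le_mul_of_nonneg_left h1 (norm_nonneg _)))
  simp only [map_sum, map_smul]
  rfl

/-- completely bounded for some constant -/
def ECB (S : Set (H →L[ℂ] H)) (T : vN S → H →L[ℂ] H) : Prop := ∃ C, 0 ≤ C ∧ CB S T C

lemma ECB.add {T T' : vN S → H →L[ℂ] H} (h : ECB S T) (h' : ECB S T') :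
    ECB S fun a => T a + T' a := by
  obtain ⟨C, hC, h⟩ := h
  obtain ⟨C', hC', h'⟩ := h'
  refine ⟨2 * (C + C'), by positivity, fun ι κ _ _ x hx ξ => ?_⟩
  have h1 := h ι κ x hx ξ
  have h2 := h' ι κ x hx ξ
  have h3 : ∑ i, ‖∑ j, (T (x i j) + T' (x i j)) (ξ j)‖ ^ 2 ≤
      ∑ i, (2 * ‖∑ j, T (x i j) (ξ j)‖ ^ 2 + 2 * ‖∑ j, T' (x i j) (ξ j)‖ ^ 2) := by
    refine Finset.sum_le_sum fun i _ => ?_
    simp only [ContinuousLinearMap.add_apply, Finset.sum_add_distrib]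
    have := pow_le_pow_left₀ (norm_nonneg _)
      (norm_add_le (∑ j, T (x i j) (ξ j)) (∑ j, T' (x i j) (ξ j))) 2
    nlinarith [sq_nonneg (‖∑ j, T (x i j) (ξ j)‖ - ‖∑ j, T' (x i j) (ξ j)‖)]
  rw [Finset.sum_add_distrib, ← Finset.mul_sum, ← Finset.mul_sum] at h3
  have h4 : 0 ≤ ∑ j, ‖ξ j‖ ^ 2 := by positivity
  have h5 : 0 ≤ (C ^ 2 + C' ^ 2 + 4 * (C * C')) * ∑ j, ‖ξ j‖ ^ 2 := by positivity
  nlinarith

lemma ECB.sum {α : Type*} (s : Finset α) {T : α → vN S → H →L[ℂ] H} (h : ∀ i, ECB S (T i)) :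
    ECB S fun a => ∑ i ∈ s, T i a := by
  classical
  induction s using Finset.induction_on with
  | empty => exact ⟨0, le_rfl, fun ι κ _ _ x hx ξ => by simp⟩
  | insert i s hi ih => simpa only [Finset.sum_insert hi] using (h i).add ih

lemma ECB.mul {T : vN S → H →L[ℂ] H} (h : ECB S T) (p q : H →L[ℂ] H) :
    ECB S fun a => p * T a * q := by
  obtain ⟨C, hC, h⟩ := h
  refine ⟨‖p‖ * C * ‖q‖, by positivity, fun ι κ _ _ x hx ξ => ?_⟩
  have h1 := h ι κ x hx fun j => q (ξ j)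
  have h2 : ∑ j, ‖q (ξ j)‖ ^ 2 ≤ ‖q‖ ^ 2 * ∑ j, ‖ξ j‖ ^ 2 := by
    rw [Finset.mul_sum]
    refine Finset.sum_le_sum fun j _ => ?_
    rw [← mul_pow]
    exact pow_le_pow_left₀ (norm_nonneg _) (q.le_opNorm _) 2
  have h3 : ∑ i, ‖∑ j, (p * T (x i j) * q) (ξ j)‖ ^ 2 ≤
      ‖p‖ ^ 2 * ∑ i, ‖∑ j, T (x i j) (q (ξ j))‖ ^ 2 := by
    rw [Finset.mul_sum]
    refine Finset.sum_le_sum fun i _ => ?_
    simp only [ContinuousLinearMap.mul_apply, ← map_sum, ← mul_pow]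
    exact pow_le_pow_left₀ (norm_nonneg _) (p.le_opNorm _) 2
  refine h3.trans ?_
  rw [mul_pow, mul_pow, mul_assoc, mul_assoc]
  exact mul_le_mul_of_nonneg_left (h1.trans (mul_le_mul_of_nonneg_left h2 (by positivity)))
    (by positivity)

end Vale.Agent.P082.W
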