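import Vale.Agent.P082.W2
import Vale.Agent.P082.W3

/-! Part W: factorization of completely bounded maps, and maps cut by a type I piece. -/

namespace Vale.Agent.P082

open scoped InnerProductSpace ComplexOrder ComplexConjugate
open Vale.Agent.P104 Vale.Agent.P104.F

universe v

variable {H : Type v} [NormedAddCommGroup H] [InnerProductSpace ℂ H] [CompleteSpace H]
variable {S : Set (H →L[ℂ] H)}

theorem wp (T : vN S →ₗ[ℂ] (H →L[ℂ] H)) (C : ℝ) (hC : 0 ≤ C) (hT : CB S T C) :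
    ∃ (K : Type v) (_ : NormedAddCommGroup K) (_ : InnerProductSpace ℂ K) (_ : CompleteSpace K)
      (π : vN S →⋆ₐ[ℂ] (K →L[ℂ] K)) (W : K →L[ℂ] H) (V : H → K),
      (∀ ξ, ‖V ξ‖ ≤ ‖ξ‖) ∧ ‖W‖ ≤ C ∧ ∀ a ξ, T a ξ = W (π a (V ξ)) := by
  rcases hC.eq_or_lt with rfl | h
  · refine ⟨H, inferInstance, inferInstance, inferInstance, (vN S).subtype, 0, id,
      fun _ => le_rfl, by simp, fun a ξ => ?_⟩
    simpa using W.cb_norm T le_rfl hT a ξ
  · exact W.wp_pos T C h hT

theorem cb_abel {c e : H →L[ℂ] H} (he : IsAbel S e) {k : ℕ} (u : Fin k → H →L[ℂ] H)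
    (hu : ∀ i, u i ∈ vN S ∧ u i * e = u i) (hc : IsCentral S c) (hs : ∑ i, u i * star (u i) = c)
    (G : vN S →L[ℂ] vN S) : ∃ C, 0 ≤ C ∧ CB S (fun a => c * (G a : H →L[ℂ] H)) C := by
  have hee : e * e = e := he.2.1.isIdempotentElem.eq
  have hu' : ∀ i, e * star (u i) = star (u i) := fun i => by
    rw [← he.2.1.isSelfAdjoint.star_eq, ← star_mul, (hu i).2]
  have hcomm : ∀ x ∈ vN S, ∀ y ∈ vN S, e * x * e = x → e * y * e = y → x * y = y * x := by
    intro x hx y hy h1 h2
    have h3 : y * e = y := by rw [← h2, mul_assoc _ e e, hee]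
    have h4 : x * e = x := by rw [← h1, mul_assoc _ e e, hee]
    have := he.2.2 x hx y hy
    rwa [h1, h2, mul_assoc, mul_assoc, h3, h4] at this
  have hcut : ∀ a b, ∀ x ∈ vN S, star (u a) * x * u b ∈ vN S ∧
      e * (star (u a) * x * u b) * e = star (u a) * x * u b := fun a b x hx =>
    ⟨mul_mem (mul_mem (star_mem (hu a).1) hx) (hu b).1, by
      rw [← mul_assoc, ← mul_assoc, hu', mul_assoc _ _ e, (hu b).2]⟩
  have h1 : ∀ a b, W.ECB S fun x => star (u a) * (G x : H →L[ℂ] H) * u b := by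
    intro a b
    let φ : vN S →L[ℂ] (H →L[ℂ] H) := ContinuousLinearMap.mulLeftRight ℂ _ (star (u a)) (u b) ∘L
      (vN S).toSubalgebra.toSubmodule.subtypeL ∘L G
    refine ⟨‖φ‖, norm_nonneg _, W.cb_comm φ fun x y => ⟨?_, ?_⟩⟩
    · exact hcomm _ (hcut a b _ (G x).2).1 _ (hcut a b _ (G y).2).1 (hcut a b _ (G x).2).2
        (hcut a b _ (G y).2).2
    · have e1 : star (φ x) = star (u b) * star (G x : H →L[ℂ] H) * u a := by
        change star (star (u a) * (G x : H →L[ℂ] H) * u b) = _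
        rw [star_mul, star_mul, star_star, mul_assoc]
      rw [e1]
      exact hcomm _ (hcut b a _ (star_mem (G x).2)).1 _ (hcut a b _ (G y).2).1
        (hcut b a _ (star_mem (G x).2)).2 (hcut a b _ (G y).2).2
  have h2 := W.ECB.sum Finset.univ fun a => W.ECB.sum Finset.univ fun b =>
    (h1 a b).mul (u a) (star (u b))
  have e2 : (fun x => c * (G x : H →L[ℂ] H)) = fun x => ∑ a, ∑ b,
      u a * (star (u a) * (G x : H →L[ℂ] H) * u b) * star (u b) := by
    funext x
    have : c * (G x : H →L[ℂ] H) = c * G x * c := by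
      rw [mul_assoc, ← hc.2.2 _ (G x).2, ← mul_assoc, hc.2.1.isIdempotentElem.eq]
    rw [this, ← hs, Finset.sum_mul, Finset.sum_mul]
    refine Finset.sum_congr rfl fun a _ => ?_
    rw [Finset.mul_sum]
    exact Finset.sum_congr rfl fun b _ => by simp only [mul_assoc]
  rw [e2]
  exact h2

end Vale.Agent.P082
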