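import Vale.Agent.P082.C2
import Vale.Agent.P082.PartW

/-! Part C of P082, file 3: `cbcore`. -/

namespace Vale.Agent.P082

open scoped InnerProductSpace ComplexOrder ComplexConjugate
open Vale.Agent.P104 C C.Act

universe v
variable {H : Type v} [NormedAddCommGroup H] [InnerProductSpace ℂ H] [CompleteSpace H]
variable {S : Set (H →L[ℂ] H)}

lemma C.inner_fam (l : List (vN S)) (F : vN S → vN S) (ξ η : H) :
    ⟪η, (((l.map fun m => star m * F m).sum : vN S) : H →L[ℂ] H) ξ⟫_ℂ =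
      (l.map fun m : vN S => ⟪(m : H →L[ℂ] H) η, (F m : H →L[ℂ] H) ξ⟫_ℂ).sum := by
  induction l with
  | nil => simp
  | cons a l ih =>
    simp only [List.map_cons, List.sum_cons, ← ih]
    rw [AddMemClass.coe_add, add_apply, inner_add_right, ← E.inner_star_right]
    rfl

omit [CompleteSpace H] in
lemma C.norm_le_of_inner {x : H} {C : ℝ} (hC : 0 ≤ C) (h : ‖⟪x, x⟫_ℂ‖ ≤ ‖x‖ * C) : ‖x‖ ≤ C := by
  rw [inner_self_eq_norm_sq_to_K] at h
  simp only [norm_pow, RCLike.norm_ofReal, abs_norm] at h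
  rcases (norm_nonneg x).eq_or_lt with h0 | h0
  · rw [← h0]; exact hC
  · exact le_of_mul_le_mul_left (by rw [← sq]; exact h) h0

theorem cbcore {Γ : Type*} [Monoid Γ] (fam : Γ → List (vN S)) (h1 : fam 1 = [1])
    (hmul : ∀ g h, fam (g * h) = (fam g).flatMap fun m => (fam h).map fun m' => m * m')
    (hle : ∀ g, (((fam g).map fun m => star m * m).sum : vN S) ≤ 1)
    {Q : Set (Mean Γ)} (hQ : Good Q) {e : Mean Γ} (heQ : e ∈ Q) (he : Absorbs e Q)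
    (T : vN S →ₗ[ℂ] vN S) (C : ℝ) (hC : 0 ≤ C) (hT : CB S (fun a => T a) C) :
    ∃ T0 : vN S → vN S, (∀ a ξ η, ⟪η, (T0 a : H →L[ℂ] H) ξ⟫_ℂ = e.I fun g =>
        ((fam g).map fun m : vN S => ⟪(m : H →L[ℂ] H) η, (T (m * a) : H →L[ℂ] H) ξ⟫_ℂ).sum) ∧
      ∀ (s : unitary (vN S)) (g : Γ), fam g = [(s : vN S)] → Mean.dirac g ∈ Q →
        ∀ a, ∀ σ ∈ Q, ∀ η : H, e.I (fun k => σ.I fun w => ((fam (w * k)).map fun m : vN S =>
          ((‖(star (star (s : vN S) * T0 (s * a) - T0 a) * m : vN S).1 η‖ ^ 2 : ℝ) : ℂ)).sum) = 0 := by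
  obtain ⟨K, _, _, _, π, W, V, hV, -, hW⟩ :=
    wp ((vN S).subtype.toAlgHom.toLinearMap ∘ₗ T) C hC hT
  replace hW : ∀ a ξ, (T a : H →L[ℂ] H) ξ = W (π a (V ξ)) := hW
  let c : Ctx Γ S := ⟨fam, h1, hmul, hle⟩
  set Y := ContinuousLinearMap.adjoint W with hY
  obtain ⟨Y0, h0⟩ := exists_B c π e Y
  have hπ : ∀ a ξ, ‖π a (V ξ)‖ ≤ ‖a‖ * ‖ξ‖ := fun a ξ =>
    ((π a).le_opNorm _).trans (mul_le_mul (NonUnitalStarAlgHom.norm_apply_le π a) (hV ξ)
      (norm_nonneg _) (norm_nonneg _))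
  have key : ∀ g a ξ η, ((fam g).map fun m : vN S =>
      ⟪(m : H →L[ℂ] H) η, (T (m * a) : H →L[ℂ] H) ξ⟫_ℂ).sum =
        conj ((c.D2 π).P g (ps Y) (η, π a (V ξ))) := by
    intro g a ξ η
    rw [P, map_list_sum, List.map_map]
    refine congrArg List.sum (List.map_congr_left fun m _ => ?_)
    simp only [Function.comp, ps, inner_conj_symm, hW, map_mul, hY,
      ContinuousLinearMap.adjoint_inner_left]
    rfl
  have key2 : ∀ a ξ η, (e.I fun g => ((fam g).map fun m : vN S =>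
      ⟪(m : H →L[ℂ] H) η, (T (m * a) : H →L[ℂ] H) ξ⟫_ℂ).sum) = ⟪Y0 η, π a (V ξ)⟫_ℂ := by
    intro a ξ η
    simp only [key]
    rw [I_conj, ← inner_conj_symm]
    exact congrArg conj (congrFun h0 (η, π a (V ξ))).symm
  have hT0 : ∀ a, ∃ t : vN S, ∀ ξ η, ⟪η, (t : H →L[ℂ] H) ξ⟫_ℂ = ⟪Y0 η, π a (V ξ)⟫_ℂ := by
    intro a
    have hb : ∀ g, ‖((((fam g).map fun m => star m * T (m * a)).sum : vN S) : H →L[ℂ] H)‖ ≤
        ‖Y‖ * ‖a‖ := fun g => by
      refine ContinuousLinearMap.opNorm_le_bound _ (by positivity) fun ξ => ?_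
      refine norm_le_of_inner (by positivity) ?_
      rw [inner_fam, key, RCLike.norm_conj, P_ps, ps]
      refine (norm_inner_le_norm _ _).trans ?_
      have b1 := hπ a ξ
      set x := ((((fam g).map fun m => star m * T (m * a)).sum : vN S) : H →L[ℂ] H) ξ
      have b2 : ‖avg π (c.fam g) Y x‖ ≤ ‖Y‖ * ‖x‖ :=
        ((avg π _ Y).le_opNorm _).trans (by gcongr; exact norm_avg π (c.hle g) Y)
      calc _ ≤ (‖a‖ * ‖ξ‖) * (‖Y‖ * ‖x‖) := mul_le_mul b1 b2 (norm_nonneg _) (by positivity)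
        _ = _ := by ring
    obtain ⟨t, ht, -⟩ := exists_op e _ _ hb
    refine ⟨⟨t, mem_vN_of_mean e _ _ hb (fun g => Subtype.prop _) ht⟩, fun ξ η => ?_⟩
    rw [← key2, ht]
    simp only [inner_fam]
  choose T0 hT0 using hT0
  refine ⟨T0, fun a ξ η => by rw [hT0, key2], fun s g hg hgQ a σ hσ η => ?_⟩
  have h1 : ps (avg π (c.fam g) Y0) = (c.D2 π).A (Mean.dirac g) (ps Y0) := by
    rw [A_dirac (adm_ps c π Y0), P_ps]
  have h2 := para c hQ he heQ h0 hgQ hσ h1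
  set d : vN S := star (s : vN S) * T0 (s * a) - T0 a with hd
  set Z := avg π (c.fam g) Y0 - Y0 with hZ
  have h3 : ∀ ξ η, ⟪η, (d : H →L[ℂ] H) ξ⟫_ℂ = ⟪Z η, π a (V ξ)⟫_ℂ := by
    intro ξ η
    have b1 : ⟪avg π (c.fam g) Y0 η, π a (V ξ)⟫_ℂ = ⟪Y0 (((s : vN S) : H →L[ℂ] H) η),
        π (s * a) (V ξ)⟫_ℂ := by
      rw [← inner_conj_symm, inner_avg, show c.fam g = [(s : vN S)] from hg]
      simp
    rw [hZ, sub_apply, inner_sub_left, b1, ← hT0, ← hT0, ← E.inner_star_right, ← inner_sub_right]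
    rfl
  have h4 : qq ((star d : vN S) : H →L[ℂ] H) ≤ fun η => ((‖a‖ ^ 2 : ℝ) : ℂ) * qq Z η := by
    intro η
    have b1 : ‖((star d : vN S) : H →L[ℂ] H) η‖ ≤ ‖a‖ * ‖Z η‖ := by
      refine norm_le_of_inner (by positivity) ?_
      set x := ((star d : vN S) : H →L[ℂ] H) η with hx
      have : ⟪x, x⟫_ℂ = ⟪η, (d : H →L[ℂ] H) x⟫_ℂ := E.inner_star_left (d : H →L[ℂ] H) η x
      rw [this, h3]
      refine (norm_inner_le_norm _ _).trans ?_
      calc _ ≤ ‖Z η‖ * (‖a‖ * ‖x‖) := by gcongr; exact hπ a x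
        _ = _ := by ring
    simp only [qq]
    rw [← Complex.ofReal_mul, Complex.real_le_real, ← mul_pow]
    exact pow_le_pow_left₀ (norm_nonneg _) b1 2
  have a1 := adm_qq c ((star d : vN S) : H →L[ℂ] H)
  have a2 := adm_qq c Z
  have h5 := A_mono (a1.A σ) ((a2.smul _).A σ) (A_mono a1 (a2.smul _) h4 σ) e η
  rw [A_smul a2, A_smul (a2.A σ), h2] at h5
  have h6 := A_nonneg (D := c.D1) (A_nonneg (D := c.D1)
    (qq_nonneg ((star d : vN S) : H →L[ℂ] H)) σ) e η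
  have h7 : c.D1.A e (c.D1.A σ (qq ((star d : vN S) : H →L[ℂ] H))) η = 0 :=
    le_antisymm (by simpa using h5) h6
  rw [A] at h7
  simp only [P_A a1] at h7
  exact h7

end Vale.Agent.P082
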