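import Mathlib

/-! The Hochschild differential. -/

namespace Vale.Agent.P082

/-- The Hochschild differential of a `k`-cochain `f` of a ring `R` with values in `R`:
`(d f)(a_0, ..., a_k) = a_0 f(a_1, ..., a_k) + sum_j (-1)^(j+1) f(a_0, ..., a_j a_(j+1), ..., a_k)
+ (-1)^(k+1) f(a_0, ..., a_(k-1)) a_k`. -/
def cob {R : Type*} [Ring R] (k : ℕ) (f : (Fin k → R) → R) (a : Fin (k + 1) → R) : R :=
  a 0 * f (Fin.tail a) +
    ∑ j : Fin k, (-1) ^ ((j : ℕ) + 1) * f (Fin.contractNth j.castSucc (· * ·) a) +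
    (-1) ^ (k + 1) * (f (Fin.init a) * a (Fin.last k))

end Vale.Agent.P082
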