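import Vale.Agent.P104.PartG1
import Vale.Agent.P104.VB

/-! Decoupling of the first sign from the rest of the walk. -/

namespace Vale.Agent.P082

open scoped InnerProductSpace ComplexOrder ComplexConjugate
open Vale.Agent.P104 Finset

namespace D

lemma sum_ru_pow {K : ℕ} (n : ℕ) : ∀ a : ℕ, a + n < K →
    ∑ x : Fin K, ru K ((x : ℕ) : ℤ) ^ a * (1 - ru K ((x : ℕ) : ℤ)) ^ n =
      if a = 0 then (K : ℂ) else 0 := by
  induction n with
  | zero =>
    intro a ha
    have h := ru_sum (N := K) (by omega) (a : ℤ)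
    simp only [pow_zero, mul_one, ← ru_mul_nat, mul_comm (a : ℤ)]
    rw [h]
    by_cases h0 : a = 0
    · simp [h0]
    · rw [if_neg h0, if_neg]
      intro hd
      exact absurd (Nat.le_of_dvd (by omega) (Int.natCast_dvd_natCast.1 hd)) (by omega)
  | succ n ih =>
    intro a ha
    have h1 := ih a (by omega)
    have h2 := ih (a + 1) (by omega)
    rw [if_neg (by omega)] at h2
    rw [← h1, ← sub_zero (∑ x : Fin K, _ ^ a * _ ^ n), ← h2, ← sum_sub_distrib]
    exact sum_congr rfl fun x _ => by ring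

section alg
variable {R : Type*} [Ring R] [Algebra ℂ R] {Λ : Type*} [Fintype Λ] [DecidableEq Λ]

/-- Diagonal element. -/
def dia (p : Λ → R) (d : Λ → ℂ) : R := ∑ l, d l • p l

/-- Damped signs. -/
noncomputable def dd {K : ℕ} (ω : Λ → Fin K) (θ : Λ → Bool) (l : Λ) : ℂ :=
  sg (θ l) * (1 - ru K ((ω l : ℕ) : ℤ))

/-- Signs with one label removed. -/
def d0 (j : Λ) (θ : Λ → Bool) (l : Λ) : ℂ := if l = j then 0 else sg (θ l)

/-- The weight of a label. -/
def wt {k : ℕ} (x : Fin (k + 1)) : ℂ := if x = 0 then (k + 1 : ℂ) else 0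

lemma base {k : ℕ} (j : Λ) (θ : Λ → Bool) (n : Λ → ℕ) (hn : ∀ l, n l ≤ k) :
    ∑ ω : Λ → Fin (k + 1), wt (ω j) * ∏ l, dd ω θ l ^ n l =
      (Fintype.card (Λ → Fin (k + 1)) : ℂ) * ∏ l, d0 j θ l ^ n l := by
  have h1 : ∀ ω : Λ → Fin (k + 1), wt (ω j) * ∏ l, dd ω θ l ^ n l =
      ∏ l, ((if l = j then wt (ω l) else 1) *
        (sg (θ l) * (1 - ru (k + 1) ((ω l : ℕ) : ℤ))) ^ n l) := by
    intro ω
    rw [prod_mul_distrib, prod_ite_eq']
    simp [dd]
  simp only [h1]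
  rw [← Fintype.piFinset_univ, ← prod_univ_sum (fun _ => univ) fun l (x : Fin (k + 1)) =>
    (if l = j then wt x else 1) * (sg (θ l) * (1 - ru (k + 1) ((x : ℕ) : ℤ))) ^ n l]
  have h2 : (Fintype.card (Λ → Fin (k + 1)) : ℂ) = ∏ _l : Λ, ((k + 1 : ℕ) : ℂ) := by simp
  rw [h2, ← prod_mul_distrib]
  refine prod_congr rfl fun l _ => ?_
  by_cases h : l = j
  · simp only [h, if_true, d0, wt, ite_mul, zero_mul]
    rw [sum_ite_eq']
    simp
  · have := sum_ru_pow (K := k + 1) (n l) 0 (by have := hn l; omega)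
    simp only [pow_zero, one_mul, if_true] at this
    simp only [h, if_false, d0, one_mul, mul_pow, ← mul_sum, this]
    exact mul_comm _ _

lemma prod_single (d : Λ → ℂ) (n : Λ → ℕ) (l : Λ) :
    ∏ l', d l' ^ (n + Pi.single l 1 : Λ → ℕ) l' = (∏ l', d l' ^ n l') * d l := by
  simp only [Pi.add_apply, pow_add, prod_mul_distrib, Pi.single_apply, pow_ite, pow_one,
    pow_zero, prod_ite_eq', mem_univ, if_true]

omit [DecidableEq Λ] in
lemma step (p : Λ → R) (B c : R) (d : Λ → ℂ) (a : ℂ) (m : ℕ) :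
    a • (c * (B * dia p d) ^ (m + 1)) = ∑ l, (a * d l) • (c * B * p l * (B * dia p d) ^ m) := by
  rw [pow_succ']
  generalize (B * dia p d) ^ m = X
  simp only [dia, mul_sum, sum_mul, smul_sum, mul_smul_comm, smul_mul_assoc, smul_smul, mul_assoc]

lemma key (p : Λ → R) (B : R) {k : ℕ} (j : Λ) (θ : Λ → Bool) (m : ℕ) :
    ∀ (n : Λ → ℕ) (c : R), (∀ l, n l + m ≤ k) →
      ∑ ω : Λ → Fin (k + 1), (wt (ω j) * ∏ l, dd ω θ l ^ n l) • (c * (B * dia p (dd ω θ)) ^ m) =
        ((Fintype.card (Λ → Fin (k + 1)) : ℂ) * ∏ l, d0 j θ l ^ n l) •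
          (c * (B * dia p (d0 j θ)) ^ m) := by
  induction m with
  | zero =>
    intro n c hn
    simp only [pow_zero, ← sum_smul]
    rw [base j θ n hn]
  | succ m ih =>
    intro n c hn
    simp only [step]
    rw [sum_comm]
    refine sum_congr rfl fun l _ => ?_
    have := ih (n + Pi.single l 1) (c * B * p l) fun l' => by
      have := hn l'
      simp only [Pi.add_apply, Pi.single_apply]
      split_ifs <;> omega
    simpa only [prod_single, mul_assoc] using this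

lemma vm_eq (p : Λ → R) (B : R) (j : Λ) (θ : Λ → Bool) :
    G1.vm p B {j} θ = B * dia p (d0 j θ) := by
  unfold G1.vm dia
  congr 1
  rw [← sum_add_sum_compl {j}]
  simp only [sum_singleton, d0, if_true, zero_smul, zero_add]
  exact sum_congr rfl fun l hl => by rw [if_neg (by simpa using hl)]

omit [Fintype Λ] in
lemma dd_flip {k : ℕ} (ω : Λ → Fin (k + 1)) (θ : Λ → Bool) {l : Λ} (hl : ω l = 0) :
    dd ω (P104.flip l θ) = dd ω θ := by
  funext l'
  by_cases h : l' = l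
  · subst h; simp [dd, hl]
  · simp [dd, flip_of_ne h]

omit [Fintype Λ] [DecidableEq Λ] in
lemma norm_dd {K : ℕ} (ω : Λ → Fin K) (θ : Λ → Bool) (l : Λ) : ‖dd ω θ l‖ ≤ 2 := by
  rw [dd, norm_mul, norm_sg, one_mul]
  exact (norm_sub_le _ _).trans (by simp; norm_num)

lemma flip_orth_norm {E : Type*} [NormedAddCommGroup E] [InnerProductSpace ℂ E] (C : Finset Λ)
    (F : Λ → (Λ → Bool) → E) (hF : ∀ l ∈ C, ∀ l' ∈ C, ∀ θ, F l (P104.flip l' θ) = F l θ) :
    ∑ θ, ‖∑ l ∈ C, sg (θ l) • F l θ‖ ^ 2 = ∑ θ, ∑ l ∈ C, ‖F l θ‖ ^ 2 := by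
  have h2 : ∑ θ, ⟪∑ l ∈ C, sg (θ l) • F l θ, ∑ l ∈ C, sg (θ l) • F l θ⟫_ℂ =
      ∑ θ, ∑ l ∈ C, ⟪F l θ, F l θ⟫_ℂ := by
    simp only [sum_inner, inner_sum, inner_smul_left, inner_smul_right, mul_sum]
    rw [sum_comm, sum_comm (s := univ)]
    refine sum_congr rfl fun l hl => ?_
    rw [sum_comm, sum_eq_single l]
    · refine sum_congr rfl fun θ _ => ?_
      cases θ l <;> simp [sg]
    · intro l' hl' hne
      refine sum_eq_zero_of_flip l _ fun θ => ?_
      rw [hF l hl l hl, hF l' hl' l hl, flip_self, flip_of_ne hne, sg_not]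
      simp
    · intro h; exact absurd hl h
  simp only [inner_self_eq_norm_sq_to_K] at h2
  exact_mod_cast h2

end alg

variable {H : Type*} [NormedAddCommGroup H] [InnerProductSpace ℂ H] [CompleteSpace H]
variable {S : Set (H →L[ℂ] H)}

lemma norm_dia {Λ : Type*} [Fintype Λ] {p : Λ → vN S} (hp : PU p) {d : Λ → ℂ} {c : ℝ}
    (hc : 0 ≤ c) (hd : ∀ l, ‖d l‖ ≤ c) : ‖dia p d‖ ≤ c := by
  classical
  have h1 : star (dia p d) * dia p d = ∑ l, (‖d l‖ ^ 2 : ℝ) • (star (p l) * p l) := by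
    simp only [dia, star_sum, star_smul, sum_mul, mul_sum, smul_mul_assoc, mul_smul_comm, hp.sa,
      hp.mul, smul_ite, smul_zero, sum_ite_eq', mem_univ, if_true, smul_smul]
    refine sum_congr rfl fun l _ => ?_
    rw [← Complex.coe_smul, RCLike.star_def, Complex.mul_conj, Complex.normSq_eq_norm_sq]
  have h2 : (algebraMap ℝ (vN S) (c ^ 2)) = ∑ l, (c ^ 2 : ℝ) • (star (p l) * p l) := by
    simp only [hp.sa, hp.idem, ← smul_sum, hp.sum_eq, Algebra.algebraMap_eq_smul_one]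
  have h3 : ‖star (dia p d) * dia p d‖ ≤ c ^ 2 := by
    rw [CStarAlgebra.norm_le_iff_le_algebraMap _ (sq_nonneg c) (star_mul_self_nonneg _), h1, h2]
    exact sum_le_sum fun l _ => smul_le_smul_of_nonneg_right
      (pow_le_pow_left₀ (norm_nonneg _) (hd l) 2) (star_mul_self_nonneg _)
  rw [CStarRing.norm_star_mul_self, ← sq] at h3
  exact (pow_le_pow_iff_left₀ (norm_nonneg _) hc two_ne_zero).1 h3

end D

end Vale.Agent.P082
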