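import Vale.Agent.P082.Cob
import Vale.Agent.P104.F1

/-! Working definitions for P082. -/

namespace Vale.Agent.P082

open scoped InnerProductSpace ComplexOrder ComplexConjugate
open Vale.Agent.P104

/-- Bounded complex functions. -/
def Bd {Γ : Type*} (f : Γ → ℂ) : Prop := ∃ C : ℝ, ∀ g, ‖f g‖ ≤ C

/-- A mean on the bounded functions on `Γ`. -/
@[ext]
structure Mean (Γ : Type*) where
  I : (Γ → ℂ) → ℂ
  add : ∀ f g, Bd f → Bd g → I (fun x => f x + g x) = I f + I g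
  smul : ∀ (c : ℂ) f, Bd f → I (fun x => c * f x) = c * I f
  const : ∀ c : ℂ, I (fun _ => c) = c
  norm_le : ∀ f (C : ℝ), (∀ g, ‖f g‖ ≤ C) → ‖I f‖ ≤ C
  junk : ∀ f, ¬ Bd f → I f = 0

/-- `e` absorbs every mean of `Q`. -/
def Absorbs {Γ : Type*} [Mul Γ] (e : Mean Γ) (Q : Set (Mean Γ)) : Prop :=
  ∀ σ ∈ Q, ∀ χ : Γ → ℂ, Bd χ →
    e.I (fun k => σ.I (fun w => e.I (fun κ => χ (κ * w * k)))) = e.I χ

section vn
variable {H : Type*} [NormedAddCommGroup H] [InnerProductSpace ℂ H] [CompleteSpace H]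

/-- Every bounded `(k+1)`-cocycle is a coboundary after cutting by `z`. -/
def Kill (S : Set (H →L[ℂ] H)) (z : vN S) (k : ℕ) : Prop :=
  ∀ φ : ContinuousMultilinearMap ℂ (fun _ : Fin (k + 1) => vN S) (vN S),
    (∀ a, cob (k + 1) φ a = 0) →
    ∃ g : ContinuousMultilinearMap ℂ (fun _ : Fin k => vN S) (vN S),
      ∀ a, z * φ a = z * cob k g a

/-- A right invariant unitary mean for all bounded maps, tested on the range of `z`. -/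
def UInv (S : Set (H →L[ℂ] H)) (z : vN S) : Prop :=
  ∃ m : Mean (unitary (vN S)), ∀ (G : vN S →L[ℂ] vN S) (s : unitary (vN S)) (ξ η : H),
    (z : H →L[ℂ] H) ξ = ξ →
    m.I (fun w => ⟪((w * s : vN S) : H →L[ℂ] H) η, (G (w * s) : H →L[ℂ] H) ξ⟫_ℂ) =
      m.I (fun w => ⟪((w : vN S) : H →L[ℂ] H) η, (G w : H →L[ℂ] H) ξ⟫_ℂ)

/-- `T` is completely bounded with constant `C`, tested on matrices of size at most `n`
columns (any number of rows). -/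
def CBn (S : Set (H →L[ℂ] H)) (n : ℕ) (T : vN S → H →L[ℂ] H) (C : ℝ) : Prop :=
  ∀ (r : ℕ) (x : Fin r → Fin n → vN S), r ≤ n →
    (∀ ξ : Fin n → H, ∑ i, ‖∑ j, (x i j : H →L[ℂ] H) (ξ j)‖ ^ 2 ≤ ∑ j, ‖ξ j‖ ^ 2) →
    ∀ ξ : Fin n → H, ∑ i, ‖∑ j, T (x i j) (ξ j)‖ ^ 2 ≤ C ^ 2 * ∑ j, ‖ξ j‖ ^ 2

/-- Completely bounded with constant `C`. -/
def CB (S : Set (H →L[ℂ] H)) (T : vN S → H →L[ℂ] H) (C : ℝ) : Prop :=
  ∀ (ι κ : Type) [Fintype ι] [Fintype κ] (x : ι → κ → vN S),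
    (∀ ξ : κ → H, ∑ i, ‖∑ j, (x i j : H →L[ℂ] H) (ξ j)‖ ^ 2 ≤ ∑ j, ‖ξ j‖ ^ 2) →
    ∀ ξ : κ → H, ∑ i, ‖∑ j, T (x i j) (ξ j)‖ ^ 2 ≤ C ^ 2 * ∑ j, ‖ξ j‖ ^ 2

/-- Finite families with contractive column. -/
def Fam (S : Set (H →L[ℂ] H)) : Type _ :=
  {l : List (vN S) // ((l.map fun m => star m * m).sum : vN S) ≤ 1}

/-- Every nonzero projection under `z` has finitely many pieces covering a central projection. -/
def Monic (S : Set (H →L[ℂ] H)) (z : H →L[ℂ] H) : Prop :=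
  ∀ p ∈ vN S, IsStarProjection p → p ≠ 0 → p * z = p →
    ∃ (c : H →L[ℂ] H) (k : ℕ) (u : Fin k → H →L[ℂ] H), IsCentral S c ∧ c ≠ 0 ∧ c * z = c ∧
      (∀ i, u i ∈ vN S ∧ u i * p = u i) ∧ ∑ i, u i * star (u i) = c

/-- No proper isometry under `z`. -/
def FinU (S : Set (H →L[ℂ] H)) (z : H →L[ℂ] H) : Prop :=
  ∀ c v : H →L[ℂ] H, IsCentral S c → c * z = c → v ∈ vN S → star v * v = c → v * star v = c

/-- Property P1: `u a` is a trace bounded vector. -/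
def P1 {S : Set (H →L[ℂ] H)} (t : Tr (vN S)) (u : vN S →ₗ[ℂ] H) : Prop :=
  ∀ y a : vN S, ‖(y : H →L[ℂ] H) (u a)‖ ^ 2 ≤ t.N y * ‖a‖ ^ 2

/-- Property P2: `u` is `L2` bounded up to `γ`. -/
def P2 {S : Set (H →L[ℂ] H)} (t : Tr (vN S)) (u : vN S →ₗ[ℂ] H) (C γ : ℝ) : Prop :=
  ∀ (ι : Type) [Fintype ι] (a : ι → vN S), ∑ k, ‖u (a k)‖ ^ 2 ≤
    C * ∑ k, t.N (a k) + γ * (‖∑ k, star (a k) * a k‖ + ‖∑ k, a k * star (a k)‖)

/-- Trace bounded vector. -/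
def TB {S : Set (H →L[ℂ] H)} (t : Tr (vN S)) (η : H) (β : ℝ) : Prop :=
  ∀ y : vN S, ‖(y : H →L[ℂ] H) η‖ ^ 2 ≤ β ^ 2 * t.N y

/-- The coefficient function `w ↦ <w η, u w>`. -/
noncomputable def cf {S : Set (H →L[ℂ] H)} (u : vN S →ₗ[ℂ] H) (η : H) (w : vN S) : ℂ :=
  ⟪(w : H →L[ℂ] H) η, u w⟫_ℂ

/-- The partition attached to matrix units with sum `z`. -/
def dg {R I : Type*} [Ring R] (E : I → I → R) (z : R) : Option I → R
  | none => 1 - z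
  | some i => E i i

end vn

end Vale.Agent.P082
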