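import Vale.Agent.P082.PartD

/-! Part E: the coefficient function along the walk. -/

namespace Vale.Agent.P082

open scoped InnerProductSpace ComplexOrder ComplexConjugate
open Vale.Agent.P104 Finset

variable {H : Type*} [NormedAddCommGroup H] [InnerProductSpace ℂ H] [CompleteSpace H]
variable {S : Set (H →L[ℂ] H)}

namespace E

/-- The modularity defect at `B`. -/
noncomputable def df (Hm : vN S →ₗ[ℂ] H) (B : vN S) : vN S →ₗ[ℂ] H :=
  Hm ∘ₗ LinearMap.mulLeft ℂ B - ((B : H →L[ℂ] H) : H →ₗ[ℂ] H) ∘ₗ Hm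

lemma df_apply (Hm : vN S →ₗ[ℂ] H) (B a : vN S) :
    df Hm B a = Hm (B * a) - (B : H →L[ℂ] H) (Hm a) := rfl

lemma inner_unit {u : vN S} (hu : u ∈ unitary (vN S)) (x y : H) :
    ⟪(u : H →L[ℂ] H) x, (u : H →L[ℂ] H) y⟫_ℂ = ⟪x, y⟫_ℂ := by
  have h : star (u : H →L[ℂ] H) * u = 1 := congrArg Subtype.val hu.1
  rw [← ContinuousLinearMap.adjoint_inner_right, ← ContinuousLinearMap.star_eq_adjoint,
    ← ContinuousLinearMap.mul_apply, h, ContinuousLinearMap.one_apply]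

lemma norm_unit_apply {u : vN S} (hu : u ∈ unitary (vN S)) (x : H) :
    ‖(u : H →L[ℂ] H) x‖ = ‖x‖ := by
  have := inner_unit hu x x
  simp only [inner_self_eq_norm_sq_to_K] at this
  exact (pow_left_inj₀ (norm_nonneg _) (norm_nonneg _) two_ne_zero).1 (by exact_mod_cast this)

lemma cf_mul {Hm : vN S →ₗ[ℂ] H} {η : H} {u : vN S} (hu : u ∈ unitary (vN S)) (w : vN S) :
    cf Hm η (u * w) - cf Hm η w = ⟪((u * w : vN S) : H →L[ℂ] H) η, df Hm u w⟫_ℂ := by
  rw [df_apply, inner_sub_right, cf, cf, ← inner_unit hu _ (Hm w)]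
  rfl

variable {Λ : Type} [Fintype Λ] [DecidableEq Λ] {p : Λ → vN S} {Hm : vN S →ₗ[ℂ] H} {η : H}

omit [DecidableEq Λ] in
lemma cf_th (hp : PU p) (hm : ∀ j a, Hm (p j * a) = (p j : H →L[ℂ] H) (Hm a)) (θ : Λ → Bool)
    (w : vN S) : cf Hm η (th p θ * w) = cf Hm η w := by
  rw [← sub_eq_zero, cf_mul (hp.th_unitary θ), df_apply]
  have : Hm (th p θ * w) = ((th p θ : vN S) : H →L[ℂ] H) (Hm w) := by
    simp [th, sum_mul, hm]
  rw [this, sub_self, inner_zero_right]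

lemma core (t : Tr (vN S)) (hp : PU p) (hm : ∀ j a, Hm (p j * a) = (p j : H →L[ℂ] H) (Hm a))
    (hη : TB t η 1) {B y : vN S} (hB : B ∈ unitary (vN S)) (hy : y ∈ unitary (vN S)) {K : ℕ}
    {X β : ℝ} (hβ : 0 < β)
    (hw : ∀ m < K, ∑ θ, ‖df Hm B (th p θ * vv p B θ ^ m * y)‖ ^ 2 ≤
      Fintype.card (Λ → Bool) * X) :
    ∀ n ≤ K, ∑ θ, ‖cf Hm η (vv p B θ ^ n * y) - cf Hm η y‖ ≤
      n * (Fintype.card (Λ → Bool) * (β * t.N 1 + X / β)) := by
  intro n
  induction n with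
  | zero => simp
  | succ n ih =>
    intro hn
    have h1 : ∀ θ, ‖cf Hm η (vv p B θ ^ (n + 1) * y) - cf Hm η y‖ ≤
        ‖cf Hm η (vv p B θ ^ n * y) - cf Hm η y‖ + (β * t.N 1 +
          ‖df Hm B (th p θ * vv p B θ ^ n * y)‖ ^ 2 / β) := by
      intro θ
      have hu : th p θ * vv p B θ ^ n * y ∈ unitary (vN S) :=
        mul_mem (mul_mem (hp.th_unitary θ) (pow_mem (hp.vv_unitary hB θ) n)) hy
      have a1 : vv p B θ ^ (n + 1) * y = B * (th p θ * vv p B θ ^ n * y) := by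
        rw [pow_succ']; simp only [vv, mul_assoc]
      have a2 := cf_mul (Hm := Hm) (η := η) hB (th p θ * vv p B θ ^ n * y)
      rw [mul_assoc (th p θ), cf_th hp hm, ← mul_assoc (th p θ)] at a2
      have a3 := hη (B * (th p θ * vv p B θ ^ n * y))
      rw [← mul_one (B * _), t.N_unitary_mul (mul_mem hB hu), mul_one] at a3
      have a4 := (congrArg norm a2).trans_le (norm_inner_le_norm _ _)
      rw [a1, ← sub_add_sub_cancel _ (cf Hm η (vv p B θ ^ n * y)), add_comm]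
      refine (norm_add_le _ _).trans (add_le_add le_rfl (a4.trans ?_))
      generalize ‖df Hm B (th p θ * vv p B θ ^ n * y)‖ = d at *
      generalize ‖((B * (th p θ * vv p B θ ^ n * y) : vN S) : H →L[ℂ] H) η‖ = e at *
      have a5 : e * d ≤ β * e ^ 2 + d ^ 2 / β := by
        rw [← sub_nonneg]
        have : β * e ^ 2 + d ^ 2 / β - e * d = ((β * e - d / 2) ^ 2 + 3 / 4 * d ^ 2) / β := by
          field_simp; ring
        rw [this]; positivity
      nlinarith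
    refine (sum_le_sum fun θ _ => h1 θ).trans ?_
    rw [sum_add_distrib, sum_add_distrib, ← sum_div, sum_const, card_univ, nsmul_eq_mul]
    have h2 := ih (by omega)
    have h3 := div_le_div_of_nonneg_right (hw n (by omega)) hβ.le
    rw [mul_div_assoc] at h3
    push_cast
    linarith

lemma jump (hp : PU p) (hm : ∀ j a, Hm (p j * a) = (p j : H →L[ℂ] H) (Hm a)) {B : vN S}
    {K : ℕ} {α : ℕ → ℝ} (hα : ∀ n, 0 ≤ α n) {c e : ℝ}
    (hs : ∀ θ, ‖∑ n ∈ Icc 1 K, (α n : ℂ) *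
      (cf Hm η (vv p B θ ^ n) - cf Hm η (star (vv p B θ) ^ n))‖ ≤ c)
    (h1 : ∀ n ≤ K, ∑ θ, ‖cf Hm η (vv p B θ ^ n * 1) - cf Hm η 1‖ ≤ Fintype.card (Λ → Bool) * e)
    (h2 : ∀ n ≤ K, ∑ θ, ‖cf Hm η (vv p (star B) θ ^ n * star B) - cf Hm η (star B)‖ ≤
      Fintype.card (Λ → Bool) * e) :
    (∑ n ∈ Icc 1 K, α n) * ‖cf Hm η (star B) - cf Hm η 1‖ ≤ c + (∑ n ∈ Icc 1 K, α n) * (2 * e) := by
  have h0 : (0 : ℝ) < Fintype.card (Λ → Bool) := card_signs_pos
  have h3 : ∀ θ, (∑ n ∈ Icc 1 K, α n) * ‖cf Hm η (star B) - cf Hm η 1‖ ≤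
      c + ∑ n ∈ Icc 1 K, α n * (‖cf Hm η (vv p B θ ^ n * 1) - cf Hm η 1‖ +
        ‖cf Hm η (vv p (star B) θ ^ (n - 1) * star B) - cf Hm η (star B)‖) := by
    intro θ
    have a1 : ((∑ n ∈ Icc 1 K, α n : ℝ) : ℂ) * (cf Hm η (star B) - cf Hm η 1) =
        ∑ n ∈ Icc 1 K, (α n : ℂ) * ((cf Hm η (vv p B θ ^ n * 1) - cf Hm η 1) -
          (cf Hm η (vv p (star B) θ ^ (n - 1) * star B) - cf Hm η (star B))) -
        ∑ n ∈ Icc 1 K, (α n : ℂ) * (cf Hm η (vv p B θ ^ n) - cf Hm η (star (vv p B θ) ^ n)) := by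
      rw [← sum_sub_distrib, Complex.ofReal_sum, sum_mul]
      refine sum_congr rfl fun n hn => ?_
      obtain ⟨k, rfl⟩ : ∃ k, n = k + 1 := ⟨n - 1, by have := (mem_Icc.1 hn).1; omega⟩
      have : star (vv p B θ) ^ (k + 1) = th p θ * (vv p (star B) θ ^ k * star B) := by
        rw [vv, vv, star_mul, hp.star_th, pow_succ, ← mul_assoc, mul_pow_mul, mul_assoc]
      rw [this, cf_th hp hm, mul_one, Nat.add_sub_cancel]
      ring
    have a2 := congrArg norm a1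
    rw [norm_mul, Complex.norm_real, Real.norm_of_nonneg (sum_nonneg fun n _ => hα n)] at a2
    rw [a2, add_comm c]
    refine (norm_sub_le _ _).trans (add_le_add (norm_sum_le_of_le _ fun n _ => ?_) (hs θ))
    rw [norm_mul, Complex.norm_real, Real.norm_of_nonneg (hα n)]
    exact mul_le_mul_of_nonneg_left (norm_sub_le _ _) (hα n)
  have h4 := sum_le_sum fun θ (_ : θ ∈ univ) => h3 θ
  rw [sum_const, card_univ, nsmul_eq_mul, sum_add_distrib, sum_const, card_univ, nsmul_eq_mul,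
    sum_comm] at h4
  have h5 : ∑ n ∈ Icc 1 K, ∑ θ, α n * (‖cf Hm η (vv p B θ ^ n * 1) - cf Hm η 1‖ +
        ‖cf Hm η (vv p (star B) θ ^ (n - 1) * star B) - cf Hm η (star B)‖) ≤
      ∑ n ∈ Icc 1 K, α n * (Fintype.card (Λ → Bool) * (2 * e)) := by
    refine sum_le_sum fun n hn => ?_
    rw [← mul_sum, sum_add_distrib]
    have := h1 n (mem_Icc.1 hn).2
    have := h2 (n - 1) (by have := (mem_Icc.1 hn).2; omega)
    exact mul_le_mul_of_nonneg_left (by linarith) (hα n)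
  rw [← sum_mul] at h5
  refine le_of_mul_le_mul_left ?_ h0
  nlinarith

lemma df_le (t : Tr (vN S)) {C γ : ℝ} (h2 : P2 t Hm C γ) {B : vN S} (hB : B ∈ unitary (vN S))
    (hγ : 0 ≤ γ) (a : vN S) : ‖df Hm B a‖ ^ 2 ≤ 4 * C * t.N a + 8 * γ * ‖a‖ ^ 2 := by
  have h1 : ∀ b, ‖Hm b‖ ^ 2 ≤ C * t.N b + 2 * γ * ‖b‖ ^ 2 := by
    intro b
    have := h2 Unit fun _ => b
    simp only [univ_unique, sum_singleton, CStarRing.norm_star_mul_self,
      CStarRing.norm_self_mul_star] at this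
    linarith
  have h3 := h1 (B * a)
  have h4 := h1 a
  have h5 : ‖B * a‖ ≤ ‖a‖ := (norm_mul_le _ _).trans
    (mul_le_of_le_one_left (norm_nonneg _) (D.norm_unit hB))
  have h6 := mul_le_mul_of_nonneg_left (pow_le_pow_left₀ (norm_nonneg _) h5 2) hγ
  have h7 := norm_add_sq_le_two (Hm (B * a)) (-(B : H →L[ℂ] H) (Hm a))
  rw [t.N_unitary_mul hB] at h3
  rw [norm_neg, norm_unit_apply hB, ← sub_eq_add_neg] at h7
  rw [df_apply]
  linarith

section mu
variable {I : Type} [Fintype I] [DecidableEq I] {F : I → I → vN S} {z : vN S} {ε : ℝ}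

lemma pu_dg (hF : P104.F.MU F z) : PU (dg F z) where
  sa j := by cases j <;> simp [dg, hF.z_sa, hF.st]
  idem j := by cases j <;> simp [dg, hF.mul, sub_mul, mul_sub, hF.z_idem]
  orth i j h := by
    cases i <;> cases j
    · exact absurd rfl h
    · simp [dg, sub_mul, hF.z_mul]
    · simp [dg, mul_sub, hF.mul_z]
    · rw [dg, dg, hF.mul, if_neg fun hh => h (congrArg _ hh)]
  sum_eq := by simp [Fintype.sum_option, dg, hF.sum_eq]

lemma mod_dg (hF : P104.F.MU F z) (h : Mod F z Hm ε) (j : Option I) (a : vN S) :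
    Hm (dg F z j * a) = ((dg F z j : vN S) : H →L[ℂ] H) (Hm a) := by
  cases j with
  | some i => exact h.unit i i a
  | none =>
    have h1 : Hm (z * a) = (z : H →L[ℂ] H) (Hm a) := by
      rw [← hF.sum_eq]
      simp [sum_mul, h.unit]
    have h2 := h.zero a
    rw [dg, h2]
    rw [sub_mul, one_mul, map_sub, h1] at h2
    simpa using h2.symm

end mu

section shift
variable {t : Tr (vN S)} {s : vN S}

/-- Right translate. -/
noncomputable def sh (Hm : vN S →ₗ[ℂ] H) (s : vN S) : vN S →ₗ[ℂ] H :=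
  Hm ∘ₗ LinearMap.mulRight ℂ s

lemma sh_apply (a : vN S) : sh Hm s a = Hm (a * s) := rfl

lemma norm_mul_unit (hs : s ∈ unitary (vN S)) (a : vN S) : ‖a * s‖ ≤ ‖a‖ :=
  (norm_mul_le _ _).trans (mul_le_of_le_one_right (norm_nonneg _) (D.norm_unit hs))

lemma P1_sh (h : P1 t Hm) (hs : s ∈ unitary (vN S)) : P1 t (sh Hm s) := fun y a =>
  (h y _).trans (mul_le_mul_of_nonneg_left
    (pow_le_pow_left₀ (norm_nonneg _) (norm_mul_unit hs a) 2) (t.N_nonneg _))

lemma P2_sh {C γ : ℝ} (h : P2 t Hm C γ) (hγ : 0 ≤ γ) (hs : s ∈ unitary (vN S)) :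
    P2 t (sh Hm s) C γ := by
  intro ι _ a
  refine (h ι fun k => a k * s).trans ?_
  have h1 : ∑ k, a k * s * star (a k * s) = ∑ k, a k * star (a k) :=
    sum_congr rfl fun k _ => by rw [star_mul, mul_assoc, ← mul_assoc s, hs.2, one_mul]
  have h2 : ∑ k, star (a k * s) * (a k * s) = star s * ((∑ k, star (a k) * a k) * s) := by
    simp only [star_mul, mul_sum, sum_mul, mul_assoc]
  have h3 : ‖star s * ((∑ k, star (a k) * a k) * s)‖ ≤ ‖∑ k, star (a k) * a k‖ :=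
    (norm_mul_le _ _).trans ((mul_le_of_le_one_left (norm_nonneg _)
      (D.norm_unit (Unitary.star_mem hs))).trans (norm_mul_unit hs _))
  simp only [h1, h2, t.N_mul_unitary hs]
  gcongr

lemma Mod_sh {I : Type} [Fintype I] {F : I → I → vN S} {z : vN S} {ε : ℝ} (h : Mod F z Hm ε)
    (hε : 0 ≤ ε) (hs : s ∈ unitary (vN S)) : Mod F z (sh Hm s) ε where
  unit i j a := by rw [sh_apply, sh_apply, mul_assoc, h.unit]
  zero a := by rw [sh_apply, mul_assoc, h.zero]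
  diag κ h1 h2 a := by
    rw [sh_apply, sh_apply, mul_assoc]
    exact (h.diag κ h1 h2 _).trans (mul_le_mul_of_nonneg_left
      (pow_le_pow_left₀ (norm_nonneg _) (norm_mul_unit hs a) 2) hε)

lemma TB_sh (h : TB t η 1) (hs : s ∈ unitary (vN S)) : TB t ((s : H →L[ℂ] H) η) 1 := fun y => by
  have := h (y * s)
  rw [t.N_mul_unitary hs] at this
  exact this

lemma cf_sh (w : vN S) : cf (sh Hm s) ((s : H →L[ℂ] H) η) w = cf Hm η (w * s) := rfl

end shift

end E

end Vale.Agent.P082
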