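import Vale.Agent.P082.PartM
import Vale.Agent.P104.VB
import Vale.Agent.P104.B0
import Vale.Agent.P104.B2
import Vale.Agent.P104.D2

/-! Cutting off the singular part of a bounded map. -/

namespace Vale.Agent.P082.F

open scoped InnerProductSpace ComplexOrder ComplexConjugate
open Vale.Agent.P104 Finset

section gen
variable {A : Type*} [CStarAlgebra A] [PartialOrder A] [StarOrderedRing A]

lemma sq_le {a : A} (h0 : 0 ≤ a) (h1 : a ≤ 1) : a * a ≤ a := by
  have := Commute.mul_nonneg h0 (sub_nonneg.2 h1) ((Commute.one_right a).sub_right (.refl a))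
  rwa [mul_sub, mul_one, sub_nonneg] at this

lemma norm_le_one {a : A} (h0 : 0 ≤ a) (h1 : a ≤ 1) : ‖a‖ ≤ 1 :=
  (CStarAlgebra.norm_le_one_iff_of_nonneg a h0).2 h1

lemma dil {p : A} (h0 : 0 ≤ p) (h1 : p ≤ 1) : ∃ p' : A, star p' = p' ∧ p * p' = p' * p ∧
    p * p + p' * p' = 1 ∧ p' * p' ≤ (1 - p) + (1 - p) ∧ ‖p'‖ ≤ 1 := by
  have h2 : 0 ≤ 1 - p * p := sub_nonneg.2 ((sq_le h0 h1).trans h1)
  have h3 : CFC.sqrt (1 - p * p) * CFC.sqrt (1 - p * p) = 1 - p * p := CFC.sqrt_mul_sqrt_self _ h2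
  have h4 := (IsSelfAdjoint.of_nonneg (CFC.sqrt_nonneg (1 - p * p))).star_eq
  refine ⟨CFC.sqrt (1 - p * p), h4, ?_, by rw [h3]; abel, ?_, ?_⟩
  · have : Commute (1 - p * p) p := (Commute.one_left p).sub_left ((Commute.refl p).mul_left (.refl p))
    exact (this.cfcₙ_nnreal NNReal.sqrt).symm
  · rw [h3, ← sub_nonneg]
    have e := star_mul_self_nonneg (1 - p)
    rw [star_sub, star_one, (IsSelfAdjoint.of_nonneg h0).star_eq] at e
    refine e.trans_eq ?_
    noncomm_ring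
  · have e := CStarRing.norm_star_mul_self (x := CFC.sqrt (1 - p * p))
    rw [h4, h3] at e
    have e1 := norm_le_one h2 (sub_le_self _ (by
      simpa [(IsSelfAdjoint.of_nonneg h0).star_eq] using star_mul_self_nonneg p))
    nlinarith [norm_nonneg (CFC.sqrt (1 - p * p))]

lemma unit_mem {p p' : A} (h : star p = p) (h' : star p' = p') (hc : p * p' = p' * p)
    (h1 : p * p + p' * p' = 1) {c : ℂ} (hc1 : conj c = -c) (hc2 : c * c = -1) :
    p + c • p' ∈ unitary A := by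
  constructor
  · rw [star_add, star_smul, h, h', Complex.star_def, hc1, add_mul, mul_add, mul_add,
      smul_mul_smul_comm, mul_smul_comm, smul_mul_assoc, hc, neg_mul, hc2, ← h1]
    simp
  · rw [star_add, star_smul, h, h', Complex.star_def, hc1, add_mul, mul_add, mul_add,
      smul_mul_smul_comm, mul_smul_comm, smul_mul_assoc, hc, mul_neg, hc2, ← h1]
    simp

lemma ext_le {q : A} (hq0 : 0 ≤ q) (hq1 : q ≤ 1) {J : Type} [Fintype J] (b : J → A) {d : ℝ}
    (hd : 0 < d) : (‖∑ k, star (b k) * b k‖ + ‖∑ k, b k * star (b k)‖ + d)⁻¹ •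
      ∑ k, (star (q * b k * q) * (q * b k * q) + q * b k * q * star (q * b k * q)) ≤ q := by
  have hsq : star q = q := (IsSelfAdjoint.of_nonneg hq0).star_eq
  have hqq := sq_le hq0 hq1
  set β := ‖∑ k, star (b k) * b k‖ + ‖∑ k, b k * star (b k)‖ + d with hβ
  have hβ0 : 0 < β := by positivity
  have e1 : ∀ x : A, star (q * x * q) * (q * x * q) ≤ star q * (star x * x) * q := by
    intro x
    have := star_left_conjugate_le_conjugate (hqq.trans hq1) (x * q)
    simpa [star_mul, hsq, mul_assoc] using this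
  have e2 : ∑ k, (star (q * b k * q) * (q * b k * q) + q * b k * q * star (q * b k * q)) ≤
      star q * (∑ k, star (b k) * b k + ∑ k, b k * star (b k)) * q := by
    rw [← sum_add_distrib, mul_sum, sum_mul]
    refine sum_le_sum fun k _ => ?_
    rw [mul_add, add_mul]
    refine add_le_add (e1 _) ?_
    have := e1 (star (b k))
    simpa [star_mul, hsq, mul_assoc] using this
  have e3 : ∑ k, star (b k) * b k + ∑ k, b k * star (b k) ≤ β • (1 : A) := by
    have f1 := (IsSelfAdjoint.of_nonneg (sum_nonneg fun k (_ : k ∈ univ) =>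
      star_mul_self_nonneg (b k))).le_algebraMap_norm_self
    have f2 := (IsSelfAdjoint.of_nonneg (sum_nonneg fun k (_ : k ∈ univ) =>
      mul_star_self_nonneg (b k))).le_algebraMap_norm_self
    rw [Algebra.algebraMap_eq_smul_one] at f1 f2
    rw [hβ, add_smul, add_smul]
    exact (add_le_add f1 f2).trans (le_add_of_nonneg_right (smul_nonneg hd.le zero_le_one))
  have e4 := e2.trans (star_left_conjugate_le_conjugate e3 q)
  rw [mul_smul_comm, smul_mul_assoc, mul_one, hsq] at e4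
  have e5 := smul_le_smul_of_nonneg_left e4 (inv_pos.2 hβ0).le
  rw [smul_smul, inv_mul_cancel₀ hβ0.ne', one_smul] at e5
  exact e5.trans hqq

variable {E : Type*} [NormedAddCommGroup E] [InnerProductSpace ℂ E]

lemma groth2 {u : A →ₗ[ℂ] E} {D : ℝ} (hu : ∀ a, ‖u a‖ ≤ D * ‖a‖) (κ : Type) [Fintype κ]
    (a : κ → A) : ∑ k, ‖u (a k)‖ ^ 2 ≤ 96 * D ^ 2 * ‖∑ k, (star (a k) * a k + a k * star (a k))‖ := by
  have h := B.groth hu (κ ⊕ κ) (Sum.elim (fun k => a k + star (a k))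
    (fun k => Complex.I • (a k - star (a k)))) (by
      rintro (k | k)
      · exact IsSelfAdjoint.add_star_self _
      · simp [IsSelfAdjoint, star_smul, smul_sub, neg_add_eq_sub])
  simp only [Fintype.sum_sum_type, Sum.elim_inl, Sum.elim_inr, smul_mul_smul_comm,
    Complex.I_mul_I, ← sum_add_distrib] at h
  have e1 : ∑ k, ((a k + star (a k)) * (a k + star (a k)) +
      (-1 : ℂ) • ((a k - star (a k)) * (a k - star (a k)))) =
      (2 : ℂ) • ∑ k, (star (a k) * a k + a k * star (a k)) := by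
    rw [smul_sum]
    refine sum_congr rfl fun k _ => ?_
    rw [neg_one_smul, two_smul]
    noncomm_ring
  rw [e1, norm_smul, Complex.norm_two] at h
  have e2 : ∀ k, 2 * ‖u (a k)‖ ^ 2 ≤
      ‖u (a k + star (a k))‖ ^ 2 + ‖u (Complex.I • (a k - star (a k)))‖ ^ 2 := by
    intro k
    rw [map_smul, norm_smul, Complex.norm_I, one_mul, map_add, map_sub]
    have := parallelogram_law_with_norm ℂ (u (a k)) (u (star (a k)))
    nlinarith [norm_nonneg (u (star (a k)))]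
  have e3 := sum_le_sum fun k (_ : k ∈ univ) => e2 k
  rw [← mul_sum] at e3
  linarith

end gen

variable {H : Type*} [NormedAddCommGroup H] [InnerProductSpace ℂ H] [CompleteSpace H]
variable {S : Set (H →L[ℂ] H)}

lemma N_le_of_le (t : Tr (vN S)) {x y : vN S} (h : star x * x ≤ y) : t.N x ≤ (t.τ y).re :=
  t.re_mono h

lemma N_left (t : Tr (vN S)) (x : vN S) {y : vN S} (h : ‖y‖ ≤ 1) : t.N (y * x) ≤ t.N x :=
  (t.N_mul_le_norm y x).trans
    (mul_le_of_le_one_left (t.N_nonneg _) (pow_le_one₀ (norm_nonneg _) h))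

lemma N_right (t : Tr (vN S)) (x : vN S) {y : vN S} (h : ‖y‖ ≤ 1) : t.N (x * y) ≤ t.N x :=
  (t.N_mul_le_norm' x y).trans
    (mul_le_of_le_one_left (t.N_nonneg _) (pow_le_one₀ (norm_nonneg _) h))

lemma tau_sum (t : Tr (vN S)) {κ : Type} [Fintype κ] (a : κ → vN S) :
    (t.τ (∑ k, (star (a k) * a k + a k * star (a k)))).re = 2 * ∑ k, t.N (a k) := by
  rw [map_sum, Complex.re_sum, mul_sum]
  refine sum_congr rfl fun k _ => ?_
  rw [map_add, t.comm (a k), Complex.add_re, Tr.N, two_mul]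

lemma cut (t : Tr (vN S)) {ι : Type} [Fintype ι] (u : ι → vN S →ₗ[ℂ] H) {D : ℝ}
    (hD : ∀ i a, ‖u i a‖ ≤ D * ‖a‖) {γ : ℝ} (hγ : 0 < γ) : ∃ C0 : ℝ, 0 ≤ C0 ∧ ∀ κ : ℝ, 0 < κ →
      ∃ r : vN S, 0 ≤ r ∧ r ≤ 1 ∧ (t.τ r).re ≤ κ ∧ ∀ (i : ι) (J : Type) [Fintype J] (b : J → vN S),
        ∑ k, ‖u i ((1 - r) * b k * (1 - r))‖ ^ 2 ≤ C0 * ∑ k, t.N (b k) +
          γ * (‖∑ k, star (b k) * b k‖ + ‖∑ k, b k * star (b k)‖) := by
  let V : ℝ → Set ℝ := fun C => {v | ∃ (J : Type) (_ : Fintype J) (a : J → vN S),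
    ∑ k, (star (a k) * a k + a k * star (a k)) ≤ 1 ∧
      v = ∑ k, ∑ i, ‖u i (a k)‖ ^ 2 - C * ∑ k, t.N (a k)}
  have hr0 : ∀ (J : Type) [Fintype J] (a : J → vN S),
      0 ≤ ∑ k, (star (a k) * a k + a k * star (a k)) := fun J _ a =>
    sum_nonneg fun k _ => add_nonneg (star_mul_self_nonneg _) (mul_star_self_nonneg _)
  set K : ℝ := Fintype.card ι * (96 * D ^ 2) with hK
  have hval : ∀ (J : Type) [Fintype J] (a : J → vN S),
      ∑ k, (star (a k) * a k + a k * star (a k)) ≤ 1 → ∑ k, ∑ i, ‖u i (a k)‖ ^ 2 ≤ K := by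
    intro J _ a ha
    rw [sum_comm]
    refine (sum_le_card_nsmul _ _ (96 * D ^ 2) fun i _ => ?_).trans (by simp [hK])
    exact (groth2 (hD i) J a).trans
      (mul_le_of_le_one_right (by positivity) (norm_le_one (hr0 J a) ha))
  have hN : ∀ (J : Type) [Fintype J] (a : J → vN S), 0 ≤ ∑ k, t.N (a k) := fun J _ a =>
    sum_nonneg fun k _ => t.N_nonneg _
  have hV0 : ∀ C, (0 : ℝ) ∈ V C := fun C => ⟨Empty, inferInstance, fun _ => 0, by simp, by simp⟩
  have hVb : ∀ C, 0 ≤ C → BddAbove (V C) := fun C hC => ⟨K, by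
    rintro v ⟨J, _, a, ha, rfl⟩
    have := hval J a ha
    have := mul_nonneg hC (hN J a)
    linarith⟩
  let φ : Set.Ici (0 : ℝ) → ℝ := fun C => sSup (V C)
  have hφ0 : ∀ C, 0 ≤ φ C := fun C => le_csSup (hVb C C.2) (hV0 C)
  haveI : Nonempty (Set.Ici (0 : ℝ)) := ⟨⟨0, Set.mem_Ici.2 le_rfl⟩⟩
  have hbb : BddBelow (Set.range φ) := ⟨0, by rintro _ ⟨C, rfl⟩; exact hφ0 C⟩
  obtain ⟨C0, hC0⟩ := exists_lt_of_ciInf_lt (f := φ) (lt_add_of_pos_right _ (half_pos hγ))
  refine ⟨C0, C0.2, fun κ hκ => ?_⟩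
  have hK0 : 0 ≤ K := by positivity
  have hC00 : (0 : ℝ) ≤ C0 := C0.2
  set C : ℝ := C0 + 2 * (K + γ) / κ with hC
  have hCC : (C0 : ℝ) ≤ C := by rw [hC]; exact le_add_of_nonneg_right (by positivity)
  have h1 := ciInf_le hbb ⟨C, hC00.trans hCC⟩
  obtain ⟨v, ⟨J0, _, a, ha, rfl⟩, hv⟩ := exists_lt_of_lt_csSup ⟨0, hV0 C⟩
    (sub_lt_self (sSup (V C)) (half_pos hγ))
  have h2 := hφ0 ⟨C, hC00.trans hCC⟩
  change 0 ≤ sSup (V C) at h2
  change _ ≤ sSup (V C) at h1
  set r := ∑ k, (star (a k) * a k + a k * star (a k)) with hr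
  have hr1 : 0 ≤ r := hr0 J0 a
  refine ⟨r, hr1, ha, ?_, fun i J _ b => ?_⟩
  · rw [hr, tau_sum]
    have e1 := hval J0 a ha
    have e2 := hN J0 a
    have e3 : 2 * (K + γ) / κ * ∑ k, t.N (a k) ≤ K + γ := by
      have := mul_nonneg hC00 e2
      rw [hC, add_mul] at hv
      linarith
    rw [div_mul_eq_mul_div, div_le_iff₀ hκ] at e3
    have e4 : 0 < K + γ := by linarith
    nlinarith
  have hq0 : (0 : vN S) ≤ 1 - r := sub_nonneg.2 ha
  have hq1 : 1 - r ≤ 1 := sub_le_self _ hr1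
  have hqn := norm_le_one hq0 hq1
  generalize hq : 1 - r = q at *
  refine B.le_of_forall_add (c := γ) fun d hd => ?_
  set β := ‖∑ k, star (b k) * b k‖ + ‖∑ k, b k * star (b k)‖ + d with hβ
  have hβ0 : 0 < β := by positivity
  set l : ℂ := ((√β⁻¹ : ℝ) : ℂ) with hl
  have hll : star l * l = ((β⁻¹ : ℝ) : ℂ) := by
    rw [hl, Complex.star_def, Complex.conj_ofReal, ← Complex.ofReal_mul,
      Real.mul_self_sqrt (by positivity)]
  have hln : ‖l‖ ^ 2 = β⁻¹ := by
    rw [hl, Complex.norm_real, Real.norm_eq_abs, sq_abs, Real.sq_sqrt (by positivity)]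
  have hmem : ∑ k, ∑ i, ‖u i (a k)‖ ^ 2 + β⁻¹ * ∑ k, ∑ i, ‖u i (q * b k * q)‖ ^ 2 -
      C0 * (∑ k, t.N (a k) + β⁻¹ * ∑ k, t.N (q * b k * q)) ∈ V C0 := by
    refine ⟨J0 ⊕ J, inferInstance, Sum.elim a (fun k => l • (q * b k * q)), ?_, ?_⟩
    · simp only [Fintype.sum_sum_type, Sum.elim_inl, Sum.elim_inr, star_smul, smul_mul_smul_comm,
        hll, mul_comm l, ← smul_add, ← smul_sum]
      rw [Complex.coe_smul]
      calc _ ≤ r + q := add_le_add le_rfl (ext_le hq0 hq1 b hd)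
        _ = 1 := by rw [← hq]; abel
    · simp only [Fintype.sum_sum_type, Sum.elim_inl, Sum.elim_inr, map_smul, norm_smul, mul_pow,
        hln, t.N_smul, ← mul_sum]
  have h3 := le_csSup (hVb C0 C0.2) hmem
  change sSup (V C0) < _ at hC0
  have h4 : ∑ k, t.N (q * b k * q) ≤ ∑ k, t.N (b k) := sum_le_sum fun k _ =>
    (N_right t _ hqn).trans (N_left t _ hqn)
  have h5 : ∑ k, ‖u i (q * b k * q)‖ ^ 2 ≤ ∑ k, ∑ i, ‖u i (q * b k * q)‖ ^ 2 :=
    sum_le_sum fun k _ => single_le_sum (f := fun i => ‖u i (q * b k * q)‖ ^ 2)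
      (fun _ _ => sq_nonneg _) (mem_univ i)
  have h6 := mul_le_mul_of_nonneg_right hCC (hN J0 a)
  have h7 : β⁻¹ * ∑ k, ∑ i, ‖u i (q * b k * q)‖ ^ 2 ≤
      β⁻¹ * (C0 * ∑ k, t.N (q * b k * q)) + γ := by linarith
  have h8 := mul_le_mul_of_nonneg_left h7 hβ0.le
  rw [mul_add, mul_inv_cancel_left₀ hβ0.ne', mul_inv_cancel_left₀ hβ0.ne'] at h8
  have h9 := mul_le_mul_of_nonneg_left h4 hC00
  linarith

lemma res (t : Tr (vN S)) {x : vN S} (hx : 0 ≤ x) {s : ℝ} (hs : 0 < s) :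
    ∃ ρ : vN S, 0 ≤ ρ ∧ ρ ≤ 1 ∧ s * (t.τ (1 - ρ)).re ≤ (t.τ x).re ∧ ‖ρ * x * ρ‖ ≤ s := by
  obtain ⟨g0, hg0, g1, g2⟩ := D.exists_invsqrt x.2 hx hs
  let g : vN S := ⟨g0, hg0⟩
  have h1 : star g = g := Subtype.ext g1
  have h2 : g * x * g + s • (g * g) = 1 := Subtype.ext g2
  have h3 : 0 ≤ g * x * g := by simpa [h1] using star_left_conjugate_nonneg hx g
  have h4 : 0 ≤ s • (g * g) := smul_nonneg hs.le (by simpa [h1] using star_mul_self_nonneg g)
  have h5 : s • (g * g) ≤ 1 := by rw [← h2]; exact le_add_of_nonneg_left h3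
  have h6 : g * x * g ≤ 1 := by rw [← h2]; exact le_add_of_nonneg_right h4
  refine ⟨s • (g * g), h4, h5, ?_, ?_⟩
  · have e1 : 1 - s • (g * g) = g * x * g := by rw [← h2]; abel
    have e2 : CFC.sqrt x * CFC.sqrt x = x := CFC.sqrt_mul_sqrt_self _ hx
    have e3 := (IsSelfAdjoint.of_nonneg (CFC.sqrt_nonneg x)).star_eq
    generalize CFC.sqrt x = y at *
    have e4 := star_left_conjugate_le_conjugate h5 y
    rw [e3, mul_one, e2] at e4
    refine le_trans (le_of_eq ?_) (t.re_mono e4)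
    rw [e1, mul_smul_comm, smul_mul_assoc, ← Complex.coe_smul, map_smul, smul_eq_mul,
      Complex.re_ofReal_mul, ← e2]
    congr 2
    rw [← mul_assoc g, mul_assoc (g * y), t.comm]
    simp only [mul_assoc]
  · have e1 := star_left_conjugate_le_conjugate h6 (s • g)
    have e2 := star_left_conjugate_nonneg h3 (s • g)
    have e3 : star (s • g) * (g * x * g) * (s • g) = s • (g * g) * x * s • (g * g) := by
      simp only [star_smul, h1, star_trivial, smul_mul_assoc, mul_smul_comm, mul_assoc]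
    have e4 : star (s • g) * 1 * (s • g) = s • s • (g * g) := by
      simp only [star_smul, h1, star_trivial, smul_mul_assoc, mul_smul_comm, mul_one]
    rw [e3] at e1 e2
    rw [e4] at e1
    refine (CStarAlgebra.norm_le_norm_of_nonneg_of_le e2 e1).trans ?_
    rw [norm_smul, Real.norm_of_nonneg hs.le]
    exact mul_le_of_le_one_right hs.le (norm_le_one h4 h5)

end Vale.Agent.P082.F
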