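import Vale.Agent.P082.PartC

/-! Part G of P082, file 1: the monoid of families and the covering lemma. -/

namespace Vale.Agent.P082.G

open scoped InnerProductSpace ComplexOrder ComplexConjugate
open Vale.Agent.P104 C

universe v
variable {H : Type v} [NormedAddCommGroup H] [InnerProductSpace ℂ H] [CompleteSpace H]
variable {S : Set (H →L[ℂ] H)}

lemma sum_flat {R : Type*} [Ring R] [StarRing R] (l l' : List R) :
    ((l.flatMap fun m => l'.map fun m' => m * m').map fun m => star m * m).sum =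
      (l'.map fun m' => star m' * (l.map fun m => star m * m).sum * m').sum := by
  induction l with
  | nil => simp
  | cons a l ih =>
    simp only [List.flatMap_cons, List.map_append, List.sum_append, ih, List.map_cons,
      List.sum_cons, List.map_map, Function.comp_def, star_mul, mul_add, add_mul,
      List.sum_map_add, mul_assoc]

noncomputable instance : Monoid (Fam S) where
  mul g h := ⟨g.1.flatMap fun m => h.1.map fun m' => m * m', by
    rw [sum_flat]
    refine le_trans (List.sum_le_sum fun m _ => ?_) h.2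
    simpa using star_left_conjugate_le_conjugate g.2 m⟩
  one := ⟨[1], by simp⟩
  mul_assoc a b c := Subtype.ext (by
    change (a.1.flatMap fun m => b.1.map fun m' => m * m').flatMap _ =
      a.1.flatMap fun m => (b.1.flatMap fun m => c.1.map fun m' => m * m').map _
    simp [List.flatMap_assoc, List.flatMap_map, List.map_flatMap, Function.comp_def, mul_assoc])
  one_mul a := Subtype.ext (by
    change ([1] : List (vN S)).flatMap (fun m => a.1.map fun m' => m * m') = _
    simp)
  mul_one a := Subtype.ext (by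
    change a.1.flatMap (fun m => ([1] : List (vN S)).map fun m' => m * m') = _
    simp)

/-- The context of all families. -/
noncomputable def ctx (S : Set (H →L[ℂ] H)) : Ctx (Fam S) S :=
  ⟨Subtype.val, rfl, fun _ _ => rfl, fun g => g.2⟩

/-- The action on pairs of vectors. -/
noncomputable abbrev D (S : Set (H →L[ℂ] H)) : Act (Fam S) (vN S) (H × H) :=
  (ctx S).D2 (vN S).subtype

/-- Unital means. -/
def Q (S : Set (H →L[ℂ] H)) : Set (Mean (Fam S)) := {m | (D S).A m (ps 1) = ps 1}

lemma good_Q : Good (Q S) := by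
  have a := adm_ps (ctx S) (vN S).subtype (1 : H →L[ℂ] H)
  refine ⟨?_, ?_, fun m hm m' hm' => ?_, fun n σ hσ => ?_⟩
  · have : Q S = ⋂ x, {m | m.I (fun g => (D S).P g (ps 1) x) = ps 1 x} := by
      ext m; simp only [Q, Set.mem_setOf_eq, Set.mem_iInter, funext_iff]; rfl
    rw [this]
    exact isClosed_iInter fun x => isClosed_eq (Mean.continuous_I _) continuous_const
  · change _ = _
    rw [Act.A_dirac a, Act.P_one]
  · change _ = _
    rw [← Act.A_A a, hm', hm]
  · funext x
    have h : ∀ i, (σ i).I (fun g => (D S).P g (ps 1) x) = ps 1 x := fun i => congrFun (hσ i) x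
    rw [Act.A, Mean.mix_I]
    simp only [h]
    rw [Finset.sum_const, Finset.card_univ, nsmul_eq_mul, inv_mul_cancel_left₀ (Nat.cast_ne_zero.2 Fintype.card_ne_zero)]

lemma dirac_mem {g : Fam S} (hg : (g.1.map fun m => star m * m).sum = 1) : Mean.dirac g ∈ Q S := by
  change _ = _
  rw [Act.A_dirac (adm_ps (ctx S) (vN S).subtype 1)]
  funext x
  have := list_inner (vN S).subtype g.1 x.2 x.1
  rw [hg, map_one] at this
  exact this

lemma approx {e : H →L[ℂ] H} (he : e ∈ vN S) (hee : e * e = e) {ι : Type*} [Fintype ι] (ζ : ι → H)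
    (hζ : ∀ i, ζ i ∈ (E.U S {e}).topologicalClosure) {δ : ℝ} (hδ : 0 < δ) :
    ∃ (Y : Finset (H →L[ℂ] H)) (s : Y → H →L[ℂ] H),
      (∀ l, s l ∈ vN S) ∧ (∀ l, s l * e = s l) ∧ (∀ α, ∑ l, ‖star (s l) α‖ ^ 2 ≤ ‖α‖ ^ 2) ∧
      ∀ i, ‖ζ i - (∑ l, s l * star (s l)) (ζ i)‖ ≤ δ := by
  classical
  have hδ' : 0 < δ / 3 := by positivity
  choose w hw hw' using fun i => Metric.mem_closure_iff.1 (hζ i) _ hδ'
  choose Y C hY hC hg using fun i => E.exists_gen (hw i)
  set K : ℝ := ∑ i, C i + 1 with hK
  have hK0 : 0 < K := by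
    have : 0 ≤ ∑ i, C i := Finset.sum_nonneg fun i _ => hC i
    linarith
  have hCK : ∀ i, C i ≤ K := fun i => by
    have := Finset.single_le_sum (f := C) (fun i _ => hC i) (Finset.mem_univ i)
    linarith
  set Z := Finset.univ.biUnion Y with hZ
  have hZM : ∀ y ∈ Z, y ∈ vN S := fun y hy => by
    obtain ⟨i, _, hi⟩ := Finset.mem_biUnion.1 hy
    exact hY i y hi
  have ht : 0 < δ / 3 / K := by positivity
  obtain ⟨r, hr, hcol, h2⟩ := E.exists_unit (S := S) (fun l : Z => l.1 * e)
    (fun l => mul_mem (hZM _ l.2) he) ht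
  refine ⟨Z, fun l => r * (l.1 * e), fun l => mul_mem hr (mul_mem (hZM _ l.2) he),
    fun l => by simp only [mul_assoc, hee], hcol, fun i => ?_⟩
  set f := ∑ l : Z, r * (l.1 * e) * star (r * (l.1 * e)) with hf
  have a1 : ‖(1 - f) (w i)‖ ≤ δ / 3 / K * C i := hg i (1 - f) _ ht.le fun y hy α =>
    h2 ⟨y, Finset.mem_biUnion.2 ⟨i, Finset.mem_univ i, hy⟩⟩ α
  have a2 : δ / 3 / K * C i ≤ δ / 3 := by
    calc δ / 3 / K * C i ≤ δ / 3 / K * K := by gcongr; exact hCK i
      _ = δ / 3 := by field_simp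
  have a3 : ‖ζ i - w i‖ ≤ δ / 3 := by rw [← dist_eq_norm]; exact (hw' i).le
  have a4 : ‖f (ζ i - w i)‖ ≤ ‖ζ i - w i‖ := E.norm_f_le hcol _
  have a5 : ζ i - f (ζ i) = (1 - f) (w i) + (ζ i - w i) - f (ζ i - w i) := by
    simp only [sub_apply, one_apply_eq_self, map_sub]; abel
  rw [a5]
  have a6 := norm_sub_le ((1 - f) (w i) + (ζ i - w i)) (f (ζ i - w i))
  have a7 := norm_add_le ((1 - f) (w i)) (ζ i - w i)
  linarith

end Vale.Agent.P082.G
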