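import Vale.Agent.P082.PartP

/-! Part K, file 1: killing cocycles by an invariant mean. -/

namespace Vale.Agent.P082.K

open scoped InnerProductSpace ComplexOrder ComplexConjugate
open Vale.Agent.P104 Vale.Agent.P104.F Vale.Agent.P082.P

section alg
variable {R : Type*} [Ring R]

theorem mm_mm (l : List R) (x y : R) (g : List R → R) :
    mm (y :: l) (fun t => mm (x :: t) g) = mm (x * y :: l) g := by
  induction l generalizing x y g with
  | nil => simp only [mm_one, mul_assoc]
  | cons b l ih =>
    have e : (fun t => mm (x :: y :: t) g) =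
        (fun t => g (x * y :: t)) - fun t => mm (y :: t) fun s => g (x :: s) := rfl
    rw [mm_cons, e, map_sub, ih, mm_cons, mm_cons, mul_assoc]
    abel

/-- The differential on lists. -/
def dd (g : List R → R) : List R → R
  | [] => 0
  | y :: l => y * g l - mm (y :: l) g

theorem dd_cocycle (g : List R → R) (x : R) (l : List R) : mm (x :: l) (dd g) = x * dd g l := by
  cases l with
  | nil => simp [mm_one, dd]
  | cons y l =>
    have e : (fun t => dd g (x :: t)) = x • g - fun t => mm (x :: t) g := rfl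
    rw [mm_cons, e, map_sub, map_smul, mm_mm]
    simp only [dd, smul_eq_mul, mul_sub, mul_assoc]
    abel

theorem cob_dd (k : ℕ) (g : List R → R) (a : Fin (k + 1) → R) :
    cob k (fun b => g (List.ofFn b)) a = dd g (List.ofFn a) := by
  rw [cob_eq, List.ofFn_succ]; rfl

theorem cob_add (k : ℕ) (f g : (Fin k → R) → R) (a : Fin (k + 1) → R) :
    cob k (fun b => f b + g b) a = cob k f a + cob k g a := by
  simp only [cob, mul_add, add_mul, Finset.sum_add_distrib]
  abel

theorem cob_mul (k : ℕ) {z : R} (hz : ∀ a, z * a = a * z) (f : (Fin k → R) → R)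
    (a : Fin (k + 1) → R) : cob k (fun b => z * f b) a = z * cob k f a := by
  have e : ∀ x y, x * (z * y) = z * (x * y) := fun x y => by rw [← mul_assoc, ← hz, mul_assoc]
  simp only [cob, mul_add, Finset.mul_sum, mul_assoc, e]

variable [Algebra ℂ R]

theorem ml_mm {g : List R → R} (h : ML g) : ML fun l => mm l g := by
  intro l
  induction l generalizing g with
  | nil => simp
  | cons a l ih =>
    intro i hi
    cases l with
    | nil =>
      obtain rfl : i = 0 := by simpa using hi
      exact ⟨fun x y => mul_add _ _ _, fun c x => mul_smul_comm _ _ _⟩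
    | cons b l =>
      cases i with
      | zero =>
        refine lin_sub (F := fun x => g (x * b :: l))
          (G := fun x => mm (b :: l) fun t => g (x :: t)) ?_ ?_
        · simpa using h.head (LinearMap.proj l) 1 b
        · simpa using h.head (mm (b :: l)) 1 1
      | succ i =>
        have h2 := ih (h.cons a) i (by simpa using hi)
        cases i with
        | zero =>
          refine lin_sub (F := fun x => g (a * x :: l)) ?_ h2
          simpa using h.head (LinearMap.proj l) a 1
        | succ i => exact lin_sub (h (a * b :: l) (i + 1) (by simpa using hi)) h2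

theorem ml_dd {g : List R → R} (h : ML g) : ML (dd g) := by
  intro l i hi
  cases l with
  | nil => simp at hi
  | cons a l =>
    have h2 := ml_mm h (a :: l) i hi
    cases i with
    | zero => exact lin_sub ⟨fun x y => add_mul _ _ _, fun c x => smul_mul_assoc _ _ _⟩ h2
    | succ i => exact lin_sub (lin_mul (h l i (by simpa using hi)) a) h2

variable [StarRing R]

/-- The sum of `x* T x` over a family. -/
def av (l : List R) (T : R → R) : R := (l.map fun x => star x * T x).sum

omit [Algebra ℂ R] in
theorem av_eq (l : List R) (T : R → R) :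
    av l T = ∑ i : Fin l.length, star l[i.1] * T l[i.1] :=
  (Fin.sum_univ_fun_getElem l fun x => star x * T x).symm

theorem ml_av {f : List R → R} (hf : ML f) (z : R) (p : List R) :
    ML fun l => av p fun x => z * f (x :: l) := fun l i hi =>
  ⟨fun x y => by
    simp only [av_eq, ((hf.cons _) l i hi).map_add, mul_add, Finset.sum_add_distrib],
  fun c x => by
    simp only [av_eq, ((hf.cons _) l i hi).map_smul, mul_smul_comm, Finset.smul_sum]⟩

omit [Algebra ℂ R] in
theorem av_key {f : List R → R} (hc : ∀ y l, mm (y :: l) f = y * f l) {z : R}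
    (hz : ∀ a, z * a = a * z) (p : List R) (y : R) (l : List R) :
    (av p fun x => z * f (x * y :: l)) =
      av p id * (z * f (y :: l)) + mm (y :: l) fun t => av p fun x => z * f (x :: t) := by
  have e : (fun t => av p fun x => z * f (x :: t)) = ∑ i : Fin p.length,
      (star p[i.1] * z) • fun t => f (p[i.1] :: t) := by
    funext t
    simp [av_eq, mul_assoc]
  rw [e, map_sum, av_eq, av_eq, Finset.sum_mul, ← Finset.sum_add_distrib]
  refine Finset.sum_congr rfl fun i _ => ?_
  have := hc p[i.1] (y :: l)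
  rw [mm_cons, sub_eq_iff_eq_add] at this
  rw [this, map_smul, smul_eq_mul, id, mul_add, mul_add, ← mul_assoc z, hz]
  simp only [mul_assoc]

end alg

theorem exists_cml {R : Type*} [NormedRing R] [NormedAlgebra ℂ R] {g : List R → R} (gl : ML g)
    {C : ℝ} (hg : ∀ l, ‖g l‖ ≤ C * pn l) (k : ℕ) :
    ∃ G : ContinuousMultilinearMap ℂ (fun _ : Fin k => R) R,
      ∀ a, cob k G a = dd g (List.ofFn a) := by
  let G : MultilinearMap ℂ (fun _ : Fin k => R) R :=
    { toFun := fun a => g (List.ofFn a)
      map_update_add' := fun a i x y => by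
        simpa only [ofFn_update] using (gl (List.ofFn a) i (by simp)).map_add x y
      map_update_smul' := fun a i c x => by
        simpa only [ofFn_update] using (gl (List.ofFn a) i (by simp)).map_smul c x }
  exact ⟨G.mkContinuous C fun a => (hg _).trans_eq (by rw [pn_ofFn]), fun a => cob_dd k g a⟩

theorem eq_of_unitary {A : Type*} [CStarAlgebra A] {F G : A → A} (hF : IsLinearMap ℂ F)
    (hG : IsLinearMap ℂ G) (h : ∀ s : unitary A, F s = G s) (y : A) : F y = G y :=
  LinearMap.eqOn_span' (f := hF.mk' _) (g := hG.mk' _) (s := (unitary A : Set A))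
    (fun s hs => h ⟨s, hs⟩) (by rw [CStarAlgebra.span_unitary]; trivial)

variable {H : Type*} [NormedAddCommGroup H] [InnerProductSpace ℂ H] [CompleteSpace H]
variable {S : Set (H →L[ℂ] H)} {Γ : Type*} {m : Mean Γ}

theorem W_sub {T T' : vN S} {F F' : Γ → vN S} (h : W m T F) (h' : W m T' F') :
    W m (T - T') fun n => F n - F' n := by
  simpa only [neg_one_mul, ← sub_eq_add_neg] using h.add (h'.left (-1))

theorem W_mm (l : List (vN S)) {g : List (vN S) → vN S} {F : Γ → List (vN S) → vN S}
    (h : ∀ t, W m (g t) fun n => F n t) : W m (mm l g) fun n => mm l (F n) := by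
  induction l generalizing g F with
  | nil => exact W.const 0
  | cons a l ih =>
    cases l with
    | nil => exact (h []).right a
    | cons b l => exact W_sub (h _) (ih fun t => h (a :: t))

theorem inner_av (l : List (vN S)) (T : vN S → vN S) (ξ η : H) :
    ⟪η, (av l T).1 ξ⟫_ℂ =
      (l.map fun x : vN S => ⟪(x : H →L[ℂ] H) η, (T x : H →L[ℂ] H) ξ⟫_ℂ).sum := by
  rw [av_eq, ← Fin.sum_univ_fun_getElem]
  simp only [AddSubmonoidClass.coe_finsetSum, sum_apply, inner_sum, MulMemClass.coe_mul,
    mul_apply_eq_comp, StarMemClass.coe_star, ContinuousLinearMap.star_eq_adjoint,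
    ContinuousLinearMap.adjoint_inner_right]

theorem norm_av {l : List (vN S)} (hl : ((l.map fun m => star m * m).sum : vN S) ≤ 1)
    {T : vN S → vN S} {C : ℝ} (hC : 0 ≤ C) (hT : CB S (fun a => T a) C) : ‖av l T‖ ≤ C := by
  have h1 : ∀ η : H, ∑ i : Fin l.length, ‖(l[i.1] : H →L[ℂ] H) η‖ ^ 2 ≤ ‖η‖ ^ 2 := by
    intro η
    have h0 : (av l id).1 ≤ 1 := hl
    have := ((ContinuousLinearMap.le_def _ _).1 h0).re_inner_nonneg_right η
    rw [sub_apply, inner_sub_right, inner_av, ← Fin.sum_univ_fun_getElem, map_sub, map_sum,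
      sub_nonneg] at this
    simpa only [id, one_apply_eq_self, ← @norm_sq_eq_re_inner ℂ] using this
  refine norm_le_of_sq hC fun ξ => ?_
  have h2 := hT (Fin l.length) Unit (fun i _ => l[i.1]) (fun ξ => by simpa using h1 (ξ ()))
    fun _ => ξ
  simp only [Finset.univ_unique, Finset.sum_singleton] at h2
  set η := (av l T).1 ξ
  have h3 : ‖η‖ ^ 2 ≤ ∑ i : Fin l.length, ‖(l[i.1] : H →L[ℂ] H) η‖ * ‖(T l[i.1] : H →L[ℂ] H) ξ‖ := by
    rw [@norm_sq_eq_re_inner ℂ, inner_av, ← Fin.sum_univ_fun_getElem, map_sum]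
    exact Finset.sum_le_sum fun i _ => re_inner_le_norm _ _
  have h4 : 2 * ∑ i : Fin l.length, ‖(l[i.1] : H →L[ℂ] H) η‖ * ‖(T l[i.1] : H →L[ℂ] H) ξ‖ ≤
      ∑ i : Fin l.length, ‖(l[i.1] : H →L[ℂ] H) η‖ ^ 2 +
        ∑ i : Fin l.length, ‖(T l[i.1] : H →L[ℂ] H) ξ‖ ^ 2 := by
    rw [Finset.mul_sum, ← Finset.sum_add_distrib]
    exact Finset.sum_le_sum fun i _ => by nlinarith [sq_nonneg (‖(l[i.1] : H →L[ℂ] H) η‖ -
      ‖(T l[i.1] : H →L[ℂ] H) ξ‖)]
  linarith [h1 η]

theorem core (m : Mean Γ) (fam : Γ → List (vN S)) {f : List (vN S) → vN S} (hf : ML f)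
    (hc : ∀ y l, mm (y :: l) f = y * f l) {z : vN S} (hz : ∀ a, z * a = a * z) {C : ℝ}
    (h1 : W m 1 fun γ => av (fam γ) id)
    (hb : ∀ l γ, ‖av (fam γ) fun x => z * f (x :: l)‖ ≤ C * pn l)
    (hi : ∀ (l : List (vN S)) (s : unitary (vN S)) (ξ η : H),
      m.I (fun γ => ((fam γ).map fun x : vN S => ⟪((x * s : vN S) : H →L[ℂ] H) η,
        ((z * f (x * s :: l) : vN S) : H →L[ℂ] H) ξ⟫_ℂ).sum) =
      m.I (fun γ => ((fam γ).map fun x : vN S => ⟪(x : H →L[ℂ] H) η,
        ((z * f (x :: l) : vN S) : H →L[ℂ] H) ξ⟫_ℂ).sum)) (k : ℕ) :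
    ∃ g : ContinuousMultilinearMap ℂ (fun _ : Fin k => vN S) (vN S),
      ∀ a, z * f (List.ofFn a) = cob k g a := by
  choose g g1 g2 using fun l => exists_W m (hb l)
  have lin := fun γ => ml_av hf z (fam γ)
  have gl : ML g := fun l i hi =>
    ⟨fun x y => (g1 _).unique (by
      simpa only [(lin _ l i hi).map_add] using (g1 (l.set i x)).add (g1 (l.set i y))),
    fun c x => (g1 _).unique (by
      simpa only [(lin _ l i hi).map_smul] using (g1 (l.set i x)).smul c)⟩
  have key : ∀ y l, W m (z * f (y :: l) + mm (y :: l) g)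
      fun γ => av (fam γ) fun x => z * f (x * y :: l) := by
    intro y l
    simpa only [one_mul, av_key hc hz] using (h1.right (z * f (y :: l))).add (W_mm (y :: l) g1)
  have uni : ∀ (s : unitary (vN S)) l, z * f (s.1 :: l) = dd g (s.1 :: l) := by
    intro s l
    have e : star s.1 * (z * f (s.1 :: l) + mm (s.1 :: l) g) = g l := by
      refine Subtype.ext (ContinuousLinearMap.ext fun ξ => ext_inner_left ℂ fun η => ?_)
      rw [(g1 l).2, MulMemClass.coe_mul, mul_apply_eq_comp, StarMemClass.coe_star,
        ContinuousLinearMap.star_eq_adjoint, ContinuousLinearMap.adjoint_inner_right, (key s l).2]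
      simp only [inner_av]
      exact hi l s ξ η
    have e' : s.1 * star s.1 = 1 := Unitary.coe_mul_star_self s
    rw [dd, ← e, ← mul_assoc, e', one_mul, add_sub_cancel_right]
  obtain ⟨G, hG⟩ := exists_cml gl g2 k
  refine ⟨G, fun a => ?_⟩
  rw [hG, List.ofFn_succ]
  exact eq_of_unitary (lin_mul (hf (a 0 :: _) 0 (by simp)) z) (ml_dd gl (a 0 :: _) 0 (by simp))
    (fun s => uni s _) _

end Vale.Agent.P082.K
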