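import Vale.Agent.P082.K1

/-! Part K, file 2: the two killing lemmas and gluing. -/

namespace Vale.Agent.P082.K

open scoped InnerProductSpace ComplexOrder ComplexConjugate
open Vale.Agent.P104 Vale.Agent.P104.F Vale.Agent.P082.P

variable {H : Type*} [NormedAddCommGroup H] [InnerProductSpace ℂ H] [CompleteSpace H]
variable {S : Set (H →L[ℂ] H)}

theorem comm {z : vN S} (hz : IsCentral S z) (x : vN S) : z * x = x * z :=
  Subtype.ext (hz.2.2 x x.2)

theorem idem {z : vN S} (hz : IsCentral S z) : z * z = z := Subtype.ext hz.2.1.isIdempotentElem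

theorem cb_of_zero {T : vN S → H →L[ℂ] H} (h : ∀ x, T x = 0) (C : ℝ) : CB S T C :=
  fun ι κ _ _ x _ ξ => by simp only [h]; simp; positivity

theorem kill_uinv {z : vN S} (hz : IsCentral S z) (h : UInv S z) (k : ℕ) : Kill S z k := by
  intro φ hφ
  obtain ⟨m, hm⟩ := h
  have nz : ‖z‖ ≤ 1 := hz.2.1.norm_le
  have nu : ∀ w : unitary (vN S), ‖w.1‖ ≤ 1 := fun w => norm_iso (one_mul 1) w.2.1
  have nb : ∀ x l, ‖P.ext φ (x :: l)‖ ≤ ‖φ‖ * pn l * ‖x‖ := fun x l =>
    (norm_ext φ _).trans_eq (by rw [pn_cons]; ring)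
  obtain ⟨g, hg⟩ := core m (fun w => [w.1]) (ext_ml φ) (ext_cocycle φ hφ) (comm hz) (C := ‖φ‖)
    (by
      have : ∀ w : unitary (vN S), av [w.1] id = 1 := fun w => by simp [av]
      simpa only [this] using W.const 1)
    (fun l w => by
      have := pn_nonneg l
      simp only [av, List.map_cons, List.map_nil, List.sum_cons, List.sum_nil, add_zero]
      calc _ ≤ ‖w.1‖ * (‖z‖ * (‖φ‖ * pn l * ‖w.1‖)) := by
            refine (norm_mul_le _ _).trans ?_
            rw [norm_star]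
            gcongr
            exact (norm_mul_le _ _).trans (by gcongr; exact nb _ _)
        _ ≤ 1 * (1 * (‖φ‖ * pn l * 1)) := by gcongr <;> exact nu w
        _ = _ := by ring)
    (fun l s ξ η => by
      have := hm (((ext_ml φ (0 :: l) 0 (by simp)).mk' _).mkContinuous _ fun x => nb x l) s
        ((z : H →L[ℂ] H) ξ) η (congrArg (fun T : vN S => (T : H →L[ℂ] H) ξ) (idem hz))
      simp only [List.map_cons, List.map_nil, List.sum_cons, List.sum_nil, add_zero, comm hz]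
      exact this) k
  exact ⟨g, fun a => by rw [← hg, ext_ofFn, ← mul_assoc, idem hz]⟩

theorem kill_fam (m : Mean (Fam S))
    (h1 : ∀ ξ η : H, m.I (fun l => (l.1.map fun x : vN S =>
      ⟪(x : H →L[ℂ] H) η, (x : H →L[ℂ] H) ξ⟫_ℂ).sum) = ⟪η, ξ⟫_ℂ)
    (h2 : ∀ (T : vN S →ₗ[ℂ] vN S) (C : ℝ), 0 ≤ C → CB S (fun a => T a) C →
      ∀ (s : unitary (vN S)) (ξ η : H),
      m.I (fun l => (l.1.map fun x : vN S =>
        ⟪((x * s : vN S) : H →L[ℂ] H) η, (T (x * s) : H →L[ℂ] H) ξ⟫_ℂ).sum) =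
      m.I (fun l => (l.1.map fun x : vN S =>
        ⟪(x : H →L[ℂ] H) η, (T x : H →L[ℂ] H) ξ⟫_ℂ).sum))
    {z : vN S} (hz : IsCentral S z)
    (hv : ∀ n : ℕ, ∃ v : Fin n → vN S, ∀ i j, star (v i) * v j = if i = j then z else 0)
    (k : ℕ) : Kill S z k := by
  intro φ hφ
  obtain ⟨g0, hg0⟩ := prism hz hv k φ hφ
  set f : List (vN S) → vN S := fun l => P.ext φ l - dd (P.ext g0) l with hf
  have e0 : ∀ a, f (List.ofFn a) = φ a - cob k g0 a := fun a => by
    simp only [hf, ← cob_dd, ext_ofFn]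
  have fl : ML f := fun l i hi => lin_sub (ext_ml φ l i hi) (ml_dd (ext_ml g0) l i hi)
  have fc : ∀ y l, mm (y :: l) f = y * f l := fun y l => by
    have e : f = P.ext φ - dd (P.ext g0) := rfl
    rw [e, map_sub, ext_cocycle φ hφ, dd_cocycle, Pi.sub_apply, mul_sub]
  have cb : ∀ l, CB S (fun x => (z * f (x :: l) : vN S)) (‖φ‖ * pn l) := fun l => by
    by_cases hl : l.length = k
    · subst hl
      have := hg0 l.get
      simpa only [← e0, ← pn_ofFn, List.ofFn_cons, List.ofFn_get] using this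
    · refine cb_of_zero (fun x => ?_) _
      have a1 : P.ext φ (x :: l) = 0 := if_neg (by simpa using hl)
      have a2 : P.ext g0 l = 0 := if_neg hl
      have a3 : mm (x :: l) (P.ext g0) = 0 := mm_eq_zero l x fun t ht => if_neg (ht ▸ hl)
      simp [hf, dd, a1, a2, a3]
  have pos : ∀ l : List (vN S), 0 ≤ ‖φ‖ * pn l := fun l => mul_nonneg (norm_nonneg _) (pn_nonneg _)
  obtain ⟨g, hg⟩ := core m (fun l => l.1) fl fc (comm hz) (C := ‖φ‖)
    ⟨⟨1, fun γ => norm_av γ.2 zero_le_one fun ι κ _ _ x hx ξ => by simpa using hx ξ⟩,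
      fun ξ η => by simp only [inner_av]; exact (h1 ξ η).symm⟩
    (fun l γ => norm_av γ.2 (pos l) (cb l))
    (fun l s ξ η => h2 ((lin_mul (fl (0 :: l) 0 (by simp)) z).mk' _) _ (pos l) (cb l) s ξ η) k
  refine ⟨g0 + g, fun a => ?_⟩
  have e : cob k (⇑(g0 + g)) a = cob k g0 a + cob k g a := cob_add k g0 g a
  rw [e, mul_add, ← hg, e0, ← mul_assoc, idem hz, ← mul_add, add_sub_cancel]

theorem kill_add {z z' : vN S} (hz : IsCentral S z) (hz' : IsCentral S z') (h0 : z * z' = 0)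
    {k : ℕ} (h : Kill S z k) (h' : Kill S z' k) : Kill S (z + z') k := by
  intro φ hφ
  obtain ⟨g, hg⟩ := h φ hφ
  obtain ⟨g', hg'⟩ := h' φ hφ
  refine ⟨(ContinuousLinearMap.mul ℂ _ z).compContinuousMultilinearMap g +
    (ContinuousLinearMap.mul ℂ _ z').compContinuousMultilinearMap g', fun a => ?_⟩
  have e := cob_add k (fun b => z * g b) (fun b => z' * g' b) a
  rw [cob_mul k (comm hz), cob_mul k (comm hz')] at e
  refine Eq.trans ?_ (congrArg _ e.symm)
  simp only [add_mul, mul_add, ← mul_assoc, idem hz, idem hz', h0, ← comm hz z', hg, hg',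
    add_zero, zero_add]

theorem central_mul {z z' : H →L[ℂ] H} (hz : IsCentral S z) (hz' : IsCentral S z') :
    IsCentral S (z * z') :=
  ⟨mul_mem hz.1 hz'.1, hz.2.1.mul hz'.2.1 (hz.2.2 _ hz'.1), fun x hx => by
    rw [mul_assoc, hz'.2.2 x hx, ← mul_assoc, hz.2.2 x hx, mul_assoc]⟩

theorem central_compl {z : H →L[ℂ] H} (hz : IsCentral S z) : IsCentral S (1 - z) :=
  ⟨sub_mem (one_mem _) hz.1, hz.2.1.one_sub, fun x hx => by
    rw [sub_mul, mul_sub, hz.2.2 x hx, one_mul, mul_one]⟩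

theorem monic_mono {z z' : H →L[ℂ] H} (hz : IsCentral S z') (hle : z' * z = z')
    (h : Monic S z) : Monic S z' := by
  intro p hp h1 h2 h3
  obtain ⟨c, k, u, c1, c2, -, c4, c5⟩ := h p hp h1 h2 (by rw [← h3, mul_assoc, hle])
  refine ⟨c, k, u, c1, c2, ?_, c4, c5⟩
  rw [← hz.2.2 c c1.1, ← c5, Finset.mul_sum]
  refine Finset.sum_congr rfl fun i _ => ?_
  rw [← mul_assoc, hz.2.2 _ (c4 i).1, ← (c4 i).2, mul_assoc _ p, h3]

theorem finU_mono {z z' : H →L[ℂ] H} (hle : z' * z = z') (h : FinU S z) : FinU S z' :=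
  fun c v hc h1 => h c v hc (by rw [← h1, mul_assoc, hle])

theorem glue {z : vN S} {y : H →L[ℂ] H} (hz : IsCentral S z) (hm : Monic S (1 - z))
    (hf : FinU S (1 - z)) (hy : IsCentral S y) (hna : NoAbel S (1 - y))
    (hab : ∀ c, IsCentral S c → c ≠ 0 → c * y = c → ∃ e, IsAbel S e ∧ e ≠ 0 ∧ e * c = e)
    (dense : ∀ {z : H →L[ℂ] H}, IsCentral S z → Monic S z → FinU S z →
      ∀ ζ : H, z ζ = ζ → ζ ∈ closure (Dfin S))
    (u1 : ∀ {z : vN S}, IsCentral S z → Monic S z →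
      (∀ c, IsCentral S c → c ≠ 0 → c * z = c → ∃ e, IsAbel S e ∧ e ≠ 0 ∧ e * c = e) → UInv S z)
    (u2 : ∀ {z : vN S}, IsCentral S z → NoAbel S z →
      (∀ ζ : H, (z : H →L[ℂ] H) ζ = ζ → ζ ∈ closure (Dfin S)) → UInv S z)
    {k : ℕ} (hk : Kill S z k) : Kill S 1 k := by
  have hz' := central_compl hz
  have hy' := central_compl hy
  have le : ∀ {x : H →L[ℂ] H}, IsCentral S x → (1 - z) * x * (1 - z) = (1 - z) * x := fun hx => by
    rw [mul_assoc, hx.2.2 _ hz'.1, ← mul_assoc, hz'.2.1.isIdempotentElem]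
  have le' : ∀ {x c : H →L[ℂ] H}, IsCentral S x → c * ((1 - z) * x) = c → c * x = c :=
    fun hx h => by rw [← h, mul_assoc, mul_assoc, hx.2.1.isIdempotentElem]
  have c2 := central_mul hz' hy
  have c3 := central_mul hz' hy'
  have k2 := kill_uinv (z := ⟨_, c2.1⟩) c2 (u1 (z := ⟨_, c2.1⟩) c2 (monic_mono c2 (le hy) hm)
    fun c h1 h2 h3 => hab c h1 h2 (le' hy h3)) k
  have k3 := kill_uinv (z := ⟨_, c3.1⟩) c3 (u2 (z := ⟨_, c3.1⟩) c3
    (fun p h1 h2 => hna p h1 (le' hy' h2))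
    (dense c3 (monic_mono c3 (le hy') hm) (finU_mono (le hy') hf))) k
  have k4 := kill_add (z := ⟨_, c2.1⟩) (z' := ⟨_, c3.1⟩) c2 c3 (Subtype.ext (by
    change (1 - z.1) * y * ((1 - z.1) * (1 - y)) = 0
    rw [← mul_assoc, le hy, mul_assoc, hy.2.1.mul_one_sub_self, mul_zero])) k2 k3
  have e : (⟨_, c2.1⟩ + ⟨_, c3.1⟩ : vN S) = 1 - z := Subtype.ext (by
    change (1 - z.1) * y + (1 - z.1) * (1 - y) = 1 - z.1
    rw [← mul_add, add_sub_cancel, mul_one])
  rw [e] at k4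
  have := kill_add (z' := 1 - z) hz hz' (by rw [mul_sub, idem hz, mul_one, sub_self]) hk k4
  rwa [add_sub_cancel] at this

end Vale.Agent.P082.K
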