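import Vale.Agent.P082.Mean
import Vale.Agent.P104.B2
import Vale.Agent.P104.VB

/-! Means: compactness, positivity, weak integrals. -/

namespace Vale.Agent.P082

open scoped InnerProductSpace ComplexOrder ComplexConjugate
open Vale.Agent.P104 Finset Filter Topology

variable {Γ : Type*} {E : Type*} [NormedAddCommGroup E] [InnerProductSpace ℂ E] [CompleteSpace E]

theorem compactSpace_mean [Nonempty Γ] : CompactSpace (Mean Γ) := by
  refine ⟨isCompact_iff_ultrafilter_le_nhds.2 fun U _ => ?_⟩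
  have hl : ∀ f : Γ → ℂ, ∃ c, Tendsto (fun m : Mean Γ => m.I f) U (𝓝 c) := fun f => by
    by_cases hf : Bd f
    · obtain ⟨C, hC⟩ := hf
      obtain ⟨c, -, hc⟩ := (isCompact_closedBall (0 : ℂ) C).ultrafilter_le_nhds
        (U.map fun m => m.I f) (by
          rw [Ultrafilter.coe_map, le_principal_iff, Filter.mem_map]
          exact univ_mem' fun m => by simpa using m.norm_le f C hC)
      exact ⟨c, hc⟩
    · exact ⟨0, by simp only [fun m : Mean Γ => m.junk f hf]; exact tendsto_const_nhds⟩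
  choose L hL using hl
  refine ⟨⟨L, fun f g hf hg => ?_, fun c f hf => ?_, fun c => ?_, fun f C h => ?_, fun f hf => ?_⟩,
    Set.mem_univ _, ?_⟩
  · refine tendsto_nhds_unique (hL _) ?_
    simp only [fun m : Mean Γ => m.add f g hf hg]
    exact (hL f).add (hL g)
  · refine tendsto_nhds_unique (hL _) ?_
    simp only [fun m : Mean Γ => m.smul c f hf]
    exact (hL f).const_mul c
  · refine tendsto_nhds_unique (hL _) ?_
    simp only [fun m : Mean Γ => m.const c]
    exact tendsto_const_nhds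
  · exact le_of_tendsto' (hL f).norm fun m => m.norm_le f C h
  · refine tendsto_nhds_unique (hL _) ?_
    simp only [fun m : Mean Γ => m.junk f hf]
    exact tendsto_const_nhds
  · rw [nhds_induced, ← tendsto_iff_comap, tendsto_pi_nhds]
    exact hL

theorem re_le (m : Mean Γ) {f : Γ → ℂ} (hf : Bd f) {c : ℝ} (h : ∀ g, (f g).re ≤ c) :
    (m.I f).re ≤ c := by
  obtain ⟨B, hB⟩ := id hf
  refine P104.B.le_of_forall_add (c := B ^ 2) fun d hd => ?_
  have h1 := m.norm_le (fun g => f g + ((|B| + |c| + d⁻¹ : ℝ) : ℂ))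
    (c + (|B| + |c| + d⁻¹) + d * B ^ 2) fun g => by
      have a1 := abs_le.1 ((Complex.abs_re_le_norm (f g)).trans (hB g))
      have a2 := (Complex.abs_im_le_norm (f g)).trans (hB g)
      have a3 : (f g).im ^ 2 ≤ B ^ 2 := by
        rw [← sq_abs]; exact pow_le_pow_left₀ (abs_nonneg _) a2 2
      have a4 := inv_pos.2 hd
      have a5 := le_abs_self B
      have a6 := neg_abs_le c
      have a7 := abs_nonneg c
      have a8 := abs_nonneg B
      refine le_of_sq_le_sq ?_ (by linarith [show 0 ≤ d * B ^ 2 by positivity])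
      rw [Complex.sq_norm, Complex.normSq_apply]
      simp only [Complex.add_re, Complex.ofReal_re, Complex.add_im, Complex.ofReal_im, add_zero]
      have a9 : ((f g).re + (|B| + |c| + d⁻¹)) ^ 2 ≤ (c + (|B| + |c| + d⁻¹)) ^ 2 :=
        pow_le_pow_left₀ (by linarith) (by linarith [h g]) 2
      have a10 : B ^ 2 ≤ (c + (|B| + |c| + d⁻¹)) * (d * B ^ 2) := by
        have : d⁻¹ * (d * B ^ 2) = B ^ 2 := inv_mul_cancel_left₀ hd.ne' _
        nlinarith [mul_nonneg (show 0 ≤ c + |B| + |c| by linarith) (show 0 ≤ d * B ^ 2 by positivity)]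
      nlinarith [sq_nonneg (d * B ^ 2), sq_nonneg B]
  rw [m.add _ _ hf (Bd.const _), m.const] at h1
  have h2 := (Complex.re_le_norm _).trans h1
  simp only [Complex.add_re, Complex.ofReal_re] at h2
  linarith

theorem re_mono (m : Mean Γ) {f f' : Γ → ℂ} (hf : Bd f) (hf' : Bd f')
    (h : ∀ g, (f g).re ≤ (f' g).re) : (m.I f).re ≤ (m.I f').re := by
  have := re_le m (hf.sub hf') (c := 0) fun g => by simpa using h g
  rw [m.sub hf hf'] at this
  simpa using this

lemma im_zero (m : Mean Γ) {f : Γ → ℂ} (hf : Bd f) (h : ∀ g, (f g).im = 0) : (m.I f).im = 0 := by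
  have h1 := re_le m (hf.smul Complex.I) (c := 0) fun g => by simp [h g]
  have h2 := re_le m (hf.smul (-Complex.I)) (c := 0) fun g => by simp [h g]
  rw [m.smul _ _ hf] at h1 h2
  simp at h1 h2
  linarith

theorem I_conj (m : Mean Γ) (f : Γ → ℂ) : m.I (fun g => conj (f g)) = conj (m.I f) := by
  by_cases hf : Bd f
  · obtain ⟨C, hC⟩ := id hf
    have h1 : Bd fun g => ((f g).re : ℂ) :=
      ⟨C, fun g => by simpa using (Complex.abs_re_le_norm _).trans (hC g)⟩
    have h2 : Bd fun g => ((f g).im : ℂ) :=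
      ⟨C, fun g => by simpa using (Complex.abs_im_le_norm _).trans (hC g)⟩
    have e1 : f = fun g => ((f g).re : ℂ) + Complex.I * (f g).im := by
      funext g; rw [mul_comm, Complex.re_add_im]
    have e2 : (fun g => conj (f g)) = fun g => ((f g).re : ℂ) + -Complex.I * (f g).im := by
      funext g; apply Complex.ext <;> simp
    have a1 := im_zero m h1 fun g => by simp
    have a2 := im_zero m h2 fun g => by simp
    rw [e2]
    conv_rhs => rw [e1]
    rw [m.add _ _ h1 (h2.smul _), m.add _ _ h1 (h2.smul _), m.smul _ _ h2, m.smul _ _ h2]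
    apply Complex.ext <;> simp [a1, a2]
  · rw [m.junk f hf, m.junk, map_zero]
    rintro ⟨C, hC⟩
    exact hf ⟨C, fun g => by simpa using hC g⟩

omit [CompleteSpace E] in
lemma bd_inner {F : Γ → E} {C : ℝ} (hF : ∀ g, ‖F g‖ ≤ C) (η : E) : Bd fun g => ⟪η, F g⟫_ℂ :=
  ⟨‖η‖ * C, fun g => (norm_inner_le_norm _ _).trans
    (mul_le_mul_of_nonneg_left (hF g) (norm_nonneg _))⟩

theorem exists_vec (m : Mean Γ) (F : Γ → E) (C : ℝ) (hF : ∀ g, ‖F g‖ ≤ C) :
    ∃ x : E, (∀ η, ⟪η, x⟫_ℂ = m.I fun g => ⟪η, F g⟫_ℂ) ∧ ‖x‖ ≤ C := by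
  have hb : ∀ η, ‖m.I fun g => ⟪η, F g⟫_ℂ‖ ≤ C * ‖η‖ := fun η => m.norm_le _ _ fun g =>
    (norm_inner_le_norm _ _).trans (by
      rw [mul_comm]; exact mul_le_mul_of_nonneg_right (hF g) (norm_nonneg _))
  have hC : 0 ≤ C := (norm_nonneg _).trans (m.norm_le (fun g => (‖F g‖ : ℂ)) C (by simpa using hF))
  let L : E →L[ℂ] ℂ := LinearMap.mkContinuous
    { toFun := fun η => conj (m.I fun g => ⟪η, F g⟫_ℂ)
      map_add' := fun η η' => by
        simp only [inner_add_left, m.add _ _ (bd_inner hF η) (bd_inner hF η'), map_add]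
      map_smul' := fun c η => by
        simp only [inner_smul_left, m.smul _ _ (bd_inner hF η), map_mul, Complex.conj_conj,
          RingHom.id_apply, smul_eq_mul] } C fun η => by simpa using hb η
  refine ⟨(InnerProductSpace.toDual ℂ E).symm L, fun η => ?_, ?_⟩
  · rw [← inner_conj_symm, InnerProductSpace.toDual_symm_apply]
    simp [L]
  · rw [LinearIsometryEquiv.norm_map]
    exact LinearMap.mkContinuous_norm_le _ hC _

omit [CompleteSpace E] in
theorem jensen (m : Mean Γ) {ι : Type*} [Fintype ι] (F : ι → Γ → E) (x : ι → E)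
    (hF : ∀ i, ∃ C, ∀ g, ‖F i g‖ ≤ C) (hx : ∀ i η, ⟪η, x i⟫_ℂ = m.I fun g => ⟪η, F i g⟫_ℂ) :
    ∑ i, ‖x i‖ ^ 2 ≤ (m.I fun g => ((∑ i, ‖F i g‖ ^ 2 : ℝ) : ℂ)).re := by
  choose C hC using hF
  have b1 : Bd fun g => ∑ i, ⟪x i, F i g⟫_ℂ := Bd.sum _ fun i _ => bd_inner (hC i) _
  have b2 : Bd fun g => ((∑ i, ‖F i g‖ ^ 2 : ℝ) : ℂ) := ⟨∑ i, C i ^ 2, fun g => by
    rw [Complex.norm_real, Real.norm_of_nonneg (by positivity)]
    exact sum_le_sum fun i _ => pow_le_pow_left₀ (norm_nonneg _) (hC i g) 2⟩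
  have h := re_mono m (b1.smul 2) (b2.add (Bd.const ((∑ i, ‖x i‖ ^ 2 : ℝ) : ℂ))) fun g => by
    simp only [Complex.add_re, Complex.ofReal_re, ← sum_add_distrib, mul_sum, Complex.re_sum]
    refine sum_le_sum fun i _ => ?_
    have := (Complex.re_le_norm _).trans (norm_inner_le_norm (𝕜 := ℂ) (x i) (F i g))
    simp only [Complex.mul_re, Complex.re_ofNat, Complex.im_ofNat, zero_mul, sub_zero]
    nlinarith [sq_nonneg (‖x i‖ - ‖F i g‖)]
  rw [m.smul _ _ b1, m.add _ _ b2 (Bd.const _), m.const,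
    m.sum _ fun i _ => bd_inner (hC i) _] at h
  simp only [← hx, inner_self_eq_norm_sq_to_K, Complex.add_re, Complex.ofReal_re] at h
  have e : (2 * ∑ i, ((‖x i‖ : ℂ)) ^ 2).re = 2 * ∑ i, ‖x i‖ ^ 2 := by norm_cast
  change (2 * ∑ i, ((‖x i‖ : ℂ)) ^ 2).re ≤ _ at h
  linarith

theorem exists_op {E' : Type*} [NormedAddCommGroup E'] [InnerProductSpace ℂ E'] (m : Mean Γ)
    (F : Γ → E' →L[ℂ] E) (C : ℝ) (hF : ∀ g, ‖F g‖ ≤ C) :
    ∃ T : E' →L[ℂ] E, (∀ ξ η, ⟪η, T ξ⟫_ℂ = m.I fun g => ⟪η, F g ξ⟫_ℂ) ∧ ‖T‖ ≤ C := by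
  have hb : ∀ ξ g, ‖F g ξ‖ ≤ C * ‖ξ‖ := fun ξ g => (F g).le_of_opNorm_le (hF g) ξ
  have hC : 0 ≤ C := (norm_nonneg _).trans (m.norm_le (fun g => (‖F g‖ : ℂ)) C (by simpa using hF))
  choose x h1 h2 using fun ξ => exists_vec m (fun g => F g ξ) _ (hb ξ)
  refine ⟨LinearMap.mkContinuous
    { toFun := x
      map_add' := fun a b => ext_inner_left ℂ fun η => by
        simp only [inner_add_right, h1, map_add, m.add _ _ (bd_inner (hb a) η) (bd_inner (hb b) η)]
      map_smul' := fun c a => ext_inner_left ℂ fun η => by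
        simp only [inner_smul_right, h1, map_smul, m.smul _ _ (bd_inner (hb a) η),
          RingHom.id_apply] } C h2, h1, LinearMap.mkContinuous_norm_le _ hC _⟩

theorem mem_vN_of_mean {S : Set (E →L[ℂ] E)} (m : Mean Γ) (F : Γ → E →L[ℂ] E) (C : ℝ)
    (hF : ∀ g, ‖F g‖ ≤ C) (hS : ∀ g, F g ∈ vN S) {T : E →L[ℂ] E}
    (hT : ∀ ξ η, ⟪η, T ξ⟫_ℂ = m.I fun g => ⟪η, F g ξ⟫_ℂ) : T ∈ vN S := by
  have key : ∀ y : E →L[ℂ] E, (∀ g, y * F g = F g * y) → y * T = T * y := fun y hy => by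
    ext ξ
    refine ext_inner_left ℂ fun η => ?_
    rw [ContinuousLinearMap.mul_apply, ContinuousLinearMap.mul_apply, hT,
      ← ContinuousLinearMap.adjoint_inner_left, hT]
    congr 1
    funext g
    rw [ContinuousLinearMap.adjoint_inner_left]
    exact congr(⟪η, $(hy g) ξ⟫_ℂ)
  exact (StarSubalgebra.mem_centralizer_iff ℂ).2 fun y hy =>
    ⟨key _ fun g => ((StarSubalgebra.mem_centralizer_iff ℂ).1 (hS g) y hy).1,
      key _ fun g => ((StarSubalgebra.mem_centralizer_iff ℂ).1 (hS g) y hy).2⟩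

end Vale.Agent.P082
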