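import Vale.Agent.P082.Defs

/-! Basic constructions of means. -/

namespace Vale.Agent.P082

open Finset

variable {Γ Δ : Type*}

lemma Bd.add {f g : Γ → ℂ} (hf : Bd f) (hg : Bd g) : Bd fun x => f x + g x := by
  obtain ⟨C, hC⟩ := hf; obtain ⟨D, hD⟩ := hg
  exact ⟨C + D, fun x => (norm_add_le _ _).trans (add_le_add (hC x) (hD x))⟩

lemma Bd.smul {f : Γ → ℂ} (c : ℂ) (hf : Bd f) : Bd fun x => c * f x := by
  obtain ⟨C, hC⟩ := hf
  exact ⟨‖c‖ * C, fun x => by rw [norm_mul]; exact mul_le_mul_of_nonneg_left (hC x) (norm_nonneg _)⟩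

lemma Bd.const (c : ℂ) : Bd fun _ : Γ => c := ⟨‖c‖, fun _ => le_rfl⟩

lemma Bd.sub {f g : Γ → ℂ} (hf : Bd f) (hg : Bd g) : Bd fun x => f x - g x := by
  simpa [sub_eq_add_neg] using hf.add (hg.smul (-1))

lemma Bd.comp {f : Γ → ℂ} (hf : Bd f) (φ : Δ → Γ) : Bd fun x => f (φ x) :=
  let ⟨C, hC⟩ := hf; ⟨C, fun x => hC _⟩

lemma Bd.sum {ι : Type*} (s : Finset ι) {f : ι → Γ → ℂ} (hf : ∀ i ∈ s, Bd (f i)) :
    Bd fun x => ∑ i ∈ s, f i x := by
  classical
  induction s using Finset.induction_on with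
  | empty => simpa using Bd.const 0
  | insert a s ha ih =>
    simp only [sum_insert ha]
    exact (hf a (mem_insert_self _ _)).add (ih fun i hi => hf i (mem_insert_of_mem hi))

lemma Bd.of_fintype [Fintype Γ] (f : Γ → ℂ) : Bd f :=
  ⟨∑ g, ‖f g‖, fun g => single_le_sum (f := fun g => ‖f g‖) (fun _ _ => norm_nonneg _) (mem_univ g)⟩

namespace Mean

lemma sub (m : Mean Γ) {f g : Γ → ℂ} (hf : Bd f) (hg : Bd g) :
    m.I (fun x => f x - g x) = m.I f - m.I g := by
  have := m.add f _ hf (hg.smul (-1))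
  rw [m.smul _ _ hg] at this
  simpa [sub_eq_add_neg] using this

lemma sum (m : Mean Γ) {ι : Type*} (s : Finset ι) {f : ι → Γ → ℂ} (hf : ∀ i ∈ s, Bd (f i)) :
    m.I (fun x => ∑ i ∈ s, f i x) = ∑ i ∈ s, m.I (f i) := by
  classical
  induction s using Finset.induction_on with
  | empty => simpa using m.const 0
  | insert a s ha ih =>
    simp only [sum_insert ha]
    rw [m.add _ _ (hf a (mem_insert_self _ _)) (Bd.sum s fun i hi => hf i (mem_insert_of_mem hi)),
      ih fun i hi => hf i (mem_insert_of_mem hi)]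

lemma bd_I (k : Γ → Mean Δ) {f : Δ → ℂ} (hf : Bd f) : Bd fun g => (k g).I f :=
  let ⟨C, hC⟩ := hf; ⟨C, fun g => (k g).norm_le f C hC⟩

open Classical in
/-- Point evaluation. -/
noncomputable def dirac (g : Γ) : Mean Γ where
  I f := if Bd f then f g else 0
  add f f' h h' := by simp [h, h', h.add h']
  smul c f h := by simp [h, h.smul c]
  const c := by simp [Bd.const c]
  norm_le f C h := by rw [if_pos ⟨C, h⟩]; exact h g
  junk f h := by simp [h]

lemma dirac_I (g : Γ) {f : Γ → ℂ} (hf : Bd f) : (dirac g).I f = f g := by simp [dirac, hf]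

/-- Iterated mean. -/
def bind (m : Mean Γ) (k : Γ → Mean Δ) : Mean Δ where
  I f := m.I fun g => (k g).I f
  add f f' h h' := by
    simp only [(k _).add f f' h h']; exact m.add _ _ (bd_I k h) (bd_I k h')
  smul c f h := by simp only [(k _).smul c f h]; exact m.smul _ _ (bd_I k h)
  const c := by simp only [(k _).const, m.const]
  norm_le f C h := m.norm_le _ C fun g => (k g).norm_le f C h
  junk f h := by simp only [(k _).junk f h, m.const]

lemma bind_I (m : Mean Γ) (k : Γ → Mean Δ) (f : Δ → ℂ) :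
    (m.bind k).I f = m.I fun g => (k g).I f := rfl

/-- Push forward. -/
noncomputable def map (m : Mean Γ) (φ : Γ → Δ) : Mean Δ := m.bind fun g => dirac (φ g)

lemma map_I (m : Mean Γ) (φ : Γ → Δ) {f : Δ → ℂ} (hf : Bd f) :
    (m.map φ).I f = m.I fun g => f (φ g) := by simp only [map, bind_I, dirac_I _ hf]

/-- Uniform mean on a finite type. -/
noncomputable def unif (Γ : Type*) [Fintype Γ] [Nonempty Γ] : Mean Γ where
  I f := (Fintype.card Γ : ℂ)⁻¹ * ∑ g, f g
  add f f' _ _ := by rw [sum_add_distrib, mul_add]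
  smul c f _ := by rw [← mul_sum, mul_left_comm]
  const c := by
    rw [sum_const, card_univ, nsmul_eq_mul, inv_mul_cancel_left₀ (by simp)]
  norm_le f C h := by
    rw [norm_mul, norm_inv, Complex.norm_natCast, ← div_eq_inv_mul,
      div_le_iff₀ (by exact_mod_cast Fintype.card_pos), mul_comm]
    simpa using norm_sum_le_of_le univ fun g _ => h g
  junk f h := absurd (Bd.of_fintype f) h

lemma unif_I [Fintype Γ] [Nonempty Γ] (f : Γ → ℂ) :
    (unif Γ).I f = (Fintype.card Γ : ℂ)⁻¹ * ∑ g, f g := rfl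

/-- Convolution: `k` runs through `m` (outer, rightmost) and `w` through `m'`. -/
noncomputable def conv [Mul Γ] (m m' : Mean Γ) : Mean Γ := m.bind fun k => m'.map (· * k)

lemma conv_I [Mul Γ] (m m' : Mean Γ) {f : Γ → ℂ} (hf : Bd f) :
    (m.conv m').I f = m.I fun k => m'.I fun w => f (w * k) := by
  simp only [conv, bind_I, map_I _ _ hf]

/-- Uniform mixture of finitely many means. -/
noncomputable def mix {ι : Type*} [Fintype ι] [Nonempty ι] (σ : ι → Mean Γ) : Mean Γ :=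
  (unif ι).bind σ

lemma mix_I {ι : Type*} [Fintype ι] [Nonempty ι] (σ : ι → Mean Γ) (f : Γ → ℂ) :
    (mix σ).I f = (Fintype.card ι : ℂ)⁻¹ * ∑ i, (σ i).I f := rfl

noncomputable instance : TopologicalSpace (Mean Γ) := TopologicalSpace.induced Mean.I inferInstance

lemma continuous_I (f : Γ → ℂ) : Continuous fun m : Mean Γ => m.I f :=
  (continuous_apply f).comp continuous_induced_dom

end Mean

/-- A closed convex semigroup of means containing the unit. -/
structure Good [Monoid Γ] (Q : Set (Mean Γ)) : Prop where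
  closed : IsClosed Q
  one : Mean.dirac 1 ∈ Q
  conv : ∀ m ∈ Q, ∀ m' ∈ Q, m.conv m' ∈ Q
  mix : ∀ (n : ℕ) (σ : Fin (n + 1) → Mean Γ), (∀ i, σ i ∈ Q) → Mean.mix σ ∈ Q

end Vale.Agent.P082

namespace Vale.Agent.P082

open scoped InnerProductSpace
open Vale.Agent.P104

variable {H : Type*} [NormedAddCommGroup H] [InnerProductSpace ℂ H] [CompleteSpace H]

/-- `Hm` is the left average of `u` with respect to the unitary mean `m`. -/
def IsAvg {S : Set (H →L[ℂ] H)} (m : Mean (unitary (vN S))) (u Hm : vN S →ₗ[ℂ] H) : Prop :=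
  ∀ (a : vN S) (η : H), ⟪η, Hm a⟫_ℂ = m.I fun w => ⟪((w : vN S) : H →L[ℂ] H) η, u (w * a)⟫_ℂ

/-- `Hm` is modular for the matrix units `E` and `ε`-modular for diagonal contractions. -/
structure Mod {S : Set (H →L[ℂ] H)} {I : Type} [Fintype I] (E : I → I → vN S) (z : vN S)
    (Hm : vN S →ₗ[ℂ] H) (ε : ℝ) : Prop where
  unit : ∀ i j a, Hm (E i j * a) = (E i j : H →L[ℂ] H) (Hm a)
  zero : ∀ a, Hm ((1 - z) * a) = 0
  diag : ∀ κ : I → vN S, (∀ j i i', E i i' * κ j = κ j * E i i') → (∀ j, ‖κ j‖ ≤ 1) → ∀ a,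
    ‖Hm ((∑ j, κ j * E j j) * a) - ((∑ j, κ j * E j j : vN S) : H →L[ℂ] H) (Hm a)‖ ^ 2 ≤
      ε * ‖a‖ ^ 2

end Vale.Agent.P082
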