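import Vale.Agent.P082.Cob

/-! Part P, file 1: the prism identity on lists. -/

namespace Vale.Agent.P082.P

open Finset

section alg
variable {R : Type*} [Ring R] [Algebra ℂ R] {Ω : Type*} [Fintype Ω]

/-- The differential without its first term. -/
def mm : List R → (List R → R) →ₗ[R] R
  | [] => 0
  | [a] => LinearMap.toSpanSingleton R R a ∘ₗ LinearMap.proj []
  | a :: b :: l => LinearMap.proj (a * b :: l) - mm (b :: l) ∘ₗ LinearMap.funLeft R R (List.cons a)

/-- The prism operator. -/
noncomputable def pr (u u' : Ω → R) : List R → R → (List R → R) →ₗ[R] R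
  | [], y => LinearMap.toSpanSingleton R R y ∘ₗ LinearMap.proj []
  | a :: l, y => (Fintype.card Ω : ℂ)⁻¹ •
      ∑ ω, pr u u' l (u ω) ∘ₗ LinearMap.funLeft R R (List.cons (y * a * u' ω))

/-- The homotopy. -/
noncomputable def hm (u u' : Ω → R) : List R → R → (List R → R) →ₗ[R] R
  | [], y => LinearMap.proj [y]
  | a :: l, y => LinearMap.proj (y :: a :: l) - (Fintype.card Ω : ℂ)⁻¹ •
      ∑ ω, hm u u' l (u ω) ∘ₗ LinearMap.funLeft R R (List.cons (y * a * u' ω))

variable {u u' : Ω → R}

omit [Algebra ℂ R] in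
theorem mm_nil (f : List R → R) : mm [] f = 0 := rfl
omit [Algebra ℂ R] in
theorem mm_one (a : R) (f : List R → R) : mm [a] f = f [] * a := rfl
omit [Algebra ℂ R] in
theorem mm_cons (a b : R) (l : List R) (f : List R → R) :
    mm (a :: b :: l) f = f (a * b :: l) - mm (b :: l) (fun t => f (a :: t)) := rfl
theorem pr_nil (y : R) (f : List R → R) : pr u u' [] y f = f [] * y := rfl
theorem pr_cons (a y : R) (l : List R) (f : List R → R) : pr u u' (a :: l) y f =
    (Fintype.card Ω : ℂ)⁻¹ • ∑ ω, pr u u' l (u ω) (fun t => f (y * a * u' ω :: t)) := by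
  rw [pr, LinearMap.smul_apply, LinearMap.sum_apply]; rfl
theorem hm_nil (y : R) (f : List R → R) : hm u u' [] y f = f [y] := rfl
theorem hm_cons (a y : R) (l : List R) (f : List R → R) : hm u u' (a :: l) y f =
    f (y :: a :: l) -
      (Fintype.card Ω : ℂ)⁻¹ • ∑ ω, hm u u' l (u ω) (fun t => f (y * a * u' ω :: t)) := by
  rw [hm, LinearMap.sub_apply, LinearMap.smul_apply, LinearMap.sum_apply]; rfl

theorem avg_const [Nonempty Ω] (x : R) : (Fintype.card Ω : ℂ)⁻¹ • ∑ _ω : Ω, x = x := by
  rw [sum_const, card_univ, ← Nat.cast_smul_eq_nsmul ℂ, smul_smul,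
    inv_mul_cancel₀ (by simp), one_smul]

theorem hm_shift (l : List R) (b y : R) {f f' : List R → R}
    (h : ∀ c t, f' (c :: t) = f (b * c :: t)) : hm u u' l y f' = hm u u' l (b * y) f := by
  cases l with
  | nil => simp only [hm_nil, h]
  | cons a l => simp only [hm_cons, h, mul_assoc]

theorem map_avg {M : Type*} [AddCommGroup M] [Module R M] [Module ℂ M] [IsScalarTower ℂ R M]
    (L : M →ₗ[R] R) (F : Ω → M) :
    L ((Fintype.card Ω : ℂ)⁻¹ • ∑ ω, F ω) = (Fintype.card Ω : ℂ)⁻¹ • ∑ ω, L (F ω) := by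
  rw [LinearMap.map_smul_of_tower, map_sum]

theorem prism_id [Nonempty Ω] (hu : ∀ ω, u' ω * u ω = 1) (l : List R) (y : R) (f : List R → R) :
    pr u u' l y f = hm u u' l y (fun t => mm t f) + mm l (fun t => hm u u' t y f) := by
  induction l generalizing y f with
  | nil => simp [pr_nil, hm_nil, mm_nil, mm_one]
  | cons a l ih =>
    have h1 : ∀ ω, hm u u' l (u ω) (fun t => mm (y * a * u' ω :: t) f) =
        hm u u' l (y * a) f - hm u u' l (u ω) (fun t => mm t fun s => f (y * a * u' ω :: s)) := by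
      intro ω
      have a1 := hm_shift (u := u) (u' := u') l (y * a * u' ω) (u ω) (f := f)
        (f' := (fun t => mm (y * a * u' ω :: t) f) +
          fun t => mm t fun s => f (y * a * u' ω :: s)) (fun c t => by simp [mm_cons])
      rw [map_add, mul_assoc _ (u' ω), hu, mul_one] at a1
      rw [← a1, add_sub_cancel_right]
    simp only [pr_cons, hm_cons, ih, h1, sum_add_distrib, sum_sub_distrib, smul_add, smul_sub,
      avg_const]
    cases l with
    | nil => simp [mm_nil, mm_one, mm_cons, hm_nil]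
    | cons c l =>
      have h2 : (fun t => hm u u' (a :: t) y f) = (fun t => f (y :: a :: t)) -
          (Fintype.card Ω : ℂ)⁻¹ • ∑ ω, fun t => hm u u' t (u ω) fun s => f (y * a * u' ω :: s) := by
        funext t
        simp [hm_cons]
      rw [mm_cons a c l, h2, map_sub, map_avg, mm_cons y a, mm_cons a c l, hm_cons c, hm_cons (a * c)]
      simp only [mul_assoc]
      abel

/-- The averaged prism. -/
noncomputable def PP (u u' : Ω → R) (f : List R → R) (l : List R) : R :=
  (Fintype.card Ω : ℂ)⁻¹ • ∑ ω, u' ω * pr u u' l (u ω) f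

/-- The averaged homotopy. -/
noncomputable def HH (u u' : Ω → R) (f : List R → R) (l : List R) : R :=
  (Fintype.card Ω : ℂ)⁻¹ • ∑ ω, u' ω * hm u u' l (u ω) f

theorem PP_eq [Nonempty Ω] (hu : ∀ ω, u' ω * u ω = 1) {f : List R → R}
    (hf : ∀ y l, mm (y :: l) f = y * f l) (a : R) (l : List R) :
    PP u u' f (a :: l) = f (a :: l) - (a * HH u u' f l - mm (a :: l) (HH u u' f)) := by
  have h1 : ∀ y, hm u u' (a :: l) y (fun t => mm t f) = y * (f (a :: l) - a * HH u u' f l) := by
    intro y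
    have : ∀ ω, hm u u' l (u ω) (fun t => y * a * u' ω * f t) = y * a * (u' ω * hm u u' l (u ω) f) :=
      fun ω => by rw [← mul_assoc]; exact map_smul (hm u u' l (u ω)) (y * a * u' ω) f
    simp only [hm_cons, hf, this]
    simp only [HH, mul_sub, mul_smul_comm, mul_sum, mul_assoc]
  have h2 : HH u u' f = (Fintype.card Ω : ℂ)⁻¹ • ∑ ω, u' ω • fun t => hm u u' t (u ω) f := by
    funext t
    simp [HH]
  have h3 : mm (a :: l) (HH u u' f) =
      (Fintype.card Ω : ℂ)⁻¹ • ∑ ω, u' ω * mm (a :: l) fun t => hm u u' t (u ω) f := by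
    rw [h2, map_avg]
    simp only [map_smul, smul_eq_mul]
  rw [h3]
  simp only [PP, prism_id hu (a :: l), h1, mul_add, ← mul_assoc, hu, one_mul, sum_add_distrib,
    smul_add, avg_const]
  abel

/-- Multilinearity of a function on lists. -/
def ML (f : List R → R) : Prop := ∀ (l : List R) (i : ℕ), i < l.length →
  IsLinearMap ℂ fun x => f (l.set i x)

theorem ML.cons {f : List R → R} (h : ML f) (b : R) : ML fun t => f (b :: t) :=
  fun l i hi => h (b :: l) (i + 1) (by simpa using hi)

theorem ML.head {f : List R → R} (h : ML f) (L : (List R → R) →ₗ[R] R) (p q : R) :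
    IsLinearMap ℂ fun x => L fun t => f (p * x * q :: t) := by
  have h0 : ∀ t, IsLinearMap ℂ fun x => f (x :: t) := fun t => h (0 :: t) 0 (by simp)
  refine ⟨fun x y => ?_, fun c x => ?_⟩
  · rw [← map_add]; congr 1; funext t
    simp only [mul_add, add_mul, (h0 t).map_add, Pi.add_apply]
  · rw [← LinearMap.map_smul_of_tower]; congr 1; funext t
    simp only [mul_smul_comm, smul_mul_assoc, (h0 t).map_smul, Pi.smul_apply]

theorem lin_avg {F : Ω → R → R} (h : ∀ ω, IsLinearMap ℂ (F ω)) :
    IsLinearMap ℂ fun x => (Fintype.card Ω : ℂ)⁻¹ • ∑ ω, F ω x :=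
  ⟨fun x y => by simp only [(h _).map_add, sum_add_distrib, smul_add],
    fun c x => by simp only [(h _).map_smul, ← smul_sum]; rw [smul_comm]⟩

theorem lin_sub {F G : R → R} (h : IsLinearMap ℂ F) (h' : IsLinearMap ℂ G) :
    IsLinearMap ℂ fun x => F x - G x :=
  ⟨fun x y => by rw [h.map_add, h'.map_add]; abel,
    fun c x => by rw [h.map_smul, h'.map_smul, smul_sub]⟩

theorem lin_mul {F : R → R} (h : IsLinearMap ℂ F) (b : R) : IsLinearMap ℂ fun x => b * F x :=
  ⟨fun x y => by rw [h.map_add, mul_add], fun c x => by rw [h.map_smul, mul_smul_comm]⟩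

theorem ML.hm {f : List R → R} (h : ML f) (y : R) : ML fun l => hm u u' l y f := by
  intro l
  induction l generalizing y f with
  | nil => simp
  | cons a l ih =>
    intro i hi
    cases i with
    | zero =>
      simp only [List.set_cons_zero, hm_cons]
      exact lin_sub (h (y :: a :: l) 1 (by simp)) (lin_avg fun ω => h.head _ _ _)
    | succ i =>
      simp only [List.set_cons_succ, hm_cons]
      exact lin_sub (h (y :: a :: l) (i + 2) (by simpa using hi))
        (lin_avg fun ω => ih (h.cons _) _ i (by simpa using hi))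

theorem ML.HH {f : List R → R} (h : ML f) : ML (HH u u' f) :=
  fun l i hi => lin_avg fun _ => lin_mul (h.hm _ l i hi) _

theorem ML.pr_lin {f : List R → R} (h : ML f) (l : List R) :
    IsLinearMap ℂ fun y => pr u u' l y f := by
  cases l with
  | nil => exact ⟨fun x y => mul_add _ _ _, fun c x => mul_smul_comm _ _ _⟩
  | cons a l =>
    simp only [pr_cons]
    refine lin_avg fun ω => ?_
    simpa only [one_mul, mul_assoc] using h.head (pr u u' l (u ω)) 1 (a * u' ω)

omit [Algebra ℂ R] in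
theorem cob_eq (k : ℕ) (f : List R → R) (a : Fin (k + 1) → R) :
    cob k (fun b => f (List.ofFn b)) a = a 0 * f (List.ofFn (Fin.tail a)) - mm (List.ofFn a) f := by
  rw [cob, add_assoc, sub_eq_add_neg]
  congr 1
  induction k generalizing f with
  | zero => simp [mm_one]
  | succ k ih =>
    have h := ih (fun t => f (a 0 :: t)) (Fin.tail a)
    have e1 : List.ofFn a = a 0 :: Fin.tail a 0 :: List.ofFn (Fin.tail (Fin.tail a)) := by
      rw [List.ofFn_succ, List.ofFn_succ]; rfl
    have e2 : List.ofFn (Fin.tail a) = Fin.tail a 0 :: List.ofFn (Fin.tail (Fin.tail a)) := by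
      rw [List.ofFn_succ]; rfl
    have e3 : List.ofFn (Fin.contractNth (0 : Fin (k + 1)).castSucc (· * ·) a) =
        a 0 * Fin.tail a 0 :: List.ofFn (Fin.tail (Fin.tail a)) := by
      rw [List.ofFn_succ]
      congr 1
    have e4 : ∀ j : Fin k, List.ofFn (Fin.contractNth j.succ.castSucc (· * ·) a) =
        a 0 :: List.ofFn (Fin.contractNth j.castSucc (· * ·) (Fin.tail a)) := by
      intro j
      rw [List.ofFn_succ]
      congr 2
      funext i
      simp only [Fin.contractNth, Fin.val_succ, Fin.val_castSucc, add_lt_add_iff_right,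
        add_left_inj]
      rfl
    have e5 : List.ofFn (Fin.init a) = a 0 :: List.ofFn (Fin.init (Fin.tail a)) := by
      rw [List.ofFn_succ]
      rfl
    rw [e1, mm_cons, ← e2, neg_sub, ← neg_neg (mm _ _), ← h, Fin.sum_univ_succ, e3, e5]
    simp only [e4, Fin.val_succ, Fin.val_zero, pow_succ (-1 : R) (_ + 1), mul_neg_one, neg_mul,
      sum_neg_distrib, zero_add, pow_one, one_mul]
    have e6 : Fin.tail a (Fin.last k) = a (Fin.last (k + 1)) := rfl
    rw [e6]
    abel

omit [Algebra ℂ R] in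
theorem mm_eq_zero (l : List R) (y : R) {f : List R → R}
    (h : ∀ t, t.length = l.length → f t = 0) : mm (y :: l) f = 0 := by
  induction l generalizing y f with
  | nil => rw [mm_one, h [] rfl, zero_mul]
  | cons a l ih =>
    rw [mm_cons, h _ (by simp), ih a fun t ht => h _ (by simp [ht]), sub_zero]

end alg

section norm
variable {R : Type*} [NormedRing R] [NormedAlgebra ℂ R] {Ω : Type*} [Fintype Ω] {u u' : Ω → R}

/-- Product of the norms. -/
def pn (l : List R) : ℝ := (l.map norm).prod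

omit [NormedAlgebra ℂ R] in
theorem pn_cons (a : R) (l : List R) : pn (a :: l) = ‖a‖ * pn l := by simp [pn]

omit [NormedAlgebra ℂ R] in
theorem pn_nonneg (l : List R) : 0 ≤ pn l := by
  induction l with
  | nil => simp [pn]
  | cons a l ih => rw [pn_cons]; positivity

omit [NormedAlgebra ℂ R] in
theorem pn_ofFn {k : ℕ} (a : Fin k → R) : pn (List.ofFn a) = ∏ i, ‖a i‖ := by
  simp [pn, List.map_ofFn, List.prod_ofFn]

omit [NormedAlgebra ℂ R] in
theorem pn_map_le {α : R → R} (h : ∀ a, ‖α a‖ ≤ ‖a‖) (l : List R) : pn (l.map α) ≤ pn l := by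
  induction l with
  | nil => simp
  | cons a l ih =>
    rw [List.map_cons, pn_cons, pn_cons]
    exact mul_le_mul (h a) ih (pn_nonneg _) (norm_nonneg _)

theorem norm_avg [Nonempty Ω] {F : Ω → R} {b : ℝ} (h : ∀ ω, ‖F ω‖ ≤ b) :
    ‖(Fintype.card Ω : ℂ)⁻¹ • ∑ ω, F ω‖ ≤ b := by
  rw [norm_smul, norm_inv, Complex.norm_natCast, ← div_eq_inv_mul,
    div_le_iff₀ (by exact_mod_cast Fintype.card_pos), mul_comm]
  simpa using norm_sum_le_of_le univ fun g _ => h g

omit [NormedAlgebra ℂ R] [Fintype Ω] in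
theorem bd_cons (hu' : ∀ ω, ‖u' ω‖ ≤ 1) {f : List R → R} {C : ℝ} (hC : 0 ≤ C)
    (h : ∀ l, ‖f l‖ ≤ C * pn l) (y a : R) (ω : Ω) (t : List R) :
    ‖f (y * a * u' ω :: t)‖ ≤ C * (‖y‖ * ‖a‖) * pn t := by
  refine (h _).trans ?_
  rw [pn_cons, ← mul_assoc]
  have := pn_nonneg t
  gcongr
  calc _ ≤ ‖y * a‖ * ‖u' ω‖ := norm_mul_le _ _
    _ ≤ ‖y‖ * ‖a‖ * 1 := mul_le_mul (norm_mul_le _ _) (hu' ω) (norm_nonneg _) (by positivity)
    _ = _ := mul_one _

theorem norm_pr [Nonempty Ω] (hu : ∀ ω, ‖u ω‖ ≤ 1) (hu' : ∀ ω, ‖u' ω‖ ≤ 1) (l : List R) (y : R)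
    {f : List R → R} {C : ℝ} (hC : 0 ≤ C) (h : ∀ l, ‖f l‖ ≤ C * pn l) :
    ‖pr u u' l y f‖ ≤ C * ‖y‖ * pn l := by
  induction l generalizing y f C with
  | nil =>
    have := h []
    rw [pr_nil]
    simp only [pn, List.map_nil, List.prod_nil, mul_one] at this ⊢
    exact (norm_mul_le _ _).trans (by gcongr)
  | cons a l ih =>
    rw [pr_cons]
    refine norm_avg fun ω => (ih _ (by positivity) (bd_cons hu' hC h y a ω)).trans ?_
    have := pn_nonneg l
    rw [pn_cons]
    calc _ ≤ C * (‖y‖ * ‖a‖) * 1 * pn l := by gcongr; exact hu ω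
      _ = _ := by ring

theorem norm_hm [Nonempty Ω] (hu : ∀ ω, ‖u ω‖ ≤ 1) (hu' : ∀ ω, ‖u' ω‖ ≤ 1) (l : List R) (y : R)
    {f : List R → R} {C : ℝ} (hC : 0 ≤ C) (h : ∀ l, ‖f l‖ ≤ C * pn l) :
    ‖hm u u' l y f‖ ≤ (l.length + 1) * (C * ‖y‖ * pn l) := by
  induction l generalizing y f C with
  | nil => simpa [pn, hm_nil] using h [y]
  | cons a l ih =>
    rw [hm_cons]
    have h0 := pn_nonneg l
    have h1 := h (y :: a :: l)
    have h2 : ‖(Fintype.card Ω : ℂ)⁻¹ • ∑ ω, hm u u' l (u ω) (fun t => f (y * a * u' ω :: t))‖ ≤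
        (l.length + 1) * (C * (‖y‖ * ‖a‖) * 1 * pn l) :=
      norm_avg fun ω => (ih _ (by positivity) (bd_cons hu' hC h y a ω)).trans
        (by gcongr; exact hu ω)
    refine (norm_sub_le _ _).trans ((add_le_add h1 h2).trans (le_of_eq ?_))
    simp only [pn_cons, List.length_cons]
    push_cast
    ring

theorem norm_PP [Nonempty Ω] (hu : ∀ ω, ‖u ω‖ ≤ 1) (hu' : ∀ ω, ‖u' ω‖ ≤ 1) (l : List R)
    {f : List R → R} {C : ℝ} (hC : 0 ≤ C) (h : ∀ l, ‖f l‖ ≤ C * pn l) :
    ‖PP u u' f l‖ ≤ C * pn l := by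
  refine norm_avg fun ω => (norm_mul_le _ _).trans ?_
  have := pn_nonneg l
  calc _ ≤ 1 * (C * 1 * pn l) := by
        gcongr
        · exact hu' ω
        · exact (norm_pr hu hu' l _ hC h).trans (by gcongr; exact hu ω)
    _ = _ := by ring

theorem norm_HH [Nonempty Ω] (hu : ∀ ω, ‖u ω‖ ≤ 1) (hu' : ∀ ω, ‖u' ω‖ ≤ 1) (l : List R)
    {f : List R → R} {C : ℝ} (hC : 0 ≤ C) (h : ∀ l, ‖f l‖ ≤ C * pn l) :
    ‖HH u u' f l‖ ≤ (l.length + 1) * C * pn l := by
  refine norm_avg fun ω => (norm_mul_le _ _).trans ?_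
  have := pn_nonneg l
  calc _ ≤ 1 * ((l.length + 1) * (C * 1 * pn l)) := by
        gcongr
        · exact hu' ω
        · exact (norm_hm hu hu' l _ hC h).trans (by gcongr; exact hu ω)
    _ = _ := by ring

variable {K : ℕ} (φ : ContinuousMultilinearMap ℂ (fun _ : Fin K => R) R)

/-- Extension of a multilinear map to lists. -/
noncomputable def ext (l : List R) : R := if l.length = K then φ (fun i => l.getD i 0) else 0

theorem ext_ofFn (a : Fin K → R) : ext φ (List.ofFn a) = φ a := by
  rw [ext, if_pos (by simp)]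
  congr 1
  funext i
  simp

theorem ext_ml : ML (ext φ) := by
  intro l i hi
  by_cases h : l.length = K
  · have e : ∀ x, ext φ (l.set i x) =
        φ (Function.update (fun j : Fin K => l.getD j 0) ⟨i, h ▸ hi⟩ x) := by
      intro x
      rw [ext, if_pos (by simpa using h)]
      congr 1
      funext j
      by_cases hj : j = ⟨i, h ▸ hi⟩
      · subst hj; simp [hi]
      · rw [Function.update_of_ne hj]
        have : i ≠ j := fun h' => hj (Fin.ext h'.symm)
        simp [List.getElem?_set_ne this]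
    simp only [e]
    exact ⟨fun x y => φ.map_update_add _ _ _ _, fun c x => φ.map_update_smul _ _ _ _⟩
  · simp only [ext, List.length_set, h, if_false]
    exact ⟨by simp, by simp⟩

theorem norm_ext (l : List R) : ‖ext φ l‖ ≤ ‖φ‖ * pn l := by
  by_cases h : l.length = K
  · subst h
    have := φ.le_opNorm l.get
    rwa [← ext_ofFn, ← pn_ofFn, List.ofFn_get] at this
  · rw [ext, if_neg h, norm_zero]
    exact mul_nonneg (norm_nonneg _) (pn_nonneg _)

theorem ext_cocycle (hφ : ∀ a, cob K φ a = 0) (y : R) (l : List R) :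
    mm (y :: l) (ext φ) = y * ext φ l := by
  by_cases h : l.length = K
  · subst h
    have h1 := cob_eq l.length (ext φ) (Fin.cons y l.get)
    simp only [ext_ofFn, Fin.cons_zero, Fin.tail_cons, List.ofFn_cons, List.ofFn_get] at h1
    rw [hφ] at h1
    exact (sub_eq_zero.1 h1.symm).symm
  · rw [mm_eq_zero l y (f := ext φ) fun t ht => if_neg (ht ▸ h), ext, if_neg h, mul_zero]

omit [NormedRing R] [NormedAlgebra ℂ R] in
theorem ofFn_update {k : ℕ} [DecidableEq (Fin k)] (a : Fin k → R) (i : Fin k) (x : R) :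
    List.ofFn (Function.update a i x) = (List.ofFn a).set i x := by
  refine List.ext_getElem (by simp) fun j h1 h2 => ?_
  rw [List.getElem_set]
  split_ifs with h
  · subst h; simp
  · rw [List.getElem_ofFn, List.getElem_ofFn, Function.update_of_ne]
    exact fun h' => h (by rw [← h'])

end norm

end Vale.Agent.P082.P
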