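import Vale.Agent.P082.P1

/-! Part P, file 2: module properties of the averaged prism. -/

namespace Vale.Agent.P082.P

open Finset

section mod
variable {R : Type*} [Ring R] [Algebra ℂ R] {Ω : Type*} [Fintype Ω] {u u' : Ω → R}

/-- `b` passes through the average. -/
def Mod (u u' : Ω → R) (b : R) : Prop :=
  ∀ F : R → R → R, (∀ y, IsLinearMap ℂ fun x => F x y) → (∀ x, IsLinearMap ℂ (F x)) →
    ∑ ω, F (b * u' ω) (u ω) = ∑ ω, F (u' ω) (u ω * b)

theorem Mod.one : Mod u u' 1 := fun F _ _ => by simp only [one_mul, mul_one]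

theorem Mod.mul {b c : R} (hb : Mod u u' b) (hc : Mod u u' c) : Mod u u' (b * c) := by
  intro F h1 h2
  have e1 := hc (fun x y => F (b * x) y)
    (fun y => ⟨fun x x' => by rw [mul_add, (h1 y).map_add],
      fun t x => by rw [mul_smul_comm, (h1 y).map_smul]⟩) (fun x => h2 _)
  have e2 := hb (fun x y => F x (y * c)) (fun y => h1 _)
    (fun x => ⟨fun y y' => by rw [add_mul, (h2 x).map_add],
      fun t y => by rw [smul_mul_assoc, (h2 x).map_smul]⟩)
  simp only [mul_assoc] at e1 e2 ⊢
  rw [e1, e2]

theorem Mod.sub {b c : R} (hb : Mod u u' b) (hc : Mod u u' c) : Mod u u' (b - c) := by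
  intro F h1 h2
  simp only [sub_mul, mul_sub, (h1 _).map_sub, (h2 _).map_sub, sum_sub_distrib, hb F h1 h2,
    hc F h1 h2]

theorem Mod.smul {b : R} (hb : Mod u u' b) (t : ℂ) : Mod u u' (t • b) := by
  intro F h1 h2
  simp only [smul_mul_assoc, mul_smul_comm, (h1 _).map_smul, (h2 _).map_smul, ← smul_sum,
    hb F h1 h2]

theorem pass_cons {b : R} (hb : Mod u u' b) {f : List R → R} (hf : ML f) {l l' : List R}
    (h : ∀ (y : R) (f : List R → R), ML f → pr u u' l y f * b = pr u u' l' (y * b) f) (X y : R) :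
    pr u u' (X :: l) y f * b = pr u u' (X * b :: l') y f := by
  have e := hb (fun x w => pr u u' l' w fun t => f (y * X * x :: t))
    (fun w => by simpa only [mul_one] using hf.head (pr u u' l' w) (y * X) 1)
    (fun x => (hf.cons _).pr_lin l')
  simp only [mul_assoc] at e
  simp only [pr_cons, smul_mul_assoc, sum_mul, h _ _ (hf.cons _), e, mul_assoc]

theorem pass {b : R} (hb : Mod u u' b) {α β : R → R} (h : ∀ a, α a * b = b * β a) (l : List R)
    (y : R) (f : List R → R) (hf : ML f) :
    pr u u' (l.map α) y f * b = pr u u' (l.map β) (y * b) f := by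
  induction l generalizing y f with
  | nil => simp only [List.map_nil, pr_nil, mul_assoc]
  | cons a l ih =>
    rw [List.map_cons, List.map_cons, pass_cons hb hf ih, h]
    simp only [pr_cons, mul_assoc]

theorem PP_right {b : R} (hb : Mod u u' b) {α β : R → R} (h : ∀ a, α a * b = b * β a)
    {f : List R → R} (hf : ML f) (X : R) (l : List R) :
    PP u u' f (X :: l.map α) * b = PP u u' f (X * b :: l.map β) := by
  simp only [PP, smul_mul_assoc, sum_mul, mul_assoc, pass_cons hb hf (pass hb h l)]

theorem PP_left {b : R} (hb : Mod u u' b) {f : List R → R} (hf : ML f) (X : R) (l : List R) :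
    b * PP u u' f (X :: l) = PP u u' f (b * X :: l) := by
  have e := hb (fun x w => x * pr u u' (X :: l) w f)
    (fun w => ⟨fun x x' => add_mul _ _ _, fun t x => smul_mul_assoc _ _ _⟩)
    (fun x => lin_mul (hf.pr_lin _) x)
  have e' : ∀ y, pr u u' (X :: l) (y * b) f = pr u u' (b * X :: l) y f := fun y => by
    simp only [pr_cons, mul_assoc]
  simp only [PP, mul_smul_comm, mul_sum, ← mul_assoc, e, e']

theorem pr_conj (w w' : R) (l : List R) (y : R) (f : List R → R) :
    pr (fun ω => u ω * w) (fun ω => w' * u' ω) l (y * w) f =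
      pr u u' (l.map fun a => w * a * w') y f * w := by
  induction l generalizing y f with
  | nil => simp only [List.map_nil, pr_nil, mul_assoc]
  | cons a l ih => simp only [List.map_cons, pr_cons, ih, smul_mul_assoc, sum_mul, mul_assoc]

theorem PP_conj (w w' : R) (l : List R) (f : List R → R) :
    PP (fun ω => u ω * w) (fun ω => w' * u' ω) f l =
      w' * PP u u' f (l.map fun a => w * a * w') * w := by
  simp only [PP, pr_conj, mul_smul_comm, smul_mul_assoc, mul_sum, sum_mul, mul_assoc]

end mod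

section grp
variable {R : Type*} [Ring R] [StarRing R] {I : Type*} [Fintype I] [DecidableEq I]

/-- Orthogonal isometries under a central projection. -/
structure Iso (z : R) (v : I → R) : Prop where
  zz : z * z = z
  sz : star z = z
  cz : ∀ a, z * a = a * z
  vz : ∀ i, v i * z = v i
  vv : ∀ i j, star (v i) * v j = if i = j then z else 0

/-- Signed permutations. -/
abbrev Om (I : Type*) := Equiv.Perm I × (I → ℤˣ)

/-- The unitary attached to a signed permutation. -/
def gg (v : I → R) (ω : Om I) : R :=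
  ∑ i, (ω.2 i : ℤ) • (v (ω.1 i) * star (v i)) + (1 - ∑ i, v i * star (v i))

/-- The amplification. -/
def Am (v : I → R) (a : R) : R := ∑ i, v i * a * star (v i)

variable {z : R} {v : I → R}

omit [Fintype I] in
theorem Iso.zs (h : Iso z v) (i : I) : z * star (v i) = star (v i) := by
  rw [← h.sz, ← star_mul, h.vz]

omit [Fintype I] in
theorem Iso.vv' (h : Iso z v) (i j : I) (a : R) :
    star (v i) * (v j * a) = if i = j then z * a else 0 := by
  rw [← mul_assoc, h.vv, ite_mul, zero_mul]

theorem Iso.qv (h : Iso z v) (j : I) : (1 - ∑ i, v i * star (v i)) * v j = 0 := by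
  simp [sub_mul, sum_mul, mul_assoc, h.vv, h.vz]

theorem Iso.vq (h : Iso z v) (j : I) : star (v j) * (1 - ∑ i, v i * star (v i)) = 0 := by
  simp [mul_sub, mul_sum, h.vv', h.zs]

theorem Iso.gv (h : Iso z v) (ω : Om I) (j : I) : gg v ω * v j = (ω.2 j : ℤ) • v (ω.1 j) := by
  simp [gg, add_mul, h.qv, sum_mul, mul_assoc, h.vv, h.vz]

theorem Iso.gq (h : Iso z v) (ω : Om I) :
    gg v ω * (1 - ∑ i, v i * star (v i)) = 1 - ∑ i, v i * star (v i) := by
  rw [gg, add_mul, sum_mul, mul_sub (1 - _), mul_sum]
  simp only [smul_mul_assoc, mul_assoc, h.vq]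
  simp only [← mul_assoc, h.qv]
  simp

/-- Product of signed permutations. -/
def omul (ω τ : Om I) : Om I := (ω.1 * τ.1, fun i => ω.2 (τ.1 i) * τ.2 i)

theorem Iso.gmul (h : Iso z v) (ω τ : Om I) : gg v ω * gg v τ = gg v (omul ω τ) := by
  conv_lhs => rw [gg, gg.eq_def v τ, ← gg, mul_add, h.gq, mul_sum]
  simp only [mul_smul_comm, ← mul_assoc, h.gv, smul_mul_assoc, smul_smul]
  simp only [gg, omul, Units.val_mul, mul_comm, Equiv.Perm.coe_mul, Function.comp]

omit [DecidableEq I] in
theorem star_gg (ω : Om I) : star (gg v ω) = gg v (ω.1⁻¹, fun i => ω.2 (ω.1⁻¹ i)) := by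
  simp only [gg, star_add, star_sub, star_sum, star_zsmul, star_mul, star_star, star_one]
  congr 1
  rw [← Equiv.sum_comp ω.1 fun i => (ω.2 (ω.1⁻¹ i) : ℤ) • (v (ω.1⁻¹ i) * star (v i))]
  simp

omit [DecidableEq I] in
theorem gg_one : gg v (1, 1) = 1 := by simp [gg]

theorem Iso.sg (h : Iso z v) (ω : Om I) : star (gg v ω) * gg v ω = 1 := by
  rw [star_gg, h.gmul, ← gg_one (v := v)]
  congr 1
  ext i <;> simp [omul]

theorem Iso.gs (h : Iso z v) (ω : Om I) : gg v ω * star (gg v ω) = 1 := by
  rw [star_gg, h.gmul, ← gg_one (v := v)]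
  simp only [omul, mul_inv_cancel, Int.units_mul_self]
  rfl

omit [DecidableEq I] in
theorem omul_bij (τ : Om I) : Function.Bijective fun ω => omul ω τ := by
  refine Finite.injective_iff_bijective.1 fun ω ω' e => ?_
  simp only [omul, Prod.mk.injEq, mul_left_inj] at e
  refine Prod.ext e.1 (funext fun i => ?_)
  simpa using congrFun e.2 (τ.1⁻¹ i)

variable [Algebra ℂ R]

theorem Iso.mod_gg (h : Iso z v) (τ : Om I) : Mod (gg v) (fun ω => star (gg v ω)) (gg v τ) := by
  intro F _ _
  rw [← (omul_bij τ).sum_comp]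
  simp only [← h.gmul, star_mul, ← mul_assoc, h.gs, one_mul]

theorem Iso.mod_e (h : Iso z v) (p q : I) :
    Mod (gg v) (fun ω => star (gg v ω)) (v p * star (v q)) := by
  have e1 : v q * star (v q) = (2⁻¹ : ℂ) • (1 - gg v (1, Function.update 1 q (-1))) := by
    have : ∀ i, ((Function.update (1 : I → ℤˣ) q (-1) i : ℤˣ) : ℤ) • (v i * star (v i)) =
        v i * star (v i) - if i = q then (2 : ℂ) • (v q * star (v q)) else 0 := by
      intro i
      by_cases hi : i = q
      · subst hi; simp [two_smul]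
      · simp [hi]
    simp [gg, this, smul_smul]
  have e2 : v p * star (v q) = gg v (Equiv.swap p q, 1) * (v q * star (v q)) := by
    simp [← mul_assoc, h.gv]
  rw [e2, e1]
  exact (h.mod_gg _).mul ((Mod.one.sub (h.mod_gg _)).smul _)

omit [Algebra ℂ R] in
theorem Iso.am_e (h : Iso z v) (a : R) (p q : I) :
    Am v a * (v p * star (v q)) = v p * a * star (v q) := by
  simp [Am, sum_mul, mul_assoc, h.vv', h.zs]

omit [Algebra ℂ R] in
theorem Iso.e_am (h : Iso z v) (a : R) (p q : I) :
    v p * star (v q) * Am v a = v p * a * star (v q) := by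
  simp only [Am, mul_sum, mul_assoc, h.vv', mul_ite, mul_zero, sum_ite_eq, mem_univ, if_true]
  rw [← mul_assoc, h.vz]

omit [Fintype I] [Algebra ℂ R] in
theorem Iso.ww (h : Iso z v) (o : I) : star (v o + (1 - z)) * (v o + (1 - z)) = 1 := by
  have a1 : z * v o = v o := by rw [h.cz, h.vz]
  have a2 : star (v o) * z = star (v o) := by rw [← h.cz, h.zs]
  simp [mul_add, add_mul, mul_sub, sub_mul, h.vv, h.sz, h.zz, a1, a2]

theorem Iso.key (h : Iso z v) (o : I) {f : List R → R} (hf : ML f) {ι κ : Type*} [Fintype ι]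
    [Fintype κ] (r : ι ↪ I) (c : κ ↪ I) (x : ι → κ → R) (l : List R) (i : ι) (j : κ) :
    z * PP (fun ω => gg v ω * (v o + (1 - z))) (fun ω => star (v o + (1 - z)) * star (gg v ω)) f
      (x i j :: l) = star (v (r i)) * PP (gg v) (fun ω => star (gg v ω)) f
        ((∑ i, v (r i) * ∑ j, x i j * star (v (c j))) :: l.map (Am v)) * v (c j) := by
  classical
  set w := v o + (1 - z) with hw
  have a1 : z * v o = v o := by rw [h.cz, h.vz]
  have a2 : star (v o) * z = star (v o) := by rw [← h.cz, h.zs]
  have b1 : w * z = v o := by simp [hw, add_mul, sub_mul, h.vz, h.zz]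
  have b2 : z * star w = star (v o) := by rw [← h.sz, ← star_mul, b1]
  have b3 : star w * v o = z := by simp [hw, add_mul, sub_mul, h.vv, h.sz, a1]
  have b4 : star (v o) * w = z := by simp [hw, mul_add, mul_sub, h.vv, a2]
  have c1 : ∀ p, star (v o) * (v o * star (v p)) = star (v p) := fun p => by simp [h.vv', h.zs]
  have c2 : ∀ p, v p * star (v o) * v o = v p := fun p => by simp [mul_assoc, h.vv, h.vz]
  have d1 : ∀ a, w * a * star w * (v o * star (v o)) = v o * star (v o) * Am v a := fun a => by
    rw [h.e_am, mul_assoc, ← mul_assoc (star w), b3, ← mul_assoc, mul_assoc w, ← h.cz, ← mul_assoc,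
      b1]
  have d2 : ∀ p q a, Am v a * (v p * star (v q)) = v p * star (v q) * Am v a := fun p q a => by
    rw [h.am_e, h.e_am]
  have k1 : ∀ p q (X : R) (α : R → R) (hα : ∀ a, α a * (v q * star (v o)) = v q * star (v o) * Am v a),
      star (v p) * PP (gg v) (fun ω => star (gg v ω)) f (X :: l.map α) * v q =
      star (v o) * PP (gg v) (fun ω => star (gg v ω)) f
        (v o * star (v p) * X * (v q * star (v o)) :: l.map (Am v)) * v o := by
    intro p q X α hα
    rw [← PP_right (h.mod_e q o) hα hf, ← PP_left (h.mod_e o p) hf]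
    simp only [← mul_assoc]
    rw [mul_assoc (star (v o)), c1, mul_assoc _ (v q), mul_assoc _ _ (v o), c2]
  rw [PP_conj, List.map_cons, k1 _ _ _ _ (d2 _ _), ← h.zz, mul_assoc z, h.cz (_ * _), ← mul_assoc,
    ← mul_assoc, ← mul_assoc, b2, mul_assoc _ w, b1, k1 _ _ _ _ d1]
  congr 4
  have e1 : v o * star (v o) * (w * x i j * star w) * (v o * star (v o)) =
      v o * x i j * star (v o) := by
    calc _ = v o * (star (v o) * w) * x i j * (star w * v o) * star (v o) := by
          simp only [mul_assoc]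
      _ = _ := by rw [b3, b4, h.vz, mul_assoc _ z, h.zs]
  rw [e1]
  have e2 : star (v (r i)) * ∑ i, v (r i) * ∑ j, x i j * star (v (c j)) =
      z * ∑ j, x i j * star (v (c j)) := by
    rw [mul_sum]
    simp only [h.vv', r.injective.eq_iff, sum_ite_eq, mem_univ, if_true]
  have e3 : (∑ j, x i j * star (v (c j))) * (v (c j) * star (v o)) = x i j * star (v o) := by
    simp only [sum_mul, mul_assoc, h.vv', c.injective.eq_iff, mul_ite, mul_zero, sum_ite_eq',
      mem_univ, if_true, h.zs]
  rw [mul_assoc (v o) (star (v (r i))), e2, ← mul_assoc (v o) z, h.vz, mul_assoc, ← e3]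
  simp only [mul_assoc]

end grp

end Vale.Agent.P082.P
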