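import Vale.Agent.P082.M1

/-! Absorbing means and iterated means. -/

namespace Vale.Agent.P082

open Finset

variable {Γ : Type*}

namespace M

/-- The action of a mean on functions. -/
def act [Mul Γ] (m : Mean Γ) (f : Γ → ℂ) : Γ → ℂ := fun g => m.I fun h => f (h * g)

lemma act_le [Mul Γ] (m : Mean Γ) {f : Γ → ℂ} {C : ℝ} (h : ∀ g, ‖f g‖ ≤ C) (g : Γ) :
    ‖act m f g‖ ≤ C := m.norm_le _ _ fun _ => h _

lemma act_bd [Mul Γ] (m : Mean Γ) {f : Γ → ℂ} (h : Bd f) : Bd (act m f) :=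
  let ⟨C, hC⟩ := h; ⟨C, act_le m hC⟩

lemma act_conv [Semigroup Γ] (m m' : Mean Γ) {f : Γ → ℂ} (h : Bd f) :
    act (m.conv m') f = act m (act m' f) := by
  funext g
  simp only [act, Mean.conv_I _ _ (h.comp fun x => x * g), mul_assoc]

lemma act_sub [Mul Γ] (m : Mean Γ) {f f' : Γ → ℂ} (h : Bd f) (h' : Bd f') (g : Γ) :
    act m (fun x => f x - f' x) g = act m f g - act m f' g :=
  m.sub (h.comp fun x => x * g) (h'.comp fun x => x * g)

/-- `m` is dominated by `m'`. -/
def Le [Mul Γ] (m m' : Mean Γ) : Prop :=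
  ∀ f, Bd f → ∀ C, (∀ g, ‖act m' f g‖ ≤ C) → ∀ g, ‖act m f g‖ ≤ C

lemma closed_le [Mul Γ] (m' : Mean Γ) : IsClosed {m | Le m m'} := by
  simp only [Le, Set.setOf_forall]
  exact isClosed_iInter fun f => isClosed_iInter fun _ => isClosed_iInter fun C =>
    isClosed_iInter fun _ => isClosed_iInter fun g =>
      isClosed_le (Mean.continuous_I _).norm continuous_const

/-- Convolution powers. -/
noncomputable def pw [Monoid Γ] (g : Mean Γ) : ℕ → Mean Γ
  | 0 => Mean.dirac 1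
  | n + 1 => (pw g n).conv g

end M

open M in
theorem exists_absorbs [Monoid Γ] {Q : Set (Mean Γ)} (hQ : Good Q) : ∃ e ∈ Q, Absorbs e Q := by
  haveI := compactSpace_mean (Γ := Γ)
  obtain ⟨e, he⟩ := exists_maximal_of_chains_bounded (r := fun a b : Q => Le b.1 a.1) (fun c hc => by
    rcases c.eq_empty_or_nonempty with rfl | hne
    · exact ⟨⟨_, hQ.one⟩, by simp⟩
    haveI := hne.to_subtype
    obtain ⟨m, hm⟩ := IsCompact.nonempty_iInter_of_directed_nonempty_isCompact_isClosed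
      (fun a : c => Q ∩ {m | Le m a.1.1}) (fun a b => by
        by_cases hab : a.1 = b.1
        · exact ⟨a, le_rfl, fun m hm => ⟨hm.1, by rw [← hab]; exact hm.2⟩⟩
        rcases hc a.2 b.2 hab with h | h
        · exact ⟨b, fun m hm => ⟨hm.1, fun f hf C hC => hm.2 f hf C (h f hf C hC)⟩, le_rfl⟩
        · exact ⟨a, le_rfl, fun m hm => ⟨hm.1, fun f hf C hC => hm.2 f hf C (h f hf C hC)⟩⟩)
      (fun a => ⟨a.1.1, a.1.2, fun f _ C hC => hC⟩)
      (fun a => (hQ.closed.inter (closed_le _)).isCompact) fun a => hQ.closed.inter (closed_le _)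
    rw [Set.mem_iInter] at hm
    exact ⟨⟨m, (hm (Classical.arbitrary _)).1⟩, fun a ha => (hm ⟨a, ha⟩).2⟩)
    (fun h1 h2 f hf C hC => h2 f hf C (h1 f hf C hC))
  refine ⟨e.1, e.2, fun σ hσ χ hχ => ?_⟩
  obtain ⟨B, hB⟩ := id hχ
  have hmin : ∀ ρ ∈ Q, Le e.1 (ρ.conv e.1) := fun ρ hρ =>
    he ⟨_, hQ.conv _ hρ _ e.2⟩ fun f hf C hC g => by
      rw [act_conv _ _ hf]; exact act_le _ hC g
  set g := e.1.conv σ with hg
  have hpw : ∀ n, pw g n ∈ Q := fun n => by
    induction n with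
    | zero => exact hQ.one
    | succ n ih => exact hQ.conv _ ih _ (hQ.conv _ e.2 _ hσ)
  have b1 := act_bd e.1 hχ
  have b2 := act_bd σ b1
  have key : ∀ n : ℕ, ‖act e.1 (fun x => act σ (act e.1 χ) x - χ x) 1‖ ≤ 2 * B / (n + 1) := by
    intro n
    refine hmin _ (hQ.mix n _ fun i => hpw i) _ (b2.sub hχ) _ (fun y => ?_) 1
    rw [act_conv _ _ (b2.sub hχ)]
    have e1 : ∀ i, act (pw g i) (act e.1 fun x => act σ (act e.1 χ) x - χ x) y =
        act (pw g (i + 1)) (act e.1 χ) y - act (pw g i) (act e.1 χ) y := fun i => by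
      rw [pw, act_conv _ _ b1, hg, act_conv _ _ b1, ← act_sub _ (act_bd _ b2) b1]
      congr 1
      funext x
      exact act_sub _ b2 hχ x
    change ‖(Fintype.card (Fin (n + 1)) : ℂ)⁻¹ * ∑ i : Fin (n + 1),
      act (pw g i) (act e.1 fun x => act σ (act e.1 χ) x - χ x) y‖ ≤ _
    simp only [e1]
    rw [Fin.sum_univ_eq_sum_range (fun i => act (pw g (i + 1)) (act e.1 χ) y -
      act (pw g i) (act e.1 χ) y), sum_range_sub (fun i => act (pw g i) (act e.1 χ) y), norm_mul,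
      norm_inv, Complex.norm_natCast, Fintype.card_fin, ← div_eq_inv_mul]
    push_cast
    refine div_le_div_of_nonneg_right ((norm_sub_le _ _).trans ?_) (by positivity)
    linarith [act_le (pw g (n + 1)) (act_le e.1 hB) y, act_le (pw g 0) (act_le e.1 hB) y]
  have h0 : act e.1 (fun x => act σ (act e.1 χ) x - χ x) 1 = 0 := by
    refine norm_le_zero_iff.1 (ge_of_tendsto' (x := Filter.atTop) ?_ key)
    simpa [div_eq_mul_inv] using
      (tendsto_one_div_add_atTop_nhds_zero_nat (𝕜 := ℝ)).const_mul (2 * B)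
  rw [act_sub _ b2 hχ, sub_eq_zero] at h0
  simpa only [act, mul_one, mul_assoc] using h0

lemma M.iter_fin [Monoid Γ] {e : Mean Γ} (he : Absorbs e Set.univ) (n : ℕ) :
    ∃ M : Mean (Fin n → Γ), ∀ (j : Fin n) (A : (Fin n → Γ) → Γ) (χ : Γ → ℂ), Bd χ →
      (∀ x g, A (Function.update x j g) = A x) →
      M.I (fun x => e.I fun κ => χ (κ * (A x * x j))) = e.I χ := by
  have hb : ∀ {Δ : Type _} {χ : Γ → ℂ} (_ : Bd χ) (φ : Δ → Γ),
      Bd fun x => e.I fun κ => χ (κ * φ x) := fun hχ φ => (M.act_bd e hχ).comp φ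
  induction n with
  | zero => exact ⟨Mean.dirac 1, fun j => j.elim0⟩
  | succ n ih =>
    obtain ⟨M, hM⟩ := ih
    refine ⟨e.bind fun a => M.map fun x => (Fin.cons a x : Fin (n + 1) → Γ), fun j A χ hχ hA => ?_⟩
    simp only [Mean.bind_I, Mean.map_I _ _ (hb hχ _)]
    refine Fin.cases (fun hA => ?_) (fun j hA => ?_) j hA
    · rw [← he (M.map fun x => A (Fin.cons 1 x)) (Set.mem_univ _) χ hχ]
      congr 1
      funext a
      simp only [mul_assoc]
      rw [Mean.map_I _ _ (hb hχ fun w => w * a)]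
      congr 1
      funext x
      rw [← hA (Fin.cons 1 x) a, Fin.update_cons_zero, Fin.cons_zero]
    · have : ∀ a, M.I (fun x => e.I fun κ => χ (κ * (A (Fin.cons a x) *
          (Fin.cons a x : Fin (n + 1) → Γ) j.succ))) = e.I χ := fun a =>
        hM j (fun x => A (Fin.cons a x)) χ hχ fun x g => by rw [Fin.cons_update, hA]
      simp only [this, e.const]

theorem exists_iter [Monoid Γ] {e : Mean Γ} (he : Absorbs e Set.univ) (ι : Type) [Fintype ι]
    [DecidableEq ι] : ∃ M : Mean (ι → Γ), ∀ (j : ι) (A : (ι → Γ) → Γ) (χ : Γ → ℂ), Bd χ →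
      (∀ x g, A (Function.update x j g) = A x) →
      M.I (fun x => e.I fun κ => χ (κ * (A x * x j))) = e.I χ := by
  obtain ⟨P, hM⟩ := M.iter_fin he (Fintype.card ι)
  let q := Fintype.equivFin ι
  refine ⟨P.map fun y => y ∘ q, fun j A χ hχ hA => ?_⟩
  rw [Mean.map_I _ _ (f := fun x => e.I fun κ => χ (κ * (A x * x j)))
    ((M.act_bd e hχ).comp fun x : ι → Γ => A x * x j)]
  exact hM (q j) (fun y => A (y ∘ q)) χ hχ fun y g => by
    rw [Function.update_comp_eq_of_injective _ q.injective, hA]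

end Vale.Agent.P082
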