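import Vale.Agent.P082.P2
import Vale.Agent.P082.PartM

/-! Part P, file 3: the finite stage and weak means. -/

namespace Vale.Agent.P082.P

open scoped InnerProductSpace ComplexOrder ComplexConjugate
open Vale.Agent.P104 Vale.Agent.P104.F Filter Topology

variable {H : Type*} [NormedAddCommGroup H] [InnerProductSpace ℂ H] [CompleteSpace H]
variable {S : Set (H →L[ℂ] H)}

theorem norm_iso {u : vN S} {z : vN S} (hz : z * z = z) (hu : star u * u = z) : ‖u‖ ≤ 1 := by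
  have h1 : ‖z‖ = ‖u‖ * ‖u‖ := by rw [← hu, CStarRing.norm_star_mul_self]
  have h2 : ‖z‖ = ‖z‖ * ‖z‖ := by
    rw [← CStarRing.norm_star_mul_self, ← hu, star_mul, star_star, hu, hz]
  have h3 : ‖z‖ ≤ 1 := by nlinarith [norm_nonneg z]
  nlinarith [norm_nonneg u]

section iso
variable {I : Type*} [DecidableEq I] {z : vN S} {v : I → vN S}

theorem row (h : Iso z v) {κ : Type*} [Fintype κ] (c : κ ↪ I) (ξ : κ → H) :
    ‖∑ j, (v (c j) : H →L[ℂ] H) (ξ j)‖ ^ 2 ≤ ∑ j, ‖ξ j‖ ^ 2 := by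
  classical
  have e : ∀ j j', ⟪(v (c j) : H →L[ℂ] H) (ξ j), (v (c j') : H →L[ℂ] H) (ξ j')⟫_ℂ =
      if j = j' then ⟪(v (c j) : H →L[ℂ] H) (ξ j), (v (c j) : H →L[ℂ] H) (ξ j)⟫_ℂ else 0 := by
    intro j j'
    split_ifs with hj
    · rw [hj]
    · have := congrArg (fun T : vN S => (T : H →L[ℂ] H) (ξ j')) (h.vv (c j) (c j'))
      simp only [c.injective.eq_iff, hj, if_false] at this
      rw [← ContinuousLinearMap.adjoint_inner_right]
      exact (congrArg _ this).trans (inner_zero_right _)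
  rw [@norm_sq_eq_re_inner ℂ, sum_inner]
  simp only [inner_sum]
  rw [Finset.sum_congr rfl fun j _ => Finset.sum_congr rfl fun j' _ => e j j']
  simp only [Finset.sum_ite_eq, Finset.mem_univ, if_true, map_sum, ← @norm_sq_eq_re_inner ℂ]
  refine Finset.sum_le_sum fun j _ => pow_le_pow_left₀ (norm_nonneg _) ?_ 2
  have := norm_iso h.zz ((h.vv (c j) (c j)).trans (if_pos rfl))
  simpa using (v (c j) : H →L[ℂ] H).le_of_opNorm_le this (ξ j)

theorem col (h : Iso z v) {κ : Type*} [Fintype κ] (c : κ ↪ I) (η : H) :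
    ∑ j, ‖((star (v (c j)) : vN S) : H →L[ℂ] H) η‖ ^ 2 ≤ ‖η‖ ^ 2 := by
  set ξ := fun j => ((star (v (c j)) : vN S) : H →L[ℂ] H) η with hξ
  have h1 := row h c ξ
  have h2 : ∑ j, ‖ξ j‖ ^ 2 = RCLike.re ⟪η, ∑ j, (v (c j) : H →L[ℂ] H) (ξ j)⟫_ℂ := by
    rw [inner_sum, map_sum]
    refine Finset.sum_congr rfl fun j _ => ?_
    rw [← ContinuousLinearMap.adjoint_inner_left, @norm_sq_eq_re_inner ℂ]
    rfl
  have h3 := re_inner_le_norm (𝕜 := ℂ) η (∑ j, (v (c j) : H →L[ℂ] H) (ξ j))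
  nlinarith [sq_nonneg (‖η‖ - ‖∑ j, (v (c j) : H →L[ℂ] H) (ξ j)‖)]

theorem norm_le_of_sq {T : vN S} {C : ℝ} (hC : 0 ≤ C)
    (h : ∀ η, ‖(T : H →L[ℂ] H) η‖ ^ 2 ≤ C ^ 2 * ‖η‖ ^ 2) : ‖T‖ ≤ C :=
  (T : H →L[ℂ] H).opNorm_le_bound hC fun η =>
    le_of_sq_le_sq (by rw [mul_pow]; exact h η) (by positivity)

theorem norm_am [Fintype I] (h : Iso z v) (a : vN S) : ‖Am v a‖ ≤ ‖a‖ := by
  refine norm_le_of_sq (norm_nonneg _) fun η => ?_
  have h1 := row h (Function.Embedding.refl I)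
    fun j => (a : H →L[ℂ] H) (((star (v j) : vN S) : H →L[ℂ] H) η)
  have h2 := col h (Function.Embedding.refl I) η
  have e : ((Am v a : vN S) : H →L[ℂ] H) η =
      ∑ j, (v j : H →L[ℂ] H) ((a : H →L[ℂ] H) (((star (v j) : vN S) : H →L[ℂ] H) η)) := by
    simp [Am]
  rw [e]
  refine h1.trans (le_trans ?_ (mul_le_mul_of_nonneg_left h2 (by positivity)))
  rw [Finset.mul_sum]
  refine Finset.sum_le_sum fun j _ => ?_
  rw [← mul_pow]
  exact pow_le_pow_left₀ (norm_nonneg _) ((a : H →L[ℂ] H).le_opNorm _) 2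

end iso

theorem stage {z : vN S} (hz : IsCentral S z)
    (hv : ∀ n : ℕ, ∃ v : Fin n → vN S, ∀ i j, star (v i) * v j = if i = j then z else 0)
    (k : ℕ) (φ : ContinuousMultilinearMap ℂ (fun _ : Fin (k + 1) => vN S) (vN S))
    (hφ : ∀ a, cob (k + 1) φ a = 0) (n : ℕ) :
    ∃ h : List (vN S) → vN S, ML h ∧ (∀ l, ‖h l‖ ≤ (l.length + 1) * ‖φ‖ * pn l) ∧
      ∀ (a : Fin k → vN S) (ι κ : Type) [Fintype ι] [Fintype κ] (x : ι → κ → vN S),
      (∀ ξ : κ → H, ∑ i, ‖∑ j, (x i j : H →L[ℂ] H) (ξ j)‖ ^ 2 ≤ ∑ j, ‖ξ j‖ ^ 2) →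
      Fintype.card ι ≤ n → Fintype.card κ ≤ n → ∀ ξ : κ → H,
      ∑ i, ‖∑ j, ((z * (φ (Fin.cons (x i j) a) - cob k (fun b => h (List.ofFn b))
        (Fin.cons (x i j) a)) : vN S) : H →L[ℂ] H) (ξ j)‖ ^ 2 ≤
        (‖φ‖ * ∏ i, ‖a i‖) ^ 2 * ∑ j, ‖ξ j‖ ^ 2 := by
  obtain ⟨v0, hv0⟩ := hv (n + 1)
  have zz : z * z = z := Subtype.ext hz.2.1.isIdempotentElem
  have sz : star z = z := Subtype.ext hz.2.1.isSelfAdjoint
  have h : Iso z fun i => v0 i * z := ⟨zz, sz, fun x => Subtype.ext (hz.2.2 x x.2),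
    fun i => by rw [mul_assoc, zz], fun i j => by
      rw [star_mul, sz, mul_assoc, ← mul_assoc (star _), hv0]
      split_ifs <;> simp [zz]⟩
  set v := fun i => v0 i * z
  have g1 : ∀ ω, ‖gg v ω‖ ≤ 1 := fun ω => norm_iso (one_mul 1) (h.sg ω)
  have g2 : ∀ ω, ‖star (gg v ω)‖ ≤ 1 := fun ω => by rw [norm_star]; exact g1 ω
  have hu : ∀ ω, star (v 0 + (1 - z)) * star (gg v ω) * (gg v ω * (v 0 + (1 - z))) = 1 :=
    fun ω => by rw [mul_assoc, ← mul_assoc (star (gg v ω)), h.sg, one_mul, h.ww]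
  have u1 : ∀ ω, ‖gg v ω * (v 0 + (1 - z))‖ ≤ 1 := fun ω =>
    norm_iso (one_mul 1) (by rw [star_mul, hu])
  have u2 : ∀ ω, ‖star (v 0 + (1 - z)) * star (gg v ω)‖ ≤ 1 := fun ω => by
    rw [← star_mul, norm_star]; exact u1 ω
  refine ⟨HH _ _ (ext φ), (ext_ml φ).HH, fun l => norm_HH u1 u2 l (norm_nonneg _) (norm_ext φ),
    fun a ι κ _ _ x hx hι hκ ξ => ?_⟩
  obtain ⟨r⟩ := Function.Embedding.nonempty_of_card_le (α := ι) (β := Fin (n + 1))
    (by rw [Fintype.card_fin]; omega)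
  obtain ⟨c⟩ := Function.Embedding.nonempty_of_card_le (α := κ) (β := Fin (n + 1))
    (by rw [Fintype.card_fin]; omega)
  set X : vN S := ∑ i, v (r i) * ∑ j, x i j * star (v (c j)) with hX
  set Y := PP (gg v) (fun ω => star (gg v ω)) (ext φ) (X :: (List.ofFn a).map (Am v)) with hY
  have e : ∀ i j, z * (φ (Fin.cons (x i j) a) - cob k (fun b => HH (fun ω => gg v ω *
      (v 0 + (1 - z))) (fun ω => star (v 0 + (1 - z)) * star (gg v ω)) (ext φ) (List.ofFn b))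
      (Fin.cons (x i j) a)) = star (v (r i)) * Y * v (c j) := by
    intro i j
    rw [← h.key 0 (ext_ml φ) r c x (List.ofFn a) i j, PP_eq hu (ext_cocycle φ hφ), cob_eq,
      ← ext_ofFn, List.ofFn_cons, Fin.cons_zero, Fin.tail_cons]
  have nX : ‖X‖ ≤ 1 := by
    refine norm_le_of_sq zero_le_one fun η => ?_
    have e : (X : H →L[ℂ] H) η = ∑ i, (v (r i) : H →L[ℂ] H)
        (∑ j, (x i j : H →L[ℂ] H) (((star (v (c j)) : vN S) : H →L[ℂ] H) η)) := by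
      simp [hX]
    rw [e, one_pow, one_mul]
    exact (row h r _).trans ((hx _).trans (col h c η))
  have nY : ‖Y‖ ≤ ‖φ‖ * ∏ i, ‖a i‖ := by
    refine (norm_PP g1 g2 _ (norm_nonneg _) (norm_ext φ)).trans ?_
    rw [pn_cons, ← pn_ofFn, ← one_mul (pn (List.ofFn a))]
    gcongr
    · exact pn_nonneg _
    · exact pn_map_le (norm_am h) _
  have e' : ∀ i, ∑ j, ((star (v (r i)) * Y * v (c j) : vN S) : H →L[ℂ] H) (ξ j) =
      ((star (v (r i)) : vN S) : H →L[ℂ] H)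
        ((Y : H →L[ℂ] H) (∑ j, (v (c j) : H →L[ℂ] H) (ξ j))) := fun i => by simp
  simp only [e, e']
  refine (col h r _).trans ((pow_le_pow_left₀ (norm_nonneg _)
    ((Y : H →L[ℂ] H).le_of_opNorm_le nY _) 2).trans ?_)
  rw [mul_pow]
  exact mul_le_mul_of_nonneg_left (row h c ξ) (by positivity)

theorem exists_tail : ∃ m : Mean ℕ, ∀ f : ℕ → ℂ, Bd f → ∀ c : ℝ,
    (∀ᶠ n in atTop, (f n).re ≤ c) → (m.I f).re ≤ c := by
  have := compactSpace_mean (Γ := ℕ)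
  obtain ⟨m, hm⟩ := exists_clusterPt_of_compactSpace (map Mean.dirac (atTop : Filter ℕ))
  refine ⟨m, fun f hf c hc => ?_⟩
  have hcl : IsClosed {m : Mean ℕ | (m.I f).re ≤ c} :=
    isClosed_le (Complex.continuous_re.comp (Mean.continuous_I f)) continuous_const
  refine hcl.closure_subset_iff.2 subset_rfl (mem_closure_iff_clusterPt.2 (hm.mono ?_))
  rw [le_principal_iff, mem_map]
  filter_upwards [hc] with n hn
  simpa only [Set.mem_preimage, Set.mem_ofPred_eq, Mean.dirac_I n hf] using hn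

variable {Γ : Type*} {m : Mean Γ}

/-- `T` is the weak mean of `F`. -/
def W (m : Mean Γ) (T : vN S) (F : Γ → vN S) : Prop := (∃ C, ∀ n, ‖F n‖ ≤ C) ∧
  ∀ ξ η, ⟪η, (T : H →L[ℂ] H) ξ⟫_ℂ = m.I fun n => ⟪η, (F n : H →L[ℂ] H) ξ⟫_ℂ

theorem W.bd {T : vN S} {F : Γ → vN S} (h : W m T F) (ξ η : H) :
    Bd fun n => ⟪η, (F n : H →L[ℂ] H) ξ⟫_ℂ :=
  let ⟨_, hC⟩ := h.1
  bd_inner (fun n => (F n : H →L[ℂ] H).le_of_opNorm_le (hC n) ξ) η

theorem W.unique {T T' : vN S} {F : Γ → vN S} (h : W m T F) (h' : W m T' F) : T = T' :=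
  Subtype.ext (ContinuousLinearMap.ext fun ξ => ext_inner_left ℂ fun η => by rw [h.2, h'.2])

theorem W.const (T : vN S) : W m T fun _ => T :=
  ⟨⟨_, fun _ => le_rfl⟩, fun _ _ => (m.const _).symm⟩

theorem W.add {T T' : vN S} {F F' : Γ → vN S} (h : W m T F) (h' : W m T' F') :
    W m (T + T') fun n => F n + F' n := by
  obtain ⟨C, hC⟩ := h.1
  obtain ⟨C', hC'⟩ := h'.1
  refine ⟨⟨C + C', fun n => norm_add_le_of_le (hC n) (hC' n)⟩, fun ξ η => ?_⟩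
  simp only [AddMemClass.coe_add, add_apply, inner_add_right]
  rw [m.add _ _ (h.bd ξ η) (h'.bd ξ η), h.2, h'.2]

theorem W.smul {T : vN S} {F : Γ → vN S} (h : W m T F) (c : ℂ) :
    W m (c • T) fun n => c • F n := by
  obtain ⟨C, hC⟩ := h.1
  refine ⟨⟨‖c‖ * C, fun n => by rw [norm_smul]; gcongr; exact hC n⟩, fun ξ η => ?_⟩
  simp only [SetLike.val_smul, smul_apply, inner_smul_right]
  rw [m.smul _ _ (h.bd ξ η), h.2]

theorem W.left {T : vN S} {F : Γ → vN S} (h : W m T F) (b : vN S) :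
    W m (b * T) fun n => b * F n := by
  obtain ⟨C, hC⟩ := h.1
  refine ⟨⟨‖b‖ * C, fun n => (norm_mul_le _ _).trans (by gcongr; exact hC n)⟩, fun ξ η => ?_⟩
  simp only [MulMemClass.coe_mul, mul_apply_eq_comp,
    ← ContinuousLinearMap.adjoint_inner_left (b : H →L[ℂ] H)]
  exact h.2 _ _

theorem W.right {T : vN S} {F : Γ → vN S} (h : W m T F) (b : vN S) :
    W m (T * b) fun n => F n * b := by
  obtain ⟨C, hC⟩ := h.1
  exact ⟨⟨C * ‖b‖, fun n => (norm_mul_le _ _).trans (by gcongr; exact hC n)⟩,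
    fun ξ η => h.2 _ _⟩

theorem W.sum {ι : Type*} (s : Finset ι) {T : ι → vN S} {F : ι → Γ → vN S}
    (h : ∀ i, W m (T i) (F i)) : W m (∑ i ∈ s, T i) fun n => ∑ i ∈ s, F i n := by
  classical
  induction s using Finset.induction_on with
  | empty => simpa using W.const 0
  | insert i s hi ih => simpa only [Finset.sum_insert hi] using (h i).add ih

theorem exists_W (m : Mean Γ) {F : Γ → vN S} {C : ℝ} (hF : ∀ n, ‖F n‖ ≤ C) :
    ∃ T, W m T F ∧ ‖T‖ ≤ C := by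
  obtain ⟨T, h1, h2⟩ := exists_op m (fun n => (F n : H →L[ℂ] H)) C hF
  exact ⟨⟨T, mem_vN_of_mean m _ C hF (fun n => (F n).2) h1⟩, ⟨⟨C, hF⟩, h1⟩, h2⟩

end Vale.Agent.P082.P
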