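import Vale.Agent.P082.A5

/-! Lemma A. -/

namespace Vale.Agent.P082

open scoped InnerProductSpace ComplexOrder ComplexConjugate
open Vale.Agent.P104 Vale.Agent.P104.F Finset

variable {H : Type*} [NormedAddCommGroup H] [InnerProductSpace ℂ H] [CompleteSpace H]
variable {S : Set (H →L[ℂ] H)} {z : vN S}

lemma A.inc_unitary {I : Type} {E : I → I → vN S} (g : unitary (vN (ext E))) :
    inc E g ∈ unitary (vN S) :=
  ⟨by rw [← map_star, ← map_mul, g.2.1, map_one], by rw [← map_star, ← map_mul, g.2.2, map_one]⟩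

lemma A.bd_avg (t : Tr (vN S)) {u : vN S →ₗ[ℂ] H} (hu : P1 t u) {Γ : Type*} {w : Γ → vN S}
    (hw : ∀ g, w g ∈ unitary (vN S)) (η : H) (a : vN S) :
    Bd fun g => ⟪(w g : H →L[ℂ] H) η, u (w g * a)⟫_ℂ := by
  refine ⟨‖η‖ * √(t.N 1 * ‖a‖ ^ 2), fun g => (norm_inner_le_norm _ _).trans ?_⟩
  rw [A.norm_isom (hw g).1]
  refine mul_le_mul_of_nonneg_left (Real.le_sqrt_of_sq_le ?_) (norm_nonneg _)
  simpa [CStarRing.norm_mem_unitary_mul _ (hw g)] using hu 1 (w g * a)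

section
variable {I : Type} [Fintype I] [DecidableEq I] {E : I → I → vN S}

lemma A.twist (h : MU E z) (g : I → unitary (vN (ext E))) :
    MU (fun i j => E i j * inc E ((g i)⁻¹ * g j : unitary _)) z := by
  refine ⟨h.ne, fun i j => ?_, fun i j k l => ?_, by simpa using h.sum_eq⟩
  · rw [star_mul, h.st, ← map_star, ← comm_inc, ← Unitary.coe_star, Unitary.star_eq_inv,
      mul_inv_rev, inv_inv]
  · rw [mul_assoc, ← mul_assoc (inc E _), ← comm_inc, mul_assoc, h.mul', ← map_mul,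
      ← Submonoid.coe_mul]
    split_ifs with hjk
    · rw [hjk, mul_assoc, mul_inv_cancel_left]
    · rfl

lemma A.twist_inner (h : MU E z) {Hm : vN S →ₗ[ℂ] H}
    (hmod : ∀ i j a, Hm (E i j * a) = (E i j : H →L[ℂ] H) (Hm a)) (i j : I) (y : vN (ext E))
    (a : vN S) (ζ : H) : ⟪((E i j * inc E y : vN S) : H →L[ℂ] H) ζ, Hm (E i j * inc E y * a)⟫_ℂ =
      ⟪((inc E y * E j j : vN S) : H →L[ℂ] H) ζ, Hm (inc E y * a)⟫_ℂ := by
  have e : inc E y * E j j = E j i * (E i j * inc E y) := by rw [h.mul', if_pos rfl, comm_inc]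
  rw [mul_assoc, hmod, e, A.mul_apply (E j i), A.inner_star (E j i), h.st]

lemma A.schur_band [AddCommGroup I] (t : Tr (vN S)) (K : ℕ) (α : ℕ → ℝ)
    (hα : ∀ v : vN S, v ∈ unitary (vN S) → ‖∑ n ∈ Icc 1 K, (α n : ℂ) • (v ^ n - star v ^ n)‖ ≤ 8)
    {u : vN S →ₗ[ℂ] H} (hu : P1 t u) {ζ : H} {β : ℝ} (hβ : 0 ≤ β) (hζ : TB t ζ β) (h : MU E z)
    (k : I) (a : vN S) :
    ‖∑ i, ∑ j, (∑ n ∈ Icc 1 K, (α n : ℂ) * ((if i = j + n • k then 1 else 0) -
      if i = j + n • (-k) then 1 else 0)) • ⟪(E i j : H →L[ℂ] H) ζ, u (E i j * a)⟫_ℂ‖ ≤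
      β * (8 * ‖a‖) * t.N 1 := by
  have n8 := hα _ (A.sh_unitary h k)
  simp only [A.star_sh h, A.sh_pow h] at n8
  simp only [A.sh, add_sub_add_right_eq_sub] at n8
  rw [← A.sum_band] at n8
  exact (A.schur t hu hβ hζ h _ a).trans (mul_le_mul_of_nonneg_right
    (mul_le_mul_of_nonneg_left (mul_le_mul_of_nonneg_right n8 (norm_nonneg _)) hβ) (t.N_nonneg _))

end

lemma A.walk_est (t : Tr (vN S)) (K : ℕ) (α : ℕ → ℝ) (hα : ∀ n, 0 ≤ α n ∧ α n ≤ 1)
    (hα' : ∀ v : vN S, v ∈ unitary (vN S) →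
      ‖∑ n ∈ Icc 1 K, (α n : ℂ) • (v ^ n - star v ^ n)‖ ≤ 8)
    {N : ℕ} [NeZero N] (hK : K < N) (hK2 : K ^ 2 ≤ N) {E : Fin N → Fin N → vN S} (h : MU E z)
    {e : Mean (unitary (vN (ext E)))} (he : Absorbs e Set.univ) {u Hm : vN S →ₗ[ℂ] H}
    (hu : P1 t u) (hH : P1 t Hm) (hmod : ∀ i j a, Hm (E i j * a) = (E i j : H →L[ℂ] H) (Hm a))
    (hf : ∀ η a, ⟪η, Hm a⟫_ℂ = e.I fun w => ⟪(inc E w : H →L[ℂ] H) η, u (inc E w * a)⟫_ℂ)
    (κ : Fin N → unitary (vN (ext E))) {ζ : H} {β : ℝ} (hβ : 0 ≤ β) (hζ : TB t ζ β) (a : vN S) :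
    (∑ n ∈ Icc 1 K, α n) * ‖∑ j, ⟪(E j j : H →L[ℂ] H) ζ, Hm a⟫_ℂ -
      ∑ j, ⟪((inc E (κ j) * E j j : vN S) : H →L[ℂ] H) ζ, Hm (inc E (κ j) * a)⟫_ℂ‖ ≤
      12 * (β * ‖a‖ * t.N 1) := by
  obtain ⟨M, g, hM⟩ := A.exists_walk he κ
  let ψ : Fin N → unitary (vN (ext E)) → ℂ := fun j γ =>
    ⟪((inc E γ * E j j : vN S) : H →L[ℂ] H) ζ, Hm (inc E γ * a)⟫_ℂ
  let χ : Fin N → unitary (vN (ext E)) → ℂ := fun j γ =>
    ⟪(inc E γ : H →L[ℂ] H) ((E j j : H →L[ℂ] H) ζ), u (inc E γ * a)⟫_ℂ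
  have bχ : ∀ j, Bd (χ j) := fun j => A.bd_avg t hu A.inc_unitary _ _
  have e1 : ∀ j γ, ψ j γ = e.I fun w => χ j (w * γ) := fun j γ => by
    simp only [ψ, χ, hf, Submonoid.coe_mul, map_mul, A.mul_apply, mul_assoc]
  have N0 : (0 : ℝ) < N := by exact_mod_cast NeZero.pos N
  have bψ : ∀ j γ, ‖ψ j γ‖ ≤ β * ‖a‖ * (t.N 1 / N) := fun j γ => by
    have e2 : inc E γ * E j j = star (E j j) * (inc E γ * E j j) := by
      rw [h.st, ← comm_inc, h.mul', if_pos rfl]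
    simp only [ψ]
    rw [e2, A.mul_apply, A.inner_star, star_star]
    refine A.two (n' := t.N (E j j)) hβ (norm_nonneg _) (div_nonneg (t.N_nonneg _) N0.le) ?_ ?_ ?_
    · simpa only [t.N_unitary_mul (A.inc_unitary γ)] using hζ (inc E γ * E j j)
    · simpa only [CStarRing.norm_mem_unitary_mul _ (A.inc_unitary γ)] using
        hH (E j j) (inc E γ * a)
    · have := (A.N_E t h j j).trans_le (A.N_z t h)
      rw [Fintype.card_fin] at this
      rwa [le_div_iff₀' N0]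
  let c : Fin N → Fin N → ℂ := fun i j => ∑ n ∈ Icc 1 K, (α n : ℂ) *
    ((if i = j + n • 1 then 1 else 0) - if i = j + n • (-1) then 1 else 0)
  have s1 : ∀ x, ‖∑ i, ∑ j, c i j * ψ j ((g x i)⁻¹ * g x j)‖ ≤ β * (8 * ‖a‖) * t.N 1 := by
    intro x
    refine le_trans (le_of_eq ?_) (A.schur_band t K α hα' hH hβ hζ (A.twist h (g x)) 1 a)
    simp only [A.twist_inner h hmod]
    rfl
  have bb : ∀ i j, Bd fun x => ψ j ((g x i)⁻¹ * g x j) := fun i j => ⟨_, fun x => bψ _ _⟩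
  have s2 := M.norm_le _ _ s1
  rw [M.sum _ fun i _ => Bd.sum _ fun j _ => (bb i j).smul _] at s2
  have e3 : ∀ i, M.I (fun x => ∑ j, c i j * ψ j ((g x i)⁻¹ * g x j)) =
      ∑ j, c i j • M.I fun x => ψ j ((g x i)⁻¹ * g x j) := fun i => by
    rw [M.sum _ fun j _ => (bb i j).smul _]
    exact sum_congr rfl fun j _ => M.smul _ _ (bb i j)
  rw [sum_congr rfl fun i _ => e3 i, A.sum_band (Icc 1 K) (fun n => (α n : ℂ)) (1 : Fin N)
    fun i j => M.I fun x => ψ j ((g x i)⁻¹ * g x j)] at s2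
  have s3 := A.comb K hK α hα (fun i j => M.I fun x => ψ j ((g x i)⁻¹ * g x j)) (fun j => ψ j 1)
    (fun j => ψ j (κ j)) _ (fun i j => M.norm_le _ _ fun x => bψ _ _) (fun j => bψ _ _)
    (fun j => bψ _ _) (fun i j hij => by simpa only [e1, mul_one] using (hM _ (bχ j) i j).1 hij)
    fun i j hij => by simpa only [e1] using (hM _ (bχ j) i j).2 hij
  have s4 := norm_sub_le_of_le s2 s3
  rw [sub_sub_cancel, norm_mul, Complex.norm_real,
    Real.norm_of_nonneg (sum_nonneg fun n _ => (hα n).1)] at s4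
  simp only [ψ, OneMemClass.coe_one, map_one, one_mul] at s4
  refine s4.trans ?_
  have k1 : (K : ℝ) ^ 2 / N ≤ 1 := div_le_one_of_le₀ (by exact_mod_cast hK2) N0.le
  have k2 := mul_le_mul_of_nonneg_left k1 (mul_nonneg (mul_nonneg hβ (norm_nonneg a)) (t.N_nonneg 1))
  calc _ = 8 * (β * ‖a‖ * t.N 1) + 4 * (β * ‖a‖ * t.N 1 * (K ^ 2 / N)) := by ring
    _ ≤ _ := by linarith

lemma A.diag_est (t : Tr (vN S)) {I : Type} [Fintype I] [DecidableEq I] {E : I → I → vN S}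
    (h : MU E z) (ht : t.N (1 - z) = 0) {Hm : vN S →ₗ[ℂ] H} (hH : P1 t Hm)
    (hmod : ∀ i j a, Hm (E i j * a) = (E i j : H →L[ℂ] H) (Hm a))
    (κ : I → unitary (vN (ext E))) (a : vN S) {ω : ℝ}
    (hw : ∀ ζ, TB t ζ (2 * ‖a‖) → ω * ‖∑ j, ⟪(E j j : H →L[ℂ] H) ζ, Hm a⟫_ℂ -
      ∑ j, ⟪((inc E (κ j) * E j j : vN S) : H →L[ℂ] H) ζ, Hm (inc E (κ j) * a)⟫_ℂ‖ ≤
      12 * (2 * ‖a‖ * ‖a‖ * t.N 1)) :
    ω * ‖Hm ((∑ j, inc E (κ j) * E j j) * a) -
      ((∑ j, inc E (κ j) * E j j : vN S) : H →L[ℂ] H) (Hm a)‖ ^ 2 ≤ 24 * t.N 1 * ‖a‖ ^ 2 := by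
  have d0 : ∀ j, E j j * ∑ j, inc E (κ j) * E j j = E j j * inc E (κ j) := fun j => by
    simp [mul_sum, ← comm_inc, h.mul']
  have d0' : ∀ j, (∑ j, inc E (κ j) * E j j) * E j j = E j j * inc E (κ j) := fun j => by
    simp [sum_mul, mul_assoc, h.mul, comm_inc]
  set D := ∑ j, inc E (κ j) * E j j with hD
  have sD : star D = ∑ j, star (inc E (κ j)) * E j j := by
    simp only [hD, ← comm_inc, star_sum, star_mul, h.st]
  have d1 : star D * D = z := by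
    simp only [sD, sum_mul, mul_assoc, d0]
    simp only [comm_inc, ← mul_assoc, (A.inc_unitary _).1, one_mul, h.sum_eq]
  have d2 : D * star D = z := by
    simp only [sD, ← map_star, ← comm_inc, mul_sum, ← mul_assoc, d0']
    simp only [mul_assoc, map_star, (A.inc_unitary _).2, mul_one, h.sum_eq]
  have d3 : z * D = D := by simp only [hD, ← comm_inc, mul_sum, ← mul_assoc, h.z_mul]
  have nD : ‖D‖ ≤ 1 := by
    have := CStarRing.norm_star_mul_self (x := D)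
    rw [d1] at this
    nlinarith [IsStarProjection.norm_le z ⟨h.z_idem, h.z_sa⟩, norm_nonneg D]
  have zH : ∀ x, (z : H →L[ℂ] H) (Hm x) = Hm x := fun x => by
    have := A.kill t hH ht x
    exact (sub_eq_zero.1 this).symm
  set Z := Hm (D * a) - (D : H →L[ℂ] H) (Hm a) with hZ
  have zZ : (D : H →L[ℂ] H) (((star D : vN S) : H →L[ℂ] H) Z) = Z := by
    rw [← A.mul_apply, d2, hZ, map_sub, zH, ← A.mul_apply, d3]
  have tb : TB t (((star D : vN S) : H →L[ℂ] H) Z) (2 * ‖a‖) := fun y => by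
    have h1 := hH (y * star D) (D * a)
    have h2 := hH y a
    have h3 : t.N (y * star D) ≤ t.N y := by
      refine (t.N_mul_le_norm' _ _).trans (mul_le_of_le_one_left (t.N_nonneg _) ?_)
      exact pow_le_one₀ (norm_nonneg _) ((norm_star D).trans_le nD)
    have h4 : ‖D * a‖ ^ 2 ≤ ‖a‖ ^ 2 := pow_le_pow_left₀ (norm_nonneg _)
      ((norm_mul_le _ _).trans (mul_le_of_le_one_left (norm_nonneg _) nD)) 2
    have h5 := mul_le_mul h3 h4 (by positivity) (t.N_nonneg _)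
    rw [hZ, map_sub, ← A.mul_apply (star D) D, d1, zH, map_sub, sub_eq_add_neg, ← A.mul_apply]
    refine (norm_add_sq_le_two _ _).trans ?_
    rw [norm_neg]
    linarith
  have := hw _ tb
  generalize ((star D : vN S) : H →L[ℂ] H) Z = ζ at this zZ
  have e1 : ∑ j, ⟪(E j j : H →L[ℂ] H) ζ, Hm a⟫_ℂ = ⟪Z, (D : H →L[ℂ] H) (Hm a)⟫_ℂ := by
    rw [← zZ, A.inner_star D, ← A.mul_apply, d1, ← h.z_sa, ← A.inner_star, ← h.sum_eq]
    simp [sum_inner]
  have e2 : ∑ j, ⟪((inc E (κ j) * E j j : vN S) : H →L[ℂ] H) ζ, Hm (inc E (κ j) * a)⟫_ℂ =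
      ⟪Z, Hm (D * a)⟫_ℂ := by
    rw [← zZ]
    conv_rhs => lhs; rw [hD]
    simp only [AddSubmonoidClass.coe_finset_sum, ContinuousLinearMap.sum_apply, sum_inner]
    refine sum_congr rfl fun j _ => ?_
    have e : inc E (κ j) * E j j = E j j * (inc E (κ j) * E j j) := by
      rw [← comm_inc, h.mul', if_pos rfl]
    rw [e, A.mul_apply (E j j), A.inner_star (E j j), A.inner_star (E j j), h.st, ← hmod, ← hmod,
      ← mul_assoc, ← mul_assoc, d0]
  rw [e1, e2, ← inner_sub_right, ← neg_sub, inner_neg_right, norm_neg, ← hZ,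
    inner_self_eq_norm_sq_to_K, norm_pow, RCLike.norm_ofReal, abs_norm] at this
  linarith

theorem lemmaA (τ1 ε : ℝ) (hε : 0 < ε) : ∃ N₀ : ℕ, ∀ (N : ℕ), N₀ ≤ N →
    ∀ (t : Tr (vN S)) (z : vN S) (E : Fin N → Fin N → vN S), t.N 1 ≤ τ1 → IsCentral S z →
    t.N (1 - z) = 0 → MU E z → ∃ m : Mean (unitary (vN S)),
      ∀ u Hm : vN S →ₗ[ℂ] H, P1 t u → IsAvg m u Hm → Mod E z Hm ε := by
  obtain ⟨K, α, hα, hω, hα'⟩ := exists_poly (96 * |τ1| / ε + 1)
  refine ⟨K ^ 2 + K + 1, fun N hN t z E h1 _ ht h => ?_⟩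
  haveI : NeZero N := ⟨by omega⟩
  obtain ⟨e, -, he⟩ := exists_absorbs (Γ := unitary (vN (ext E))) (Q := Set.univ)
    ⟨isClosed_univ, trivial, fun _ _ _ _ => trivial, fun _ _ _ => trivial⟩
  obtain ⟨m1, hm1⟩ := A.modularise t h ht
  refine ⟨(e.map fun g => ⟨inc E g, A.inc_unitary g⟩).conv m1, fun u Hm hu hH => ?_⟩
  obtain ⟨u', hu', p', -⟩ := exists_avg t m1 hu
  obtain ⟨a1, a2⟩ := hm1 u u' hu hu'
  have pH : P1 t Hm := by
    obtain ⟨H', h2, h3, -⟩ := exists_avg t _ hu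
    have : Hm = H' := LinearMap.ext fun a => ext_inner_left ℂ fun η => (hH a η).trans (h2 a η).symm
    rwa [this]
  have hf : ∀ η a, ⟪η, Hm a⟫_ℂ = e.I fun w => ⟪(inc E w : H →L[ℂ] H) η, u' (inc E w * a)⟫_ℂ := by
    intro η a
    rw [hH, Mean.conv_I _ _ (A.bd_avg t hu (fun w => w.2) η a), Mean.map_I]
    · simp only [hu' _ _, Submonoid.coe_mul, A.mul_apply, mul_assoc]
    · simpa only [hu' _ _, Submonoid.coe_mul, A.mul_apply, mul_assoc] using
        A.bd_avg t p' (fun w : unitary (vN S) => w.2) η a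
  have hmod : ∀ i j a, Hm (E i j * a) = (E i j : H →L[ℂ] H) (Hm a) := fun i j a =>
    ext_inner_left ℂ fun η => by
      rw [← h.st j i, ← A.inner_star, h.st, hf, hf]
      congr 1
      funext w
      rw [← mul_assoc, ← comm_inc, mul_assoc, a1, ← A.mul_apply, ← comm_inc, A.mul_apply,
        A.inner_star (E j i), h.st]
  refine ⟨hmod, fun a => ext_inner_left ℂ fun η => ?_, fun κ hκ hκ' a => ?_⟩
  · have : ∀ w : vN (ext E), inc E w * ((1 - z) * a) = (1 - z) * (inc E w * a) := fun w => by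
      simp only [← mul_assoc, ← h.sum_eq, mul_sub, sub_mul, mul_sum, sum_mul, comm_inc, mul_one,
        one_mul]
    simp only [hf, this, a2, inner_zero_right, e.const]
  obtain ⟨c, hc, h4⟩ := A.four (A := vN (ext E))
  choose U hU using fun j => h4 ⟨κ j, h.mem_ext (hκ j)⟩ (hκ' j)
  have hU' : ∀ j, κ j = ∑ i, c i • inc E (U j i) := fun j => by
    have := congrArg (inc E) (hU j)
    rw [map_sum] at this
    simp only [map_smul] at this
    exact this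
  have b : ∀ i, ‖Hm ((∑ j, inc E (U j i) * E j j) * a) -
      ((∑ j, inc E (U j i) * E j j : vN S) : H →L[ℂ] H) (Hm a)‖ ^ 2 ≤ ε / 4 * ‖a‖ ^ 2 := fun i => by
    have := A.diag_est t h ht pH hmod (fun j => U j i) a fun ζ hζ => A.walk_est t K α hα
      (fun v hv => hα' v hv) (by omega) (by omega) h he p' pH hmod hf _ (by positivity) hζ a
    have hp : 0 < 96 * |τ1| / ε + 1 := by positivity
    refine le_of_mul_le_mul_left (((mul_le_mul_of_nonneg_right hω (by positivity)).trans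
      this).trans ?_) hp
    rw [← mul_assoc]
    refine mul_le_mul_of_nonneg_right ?_ (by positivity)
    have : (96 * |τ1| / ε + 1) * (ε / 4) = 24 * |τ1| + ε / 4 := by field_simp; ring
    linarith [le_abs_self τ1]
  have e4 : ∑ j, κ j * E j j = ∑ i, c i • ∑ j, inc E (U j i) * E j j := by
    simp only [hU', sum_mul, smul_mul_assoc, smul_sum]
    exact sum_comm
  rw [e4]
  simp only [sum_mul (s := univ) (f := fun i => c i • _), smul_mul_assoc, map_sum Hm, map_smul,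
    AddSubmonoidClass.coe_finset_sum (s := (univ : Finset (Fin 4))), SetLike.val_smul,
    ContinuousLinearMap.sum_apply (s := (univ : Finset (Fin 4))), ContinuousLinearMap.smul_apply,
    ← sum_sub_distrib, ← smul_sub]
  refine (norm_sum_sq_le _ _).trans ((mul_le_mul_of_nonneg_left (sum_le_sum
    (g := fun _ => (1 / 2) ^ 2 * (ε / 4 * ‖a‖ ^ 2)) fun i _ => ?_) (by positivity)).trans ?_)
  · rw [norm_smul, mul_pow]
    exact mul_le_mul (pow_le_pow_left₀ (norm_nonneg _) (hc i) 2) (b i) (by positivity)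
      (by positivity)
  · simp only [sum_const, card_univ, Fintype.card_fin, nsmul_eq_mul]
    push_cast
    linarith

end Vale.Agent.P082
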