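import Vale.Agent.P082.B1
import Vale.Agent.P082.B2

/-! Part B of P082: blocks (`t1`, in `B1`) and matrix units (`muq`). -/

namespace Vale.Agent.P082

open scoped InnerProductSpace ComplexOrder ComplexConjugate
open Vale.Agent.P104 Vale.Agent.P104.F Finset

variable {H : Type*} [NormedAddCommGroup H] [InnerProductSpace ℂ H] [CompleteSpace H]
variable {S : Set (H →L[ℂ] H)}

lemma B.energy (t : Tr (vN S)) (z : vN S) (hz : IsCentral S z) (hna : NoAbel S z)
    (ht : t.N (1 - z) = 0) (μ : ℝ) (hμ : 0 < μ) {ι : Type} [Fintype ι] (y : ι → vN S)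
    (hy0 : ∀ i, 0 ≤ y i) (hy1 : ∀ i, y i ≤ 1)
    (hc : ∀ i, ∀ c : vN S, IsCentral S c → c * z = c → (t.τ (c * y i)).re ≤ μ * (t.τ c).re)
    (η : ℝ) (hη : 0 < η) {I₀ : Type} [Fintype I₀] [DecidableEq I₀] {P : I₀ → I₀ → vN S}
    (hP : MU P z) : ∃ (I : Type) (_ : Fintype I) (_ : DecidableEq I) (E : I → I → vN S),
      MU E z ∧ Fintype.card I₀ ∣ Fintype.card I ∧
      ∑ i, t.N (Phi E (y i)) ≤ 8 * μ * ∑ i, (t.τ (y i)).re + η := by
  have hn : (0 : ℝ) ≤ Fintype.card ι := by positivity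
  have h1 := t.N_nonneg 1
  set β : ℝ := η / (2 * (Fintype.card ι * t.N 1 + 1)) with hβ
  have hβ0 : 0 < β := by positivity
  set η' : ℝ := β * η / (2 * (Fintype.card ι + 1)) with hη'
  have hη0 : 0 < η' := by positivity
  let A : Set ℝ := {e | ∃ (I : Type) (_ : Fintype I) (_ : DecidableEq I) (E : I → I → vN S),
      MU E z ∧ Fintype.card I₀ ∣ Fintype.card I ∧ e = ∑ i, t.N (Phi E (y i))}
  have hA : A.Nonempty := ⟨_, I₀, _, _, P, hP, dvd_rfl, rfl⟩
  have hB : BddBelow A := ⟨0, by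
    rintro _ ⟨I, _, _, E, -, -, rfl⟩
    exact sum_nonneg fun i _ => t.N_nonneg _⟩
  obtain ⟨_, ⟨I, _, _, E, h, hKI, rfl⟩, hlt⟩ := exists_lt_of_csInf_lt hA
    (lt_add_of_pos_right _ hη0)
  have key : ∀ i, t.N (Phi E (y i)) ≤ 8 * μ * (t.τ (y i)).re + (β * t.N 1 + η' / β) := by
    intro i
    obtain ⟨F, hF, hEF, hle⟩ := h.step t hz hna ht hμ (hy0 i) (hy1 i) (hc i) hβ0
    have h2 := csInf_le hB ⟨I × Bool, _, _, _, h.prod hF hEF, by
      rw [Fintype.card_prod]; exact hKI.mul_right _, rfl⟩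
    simp only [MU.Phi_prod hEF] at h2
    have h3 := single_le_sum (f := fun i => t.N (Phi E (y i) - Phi F (Phi E (y i))))
      (fun i _ => t.N_nonneg _) (mem_univ i)
    have h4 : ∑ i, t.N (Phi E (y i)) = ∑ i, t.N (Phi F (Phi E (y i))) +
        ∑ i, t.N (Phi E (y i) - Phi F (Phi E (y i))) := by
      rw [← sum_add_distrib]; exact sum_congr rfl fun i _ => hF.pyth t _
    have h5 : t.N (Phi E (y i) - Phi F (Phi E (y i))) / β ≤ η' / β := by
      gcongr; linarith
    linarith
  refine ⟨I, _, _, E, h, hKI, ?_⟩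
  have h5 := sum_le_sum fun i (_ : i ∈ univ) => key i
  rw [sum_add_distrib, ← mul_sum, sum_const, card_univ, nsmul_eq_mul] at h5
  have h7 : β * (2 * (Fintype.card ι * t.N 1 + 1)) = η := by rw [hβ]; field_simp
  have h8 : η' / β * (2 * (Fintype.card ι + 1)) = η := by rw [hη']; field_simp
  have h9 : 0 < η' / β := by positivity
  nlinarith

theorem muq (t : Tr (vN S)) (z : vN S) (hz : IsCentral S z) (hna : NoAbel S z)
    (ht : t.N (1 - z) = 0) {ι : Type} [Fintype ι] (a : ι → vN S) (ha : ∀ i, a i ∈ unitary (vN S))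
    (N₀ : ℕ) : ∃ (N : ℕ) (E : Fin N → Fin N → vN S) (u₀ : vN S), N₀ ≤ N ∧ MU E z ∧
      u₀ ∈ unitary (vN S) ∧
      ∀ i, Qf t (dg E z) (u₀ * a i) ≤ 1000 * (Fintype.card ι + 1) * (t.N 1 + 1) / N := by
  classical
  obtain ⟨I, _, _, P, h, hKI⟩ := exists_mu t hz hna ht N₀
  have hI := h.card_pos
  have pu := B.pu_dg h
  have hpc : ∀ l (c : vN S), IsCentral S c → c * z = c →
      t.N (dg P z l * c) ≤ (t.τ c).re / Fintype.card I := by
    intro l c hc hcz
    have cs : star c = c := Subtype.ext hc.2.1.isSelfAdjoint.star_eq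
    have ci : c * c = c := Subtype.ext hc.2.1.isIdempotentElem.eq
    rcases l with _ | l
    · simp only [dg, t.N_mul_eq_zero_left ht]
      exact div_nonneg (t.re_nonneg hc.2.1.nonneg) hI.le
    · have e := congrArg Complex.re (h.τ_diag t (c := c)
        (fun i j => (central_comm hc _).symm) l)
      rw [hcz] at e
      simp only [dg]
      rw [t.N_mul, h.st, h.mul, if_pos rfl, cs, ci, ← central_comm hc, ← e, le_div_iff₀ hI]
      simp [mul_comm]
  generalize dg P z = p at pu hpc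
  let b : Bool × ι → vN S := fun x => if x.1 then 1 else a x.2
  have hb : ∀ x, b x ∈ unitary (vN S) := by
    rintro ⟨_ | _, i⟩
    · exact ha i
    · exact one_mem _
  let y : Option I × Bool × ι → vN S := fun x => star (b x.2) * p x.1 * b x.2
  have ys : ∀ x, star (y x) = y x := fun x => by simp only [y, star_mul, star_star, pu.sa, mul_assoc]
  have yi : ∀ x, y x * y x = y x := fun x => by
    simp only [y, mul_assoc]
    rw [← mul_assoc (b _) (star _), (hb _).2, one_mul, ← mul_assoc (p _), pu.idem]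
  have yN : ∀ x, t.N (y x) = (t.τ (y x)).re := fun x => t.N_proj (ys x) (yi x)
  have yτ : ∑ x, (t.τ (y x)).re = 2 * Fintype.card ι * t.N 1 := by
    rw [Fintype.sum_prod_type, sum_comm]
    have : ∀ x, ∑ l, (t.τ (y (l, x))).re = t.N 1 := fun x => by
      rw [← Complex.re_sum, ← map_sum, t.N_one]
      simp only [y, ← sum_mul, ← mul_sum, pu.sum_eq, mul_one, (hb x).1]
    simp [this]
  obtain ⟨J, _, _, F, hF, ⟨m, hm⟩, hle⟩ := B.energy t z hz hna ht (1 / Fintype.card I)
    (by positivity) y (fun x => by rw [← yi, ← congrArg (· * y x) (ys x)]; exact star_mul_self_nonneg _)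
    (fun x => by
      have : 1 - y x = star (1 - y x) * (1 - y x) := by simp [ys, mul_sub, sub_mul, yi]
      rw [← sub_nonneg, this]; exact star_mul_self_nonneg _)
    (fun x c hc hcz => by
      have cs : star c = c := Subtype.ext hc.2.1.isSelfAdjoint.star_eq
      have ci : c * c = c := Subtype.ext hc.2.1.isIdempotentElem.eq
      have e : (t.τ (c * y x)).re = t.N (p x.1 * c * b x.2) := by
        rw [mul_assoc (p _), central_comm hc (b _), ← mul_assoc (p _), t.N_mul, cs, ci, t.comm c,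
          star_mul, pu.sa, mul_assoc (star _) (p _) (p _ * _), ← mul_assoc (p _), pu.idem,
          ← mul_assoc (star _)]
      rw [e, t.N_mul_unitary (hb _), one_div, ← div_eq_inv_mul]
      exact hpc _ c hc hcz)
    (1 / Fintype.card I) (by positivity) h
  obtain ⟨f, hf, hf2⟩ := B.exists_part hF t y
  have : NeZero (Fintype.card I) := ⟨by exact_mod_cast hI.ne'⟩
  let e : Fin (Fintype.card I) × Fin m ≃ J := Fintype.equivOfCardEq (by simp [hm])
  obtain ⟨E, hE, hE2⟩ := B.group (B.mu_reindex hf e) t y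
  obtain ⟨θ, hθ⟩ := B.exists_Qf_pi t pu (B.pu_dg hE) ha
  refine ⟨_, E, th p θ, hKI, hE, pu.th_unitary θ, fun i => (hθ i).trans ?_⟩
  have e1 : ∀ x, ∑ k, t.N (f (e k) (e k) * y x * f (e k) (e k)) = ∑ k, t.N (f k k * y x * f k k) :=
    fun x => e.sum_comp fun k => t.N (f k k * y x * f k k)
  have e2 : ∑ l, ∑ k, ∑ _i : ι, t.N (dg E z k * p l * dg E z k) +
      ∑ l, ∑ k, ∑ i, t.N (dg E z k * (star (a i) * p l * a i) * dg E z k) =
      ∑ x, ∑ g, t.N (E g g * y x * E g g) := by
    rw [Fintype.sum_prod_type, ← sum_add_distrib]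
    refine sum_congr rfl fun l _ => ?_
    rw [Fintype.sum_prod_type, Fintype.sum_bool, sum_comm (γ := ι), sum_comm (γ := ι)]
    simp [Fintype.sum_option, dg, t.N_mul_eq_zero_right ht, y, b]
  simp only [e1, yN, yτ, Fintype.card_fin] at hE2 hf2 hle
  rw [← mul_add, e2]
  have hJ := hF.card_pos
  have hIJ : (Fintype.card I : ℝ) ≤ Fintype.card J := by
    exact_mod_cast Nat.le_of_dvd (by exact_mod_cast hJ) ⟨m, hm⟩
  have h1 := t.N_nonneg 1
  have hn : (0 : ℝ) ≤ Fintype.card ι := by positivity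
  have g1 : 3 * (2 * Fintype.card ι * t.N 1) / (Fintype.card J : ℝ) ≤
      3 * (2 * Fintype.card ι * t.N 1) / Fintype.card I := by gcongr
  have g2 : 0 < 1 / (Fintype.card I : ℝ) := by positivity
  rw [div_eq_mul_one_div _ (Fintype.card I : ℝ)] at g1 hE2 ⊢
  generalize 1 / (Fintype.card I : ℝ) = w at *
  have g3 : 0 ≤ Fintype.card ι * t.N 1 * w := by positivity
  have g4 : 0 ≤ t.N 1 * w := by positivity
  have g5 : 0 ≤ Fintype.card ι * w := by positivity
  nlinarith

end Vale.Agent.P082
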