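import Vale.Agent.P082.C3

/-! Part C of P082: the type I case. -/

namespace Vale.Agent.P082

open scoped InnerProductSpace ComplexOrder ComplexConjugate
open Vale.Agent.P104 C

universe v
variable {H : Type v} [NormedAddCommGroup H] [InnerProductSpace ℂ H] [CompleteSpace H]
variable {S : Set (H →L[ℂ] H)}

lemma C.exists_low {d : H →L[ℂ] H} (hd : d ∈ vN S) (h0 : d ≠ 0) :
    ∃ p ∈ vN S, ∃ ε : ℝ, IsStarProjection p ∧ p ≠ 0 ∧ 0 < ε ∧
      ∀ η, ε * ‖p η‖ ^ 2 ≤ ‖star d (p η)‖ ^ 2 := by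
  have hy : 0 ≤ d * star d := mul_star_self_nonneg d
  have hn : 0 < ‖d * star d‖ := by rw [CStarRing.norm_self_mul_star]; positivity
  obtain ⟨r, hr, hc, h1, h2⟩ := exists_spectral hy.isSelfAdjoint (‖d * star d‖ / 2)
  refine ⟨r, mem_vN_of_commute (mul_mem hd (star_mem hd)) hc, _, hr, ?_, half_pos hn, fun η => ?_⟩
  · rintro rfl
    simp only [sub_zero, one_mul, mul_one] at h2
    have := CStarAlgebra.norm_le_norm_of_nonneg_of_le hy h2
    have h3 : ‖((‖d * star d‖ / 2 : ℝ) : ℂ) • (1 : H →L[ℂ] H)‖ ≤ ‖d * star d‖ / 2 := by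
      rw [norm_smul, Complex.norm_real, Real.norm_of_nonneg (half_pos hn).le]
      exact mul_le_of_le_one_right (half_pos hn).le ContinuousLinearMap.norm_id_le
    linarith
  · have h3 := ((ContinuousLinearMap.le_def _ _).1 h1).inner_nonneg_right η
    have hs : star r = r := hr.isSelfAdjoint.star_eq
    have a1 : ⟪η, r η⟫_ℂ = ⟪r η, r η⟫_ℂ := by
      rw [← E.inner_star_right r η (r η), hs, ← mul_apply_eq_comp, hr.isIdempotentElem]
    have a2 : ⟪η, (r * (d * star d) * r) η⟫_ℂ = ⟪star d (r η), star d (r η)⟫_ℂ := by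
      rw [E.inner_star_left, ← E.inner_star_right r η, hs]; rfl
    rw [sub_apply, inner_sub_right, smul_apply, inner_smul_right, a1, a2, sub_nonneg,
      inner_self_eq_norm_sq_to_K, inner_self_eq_norm_sq_to_K] at h3
    change (_ : ℂ) * (‖r η‖ : ℂ) ^ 2 ≤ (‖star d (r η)‖ : ℂ) ^ 2 at h3
    exact_mod_cast h3

lemma C.good_univ {Γ : Type*} [Monoid Γ] : Good (Set.univ : Set (Mean Γ)) :=
  ⟨isClosed_univ, trivial, fun _ _ _ _ => trivial, fun _ _ _ => trivial⟩

lemma C.norm_unit (w : unitary (vN S)) (η : H) : ‖((w : vN S) : H →L[ℂ] H) η‖ = ‖η‖ :=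
  ContinuousLinearMap.norm_map_of_mem_unitary
    (Unitary.map_mem (vN S).subtype w.2) η

lemma C.bd_sq (y : H →L[ℂ] H) (η : H) :
    Bd fun k : unitary (vN S) => ((‖y (((k : vN S) : H →L[ℂ] H) η)‖ ^ 2 : ℝ) : ℂ) :=
  ⟨(‖y‖ * ‖η‖) ^ 2, fun k => by
    rw [Complex.norm_real, Real.norm_of_nonneg (sq_nonneg _), ← norm_unit k η]
    exact pow_le_pow_left₀ (norm_nonneg _) (y.le_opNorm _) 2⟩

lemma C.all_zero (e : Mean (unitary (vN S))) (y : H →L[ℂ] H) (η : H)
    (h : ∀ w : unitary (vN S), e.I (fun k =>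
      ((‖(y * (w : vN S)) (((k : vN S) : H →L[ℂ] H) η)‖ ^ 2 : ℝ) : ℂ)) = 0) (x : vN S) :
    e.I (fun k => ((‖(y * x) (((k : vN S) : H →L[ℂ] H) η)‖ ^ 2 : ℝ) : ℂ)) = 0 := by
  have hx : x ∈ Submodule.span ℂ (unitary (vN S) : Set (vN S)) := by
    rw [CStarAlgebra.span_unitary]; trivial
  induction hx using Submodule.span_induction with
  | mem x hx => exact h ⟨x, hx⟩
  | zero => simpa using e.const 0
  | add x x' _ _ h1 h2 =>
    refine le_antisymm ?_ (I_nonneg e fun k => by positivity)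
    have := I_mono e (bd_sq (y * (x + x' : vN S).1) η)
      (((bd_sq (y * x.1) η).smul 2).add ((bd_sq (y * x'.1) η).smul 2)) fun k => by
        rw [AddMemClass.coe_add, mul_add, add_apply]
        norm_cast
        set a := (y * (x : H →L[ℂ] H)) (((k : vN S) : H →L[ℂ] H) η)
        set b := (y * (x' : H →L[ℂ] H)) (((k : vN S) : H →L[ℂ] H) η)
        have := pow_le_pow_left₀ (norm_nonneg _) (norm_add_le a b) 2
        nlinarith [sq_nonneg (‖a‖ - ‖b‖)]
    rwa [e.add _ _ ((bd_sq _ η).smul 2) ((bd_sq _ η).smul 2), e.smul _ _ (bd_sq _ η),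
      e.smul _ _ (bd_sq _ η), h1, h2, mul_zero, add_zero] at this
  | smul a x _ h1 =>
    have := e.smul (‖a‖ ^ 2 : ℝ) _ (bd_sq (y * x.1) η)
    rw [h1, mul_zero] at this
    rw [← this]
    congr 1
    ext k
    rw [SetLike.val_smul, mul_smul_comm, smul_apply, norm_smul, mul_pow, Complex.ofReal_mul]

lemma C.exists_T0 (e : Mean (unitary (vN S))) (G : vN S → vN S) (C : ℝ)
    (hG : ∀ w : unitary (vN S), ‖G w‖ ≤ C) : ∃ t : vN S, ‖t‖ ≤ C ∧ ∀ ξ η,
      ⟪η, (t : H →L[ℂ] H) ξ⟫_ℂ =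
        e.I fun w => ⟪((w : vN S) : H →L[ℂ] H) η, (G w : H →L[ℂ] H) ξ⟫_ℂ := by
  have hb : ∀ w : unitary (vN S), ‖((star (w : vN S) * G w : vN S) : H →L[ℂ] H)‖ ≤ C := fun w => by
    change ‖star (w : vN S) * G w‖ ≤ C
    rw [CStarRing.norm_mem_unitary_mul _ (Unitary.star_mem w.2)]; exact hG w
  obtain ⟨t, ht, hn⟩ := exists_op e _ _ hb
  refine ⟨⟨t, mem_vN_of_mean e _ _ hb (fun g => Subtype.prop _) ht⟩, hn, fun ξ η => ?_⟩
  rw [ht]
  congr 1
  ext w
  exact E.inner_star_right _ _ _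

theorem uinv_typeI {z : vN S} (hz : IsCentral S z) (h1 : Monic S z)
    (h2 : ∀ c, IsCentral S c → c ≠ 0 → c * z = c → ∃ e, IsAbel S e ∧ e ≠ 0 ∧ e * c = e) :
    UInv S z := by
  obtain ⟨e, -, he⟩ := exists_absorbs (good_univ (Γ := unitary (vN S)))
  refine ⟨e, fun G s ξ η hξ => ?_⟩
  choose T0 _ hT0 using fun a : vN S => exists_T0 e (fun w => G (w * a)) (‖G‖ * ‖a‖) fun w =>
    (G.le_opNorm _).trans (by rw [CStarRing.norm_coe_unitary_mul])
  set d : vN S := star (s : vN S) * T0 (s * 1) - T0 1 with hd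
  suffices h : ((z * d : vN S) : H →L[ℂ] H) = 0 by
    have a1 : (d : H →L[ℂ] H) ξ = 0 := by
      rw [← hξ, ← mul_apply_eq_comp, ← hz.2.2 _ d.2]
      exact congrArg (fun y : H →L[ℂ] H => y ξ) h
    have a2 := hT0 s ξ (((s : vN S) : H →L[ℂ] H) η)
    have a3 := hT0 1 ξ η
    simp only [mul_one] at a3 hd
    rw [← E.inner_star_right] at a2
    refine a2.symm.trans (Eq.trans ?_ a3)
    rw [← sub_eq_zero, ← inner_sub_right]
    exact (congrArg (fun y => ⟪η, y⟫_ℂ) (hd ▸ a1 :)).trans (inner_zero_right η)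
  by_contra h0
  obtain ⟨p, hp, ε, pp, p0, hε, hl⟩ := exists_low (z * d).2 h0
  have hzs : star (z : H →L[ℂ] H) = z := hz.2.1.isSelfAdjoint.star_eq
  have hzz : (z : H →L[ℂ] H) * z = z := hz.2.1.isIdempotentElem
  have hpz : p * z = p := by
    ext η
    have a1 := hl (η - (z : H →L[ℂ] H) η)
    have a2 : star ((z * d : vN S) : H →L[ℂ] H) (p (η - (z : H →L[ℂ] H) η)) = 0 := by
      have : star ((z * d : vN S) : H →L[ℂ] H) * p * (1 - z) = 0 := by
        rw [MulMemClass.coe_mul, star_mul, hzs, mul_assoc, mul_assoc, ← mul_assoc (z : H →L[ℂ] H),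
          hz.2.2 p hp, mul_assoc p, mul_sub, mul_one, hzz, sub_self, mul_zero, mul_zero]
      exact congrArg (fun y : H →L[ℂ] H => y η) this
    rw [a2, norm_zero, zero_pow two_ne_zero] at a1
    have a3 : p (η - (z : H →L[ℂ] H) η) = 0 := by
      have := nonpos_of_mul_nonpos_right a1 hε
      exact norm_eq_zero.1 (pow_eq_zero_iff two_ne_zero |>.1 (le_antisymm this (sq_nonneg _)))
    rw [map_sub, sub_eq_zero] at a3
    exact a3.symm
  obtain ⟨c1, k1, u, hc1, c10, c1z, hu, hus⟩ := h1 p hp pp p0 hpz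
  obtain ⟨e', he', e0, e1⟩ := h2 c1 hc1 c10 c1z
  obtain ⟨c2, k2, u', hc2, c20, c2z, hu', hus'⟩ := h1 e' he'.1 he'.2.1 e0 (by
    rw [← e1, mul_assoc, c1z])
  have c12 : c1 * c2 = c2 := by
    rw [← hus', Finset.mul_sum]
    refine Finset.sum_congr rfl fun i _ => ?_
    rw [← mul_assoc, hc1.2.2 _ (hu' i).1, ← (hu' i).2, mul_assoc (u' i), e1]
  obtain ⟨C, hC, hcb⟩ := cb_abel he' u' hu' hc2 hus' G
  let c2' : vN S := ⟨c2, hc2.1⟩
  have c2s : star c2 = c2 := hc2.2.1.isSelfAdjoint.star_eq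
  obtain ⟨T1, hT1, hJ⟩ := cbcore (S := S) (fun w : unitary (vN S) => [(w : vN S)]) rfl
    (fun g h => by simp) (fun g => by simp) good_univ trivial he
    (LinearMap.mulLeft ℂ c2' ∘ₗ (G : vN S →ₗ[ℂ] vN S)) C hC hcb
  have hT : ∀ a, T1 a = c2' * T0 a := fun a => by
    ext ξ
    refine ext_inner_left ℂ fun η => ?_
    rw [hT1, MulMemClass.coe_mul, mul_apply_eq_comp, ← E.inner_star_left, hT0]
    congr 1
    ext w
    simp only [List.map_cons, List.map_nil, List.sum_cons, List.sum_nil, add_zero]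
    rw [← mul_apply_eq_comp, c2s, ← hc2.2.2 _ (w : vN S).2, mul_apply_eq_comp, ← c2s,
      E.inner_star_left]
    rfl
  have hd' : star (s : vN S) * T1 (s * 1) - T1 1 = c2' * (z * d) := by
    rw [hT, hT, ← mul_assoc, ← mul_assoc, show c2' * z = c2' from Subtype.ext c2z, hd, mul_sub,
      ← mul_assoc, show star (s : vN S) * c2' = c2' * star (s : vN S) from
        Subtype.ext (hc2.2.2 _ (star (s : vN S)).2).symm]
  apply c20
  ext η
  set y : H →L[ℂ] H := (star (c2' * (z * d)) : vN S).1 with hy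
  have hJ' := all_zero e y η fun w => by
    have := hJ s s rfl trivial 1 (Mean.dirac w) trivial η
    rw [hd'] at this
    rw [← this]
    congr 1
    ext k
    rw [Mean.dirac_I]
    · simp [hy]
    · simpa [hy] using bd_sq (S := S) y (((k : vN S) : H →L[ℂ] H) η)
  have a1 := e.sum Finset.univ (f := fun i (k : unitary (vN S)) =>
    ((‖(y * star (u i)) (((k : vN S) : H →L[ℂ] H) η)‖ ^ 2 : ℝ) : ℂ)) fun i _ => bd_sq _ η
  replace a1 := a1.trans (Finset.sum_eq_zero fun i _ => hJ' (star ⟨u i, (hu i).1⟩))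
  have a2 := I_mono e (Bd.const ((ε * ‖c2 η‖ ^ 2 : ℝ) : ℂ))
    (Bd.sum Finset.univ fun i _ => bd_sq (y * star (u i)) η) fun k => by
      set ζ := ((k : vN S) : H →L[ℂ] H) η with hζ
      have b1 : ‖c2 η‖ = ‖c2 ζ‖ := by
        rw [hζ, ← mul_apply_eq_comp, hc2.2.2 _ (k : vN S).2, mul_apply_eq_comp, norm_unit]
      have b2 := E.inner_f (s := u) (c2 ζ) (c2 ζ)
      rw [hus, ← mul_apply_eq_comp, c12] at b2
      simp only [inner_self_eq_norm_sq_to_K] at b2
      have b3 : ‖c2 ζ‖ ^ 2 = ∑ i, ‖star (u i) (c2 ζ)‖ ^ 2 := by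
        apply Complex.ofReal_injective
        push_cast
        exact b2
      rw [b1, b3, Finset.mul_sum]
      norm_cast
      refine Finset.sum_le_sum fun i _ => ?_
      have b4 : p * star (u i) = star (u i) := by
        rw [← pp.isSelfAdjoint.star_eq, ← star_mul, (hu i).2]
      have b5 := hl (star (u i) (c2 ζ))
      rw [← mul_apply_eq_comp p, b4] at b5
      refine b5.trans (le_of_eq ?_)
      congr 2
      change _ = (star (c2 * ((z * d : vN S) : H →L[ℂ] H)) * star (u i)) ζ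
      rw [star_mul, c2s, mul_assoc, hc2.2.2 _ (star_mem (hu i).1)]
      rfl
  rw [a1, e.const] at a2
  have a3 : ε * ‖c2 η‖ ^ 2 ≤ 0 := by exact_mod_cast a2
  have := nonpos_of_mul_nonpos_right a3 hε
  exact norm_eq_zero.1 (pow_eq_zero_iff two_ne_zero |>.1 (le_antisymm this (sq_nonneg _)))

end Vale.Agent.P082
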