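import Vale.Agent.P082.Mean
import Vale.Agent.P082.D1

/-! Part D: decoupling along the walk. -/

namespace Vale.Agent.P082

open scoped InnerProductSpace ComplexOrder ComplexConjugate
open Vale.Agent.P104 Finset

variable {H : Type*} [NormedAddCommGroup H] [InnerProductSpace ℂ H] [CompleteSpace H]
variable {S : Set (H →L[ℂ] H)}

namespace D

variable {Λ : Type} [Fintype Λ] [DecidableEq Λ] {p : Λ → vN S} {B y : vN S}

/-- The decoupled part. -/
noncomputable def gd (p : Λ → vN S) (B y : vN S) (m : ℕ) (θ : Λ → Bool) : vN S :=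
  ∑ j, sg (θ j) • (p j * G1.vm p B {j} θ ^ m * y)

/-- The damped walk. -/
noncomputable def dw (p : Λ → vN S) (B y : vN S) (m : ℕ) (ω : Λ → Fin (m + 1)) (θ : Λ → Bool) :
    vN S := (B * dia p (dd ω θ)) ^ m * y

lemma gd_eq (m : ℕ) (θ : Λ → Bool) :
    (Fintype.card (Λ → Fin (m + 1)) : ℂ) • gd p B y m θ =
      ∑ ω : Λ → Fin (m + 1), ∑ j, (wt (ω j) * sg (θ j)) • (p j * dw p B y m ω θ) := by
  rw [sum_comm, gd, smul_sum]
  refine sum_congr rfl fun j _ => ?_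
  have := key p B (k := m) j θ m 0 (p j) (by simp)
  simp only [Pi.zero_apply, pow_zero, prod_const_one, mul_one] at this
  rw [smul_comm, vm_eq, ← smul_mul_assoc, ← this, sum_mul, smul_sum]
  refine sum_congr rfl fun ω _ => ?_
  rw [dw, smul_mul_assoc, smul_smul, mul_comm (sg _), mul_assoc]

lemma norm_unit {u : vN S} (hu : u ∈ unitary (vN S)) : ‖u‖ ≤ 1 := by
  have h := CStarRing.norm_star_mul_self (x := u)
  rw [hu.1] at h
  have h1 : ‖(1 : vN S)‖ ≤ 1 := ContinuousLinearMap.norm_id_le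
  nlinarith [norm_nonneg u]

lemma norm_pow_le_of {x : vN S} {c : ℝ} (hc : 0 ≤ c) (h : ‖x‖ ≤ c) (m : ℕ) : ‖x ^ m‖ ≤ c ^ m := by
  induction m with
  | zero => simpa using norm_unit (S := S) (one_mem _)
  | succ m ih =>
    rw [pow_succ, pow_succ]
    exact (norm_mul_le _ _).trans (mul_le_mul ih h (norm_nonneg _) (by positivity))

omit [DecidableEq Λ] in
lemma norm_dw (hp : PU p) (hB : B ∈ unitary (vN S)) (hy : y ∈ unitary (vN S)) (m : ℕ)
    (ω : Λ → Fin (m + 1)) (θ : Λ → Bool) : ‖dw p B y m ω θ‖ ≤ 2 ^ m := by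
  have h1 : ‖B * dia p (dd ω θ)‖ ≤ 2 := (norm_mul_le _ _).trans (by
    have := norm_dia hp (by norm_num) (norm_dd ω θ)
    nlinarith [norm_unit hB, norm_nonneg B, norm_nonneg (dia p (dd ω θ))])
  refine (norm_mul_le _ _).trans ?_
  have h2 := norm_pow_le_of (by norm_num) h1 m
  nlinarith [norm_unit hy, norm_nonneg y, norm_nonneg ((B * dia p (dd ω θ)) ^ m)]

lemma norm_wt {m : ℕ} (x : Fin (m + 1)) : ‖wt x‖ ≤ m + 1 := by
  unfold wt
  split_ifs
  · exact_mod_cast (le_refl (m + 1))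
  · simp; positivity

lemma norm_gd (hp : PU p) (hB : B ∈ unitary (vN S)) (hy : y ∈ unitary (vN S)) (m : ℕ)
    (θ : Λ → Bool) : ‖gd p B y m θ‖ ≤ (m + 1) * 2 ^ m := by
  have h0 : (0 : ℝ) < Fintype.card (Λ → Fin (m + 1)) := by exact_mod_cast Fintype.card_pos
  refine le_of_mul_le_mul_left ?_ h0
  have h1 := congrArg norm (gd_eq (p := p) (B := B) (y := y) m θ)
  rw [norm_smul, Complex.norm_natCast] at h1
  rw [h1, ← nsmul_eq_mul, ← card_univ, ← sum_const]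
  refine norm_sum_le_of_le _ fun ω _ => ?_
  have h2 : ∑ j, (wt (ω j) * sg (θ j)) • (p j * dw p B y m ω θ) =
      dia p (fun j => wt (ω j) * sg (θ j)) * dw p B y m ω θ := by
    simp only [dia, sum_mul, smul_mul_assoc]
  rw [h2]
  refine (norm_mul_le _ _).trans (mul_le_mul (norm_dia hp (by positivity) fun l => ?_)
    (norm_dw hp hB hy m ω θ) (norm_nonneg _) (by positivity))
  simpa using norm_wt (ω l)

lemma sum_gd (hp : PU p) (hB : B ∈ unitary (vN S)) (hy : y ∈ unitary (vN S)) (m : ℕ)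
    (δ : vN S →ₗ[ℂ] H) {ε : ℝ} (hε : 0 ≤ ε) (h : ∀ a, ∑ j, ‖δ (p j * a)‖ ^ 2 ≤ ε * ‖a‖ ^ 2) :
    ∑ θ, ‖δ (gd p B y m θ)‖ ^ 2 ≤ Fintype.card (Λ → Bool) * (((m + 1) * 2 ^ m) ^ 2 * ε) := by
  have h0 : (0 : ℝ) < Fintype.card (Λ → Fin (m + 1)) := by exact_mod_cast Fintype.card_pos
  have h1 : ∀ ω : Λ → Fin (m + 1),
      ∑ θ, ‖δ (∑ j, (wt (ω j) * sg (θ j)) • (p j * dw p B y m ω θ))‖ ^ 2 ≤
        Fintype.card (Λ → Bool) * (((m + 1) * 2 ^ m) ^ 2 * ε) := by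
    intro ω
    have h2 : ∀ θ, δ (∑ j, (wt (ω j) * sg (θ j)) • (p j * dw p B y m ω θ)) =
        ∑ j ∈ univ.filter fun j => ω j = 0,
          sg (θ j) • ((m + 1 : ℂ) • δ (p j * dw p B y m ω θ)) := by
      intro θ
      rw [map_sum, sum_filter]
      refine sum_congr rfl fun j _ => ?_
      unfold wt
      split_ifs
      · rw [map_smul, smul_smul, mul_comm]
      · simp
    simp only [h2]
    rw [flip_orth_norm _ _ fun l _ l' hl' θ => by rw [dw, dd_flip ω θ (mem_filter.1 hl').2, dw],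
      ← nsmul_eq_mul, ← card_univ, ← sum_const]
    refine sum_le_sum fun θ _ => ?_
    have h3 : ‖(m + 1 : ℂ)‖ = m + 1 := by exact_mod_cast rfl
    simp only [norm_smul, mul_pow, h3, ← mul_sum]
    rw [mul_assoc]
    refine mul_le_mul_of_nonneg_left ?_ (by positivity)
    refine (sum_le_sum_of_subset_of_nonneg (filter_subset _ _) fun _ _ _ => by positivity).trans
      ((h _).trans ?_)
    rw [mul_comm]
    exact mul_le_mul_of_nonneg_right
      (pow_le_pow_left₀ (norm_nonneg _) (norm_dw hp hB hy m ω θ) 2) hε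
  have h4 : ∀ θ, (Fintype.card (Λ → Fin (m + 1)) : ℝ) * ‖δ (gd p B y m θ)‖ ^ 2 ≤
      ∑ ω : Λ → Fin (m + 1), ‖δ (∑ j, (wt (ω j) * sg (θ j)) • (p j * dw p B y m ω θ))‖ ^ 2 := by
    intro θ
    have h5 := norm_sum_sq_le univ fun ω : Λ → Fin (m + 1) =>
      δ (∑ j, (wt (ω j) * sg (θ j)) • (p j * dw p B y m ω θ))
    rw [← map_sum, ← gd_eq, map_smul, norm_smul, Complex.norm_natCast, card_univ, mul_pow, sq,
      mul_assoc] at h5
    exact le_of_mul_le_mul_left h5 h0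
  refine le_of_mul_le_mul_left ?_ h0
  rw [mul_sum]
  refine (sum_le_sum fun θ _ => h4 θ).trans ?_
  rw [sum_comm, ← nsmul_eq_mul (Fintype.card (Λ → Fin (m + 1))), ← card_univ, ← sum_const]
  exact sum_le_sum fun ω _ => h1 ω

lemma N_bad (t : Tr (vN S)) (hp : PU p) (hB : B ∈ unitary (vN S)) (hy : y ∈ unitary (vN S))
    (m : ℕ) (θ : Λ → Bool) : t.N (th p θ * vv p B θ ^ m * y - gd p B y m θ) ≤
      m * ∑ r ∈ range m, ∑ k, t.N (p k * vv p B θ ^ r * B * p k) := by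
  rw [sum_comm, mul_sum, ← hp.sum_N_mul t]
  refine sum_le_sum fun j _ => ?_
  have h1 : p j * (th p θ * vv p B θ ^ m * y - gd p B y m θ) =
      sg (θ j) • (G1.pr p {j} * (vv p B θ ^ m - G1.vm p B {j} θ ^ m) * y) := by
    rw [mul_sub, ← mul_assoc, ← mul_assoc, hp.mul_th, gd, mul_sum, sum_eq_single j]
    · simp only [G1.pr, sum_singleton, mul_smul_comm, ← mul_assoc, hp.idem, smul_mul_assoc,
        mul_sub, sub_mul, smul_sub]
    · intro l _ hl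
      simp only [mul_smul_comm, ← mul_assoc, hp.orth _ _ (Ne.symm hl), zero_mul, smul_zero]
    · simp
  rw [h1, t.N_smul, norm_sg, one_pow, one_mul, t.N_mul_unitary hy]
  simpa only [G1.pr, sum_singleton] using G1.mask_left t hp hB {j} θ m

end D

open D

theorem pinch (t : Tr (vN S)) (J : ℕ) (ρ : ℝ) (hρ : 0 < ρ) : ∃ δ > 0,
    ∀ (Λ : Type) [Fintype Λ] [DecidableEq Λ] (p : Λ → vN S) (B : vN S), PU p →
      B ∈ unitary (vN S) → Qf t p B ≤ δ → ∀ r ≤ J,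
      ∑ θ, ∑ k, t.N (p k * vv p B θ ^ r * B * p k) ≤ Fintype.card (Λ → Bool) * ρ := by
  obtain ⟨δ, hδ, h⟩ := walk_estimates t 1 J one_pos ρ hρ
  refine ⟨δ, hδ, fun Λ _ _ p B hp hB hQ r hr => ?_⟩
  let φ : Fin (Fintype.card Λ) ≃ Λ := (Fintype.equivFin Λ).symm
  let ψ : Fin (Fintype.card Λ) × Fin 1 ≃ Λ := (Equiv.prodUnique _ _).trans φ
  have hb : ∀ k, blk (fun l => p (ψ l)) k = p (φ k) := fun k => by simp [blk, ψ]
  have he : PU fun l => p (ψ l) :=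
    ⟨fun l => hp.sa _, fun l => hp.idem _, fun l l' hl => hp.orth _ _ (ψ.injective.ne hl),
      by rw [ψ.sum_comp p, hp.sum_eq]⟩
  have hQ' : Qf t (blk fun l => p (ψ l)) B = Qf t p B := by
    simp only [Qf, hb]
    rw [← φ.sum_comp]
    exact sum_congr rfl fun k _ => φ.sum_comp fun k' => t.N (p (φ k) * star B * p k' * B * p (φ k))
  have h1 := (h _ _ B he hB (hQ'.trans_le hQ)).1 r hr
  rw [Fintype.card_congr (ψ.arrowCongr (Equiv.refl Bool))] at h1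
  refine le_of_eq_of_le ?_ h1
  rw [← (ψ.arrowCongr (Equiv.refl Bool)).sum_comp]
  refine sum_congr rfl fun θ _ => ?_
  have h2 : vv p B (ψ.arrowCongr (Equiv.refl Bool) θ) = vv (fun l => p (ψ l)) B θ := by
    simp only [vv, th]
    rw [← ψ.sum_comp]
    simp
  rw [h2, ← φ.sum_comp]
  simp only [hb]

theorem walk_step (m : ℕ) : ∃ Cm : ℝ, 0 ≤ Cm ∧ ∀ (t : Tr (vN S)) (Λ : Type) [Fintype Λ]
    [DecidableEq Λ] (p : Λ → vN S) (B y : vN S) (δ : vN S →ₗ[ℂ] H) (ε C γ ρ : ℝ), PU p →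
    B ∈ unitary (vN S) → y ∈ unitary (vN S) → 0 ≤ ε → 0 ≤ C → 0 ≤ γ → 0 ≤ ρ →
    (∀ a, ∑ j, ‖δ (p j * a)‖ ^ 2 ≤ ε * ‖a‖ ^ 2) →
    (∀ a, ‖δ a‖ ^ 2 ≤ C * t.N a + γ * ‖a‖ ^ 2) →
    (∀ r ≤ m, ∑ θ, ∑ k, t.N (p k * vv p B θ ^ r * B * p k) ≤ Fintype.card (Λ → Bool) * ρ) →
    ∑ θ, ‖δ (th p θ * vv p B θ ^ m * y)‖ ^ 2 ≤
      Fintype.card (Λ → Bool) * (Cm * (ε + γ + C * ρ)) := by
  obtain ⟨c, hc⟩ : ∃ c : ℝ, c = (m + 1) * 2 ^ m := ⟨_, rfl⟩
  have hc0 : 0 ≤ c := by rw [hc]; positivity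
  refine ⟨2 * (1 + c) ^ 2 + 2 * m ^ 2, by positivity, ?_⟩
  intro t Λ _ _ p B y δ ε C γ ρ hp hB hy hε hC hγ hρ h1 h2 h3
  have hg := sum_gd hp hB hy m δ hε h1
  have hb : ∑ θ, t.N (th p θ * vv p B θ ^ m * y - gd p B y m θ) ≤
      Fintype.card (Λ → Bool) * (m ^ 2 * ρ) := by
    refine (sum_le_sum fun θ _ => N_bad t hp hB hy m θ).trans ?_
    rw [← mul_sum, sum_comm]
    refine (mul_le_mul_of_nonneg_left (sum_le_card_nsmul _ _ _ fun r hr =>
      h3 r (mem_range.1 hr).le) (by positivity)).trans (le_of_eq ?_)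
    rw [card_range, nsmul_eq_mul]
    ring
  have h4 : ∀ θ, ‖δ (th p θ * vv p B θ ^ m * y)‖ ^ 2 ≤ 2 * ‖δ (gd p B y m θ)‖ ^ 2 +
      2 * C * t.N (th p θ * vv p B θ ^ m * y - gd p B y m θ) + 2 * γ * (1 + c) ^ 2 := by
    intro θ
    have a1 := norm_add_sq_le_two (δ (gd p B y m θ)) (δ (th p θ * vv p B θ ^ m * y - gd p B y m θ))
    rw [← map_add, add_sub_cancel] at a1
    have a2 := h2 (th p θ * vv p B θ ^ m * y - gd p B y m θ)
    have a3 : ‖th p θ * vv p B θ ^ m * y - gd p B y m θ‖ ≤ 1 + c :=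
      (norm_sub_le _ _).trans (add_le_add (norm_unit (mul_mem (mul_mem (hp.th_unitary θ)
        (pow_mem (hp.vv_unitary hB θ) m)) hy)) (hc ▸ norm_gd hp hB hy m θ))
    have a4 := mul_le_mul_of_nonneg_left (pow_le_pow_left₀ (norm_nonneg _) a3 2) hγ
    linarith
  refine (sum_le_sum fun θ _ => h4 θ).trans ?_
  rw [sum_add_distrib, sum_add_distrib, ← mul_sum, ← mul_sum, sum_const, card_univ, nsmul_eq_mul]
  rw [← hc] at hg
  have hn : (0 : ℝ) ≤ Fintype.card (Λ → Bool) := by positivity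
  generalize (Fintype.card (Λ → Bool) : ℝ) = n at *
  have a5 := mul_le_mul_of_nonneg_left hb hC
  have a6 : 2 * (c ^ 2 * ε) + 2 * C * (m ^ 2 * ρ) + 2 * γ * (1 + c) ^ 2 ≤
      (2 * (1 + c) ^ 2 + 2 * m ^ 2) * (ε + γ + C * ρ) := by
    have b1 := mul_nonneg hC hρ
    have b2 : (0 : ℝ) ≤ m ^ 2 := by positivity
    nlinarith [mul_nonneg hc0 hε, mul_nonneg b2 hε, mul_nonneg b2 hγ,
      mul_nonneg (sq_nonneg (1 + c)) b1]
  have a7 := mul_le_mul_of_nonneg_left a6 hn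
  nlinarith

end Vale.Agent.P082
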