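import Vale.Agent.P082.E1
import Vale.Agent.P082.PartA
import Vale.Agent.P082.PartB

/-! Part E: the case with property P2. -/

namespace Vale.Agent.P082

open scoped InnerProductSpace ComplexOrder ComplexConjugate
open Vale.Agent.P104 Vale.Agent.P104.F Finset

variable {H : Type*} [NormedAddCommGroup H] [InnerProductSpace ℂ H] [CompleteSpace H]
variable {S : Set (H →L[ℂ] H)}

namespace E

lemma main (t : Tr (vN S)) (ε : ℝ) (hε : 0 < ε) : ∃ γ > 0, ∀ C CQ : ℝ, 0 ≤ C → 0 ≤ CQ →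
    ∃ εA > 0, ∃ N₀ : ℕ, ∀ N : ℕ, N₀ ≤ N → ∀ (z : vN S) (F : Fin N → Fin N → vN S)
      (Hm : vN S →ₗ[ℂ] H) (η : H) (B : vN S), IsCentral S z → MU F z → P1 t Hm → P2 t Hm C γ →
      Mod F z Hm εA → TB t η 1 → B ∈ unitary (vN S) → Qf t (dg F z) B ≤ CQ / N →
      ‖cf Hm η B - cf Hm η 1‖ ≤ ε := by
  have hτ := t.N_nonneg 1
  obtain ⟨K, α, hα, hω, hv⟩ := exists_poly (32 * (t.N 1 + 1) / ε)
  choose Cm hC0 hCm using fun m => walk_step (S := S) m
  obtain ⟨D, hD, hD'⟩ : ∃ D : ℝ, 0 < D ∧ ∀ m < K, Cm m ≤ D :=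
    ⟨∑ m ∈ range K, Cm m + 1, by have := sum_nonneg fun m (_ : m ∈ range K) => hC0 m; linarith,
      fun m hm => (single_le_sum (fun m _ => hC0 m) (mem_range.2 hm)).trans (by linarith)⟩
  obtain ⟨e, he, he'⟩ : ∃ e : ℝ, 0 < e ∧ (K + 1) * e = ε / 8 :=
    ⟨ε / 8 / (K + 1), by positivity, by field_simp⟩
  obtain ⟨β, hβ, hβ'⟩ : ∃ β : ℝ, 0 < β ∧ β * (t.N 1 + 1) = e :=
    ⟨e / (t.N 1 + 1), by positivity, by field_simp⟩
  obtain ⟨X, hX, hX'⟩ : ∃ X : ℝ, 0 < X ∧ D * X / β = e :=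
    ⟨e * β / D, by positivity, by field_simp⟩
  refine ⟨X / 96, by positivity, fun C CQ hC hCQ => ?_⟩
  obtain ⟨ρ, hρ, hρ'⟩ : ∃ ρ : ℝ, 0 < ρ ∧ 16 * (C + 1) * ρ = X :=
    ⟨X / (16 * (C + 1)), by positivity, by field_simp⟩
  obtain ⟨L, hL, hL'⟩ : ∃ L : ℝ, 0 < L ∧ 16 * (C + 1) * CQ / L ^ 2 ≤ X / 4 := by
    have h0 : 0 ≤ 64 * (C + 1) * CQ / X := by positivity
    refine ⟨64 * (C + 1) * CQ / X + 1, by positivity, ?_⟩
    rw [div_le_iff₀ (by positivity)]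
    have : 16 * (C + 1) * CQ = X / 4 * (64 * (C + 1) * CQ / X) := by field_simp; ring
    rw [this]
    exact mul_le_mul_of_nonneg_left (by nlinarith) (by positivity)
  obtain ⟨δ, hδ, hpin⟩ := pinch t K ρ hρ
  obtain ⟨N₀, hN₀⟩ := exists_nat_ge (CQ / δ)
  refine ⟨X / (64 * L ^ 2), by positivity, N₀ + 1, ?_⟩
  intro N hN z F Hm η B hz hF h1 h2 h3 hη hB hQ
  obtain ⟨N, rfl⟩ : ∃ k, N = k + 1 := ⟨N - 1, by omega⟩
  have hp := pu_dg hF
  have hm := mod_dg hF h3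
  have hδ' : CQ / (N + 1 : ℕ) ≤ δ := by
    rw [div_le_iff₀ (by positivity), mul_comm, ← div_le_iff₀ hδ]
    exact hN₀.trans (by exact_mod_cast by omega)
  have key : ∀ B' y : vN S, B' ∈ unitary (vN S) → y ∈ unitary (vN S) →
      Qf t (dg F z) B' ≤ CQ / (N + 1 : ℕ) → ∀ n ≤ K,
      ∑ θ, ‖cf Hm η (vv (dg F z) B' θ ^ n * y) - cf Hm η y‖ ≤
        Fintype.card (Option (Fin (N + 1)) → Bool) * (ε / 4) := by
    intro B' y hB' hy hQ' n hn
    have hc : (0 : ℝ) ≤ Fintype.card (Option (Fin (N + 1)) → Bool) := by positivity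
    refine (core t hp hm hη hB' hy (K := K) (X := D * X) hβ (fun m hmK => ?_) n hn).trans ?_
    · refine (hCm m t _ _ B' y (df Hm B') (16 * L ^ 2 * (X / (64 * L ^ 2)) +
        16 * (C + 1) * CQ / L ^ 2 + 16 * (X / 96)) (4 * C) (8 * (X / 96)) ρ hp hB' hy
        (by positivity) (by positivity) (by positivity) hρ.le (fun a => ?_)
        (df_le t h2 hB' (by positivity)) fun r hr =>
          hpin _ _ B' hp hB' (hQ'.trans hδ') r (by omega)).trans ?_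
      · exact t1 t hz hF (by positivity) hC (by positivity) hL h1 h2 h3 hB'
          (by simpa using hQ') a
      · refine mul_le_mul_of_nonneg_left (mul_le_mul (hD' m hmK) ?_ (by positivity) hD.le) hc
        have : 16 * L ^ 2 * (X / (64 * L ^ 2)) = X / 4 := by field_simp; ring
        nlinarith
    · rw [mul_left_comm, hX']
      refine mul_le_mul_of_nonneg_left ?_ hc
      have a1 : (n : ℝ) ≤ K + 1 := by exact_mod_cast by omega
      have a2 : β * t.N 1 + e ≤ 2 * e := by nlinarith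
      have a3 := mul_le_mul a1 a2 (by positivity) (by positivity)
      linarith
  have hB' := Unitary.star_mem hB
  have h4 := jump (η := η) (B := star B) hp hm (fun n => (hα n).1)
    (fun θ => star_ineq t h1 hη K α (fun v hv' => hv v hv') (hp.vv_unitary hB' θ))
    (key _ 1 hB' (one_mem _) (by rwa [Qf_star t hp]))
    (by simpa only [star_star] using key B B hB hB hQ)
  rw [star_star] at h4
  rw [div_le_iff₀ hε] at hω
  generalize ∑ n ∈ Icc 1 K, α n = A at *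
  have hA : 0 < A := by nlinarith
  refine le_of_mul_le_mul_left (h4.trans ?_) hA
  nlinarith

end E

open E

theorem fa2 (t : Tr (vN S)) (z : vN S) (hz : IsCentral S z) (hna : NoAbel S z)
    (ht : t.N (1 - z) = 0) (ε : ℝ) (hε : 0 < ε) : ∃ γ > 0, ∀ (C : ℝ) (ι : Type) [Fintype ι]
      (u : ι → vN S →ₗ[ℂ] H) (η : ι → H) (s : ι → unitary (vN S)), 0 ≤ C →
      (∀ i, P1 t (u i)) → (∀ i, P2 t (u i) C γ) → (∀ i, TB t (η i) 1) →
      ∃ m : Mean (unitary (vN S)), ∀ i,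
        ‖m.I (fun w => cf (u i) (η i) (w * s i)) - m.I (fun w => cf (u i) (η i) w)‖ ≤ ε := by
  obtain ⟨γ, hγ, hmain⟩ := main t (ε / 2) (by positivity)
  refine ⟨γ, hγ, fun C ι _ u η s hC h1 h2 h3 => ?_⟩
  have hτ := t.N_nonneg 1
  obtain ⟨εA, hεA, N₀, hN₀⟩ := hmain C (1000 * (Fintype.card (Option ι) + 1) * (t.N 1 + 1)) hC
    (by positivity)
  obtain ⟨N₁, hN₁⟩ := lemmaA (S := S) (t.N 1) εA hεA
  obtain ⟨N, F, u₀, hN, hF, hu₀, hQ⟩ := muq t z hz hna ht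
    (fun o : Option ι => o.elim 1 fun i => (s i : vN S))
    (by rintro (_ | i); exacts [one_mem _, (s i).2]) (N₀ + N₁)
  obtain ⟨m, hm⟩ := hN₁ N (by omega) t z F le_rfl hz ht hF
  refine ⟨m, fun i => ?_⟩
  obtain ⟨Hm, a1, a2, a3⟩ := exists_avg t m (h1 i)
  have a4 := hm _ _ (h1 i) a1
  have b1 := hN₀ N (by omega) z F Hm (η i) (u₀ * s i) hz hF a2 (a3 _ _ (h2 i)) a4 (h3 i)
    (mul_mem hu₀ (s i).2) (hQ (some i))
  have b2 := hN₀ N (by omega) z F (sh Hm (s i)) _ u₀ hz hF (P1_sh a2 (s i).2)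
    (P2_sh (a3 _ _ (h2 i)) hγ.le (s i).2) (Mod_sh a4 hεA.le (s i).2) (TB_sh (h3 i) (s i).2) hu₀
    (by simpa using hQ none)
  rw [cf_sh, cf_sh, one_mul] at b2
  have c1 : m.I (fun w => cf (u i) (η i) (w * s i)) = cf Hm (η i) (s i) :=
    (a1 (s i) (((s i : vN S) : H →L[ℂ] H) (η i))).symm
  have c2 : m.I (fun w => cf (u i) (η i) w) = cf Hm (η i) 1 := by
    have := a1 1 (η i)
    simp only [mul_one] at this
    exact this.symm
  rw [c1, c2, ← sub_add_sub_cancel _ (cf Hm (η i) (u₀ * s i))]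
  refine (norm_add_le _ _).trans ?_
  rw [norm_sub_rev]
  linarith

end Vale.Agent.P082
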