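import Vale.Agent.P082.F1
import Vale.Agent.P082.PartE
import Vale.Agent.P104.H1

/-! The invariant mean on the type II part. -/

namespace Vale.Agent.P082

open scoped InnerProductSpace ComplexOrder ComplexConjugate
open Vale.Agent.P104 Finset

variable {H : Type*} [NormedAddCommGroup H] [InnerProductSpace ℂ H] [CompleteSpace H]
variable {S : Set (H →L[ℂ] H)}

namespace F

/-- the two square roots of minus one -/
noncomputable def ci (b : Bool) : ℂ := if b then Complex.I else -Complex.I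

lemma ci_conj (b : Bool) : conj (ci b) = -ci b := by cases b <;> simp [ci]

lemma ci_sq (b : Bool) : ci b * ci b = -1 := by cases b <;> simp [ci]

lemma cf_avg (u : vN S →ₗ[ℂ] H) (η : H) (x y : vN S) :
    ∑ b, cf u η (x + ci b • y) = 2 * cf u η x + 2 * cf u η y := by
  simp only [Fintype.sum_bool, cf, ci, if_true, Bool.false_eq_true, if_false, map_add, map_smul,
    AddMemClass.coe_add, SetLike.val_smul, add_apply, smul_apply, inner_add_left, inner_add_right,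
    inner_smul_left, inner_smul_right, map_neg, Complex.conj_I]
  linear_combination (-2 * ⟪(y : H →L[ℂ] H) η, u y⟫_ℂ) * Complex.I_mul_I

lemma vec_le {t : Tr (vN S)} {η : H} (hη : TB t η 1) {x : vN S} {θ : ℝ} (hθ : 0 ≤ θ)
    (hx : t.N x ≤ θ ^ 2) : ‖(x : H →L[ℂ] H) η‖ ≤ θ := by
  have := hη x
  rw [one_pow, one_mul] at this
  exact (abs_le_of_sq_le_sq' (this.trans hx) hθ).2

lemma inner_le {a b : H} {α β : ℝ} (ha : ‖a‖ ≤ α) (hb : ‖b‖ ≤ β) : ‖⟪a, b⟫_ℂ‖ ≤ α * β :=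
  (norm_inner_le_norm _ _).trans (mul_le_mul ha hb (norm_nonneg _) ((norm_nonneg _).trans ha))

lemma mul_le_one' {x y : vN S} (hx : ‖x‖ ≤ 1) (hy : ‖y‖ ≤ 1) : ‖x * y‖ ≤ 1 :=
  (norm_mul_le _ _).trans (mul_le_one₀ hx (norm_nonneg _) hy)

lemma unit_norm {w : vN S} (hw : w ∈ unitary (vN S)) : ‖w‖ ≤ 1 := by
  have e := CStarRing.norm_star_mul_self (x := w)
  rw [hw.1] at e
  have e1 : ‖(1 : vN S)‖ ≤ 1 := norm_le_one zero_le_one le_rfl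
  nlinarith [norm_nonneg w]

/-- the cut map -/
noncomputable def cutm (u : vN S →ₗ[ℂ] H) (q : vN S) : vN S →ₗ[ℂ] H where
  toFun a := (q : H →L[ℂ] H) (u (q * a * q))
  map_add' a b := by simp [mul_add, add_mul]
  map_smul' c a := by simp

lemma sum_expand (u : vN S →ₗ[ℂ] H) (η : H) (q q' ρ ρ' w s : vN S) :
    ∑ bb : Bool × Bool, cf u η ((q + ci bb.1 • q') * w * (ρ + ci bb.2 • ρ') * s) =
      4 * cf u η (q * (w * ρ * s)) + 4 * cf u η (q * (w * ρ' * s)) +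
        2 * ∑ b, cf u η (q' * (w * (ρ + ci b • ρ') * s)) := by
  rw [Fintype.sum_prod_type_right]
  have f1 : ∀ b b', (q + ci b' • q') * w * (ρ + ci b • ρ') * s =
      q * (w * (ρ + ci b • ρ') * s) + ci b' • (q' * (w * (ρ + ci b • ρ') * s)) := by
    intro b b'
    simp only [add_mul, smul_mul_assoc, mul_assoc]
  have f2 : ∀ b, q * (w * (ρ + ci b • ρ') * s) = q * (w * ρ * s) + ci b • (q * (w * ρ' * s)) := by
    intro b
    simp only [add_mul, mul_add, smul_mul_assoc, mul_smul_comm]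
  simp only [f1, cf_avg, sum_add_distrib, ← mul_sum]
  simp only [f2, cf_avg]
  ring

lemma cut_expand (u : vN S →ₗ[ℂ] H) (η : H) {q : vN S} (hsq : star q = q) (ρ w s : vN S) :
    cf u η (q * (w * ρ * s)) - cf (cutm u q) η (w * s) =
      ⟪((w * ρ * s : vN S) : H →L[ℂ] H) η, (q : H →L[ℂ] H) (u (q * w * (ρ * s * (1 - q))))⟫_ℂ -
      ⟪((w * (1 - ρ) * s : vN S) : H →L[ℂ] H) η, cutm u q (w * ρ * s)⟫_ℂ -
      ⟪((w * s : vN S) : H →L[ℂ] H) η, cutm u q (w * (1 - ρ) * s)⟫_ℂ := by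
  have f1 : cf u η (q * (w * ρ * s)) =
      ⟪((w * ρ * s : vN S) : H →L[ℂ] H) η, (q : H →L[ℂ] H) (u (q * (w * ρ * s)))⟫_ℂ := by
    rw [cf, MulMemClass.coe_mul, mul_apply_eq_comp, ← D.inner_star]
    congr 2
    exact congrArg Subtype.val hsq
  have f2 : q * (w * ρ * s) = q * w * (ρ * s * (1 - q)) + q * (w * ρ * s) * q := by noncomm_ring
  have f3 : w * (1 - ρ) * s = w * s - w * ρ * s := by noncomm_ring
  rw [f1, f3, map_sub, cf]
  nth_rewrite 1 [f2]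
  simp only [map_add, inner_add_right, AddSubgroupClass.coe_sub, sub_apply, inner_sub_left,
    inner_sub_right, cutm, LinearMap.coe_mk, AddHom.coe_mk]
  ring

lemma point (t : Tr (vN S)) {u : vN S →ₗ[ℂ] H} {η : H} {D T θ : ℝ} (hD0 : 0 ≤ D) (hT0 : 0 ≤ T)
    (hθ : 0 ≤ θ) (hD : ∀ a, ‖u a‖ ≤ D * ‖a‖) (hη : TB t η 1) (hT : t.N 1 ≤ T ^ 2)
    {q q' ρ ρ' w s : vN S} (hsq : star q = q) (hq : ‖q‖ ≤ 1) (hq' : ‖q'‖ ≤ 1) (hρ : ‖ρ‖ ≤ 1)
    (hρ' : ‖ρ'‖ ≤ 1) (hw : w ∈ unitary (vN S)) (hs : s ∈ unitary (vN S))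
    (hU : ∀ b, ρ + ci b • ρ' ∈ unitary (vN S))
    (n1 : t.N q' ≤ θ ^ 2) (n2 : t.N ρ' ≤ θ ^ 2) (n3 : t.N (1 - ρ) ≤ θ ^ 2)
    (n4 : ‖ρ * s * (1 - q)‖ ≤ θ) (n5 : ‖cutm u q (w * (1 - ρ) * s)‖ ≤ 2 * θ) :
    ‖(4 : ℂ)⁻¹ * ∑ bb : Bool × Bool, cf u η ((q + ci bb.1 • q') * w * (ρ + ci bb.2 • ρ') * s) -
      cf (cutm u q) η (w * s)‖ ≤ θ * (3 * D + T * D + 2 * T) := by
  have hw1 := unit_norm hw
  have hs1 := unit_norm hs
  have hD' : ∀ a : vN S, ‖a‖ ≤ 1 → ‖u a‖ ≤ D := fun a ha =>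
    (hD a).trans (mul_le_of_le_one_right hD0 ha)
  have hqv : ∀ v : H, ‖(q : H →L[ℂ] H) v‖ ≤ ‖v‖ := fun v =>
    ((q : H →L[ℂ] H).le_opNorm v).trans (mul_le_of_le_one_left (norm_nonneg _) hq)
  have hvT : ∀ x : vN S, ‖x‖ ≤ 1 → ‖(x : H →L[ℂ] H) η‖ ≤ T := fun x hx =>
    vec_le hη hT0 (by simpa using (N_left t 1 hx).trans hT)
  have e1 := sum_expand u η q q' ρ ρ' w s
  have k1 : ∀ b, ‖cf u η (q' * (w * (ρ + ci b • ρ') * s))‖ ≤ θ * D := fun b =>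
    inner_le (vec_le hη hθ (by
      rw [t.N_mul_unitary (mul_mem (mul_mem hw (hU b)) hs)]; exact n1))
      (hD' _ (mul_le_one' hq' (unit_norm (mul_mem (mul_mem hw (hU b)) hs))))
  have k2 : ‖cf u η (q * (w * ρ' * s))‖ ≤ θ * D :=
    inner_le (vec_le hη hθ ((N_left t _ hq).trans (by
      rw [t.N_mul_unitary hs, t.N_unitary_mul hw]; exact n2)))
      (hD' _ (mul_le_one' hq (mul_le_one' (mul_le_one' hw1 hρ') hs1)))
  have hY : ‖w * ρ * s‖ ≤ 1 := mul_le_one' (mul_le_one' hw1 hρ) hs1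
  have e2 := cut_expand u η hsq ρ w s
  have k3 : ‖⟪((w * ρ * s : vN S) : H →L[ℂ] H) η,
      (q : H →L[ℂ] H) (u (q * w * (ρ * s * (1 - q))))⟫_ℂ‖ ≤ T * (D * θ) :=
    inner_le (hvT _ hY) ((hqv _).trans ((hD _).trans (mul_le_mul_of_nonneg_left
      ((norm_mul_le _ _).trans ((mul_le_of_le_one_left (norm_nonneg _)
        (mul_le_one' hq hw1)).trans n4)) hD0)))
  have k4 : ‖⟪((w * (1 - ρ) * s : vN S) : H →L[ℂ] H) η, cutm u q (w * ρ * s)⟫_ℂ‖ ≤ θ * D :=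
    inner_le (vec_le hη hθ (by rw [t.N_mul_unitary hs, t.N_unitary_mul hw]; exact n3))
      ((hqv _).trans (hD' _ (mul_le_one' (mul_le_one' hq hY) hq)))
  have k5 : ‖⟪((w * s : vN S) : H →L[ℂ] H) η, cutm u q (w * (1 - ρ) * s)⟫_ℂ‖ ≤ T * (2 * θ) :=
    inner_le (hvT _ (mul_le_one' hw1 hs1)) n5
  have e3 : (4 : ℂ)⁻¹ * (4 * cf u η (q * (w * ρ * s)) + 4 * cf u η (q * (w * ρ' * s)) +
      2 * ∑ b, cf u η (q' * (w * (ρ + ci b • ρ') * s))) - cf (cutm u q) η (w * s) =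
      (cf u η (q * (w * ρ * s)) - cf (cutm u q) η (w * s)) + cf u η (q * (w * ρ' * s)) +
        2⁻¹ * ∑ b, cf u η (q' * (w * (ρ + ci b • ρ') * s)) := by ring
  rw [e1, e3, e2]
  have k6 : ‖(2 : ℂ)⁻¹ * ∑ b, cf u η (q' * (w * (ρ + ci b • ρ') * s))‖ ≤ θ * D := by
    rw [norm_mul, norm_inv, Complex.norm_two, Fintype.sum_bool]
    have := norm_add_le_of_le (k1 true) (k1 false)
    linarith
  have := norm_add_le_of_le (norm_add_le_of_le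
    (norm_sub_le_of_le (norm_sub_le_of_le k3 k4) k5) k2) k6
  linarith

lemma cf_bd {u : vN S →ₗ[ℂ] H} {D : ℝ} (hD0 : 0 ≤ D) (hD : ∀ a, ‖u a‖ ≤ D * ‖a‖) (η : H)
    {w : vN S} (hw : ‖w‖ ≤ 1) : ‖cf u η w‖ ≤ ‖η‖ * D :=
  inner_le (((w : H →L[ℂ] H).le_opNorm η).trans (mul_le_of_le_one_left (norm_nonneg _) hw))
    ((hD _).trans (mul_le_of_le_one_right hD0 hw))

lemma conj_norm {ρ s r x : vN S} (hρ : star ρ = ρ) (h0 : 0 ≤ r) (h1 : r ≤ 1)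
    (hx : s * r * star s ≤ x) {θ : ℝ} (hθ : 0 ≤ θ) (h : ‖ρ * x * ρ‖ ≤ θ ^ 2) :
    ‖ρ * s * (1 - (1 - r))‖ ≤ θ := by
  have hr : star r = r := (IsSelfAdjoint.of_nonneg h0).star_eq
  rw [sub_sub_cancel]
  have e1 := (star_right_conjugate_le_conjugate (sq_le h0 h1) s).trans hx
  have e2 := star_right_conjugate_le_conjugate e1 ρ
  have e3 : ρ * (s * (r * r) * star s) * star ρ = ρ * s * r * star (ρ * s * r) := by
    simp only [star_mul, hr, mul_assoc]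
  rw [e3, hρ] at e2
  have e4 := (CStarAlgebra.norm_le_norm_of_nonneg_of_le (mul_star_self_nonneg _) e2).trans h
  rw [CStarRing.norm_self_mul_star, ← sq] at e4
  exact (abs_le_of_sq_le_sq' e4 hθ).2

lemma cut_norm {q : vN S} (hq : ‖q‖ ≤ 1) (a : vN S) : ‖q * a * q‖ ≤ ‖a‖ :=
  (norm_mul_le _ _).trans ((mul_le_of_le_one_right (norm_nonneg _) hq).trans
    ((norm_mul_le _ _).trans (mul_le_of_le_one_left (norm_nonneg _) hq)))

lemma app_le {q : vN S} (hq : ‖q‖ ≤ 1) (v : H) : ‖(q : H →L[ℂ] H) v‖ ≤ ‖v‖ :=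
  (ContinuousLinearMap.le_opNorm _ v).trans (mul_le_of_le_one_left (norm_nonneg _) hq)

lemma setup (t : Tr (vN S)) {ι : Type} [Fintype ι] (u : ι → vN S →ₗ[ℂ] H)
    (s : ι → unitary (vN S)) {D θ γ : ℝ} (hD : ∀ i a, ‖u i a‖ ≤ D * ‖a‖) (hθ0 : 0 < θ)
    (hγ : 0 < γ) : ∃ (C0 : ℝ) (q ρ : vN S), 0 ≤ C0 ∧ 0 ≤ q ∧ q ≤ 1 ∧ 0 ≤ ρ ∧ ρ ≤ 1 ∧
      (t.τ (1 - q)).re ≤ θ ^ 2 / 2 ∧ (t.τ (1 - ρ)).re * (C0 + 1) ≤ θ ^ 2 / 2 ∧
      (∀ i, ‖ρ * s i * (1 - q)‖ ≤ θ) ∧ ‖ρ * 1 * (1 - q)‖ ≤ θ ∧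
      ∀ i, P2 t (cutm (u i) q) C0 γ := by
  obtain ⟨C0, hC0, hcut⟩ := cut t u hD hγ
  set n : ℝ := (Fintype.card ι : ℝ) with hn
  have hn0 : 0 ≤ n := Nat.cast_nonneg _
  obtain ⟨r, r0, r1, r2, r3⟩ := hcut (min (θ ^ 2 / 2) (θ ^ 2 * θ ^ 2 / (2 * (n + 1) * (C0 + 1))))
    (lt_min (by positivity) (by positivity))
  have hx0 : ∀ i, 0 ≤ (s i : vN S) * r * star (s i : vN S) := fun i =>
    star_right_conjugate_nonneg r0 _
  have hx1 := sum_nonneg fun i (_ : i ∈ univ) => hx0 i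
  obtain ⟨ρ, ρ0, ρ1, ρ2, ρ3⟩ := res t (add_nonneg r0 hx1) (pow_pos hθ0 2)
  have hq0 : (0 : vN S) ≤ 1 - r := sub_nonneg.2 r1
  have hq1 : 1 - r ≤ 1 := sub_le_self _ r0
  have hsρ : star ρ = ρ := (IsSelfAdjoint.of_nonneg ρ0).star_eq
  refine ⟨C0, 1 - r, ρ, hC0, hq0, hq1, ρ0, ρ1, ?_, ?_, fun i => conj_norm hsρ r0 r1
    (le_add_of_nonneg_of_le r0 (single_le_sum
      (f := fun i => (s i : vN S) * r * star (s i : vN S)) (fun i _ => hx0 i) (mem_univ i)))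
    hθ0.le ρ3, conj_norm hsρ r0 r1 (by simpa using hx1) hθ0.le ρ3, fun i J _ b =>
    le_trans (sum_le_sum fun k _ => pow_le_pow_left₀ (norm_nonneg _)
      (app_le (norm_le_one hq0 hq1) _) 2) (r3 i J b)⟩
  · rw [sub_sub_cancel]; exact r2.trans (min_le_left _ _)
  · have e1 : (t.τ (r + ∑ i, (s i : vN S) * r * star (s i : vN S))).re = (n + 1) * (t.τ r).re := by
      have e2 : ∀ i, t.τ ((s i : vN S) * r * star (s i : vN S)) = t.τ r := fun i => by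
        rw [t.comm, ← mul_assoc, (s i).2.1, one_mul]
      simp only [map_add, map_sum, e2, sum_const, card_univ, nsmul_eq_mul, Complex.add_re,
        Complex.mul_re, Complex.natCast_re, Complex.natCast_im, hn]
      ring
    have e2 := r2.trans (min_le_right _ _)
    rw [le_div_iff₀ (by positivity)] at e2
    rw [e1] at ρ2
    have e3 := mul_le_mul_of_nonneg_right ρ2 (show 0 ≤ C0 + 1 by linarith)
    have e4 : θ ^ 2 * ((t.τ (1 - ρ)).re * (C0 + 1)) ≤ θ ^ 2 * (θ ^ 2 / 2) := by linarith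
    exact le_of_mul_le_mul_left e4 (pow_pos hθ0 2)

lemma small (t : Tr (vN S)) {v : vN S →ₗ[ℂ] H} {C0 θ : ℝ} (hθ : 0 ≤ θ)
    (h : P2 t v C0 (θ ^ 2)) {x : vN S} (hx : ‖x‖ ≤ 1) (hN : C0 * t.N x ≤ θ ^ 2) :
    ‖v x‖ ≤ 2 * θ := by
  have e1 := h Unit (fun _ => x)
  simp only [univ_unique, sum_singleton, CStarRing.norm_star_mul_self,
    CStarRing.norm_self_mul_star] at e1
  have e3 := mul_le_one₀ hx (norm_nonneg _) hx
  have e5 := mul_le_mul_of_nonneg_left (add_le_add e3 e3) (sq_nonneg θ)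
  refine (abs_le_of_sq_le_sq' ?_ (by positivity)).2
  nlinarith

lemma P2_mono {t : Tr (vN S)} {v : vN S →ₗ[ℂ] H} {C γ γ' : ℝ} (h : P2 t v C γ) (hγ : γ ≤ γ') :
    P2 t v C γ' := fun J _ b =>
  (h J b).trans (add_le_add le_rfl (mul_le_mul_of_nonneg_right hγ (by positivity)))

lemma dilate (t : Tr (vN S)) {D T θ C0 : ℝ} (hD0 : 0 ≤ D) (hT0 : 0 ≤ T) (hθ : 0 ≤ θ)
    (hC0 : 0 ≤ C0) (hT : t.N 1 ≤ T ^ 2) {q ρ : vN S} (hq0 : 0 ≤ q) (hq1 : q ≤ 1) (ρ0 : 0 ≤ ρ)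
    (ρ1 : ρ ≤ 1) (c1 : (t.τ (1 - q)).re ≤ θ ^ 2 / 2) (c2 : (t.τ (1 - ρ)).re * (C0 + 1) ≤ θ ^ 2 / 2)
    (m0 : Mean (unitary (vN S))) : ∃ m : Mean (unitary (vN S)),
      ∀ (u : vN S →ₗ[ℂ] H) (η : H) (s : vN S), (∀ a, ‖u a‖ ≤ D * ‖a‖) → TB t η 1 →
        s ∈ unitary (vN S) → ‖ρ * s * (1 - q)‖ ≤ θ → P2 t (cutm u q) C0 (θ ^ 2) →
        ‖m.I (fun w => cf u η (w * s)) - m0.I (fun w => cf (cutm u q) η (w * s))‖ ≤
          θ * (3 * D + T * D + 2 * T) := by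
  have hsq : star q = q := (IsSelfAdjoint.of_nonneg hq0).star_eq
  have hsρ : star ρ = ρ := (IsSelfAdjoint.of_nonneg ρ0).star_eq
  obtain ⟨q', a1, a2, a3, a4, a5⟩ := dil hq0 hq1
  obtain ⟨ρ', b1, b2, b3, b4, b5⟩ := dil ρ0 ρ1
  have hUq := fun b => unit_mem hsq a1 a2 a3 (ci_conj b) (ci_sq b)
  have hUρ := fun b => unit_mem hsρ b1 b2 b3 (ci_conj b) (ci_sq b)
  have hρa : (0 : vN S) ≤ 1 - ρ := sub_nonneg.2 ρ1
  have hρb : 1 - ρ ≤ 1 := sub_le_self _ ρ0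
  have hτ0 : 0 ≤ (t.τ (1 - ρ)).re := t.re_nonneg hρa
  have hτ1 := mul_nonneg hτ0 hC0
  have n3 : t.N (1 - ρ) ≤ (t.τ (1 - ρ)).re := N_le_of_le t (by
    rw [(IsSelfAdjoint.of_nonneg hρa).star_eq]; exact sq_le hρa hρb)
  have n1 : t.N q' ≤ θ ^ 2 := by
    have e1 := N_le_of_le t (x := q') ((congrArg (· * q') a1).trans_le a4)
    rw [map_add, Complex.add_re] at e1
    linarith
  have n2 : t.N ρ' ≤ θ ^ 2 := by
    have e1 := N_le_of_le t (x := ρ') ((congrArg (· * ρ') b1).trans_le b4)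
    rw [map_add, Complex.add_re] at e1
    linarith
  have hqn := norm_le_one hq0 hq1
  let Uq : Bool → unitary (vN S) := fun b => ⟨_, hUq b⟩
  let Uρ : Bool → unitary (vN S) := fun b => ⟨_, hUρ b⟩
  refine ⟨m0.bind fun w => (Mean.unif (Bool × Bool)).map fun bb => Uq bb.1 * w * Uρ bb.2,
    fun u η s hD hη hs hle hP => ?_⟩
  have B1 : Bd fun w : unitary (vN S) => cf u η (w * s) :=
    ⟨_, fun w => cf_bd hD0 hD _ (unit_norm (mul_mem w.2 hs))⟩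
  have B2 : Bd fun w : unitary (vN S) => cf (cutm u q) η (w * s) :=
    ⟨_, fun w => cf_bd hD0 (fun a => (app_le hqn _).trans ((hD _).trans
      (mul_le_mul_of_nonneg_left (cut_norm hqn a) hD0))) _ (unit_norm (mul_mem w.2 hs))⟩
  rw [Mean.bind_I, ← m0.sub (Mean.bd_I _ B1) B2]
  refine m0.norm_le _ _ fun w => ?_
  rw [Mean.map_I _ _ B1, Mean.unif_I]
  refine le_trans (le_of_eq ?_) (point t hD0 hT0 hθ hD hη hT hsq hqn a5
    (norm_le_one ρ0 ρ1) b5 w.2 hs hUρ n1 n2 (by linarith [sq_nonneg θ]) hle (small t hθ hP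
      (mul_le_one' (mul_le_one' (unit_norm w.2) (norm_le_one hρa hρb)) (unit_norm hs)) ?_))
  · simp [Uq, Uρ]
  · rw [t.N_mul_unitary hs, t.N_unitary_mul w.2]
    have := mul_le_mul_of_nonneg_left n3 hC0
    linarith [sq_nonneg θ]

end F

open F in
theorem fa (t : Tr (vN S)) (z : vN S) (hz : IsCentral S z) (hna : NoAbel S z)
    (ht : t.N (1 - z) = 0) (ε : ℝ) (hε : 0 < ε) (ι : Type) [Fintype ι]
    (u : ι → vN S →ₗ[ℂ] H) (η : ι → H) (s : ι → unitary (vN S)) (D : ℝ)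
    (hD : ∀ i a, ‖u i a‖ ≤ D * ‖a‖) (h1 : ∀ i, P1 t (u i)) (h2 : ∀ i, TB t (η i) 1) :
    ∃ m : Mean (unitary (vN S)), ∀ i,
      ‖m.I (fun w => cf (u i) (η i) (w * s i)) - m.I (fun w => cf (u i) (η i) w)‖ ≤ ε := by
  have hD' : ∀ i a, ‖u i a‖ ≤ |D| * ‖a‖ := fun i a =>
    (hD i a).trans (mul_le_mul_of_nonneg_right (le_abs_self D) (norm_nonneg _))
  have hD0 := abs_nonneg D
  generalize |D| = D at hD' hD0
  have hT0 : 0 ≤ √(t.N 1) := Real.sqrt_nonneg _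
  have hT1 : t.N 1 ≤ √(t.N 1) ^ 2 := (Real.sq_sqrt (t.N_nonneg 1)).ge
  generalize √(t.N 1) = T at hT0 hT1
  obtain ⟨θ, hθ0, hθ1⟩ : ∃ θ : ℝ, 0 < θ ∧ θ * (3 * D + T * D + 2 * T) ≤ ε / 4 := by
    refine ⟨ε / 4 / (3 * D + T * D + 2 * T + 1), by positivity, ?_⟩
    rw [div_mul_eq_mul_div, div_le_iff₀ (by positivity)]
    nlinarith
  obtain ⟨γ, hγ, hfa⟩ := fa2 t z hz hna ht (ε / 2) (half_pos hε)
  obtain ⟨C0, q, ρ, hC0, q0, q1, ρ0, ρ1, c1, c2, c3, c4, c5⟩ :=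
    setup t u s hD' hθ0 (lt_min hγ (pow_pos hθ0 2))
  have hqn := norm_le_one q0 q1
  obtain ⟨m0, hm0⟩ := hfa C0 ι (fun i => cutm (u i) q) η s hC0 (fun i y a =>
      (h1 i (y * q) (q * a * q)).trans (mul_le_mul (N_right t y hqn)
        (pow_le_pow_left₀ (norm_nonneg _) (cut_norm hqn a) 2) (sq_nonneg _) (t.N_nonneg _)))
    (fun i => P2_mono (c5 i) (min_le_left _ _)) h2
  obtain ⟨m, hm⟩ := dilate t hD0 hT0 hθ0.le hC0 hT1 q0 q1 ρ0 ρ1 c1 c2 m0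
  refine ⟨m, fun i => ?_⟩
  have k1 := hm (u i) (η i) (s i) (hD' i) (h2 i) (s i).2 (c3 i) (P2_mono (c5 i) (min_le_right _ _))
  have k2 := hm (u i) (η i) 1 (hD' i) (h2 i) (one_mem _) c4 (P2_mono (c5 i) (min_le_right _ _))
  simp only [mul_one] at k2
  have := norm_sub_le_of_le (norm_add_le_of_le k1 (hm0 i)) k2
  refine le_trans (le_of_eq ?_) (this.trans (by linarith))
  congr 1
  ring

open F in
theorem uinv_II {z : vN S} (hz : IsCentral S z) (hna : NoAbel S z)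
    (hd : ∀ ζ : H, (z : H →L[ℂ] H) ζ = ζ → ζ ∈ closure (Dfin S)) : UInv S z := by
  classical
  have := compactSpace_mean (Γ := unitary (vN S))
  let Dz : Set H := {ζ | ζ ∈ Dfin S ∧ (z : H →L[ℂ] H) ζ = ζ}
  let ug : (vN S →L[ℂ] vN S) → H → vN S →ₗ[ℂ] H := fun G ξ =>
    { toFun := fun a => ((‖G‖ + 1 : ℝ) : ℂ)⁻¹ • (G a : H →L[ℂ] H) ξ
      map_add' := fun a b => by simp
      map_smul' := fun c a => by simp [smul_comm c] }
  let J := (vN S →L[ℂ] vN S) × unitary (vN S) × Dz × Dz × ℕ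
  obtain ⟨m, hm⟩ := CompactSpace.iInter_nonempty (X := Mean (unitary (vN S))) (ι := J)
    (t := fun j => {m | ‖m.I (fun w => cf (ug j.1 j.2.2.1) j.2.2.2.1 (w * j.2.1)) -
      m.I (fun w => cf (ug j.1 j.2.2.1) j.2.2.2.1 w)‖ ≤ 1 / ((j.2.2.2.2 : ℝ) + 1)})
    (fun j => isClosed_le ((Mean.continuous_I _).sub (Mean.continuous_I _)).norm continuous_const)
    (fun F => by
      obtain ⟨t0, ht0⟩ := exists_trace (S := S)
        (F.image (fun j => (j.2.2.1 : H)) ∪ F.image fun j => (j.2.2.2.1 : H)) (by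
          intro ζ hζ
          simp only [mem_union, mem_image] at hζ
          rcases hζ with ⟨j, -, rfl⟩ | ⟨j, -, rfl⟩
          exacts [j.2.2.1.2.1, j.2.2.2.1.2.1])
      have ht : ∀ ζ ∈ (F.image (fun j => (j.2.2.1 : H)) ∪ F.image fun j => (j.2.2.2.1 : H)),
          (z : H →L[ℂ] H) ζ = ζ →
          ∀ y : vN S, ‖(y : H →L[ℂ] H) ζ‖ ^ 2 ≤ (PH.cut t0 z hz).N y := by
        intro ζ hζ hzζ y
        rw [PH.cut_N]
        have := ht0 ζ hζ (y * z)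
        rwa [MulMemClass.coe_mul, mul_apply_eq_comp, hzζ] at this
      have ht1 : (PH.cut t0 z hz).N (1 - z) = 0 := by
        have h2 : z * z = z := Subtype.ext hz.2.1.isIdempotentElem.eq
        rw [PH.cut_N, sub_mul, one_mul, h2, sub_self]
        simp [Tr.N]
      let e : Fin F.card → J := fun i => (F.equivFin.symm i).1
      have he : ∀ i, e i ∈ F := fun i => (F.equivFin.symm i).2
      have hP1 : ∀ i, P1 (PH.cut t0 z hz) (ug (e i).1 (e i).2.2.1) := by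
        intro i y a
        have e1 := ht _ (mem_union_left _ (mem_image_of_mem _ (he i))) (e i).2.2.1.2.2
          (y * (((‖(e i).1‖ + 1 : ℝ) : ℂ)⁻¹ • (e i).1 a))
        have e2 := (PH.cut t0 z hz).N_mul_le_norm' y (((‖(e i).1‖ + 1 : ℝ) : ℂ)⁻¹ • (e i).1 a)
        have e3 : ‖(((‖(e i).1‖ + 1 : ℝ) : ℂ)⁻¹ • (e i).1 a : vN S)‖ ≤ ‖a‖ := by
          rw [norm_smul, norm_inv, Complex.norm_real, Real.norm_of_nonneg (by positivity),
            inv_mul_le_iff₀ (by positivity)]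
          have := (e i).1.le_opNorm a
          nlinarith [norm_nonneg a]
        refine (e1.trans e2).trans ?_
        rw [mul_comm]
        exact mul_le_mul_of_nonneg_left (pow_le_pow_left₀ (norm_nonneg _) e3 2) (Tr.N_nonneg _ _)
      obtain ⟨m, hm⟩ := fa (PH.cut t0 z hz) z hz hna ht1
        (1 / (((F.sup fun j => j.2.2.2.2 : ℕ) : ℝ) + 1)) (by positivity) (Fin F.card)
        (fun i => ug (e i).1 (e i).2.2.1) (fun i => (e i).2.2.2.1) (fun i => (e i).2.1)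
        √((PH.cut t0 z hz).N 1) (fun i a => by
          have e1 := hP1 i 1 a
          rw [OneMemClass.coe_one, one_apply_eq_self] at e1
          refine (abs_le_of_sq_le_sq' ?_ (by positivity)).2
          rwa [mul_pow, Real.sq_sqrt (Tr.N_nonneg _ _)]) hP1 (fun i y => by
          rw [one_pow, one_mul]
          exact ht _ (mem_union_right _ (mem_image_of_mem _ (he i))) (e i).2.2.2.1.2.2 y)
      refine ⟨m, Set.mem_iInter₂.2 fun j hj => ?_⟩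
      have e1 := hm (F.equivFin ⟨j, hj⟩)
      simp only [e, Equiv.symm_apply_apply] at e1
      refine e1.trans (one_div_le_one_div_of_le (by positivity) ?_)
      have := le_sup (f := fun j : J => j.2.2.2.2) hj
      exact_mod_cast Nat.succ_le_succ this)
  rw [Set.mem_iInter] at hm
  refine ⟨m, fun G s ξ η hξ => ?_⟩
  have hb : ∀ w : vN S, w ∈ unitary (vN S) →
      ‖((star w * G w : vN S) : H →L[ℂ] H)‖ ≤ ‖G‖ := fun w hw => by
    have e1 := unit_norm hw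
    have e2 : ‖star w * G w‖ ≤ ‖star w‖ * ‖G w‖ := norm_mul_le _ _
    have e3 := G.le_opNorm w
    rw [norm_star] at e2
    change ‖star w * G w‖ ≤ _
    nlinarith [norm_nonneg (G w), norm_nonneg G]
  have hi : ∀ (w : vN S) (ξ η : H), ⟪η, ((star w * G w : vN S) : H →L[ℂ] H) ξ⟫_ℂ =
      ⟪(w : H →L[ℂ] H) η, (G w : H →L[ℂ] H) ξ⟫_ℂ := fun w ξ η => by
    rw [MulMemClass.coe_mul, mul_apply_eq_comp, StarMemClass.coe_star, D.inner_star]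
  obtain ⟨T1, h1, -⟩ := exists_op m (fun w : unitary (vN S) =>
    ((star (w * s : vN S) * G (w * s) : vN S) : H →L[ℂ] H)) _ fun w => hb _ (mul_mem w.2 s.2)
  obtain ⟨T2, h2, -⟩ := exists_op m (fun w : unitary (vN S) =>
    ((star (w : vN S) * G w : vN S) : H →L[ℂ] H)) _ fun w => hb _ w.2
  simp only [hi] at h1 h2
  have hB : ∀ (ξ η : H) (s' : vN S), s' ∈ unitary (vN S) → Bd fun w : unitary (vN S) =>
      ⟪((w * s' : vN S) : H →L[ℂ] H) η, (G (w * s') : H →L[ℂ] H) ξ⟫_ℂ := fun ξ η s' hs' => by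
    simp only [← hi]
    exact bd_inner (fun w => ContinuousLinearMap.le_of_opNorm_le _ (hb _ (mul_mem w.2 hs')) ξ) η
  have k1 : ∀ ξ ∈ Dz, ∀ η ∈ Dz, ⟪η, T1 ξ⟫_ℂ = ⟪η, T2 ξ⟫_ℂ := by
    intro ξ hξ η hη
    have e1 : ∀ n : ℕ, ‖((‖G‖ + 1 : ℝ) : ℂ)⁻¹ * (⟪η, T1 ξ⟫_ℂ - ⟪η, T2 ξ⟫_ℂ)‖ ≤
        1 / ((n : ℝ) + 1) := by
      intro n
      have e2 := hm (G, s, ⟨ξ, hξ⟩, ⟨η, hη⟩, n)
      simp only [Set.mem_ofPred_eq, cf, ug, LinearMap.coe_mk, AddHom.coe_mk, inner_smul_right] at e2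
      have e3 := hB ξ η 1 (one_mem _)
      simp only [mul_one] at e3
      rwa [m.smul _ _ (hB ξ η s s.2), m.smul _ _ e3, ← h1, ← h2, ← mul_sub] at e2
    have e4 := ge_of_tendsto' tendsto_one_div_add_atTop_nhds_zero_nat e1
    rw [norm_le_zero_iff, mul_eq_zero, inv_eq_zero, Complex.ofReal_eq_zero] at e4
    exact sub_eq_zero.1 (e4.resolve_left (by positivity))
  have hcl : ∀ ζ, (z : H →L[ℂ] H) ζ = ζ → ζ ∈ closure Dz := fun ζ hζ => by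
    rw [← hζ]
    exact map_mem_closure (z : H →L[ℂ] H).continuous (hd ζ hζ) fun β hβ =>
      ⟨Dfin_apply hβ z.2, by rw [← mul_apply_eq_comp, hz.2.1.isIdempotentElem.eq]⟩
  have k2 : ∀ η ∈ Dz, ⟪η, T1 ξ⟫_ℂ = ⟪η, T2 ξ⟫_ℂ := fun η hη =>
    closure_minimal (s := Dz) (t := {ξ | ⟪η, T1 ξ⟫_ℂ = ⟪η, T2 ξ⟫_ℂ}) (fun ξ hξ => k1 ξ hξ η hη)
      (isClosed_eq (by fun_prop) (by fun_prop)) (hcl ξ hξ)
  have k3 : ⟪(z : H →L[ℂ] H) η, T1 ξ⟫_ℂ = ⟪(z : H →L[ℂ] H) η, T2 ξ⟫_ℂ :=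
    closure_minimal (s := Dz) (t := {η | ⟪η, T1 ξ⟫_ℂ = ⟪η, T2 ξ⟫_ℂ}) k2
      (isClosed_eq (by fun_prop) (by fun_prop))
      (hcl _ (by rw [← mul_apply_eq_comp, hz.2.1.isIdempotentElem.eq]))
  have hz' : ∀ w x : vN S, ⟪(w : H →L[ℂ] H) ((z : H →L[ℂ] H) η), (x : H →L[ℂ] H) ξ⟫_ℂ =
      ⟪(w : H →L[ℂ] H) η, (x : H →L[ℂ] H) ξ⟫_ℂ := fun w x => by
    rw [← mul_apply_eq_comp, ← hz.2.2 _ w.2, mul_apply_eq_comp, ← D.inner_star,
      hz.2.1.isSelfAdjoint.star_eq, ← mul_apply_eq_comp, hz.2.2 _ x.2, mul_apply_eq_comp, hξ]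
  rw [h1, h2] at k3
  simpa only [hz'] using k3

end Vale.Agent.P082
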