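import Vale.Agent.P082.G1

/-! Part G of P082: an invariant mean on families for completely bounded maps. -/

namespace Vale.Agent.P082

open scoped InnerProductSpace ComplexOrder ComplexConjugate
open Vale.Agent.P104 C G

universe v
variable {H : Type v} [NormedAddCommGroup H] [InnerProductSpace ℂ H] [CompleteSpace H]
variable {S : Set (H →L[ℂ] H)}

lemma G.exists_fam {p : H →L[ℂ] H} (hp : p ∈ vN S) (pp : IsStarProjection p) {y : H →L[ℂ] H}
    {ε : ℝ} (hε : 0 < ε) (hl : ∀ η, ε * ‖p η‖ ^ 2 ≤ ‖y (p η)‖ ^ 2) {ι : Type*} [Fintype ι]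
    (η : ι → H) {δ : ℝ} (hδ : 0 < δ) :
    ∃ g : Fam S, (g.1.map fun m => star m * m).sum = 1 ∧ ∀ i,
      ε * (‖(E.U S {p}).topologicalClosure.starProjection (η i)‖ ^ 2 -
        δ * ‖(E.U S {p}).topologicalClosure.starProjection (η i)‖) ≤
        ((ctx S).D1.P g (qq y) (η i)).re := by
  have hc : IsCentral S (E.U S {p}).topologicalClosure.starProjection :=
    E.central_U fun x hx => by rw [Set.mem_singleton_iff.1 hx]; exact hp
  have hcp : (E.U S {p}).topologicalClosure.starProjection * p = p := E.cover_mul rfl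
  obtain ⟨Y, s, hs, hsp, hcol, hap⟩ := approx hp pp.isIdempotentElem
    (fun i => (E.U S {p}).topologicalClosure.starProjection (η i))
    (fun i => Submodule.starProjection_apply_mem _ _) hδ
  set c := (E.U S {p}).topologicalClosure.starProjection with hcd
  let l : List (vN S) := (Finset.univ : Finset Y).toList.map fun j => star ⟨s j, hs j⟩
  have hl1 : ∀ {M : Type v} [AddCommMonoid M] (f : vN S → M),
      (l.map f).sum = ∑ j, f (star ⟨s j, hs j⟩) := fun f => by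
    rw [List.map_map, Finset.sum_map_toList]; rfl
  have hl2 : ∀ (f : vN S → ℝ), (l.map f).sum = ∑ j, f (star ⟨s j, hs j⟩) := fun f => by
    rw [List.map_map, Finset.sum_map_toList]; rfl
  have hle : (l.map fun m => star m * m).sum ≤ 1 := by
    change (((l.map fun m => star m * m).sum : vN S) : H →L[ℂ] H) ≤ 1
    have h0 : 0 ≤ (((l.map fun m => star m * m).sum : vN S) : H →L[ℂ] H) :=
      List.sum_nonneg (l := l.map fun m => star m * m) fun x hx => by
        obtain ⟨m, _, rfl⟩ := List.mem_map.1 hx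
        exact star_mul_self_nonneg m
    rw [← CStarAlgebra.norm_le_one_iff_of_nonneg _ h0, hl1]
    refine ContinuousLinearMap.opNorm_le_bound _ zero_le_one fun α => ?_
    rw [one_mul]
    refine le_trans (le_of_eq ?_) (E.norm_f_le hcol α)
    simp
  obtain ⟨b, hb⟩ := exists_sq (sub_nonneg.2 hle)
  have hsum : ((b :: l).map fun m => star m * m).sum = 1 := by
    rw [List.map_cons, List.sum_cons, hb, sub_add_cancel]
  refine ⟨⟨b :: l, hsum.le⟩, hsum, fun i => ?_⟩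
  refine le_of_le_of_eq ?_ (congrArg Complex.re (P_qq (ctx S) ⟨b :: l, hsum.le⟩ y (η i))).symm
  rw [Complex.ofReal_re]
  change _ ≤ ((b :: l).map _).sum
  rw [List.map_cons, List.sum_cons, hl2]
  refine le_add_of_nonneg_of_le (sq_nonneg _) ?_
  have a1 := E.inner_f (s := s) (c (η i)) (c (η i))
  simp only [inner_self_eq_norm_sq_to_K] at a1
  have a2 : (⟪(∑ l, s l * star (s l)) (c (η i)), c (η i)⟫_ℂ).re =
      ∑ j, ‖star (s j) (c (η i))‖ ^ 2 := by
    rw [a1, Complex.re_sum]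
    refine Finset.sum_congr rfl fun j _ => ?_
    change ((‖star (s j) (c (η i))‖ : ℂ) ^ 2).re = _
    norm_cast
  have a3 : (⟪c (η i) - (∑ l, s l * star (s l)) (c (η i)), c (η i)⟫_ℂ).re ≤ δ * ‖c (η i)‖ :=
    (Complex.re_le_norm _).trans ((norm_inner_le_norm _ _).trans (by gcongr; exact hap i))
  rw [inner_sub_left, Complex.sub_re, a2,
    show (⟪c (η i), c (η i)⟫_ℂ).re = ‖c (η i)‖ ^ 2 from inner_self_eq_norm_sq (𝕜 := ℂ) _] at a3
  refine le_trans (mul_le_mul_of_nonneg_left (show _ ≤ ∑ j, ‖star (s j) (c (η i))‖ ^ 2 by linarith)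
    hε.le) ?_
  rw [Finset.mul_sum]
  refine Finset.sum_le_sum fun j _ => ?_
  have b1 : p * star (s j) = star (s j) := by
    rw [← pp.isSelfAdjoint.star_eq, ← star_mul, hsp]
  have b2 : star (s j) * c = star (s j) := by
    rw [← hc.2.2 _ (star_mem (hs j)), ← b1, ← mul_assoc, hcp]
  have b3 := hl (star (s j) (η i))
  rw [← mul_apply_eq_comp p, b1] at b3
  rw [← mul_apply_eq_comp, b2]
  exact b3

lemma G.exists_cover_mean {p : H →L[ℂ] H} (hp : p ∈ vN S) (pp : IsStarProjection p)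
    {y : H →L[ℂ] H} {ε : ℝ} (hε : 0 < ε) (hl : ∀ η, ε * ‖p η‖ ^ 2 ≤ ‖y (p η)‖ ^ 2) :
    ∃ σ ∈ Q S, (fun η => (ε : ℂ) * qq (E.U S {p}).topologicalClosure.starProjection η) ≤
      (ctx S).D1.A σ (qq y) := by
  classical
  haveI : Nonempty (Fam S) := ⟨1⟩
  haveI := compactSpace_mean (Γ := Fam S)
  set c := (E.U S {p}).topologicalClosure.starProjection with hc
  obtain ⟨σ, hσ, h⟩ := (good_Q (S := S)).closed.isCompact.inter_iInter_nonempty
    (fun x : H × ℕ => {m : Mean (Fam S) | ε * (‖c x.1‖ ^ 2 - (1 / ((x.2 : ℝ) + 1)) * ‖c x.1‖) ≤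
      (m.I fun g => (ctx S).D1.P g (qq y) x.1).re})
    (fun x => isClosed_le continuous_const (Complex.continuous_re.comp (Mean.continuous_I _)))
    fun u => by
      obtain ⟨g, hg, h⟩ := exists_fam hp pp hε hl (fun x : u => x.1.1)
        (δ := 1 / ((u.sup Prod.snd : ℕ) + 1)) (by positivity)
      refine ⟨Mean.dirac g, dirac_mem hg, Set.mem_iInter₂.2 fun x hx => ?_⟩
      rw [Set.mem_setOf_eq, Mean.dirac_I _ (adm_qq (ctx S) y _)]
      refine le_trans ?_ (h ⟨x, hx⟩)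
      have : (x.2 : ℝ) ≤ (u.sup Prod.snd : ℕ) := by exact_mod_cast Finset.le_sup hx
      gcongr
  refine ⟨σ, hσ, fun η => ?_⟩
  obtain ⟨-, h4⟩ := Complex.nonneg_iff.1 (Act.A_nonneg (D := (ctx S).D1) (qq_nonneg y) σ η)
  simp only [qq]
  rw [← Complex.ofReal_mul]
  refine Complex.le_def.2 ⟨?_, by rw [← h4]; exact Complex.ofReal_im _⟩
  rw [Complex.ofReal_re]
  have ht : Filter.Tendsto (fun n : ℕ => ε * (‖c η‖ ^ 2 - (1 / ((n : ℝ) + 1)) * ‖c η‖))
      Filter.atTop (nhds (ε * (‖c η‖ ^ 2 - 0 * ‖c η‖))) :=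
    ((tendsto_one_div_add_atTop_nhds_zero_nat.mul_const _).const_sub _).const_mul _
  rw [zero_mul, sub_zero] at ht
  exact le_of_tendsto' ht fun n => Set.mem_iInter.1 h (η, n)

theorem ginv : ∃ m : Mean (Fam S),
    (∀ ξ η : H, m.I (fun l => (l.1.map fun x : vN S =>
      ⟪(x : H →L[ℂ] H) η, (x : H →L[ℂ] H) ξ⟫_ℂ).sum) = ⟪η, ξ⟫_ℂ) ∧
    ∀ (T : vN S →ₗ[ℂ] vN S) (C : ℝ), 0 ≤ C → CB S (fun a => T a) C →
      ∀ (s : unitary (vN S)) (ξ η : H),
      m.I (fun l => (l.1.map fun x : vN S =>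
        ⟪((x * s : vN S) : H →L[ℂ] H) η, (T (x * s) : H →L[ℂ] H) ξ⟫_ℂ).sum) =
      m.I (fun l => (l.1.map fun x : vN S =>
        ⟪(x : H →L[ℂ] H) η, (T x : H →L[ℂ] H) ξ⟫_ℂ).sum) := by
  obtain ⟨e, heQ, he⟩ := exists_absorbs (good_Q (S := S))
  have hu : ∀ ξ η : H, e.I (fun l => (l.1.map fun x : vN S =>
      ⟪(x : H →L[ℂ] H) η, (x : H →L[ℂ] H) ξ⟫_ℂ).sum) = ⟪η, ξ⟫_ℂ :=
    fun ξ η => congrFun heQ (ξ, η)
  refine ⟨e, hu, fun T C hC hT s ξ η => ?_⟩
  obtain ⟨T0, hT0, hJ⟩ := cbcore (S := S) (ctx S).fam rfl (fun _ _ => rfl) (fun g => g.2) good_Q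
    heQ he T C hC hT
  have hs : ([(s : vN S)].map fun m => star m * m).sum = 1 := by simp
  replace hJ := hJ s ⟨[s], hs.le⟩ rfl (dirac_mem hs) 1
  set d : vN S := star (s : vN S) * T0 (s * 1) - T0 1 with hd
  suffices h : (d : H →L[ℂ] H) = 0 by
    have a1 : (d : H →L[ℂ] H) ξ = 0 := congrArg (fun y : H →L[ℂ] H => y ξ) h
    have a2 := hT0 s ξ (((s : vN S) : H →L[ℂ] H) η)
    have a3 := hT0 1 ξ η
    simp only [mul_one] at a3 hd
    rw [← E.inner_star_right] at a2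
    refine a2.symm.trans (Eq.trans ?_ a3)
    rw [← sub_eq_zero, ← inner_sub_right]
    exact (congrArg (fun y => ⟪η, y⟫_ℂ) (hd ▸ a1 :)).trans (inner_zero_right η)
  by_contra h0
  obtain ⟨p, hp, ε, pp, p0, hε, hl⟩ := exists_low d.2 h0
  obtain ⟨σ, hσ, h1⟩ := exists_cover_mean hp pp hε hl
  have hc : IsCentral S (E.U S {p}).topologicalClosure.starProjection :=
    E.central_U fun x hx => by rw [Set.mem_singleton_iff.1 hx]; exact hp
  have hcp : (E.U S {p}).topologicalClosure.starProjection * p = p := E.cover_mul rfl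
  set c := (E.U S {p}).topologicalClosure.starProjection
  suffices h : c = 0 from p0 (by rw [← hcp, h, zero_mul])
  ext η
  have a1 := adm_qq (ctx S) (star (d : H →L[ℂ] H))
  have a2 := adm_qq (ctx S) c
  have h2 := Act.A_mono (a2.smul _) (a1.A σ) h1 e η
  have h3 : (ctx S).D1.A e ((ctx S).D1.A σ (qq (star (d : H →L[ℂ] H)))) η = 0 := by
    rw [Act.A]
    simp only [Act.P_A a1]
    exact hJ σ hσ η
  have h4 : (ctx S).D1.A e (qq c) η = ((‖c η‖ ^ 2 : ℝ) : ℂ) := by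
    have := hu (c η) (c η)
    simp only [inner_self_eq_norm_sq_to_K] at this
    rw [Complex.ofReal_pow]
    refine Eq.trans ?_ this
    rw [Act.A]
    congr 1
    ext g
    refine congrArg List.sum (List.map_congr_left fun m _ => ?_)
    change ((‖c ((m : H →L[ℂ] H) η)‖ ^ 2 : ℝ) : ℂ) = _
    rw [← mul_apply_eq_comp, hc.2.2 _ m.2, Complex.ofReal_pow]
    rfl
  rw [h3, Act.A_smul a2] at h2
  simp only [h4] at h2
  have a3 : ε * ‖c η‖ ^ 2 ≤ 0 := by exact_mod_cast h2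
  have := nonpos_of_mul_nonpos_right a3 hε
  exact norm_eq_zero.1 (pow_eq_zero_iff two_ne_zero |>.1 (le_antisymm this (sq_nonneg _)))

end Vale.Agent.P082
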