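import Vale.Agent.P082.Mean
import Vale.Agent.P104.PartC0

/-! Part S of P082: structure theory (properly infinite part, type I part). -/

namespace Vale.Agent.P082

open scoped InnerProductSpace ComplexOrder ComplexConjugate
open Vale.Agent.P104

universe v

namespace St

theorem exists_maxfam {α : Type*} (P : α → Prop) (r : α → α → Prop)
    (hr : ∀ x y, r x y → r y x) (F0 : Set α) (h0 : ∀ x ∈ F0, P x) (h1 : F0.Pairwise r) :
    ∃ F, F0 ⊆ F ∧ (∀ x ∈ F, P x) ∧ F.Pairwise r ∧ ∀ y, P y → (∀ x ∈ F, r x y) → y ∈ F := by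
  obtain ⟨F, hF0, hF⟩ := zorn_subset_nonempty {F : Set α | (∀ x ∈ F, P x) ∧ F.Pairwise r} (by
    intro c hc hch _
    refine ⟨⋃₀ c, ⟨?_, ?_⟩, fun s hs => Set.subset_sUnion_of_mem hs⟩
    · rintro x ⟨s, hs, hx⟩
      exact (hc hs).1 x hx
    · rintro x ⟨s, hs, hx⟩ y ⟨t, ht, hy⟩ hxy
      rcases hch.total hs ht with h | h
      · exact (hc ht).2 (h hx) hy hxy
      · exact (hc hs).2 hx (h hy) hxy) F0 ⟨h0, h1⟩
  refine ⟨F, hF0, hF.1.1, hF.1.2, fun y hy hxy => ?_⟩
  have : insert y F ∈ {F : Set α | (∀ x ∈ F, P x) ∧ F.Pairwise r} := by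
    refine ⟨?_, ?_⟩
    · rintro x (rfl | hx)
      · exact hy
      · exact hF.1.1 x hx
    · rintro a (rfl | ha) b (rfl | hb) hab
      · exact absurd rfl hab
      · exact hr _ _ (hxy b hb)
      · exact hxy a ha
      · exact hF.1.2 ha hb hab
  exact hF.2 this (Set.subset_insert y F) (Set.mem_insert y F)

theorem exists_emb (α : Type v) [Infinite α] : Nonempty (Option α ⊕ Option α ↪ α) := by
  rw [← Cardinal.le_def]
  have h : Cardinal.aleph0 ≤ Cardinal.mk α := Cardinal.aleph0_le_mk α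
  rw [Cardinal.mk_sum, Cardinal.lift_id, Cardinal.mk_option, Cardinal.add_one_eq h,
    Cardinal.add_eq_self h]

variable {H : Type v} [NormedAddCommGroup H] [InnerProductSpace ℂ H] [CompleteSpace H]
variable {S : Set (H →L[ℂ] H)}

theorem pi_of_src {u p : H →L[ℂ] H} (pp : IsStarProjection p) (h : star u * u = p) :
    u * p = u := by
  have hpp : p * p = p := pp.isIdempotentElem
  have hsp : star p = p := pp.isSelfAdjoint
  have : star (u * p - u) * (u * p - u) = 0 := by
    rw [star_sub, star_mul, hsp, sub_mul, mul_sub, mul_sub, mul_assoc p, ← mul_assoc (star u), h,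
      mul_assoc p, h, hpp, hpp]
    simp
  exact sub_eq_zero.1 (CStarRing.star_mul_self_eq_zero_iff _ |>.1 this)

/-- `q` is the projection onto the closed span of the ranges of the family `a`. -/
def IsSup {ι : Type*} (S : Set (H →L[ℂ] H)) (q : H →L[ℂ] H) (a : ι → H →L[ℂ] H) : Prop :=
  q ∈ vN S ∧ IsStarProjection q ∧ (∀ i, q * a i = a i) ∧
    ∀ T : H →L[ℂ] H, (∀ i, T * a i = 0) → T * q = 0

theorem glue {ι : Type*} (a b : ι → H →L[ℂ] H) (ha : ∀ i, a i ∈ vN S) (hb : ∀ i, b i ∈ vN S)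
    (h : ∀ i j, star (a i) * a j = star (b i) * b j) :
    ∃ v ∈ vN S, (∀ i, v * a i = b i) ∧ IsSup S (star v * v) a := by
  obtain ⟨v, hv, h1, h2, h3, -, h4, -⟩ := C.graph_vN (S := S)
    {g | ∃ i α, g = (a i α, b i α)} (by
      rintro _ ⟨i, α, rfl⟩ _ ⟨j, β, rfl⟩
      simp only
      rw [← C.inner_star_right, ← C.inner_star_right]
      exact congrArg (fun T : H →L[ℂ] H => ⟪α, T β⟫_ℂ) (h i j).symm) (by
      rintro s hs _ ⟨i, α, rfl⟩
      refine ⟨i, s α, ?_⟩
      have c1 := congrArg (fun T : H →L[ℂ] H => T α) (C.mem_vN.1 (ha i) s hs)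
      have c2 := congrArg (fun T : H →L[ℂ] H => T α) (C.mem_vN.1 (hb i) s hs)
      exact Prod.ext c1 c2)
  have k1 : ∀ i, v * a i = b i := fun i => by
    ext α
    exact h2 _ ⟨i, α, rfl⟩
  have k2 : ∀ i, star v * b i = a i := fun i => by
    ext α
    exact h3 _ ⟨i, α, rfl⟩
  refine ⟨v, hv, k1, mul_mem (star_mem hv) hv, C.proj_src h1, fun i => by
    rw [mul_assoc, k1, k2], fun T hT => ?_⟩
  have := h4 (1 + T * star v) (by
    rintro _ ⟨i, α, rfl⟩
    have : (1 + T * star v) * b i = b i := by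
      rw [add_mul, one_mul, mul_assoc, k2, hT, add_zero]
    exact congrArg (fun T : H →L[ℂ] H => T α) this)
  rw [add_mul, one_mul, add_eq_left, mul_assoc] at this
  exact this

theorem exists_sup {ι : Type*} (a : ι → H →L[ℂ] H) (ha : ∀ i, a i ∈ vN S) :
    ∃ q, IsSup S q a := by
  obtain ⟨v, -, -, h⟩ := glue a a ha ha fun _ _ => rfl
  exact ⟨_, h⟩

theorem sup_unique {ι : Type*} {a : ι → H →L[ℂ] H} {q q' : H →L[ℂ] H} (h : IsSup S q a)
    (h' : IsSup S q' a) : q = q' := by
  have a1 := h.2.2.2 (1 - q') fun i => by rw [sub_mul, one_mul, h'.2.2.1, sub_self]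
  have a2 := h'.2.2.2 (1 - q) fun i => by rw [sub_mul, one_mul, h.2.2.1, sub_self]
  rw [sub_mul, one_mul, sub_eq_zero] at a1 a2
  have a3 := congrArg star a2
  rw [star_mul, h.2.1.isSelfAdjoint.star_eq, h'.2.1.isSelfAdjoint.star_eq] at a3
  rw [a1, ← a3]

theorem sup_central {ι : Type*} {a : ι → H →L[ℂ] H} {q : H →L[ℂ] H} (h : IsSup S q a)
    (hx : ∀ x ∈ vN S, ∀ i, q * (x * a i) = x * a i) : IsCentral S q := by
  have key : ∀ x ∈ vN S, x * q = q * x * q := fun x hxM => by
    have := h.2.2.2 ((1 - q) * x) fun i => by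
      rw [mul_assoc, sub_mul, one_mul, hx x hxM, sub_self]
    rwa [sub_mul, one_mul, sub_mul, sub_eq_zero] at this
  refine ⟨h.1, h.2.1, fun x hxM => ?_⟩
  have := congrArg star (key _ (star_mem hxM))
  rw [star_mul, star_mul, star_mul, star_star, h.2.1.isSelfAdjoint.star_eq, ← mul_assoc] at this
  rw [this, ← key x hxM]

/-- Two isometries with orthogonal ranges on `c`. -/
def Two (S : Set (H →L[ℂ] H)) (c : H →L[ℂ] H) : Prop :=
  ∃ v ∈ vN S, ∃ w ∈ vN S, star v * v = c ∧ star w * w = c ∧ star v * w = 0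

theorem two_of {ι : Type*} {c : H →L[ℂ] H} {a : ι → H →L[ℂ] H} (b b' : ι → H →L[ℂ] H)
    (hc : IsSup S c a) (ha : ∀ i, a i ∈ vN S) (hb : ∀ i, b i ∈ vN S) (hb' : ∀ i, b' i ∈ vN S)
    (h : ∀ i j, star (a i) * a j = star (b i) * b j)
    (h' : ∀ i j, star (a i) * a j = star (b' i) * b' j)
    (ho : ∀ i j, star (b' i) * b j = 0) : Two S c := by
  obtain ⟨v, hv, k1, k2⟩ := glue a b ha hb h
  obtain ⟨w, hw, l1, l2⟩ := glue a b' ha hb' h'
  have e1 := sup_unique k2 hc
  have e2 := sup_unique l2 hc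
  have f1 := pi_of_src hc.2.1 e1
  have f2 := pi_of_src hc.2.1 e2
  refine ⟨v, hv, w, hw, e1, e2, ?_⟩
  rw [← f2, ← mul_assoc]
  refine hc.2.2.2 _ fun i => ?_
  have := hc.2.2.2 (star (b' i) * v) fun j => by rw [mul_assoc, k1, ho]
  rw [mul_assoc, f1] at this
  have := congrArg star this
  rwa [star_mul, star_star, star_zero, ← l1, ← mul_assoc] at this

theorem exists_two : ∃ z, IsCentral S z ∧ Two S z ∧
    ∀ c, IsCentral S c → Two S c → z * c = 0 → c = 0 := by
  obtain ⟨F, -, h1, h2, h3⟩ := exists_maxfam (fun c => IsCentral S c ∧ Two S c)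
    (fun c c' => c * c' = 0 ∧ c' * c = 0) (fun _ _ h => h.symm) ∅ (by simp) (by simp)
  obtain ⟨z, hz⟩ := exists_sup (S := S) (fun c : F => c.1) fun c => (h1 _ c.2).1.1
  choose v hv w hw k1 k2 k3 using fun c : F => (h1 _ c.2).2
  have orth : ∀ (i j : F) (x y : H →L[ℂ] H), x ∈ vN S → y ∈ vN S → star x * x = i →
      star y * y = j → i ≠ j → star x * y = 0 := by
    intro i j x y hx hy ex ey hij
    have a1 := pi_of_src (h1 _ i.2).1.2.1 ex
    have a2 := pi_of_src (h1 _ j.2).1.2.1 ey
    have a3 := congrArg star a1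
    rw [star_mul, (h1 _ i.2).1.2.1.isSelfAdjoint.star_eq] at a3
    rw [← a3, ← a2, mul_assoc, ← mul_assoc (star x), ← (h1 _ j.2).1.2.2 _ (mul_mem (star_mem hx) hy),
      ← mul_assoc, (h2 i.2 j.2 (fun h => hij (Subtype.ext h))).1, zero_mul]
  have gram : ∀ u : F → H →L[ℂ] H, (∀ i, u i ∈ vN S) → (∀ i, star (u i) * u i = i) →
      ∀ i j : F, star (i : H →L[ℂ] H) * j = star (u i) * u j := by
    intro u hu hk i j
    rw [(h1 _ i.2).1.2.1.isSelfAdjoint.star_eq]
    by_cases hij : i = j
    · subst hij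
      rw [hk]
      exact (h1 _ i.2).1.2.1.isIdempotentElem
    · rw [orth i j _ _ (hu i) (hu j) (hk i) (hk j) hij]
      exact (h2 i.2 j.2 (fun h => hij (Subtype.ext h))).1
  refine ⟨z, sup_central hz fun x hx i => ?_,
    two_of w v hz (fun c => (h1 _ c.2).1.1) hw hv (gram w hw k2) (gram v hv k1) fun i j => ?_,
    fun c hc tc hzc => ?_⟩
  · rw [← (h1 _ i.2).1.2.2 x hx, ← mul_assoc, hz.2.2.1]
  · by_cases hij : i = j
    · subst hij
      exact k3 i
    · exact orth i j _ _ (hv i) (hw j) (k1 i) (k2 j) hij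
  · have : c ∈ F := h3 c ⟨hc, tc⟩ fun x hx => by
      have a0 : z * x = x := hz.2.2.1 ⟨x, hx⟩
      have a1 : c * x = 0 := by
        rw [← a0, ← mul_assoc, hc.2.2 z hz.1, hzc, zero_mul]
      exact ⟨by rw [← hc.2.2 x (h1 x hx).1.1, a1], a1⟩
    exact (hz.2.2.1 ⟨c, this⟩).symm.trans hzc

theorem many {z : H →L[ℂ] H} (hz : IsCentral S z) (h : Two S z) (n : ℕ) :
    ∃ u : Fin n → H →L[ℂ] H, (∀ i, u i ∈ vN S) ∧
      ∀ i j, star (u i) * u j = if i = j then z else 0 := by
  obtain ⟨v, hv, w, hw, k1, k2, k3⟩ := h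
  have hzz : z * z = z := hz.2.1.isIdempotentElem
  induction n with
  | zero => exact ⟨Fin.elim0, fun i => i.elim0, fun i => i.elim0⟩
  | succ n ih =>
    obtain ⟨u, hu, hk⟩ := ih
    refine ⟨Fin.cons v fun i => w * u i, fun i => ?_, fun i j => ?_⟩
    · refine Fin.cases ?_ (fun i => ?_) i
      · simpa using hv
      · simpa using mul_mem hw (hu i)
    · refine Fin.cases ?_ (fun i => ?_) i <;> refine Fin.cases ?_ (fun j => ?_) j
      · simpa using k1
      · simp only [Fin.cons_zero, Fin.cons_succ]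
        rw [← mul_assoc, k3, zero_mul, if_neg (Fin.succ_ne_zero j).symm]
      · have := congrArg star k3
        rw [star_mul, star_star, star_zero] at this
        simp only [Fin.cons_zero, Fin.cons_succ]
        rw [star_mul, mul_assoc, this, mul_zero, if_neg (Fin.succ_ne_zero i)]
      · simp only [Fin.cons_succ, Fin.succ_inj]
        rw [star_mul, mul_assoc, ← mul_assoc (star w), k2, ← mul_assoc,
          ← hz.2.2 _ (star_mem (hu i)), mul_assoc, hk]
        split_ifs
        · exact hzz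
        · exact mul_zero _

theorem core {z p : H →L[ℂ] H} (hz : IsCentral S z)
    (hmax : ∀ c, IsCentral S c → Two S c → z * c = 0 → c = 0)
    (hp : p ∈ vN S) (pp : IsStarProjection p) (hp0 : p ≠ 0) (hzp : z * p = 0)
    (F0 : Set (H →L[ℂ] H)) (h0 : ∀ u ∈ F0, u ∈ vN S ∧ star u * u = p)
    (h0' : F0.Pairwise fun u u' => star u * u' = 0) :
    F0.Finite ∧ ∃ (c : H →L[ℂ] H) (k : ℕ) (u : Fin k → H →L[ℂ] H), IsCentral S c ∧ c ≠ 0 ∧
      c * (1 - z) = c ∧ (∀ i, u i ∈ vN S ∧ u i * p = u i) ∧ ∑ i, u i * star (u i) = c := by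
  classical
  have hpp : p * p = p := pp.isIdempotentElem
  have hsp : star p = p := pp.isSelfAdjoint
  obtain ⟨F, hF, h1, h2, h3⟩ := exists_maxfam (fun u => u ∈ vN S ∧ star u * u = p)
    (fun u u' => star u * u' = 0) (fun x y h => by simpa using congrArg star h) F0 h0 h0'
  obtain ⟨q, hq⟩ := exists_sup (S := S) (fun u : F => u.1) fun u => (h1 _ u.2).1
  have hqq : q * q = q := hq.2.1.isIdempotentElem
  have hsq : star q = q := hq.2.1.isSelfAdjoint
  obtain ⟨u, hu, k1, k2, k3, k4⟩ := exists_max_pi hp (sub_mem (one_mem _) hq.1) pp hq.2.1.one_sub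
  have hqu : q * u = 0 := by rw [← k3, ← mul_assoc, mul_sub, mul_one, hqq, sub_self, zero_mul]
  have hFu : ∀ x ∈ F, star x * u = 0 := fun x hx => by
    have := congrArg star (hq.2.2.1 ⟨x, hx⟩)
    rw [star_mul, hsq] at this
    simp only at this
    rw [← this, mul_assoc, hqu, mul_zero]
  have hne : p - star u * u ≠ 0 := fun h => by
    have e : star u * u = p := (sub_eq_zero.1 h).symm
    have := hq.2.2.1 ⟨u, h3 u ⟨hu, e⟩ hFu⟩
    simp only at this
    rw [hqu] at this
    apply hp0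
    rw [← e, ← this, mul_zero]
  obtain ⟨c, hc, l1, l2⟩ := exists_cover (sub_mem hp (mul_mem (star_mem hu) hu))
    (C.proj_sub pp (C.proj_src k1) (by rw [mul_assoc, k2]))
  have hcc : c * c = c := hc.2.1.isIdempotentElem
  have hsc : star c = c := hc.2.1.isSelfAdjoint
  have hc0 : c ≠ 0 := fun h => hne (by rw [← l1, h, zero_mul])
  have hzc : z * c = 0 := l2 z fun x hx => by
    have a1 : p * star u = star u := by
      have := congrArg star k2
      rwa [star_mul, hsp] at this
    rw [hz.2.2 x hx, mul_assoc, mul_sub, hzp, ← a1, ← mul_assoc, ← mul_assoc, hzp]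
    simp
  have hcq : c = (q + u * star u) * c := by
    have := l2 _ k4
    rw [sub_sub, sub_mul, one_mul, sub_eq_zero] at this
    exact this
  obtain ⟨a, an, as⟩ : ∃ a : Option F → H →L[ℂ] H, a none = u ∧ ∀ i : F, a (some i) = i :=
    ⟨fun o => o.elim u fun i => i.1, rfl, fun _ => rfl⟩
  have aM : ∀ o, a o ∈ vN S := by
    rintro (_ | i)
    · rw [an]; exact hu
    · rw [as]; exact (h1 _ i.2).1
  have ap : ∀ o, a o * p = a o := by
    rintro (_ | i)
    · rw [an]; exact k2
    · rw [as]; exact pi_of_src pp (h1 _ i.2).2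
  have api : ∀ o, a o * star (a o) * a o = a o := by
    rintro (_ | i)
    · rw [an]; exact k1
    · rw [mul_assoc, as, (h1 _ i.2).2]; exact pi_of_src pp (h1 _ i.2).2
  have ao : ∀ o o', o ≠ o' → star (a o) * a o' = 0 := by
    rintro (_ | i) (_ | j) h
    · exact absurd rfl h
    · rw [an, as]
      simpa using congrArg star (hFu _ j.2)
    · rw [an, as]
      exact hFu _ i.2
    · rw [as, as]
      exact h2 i.2 j.2 fun e => h (congrArg some (Subtype.ext e))
  have hsup : IsSup S c fun o => a o * c := by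
    refine ⟨hc.1, hc.2.1, fun o => by rw [← mul_assoc, hc.2.2 _ (aM o), mul_assoc, hcc],
      fun T hT => ?_⟩
    have a1 : T * c * q = 0 := hq.2.2.2 _ fun i => by
      show T * c * i = 0
      rw [mul_assoc, ← as i, hc.2.2 _ (aM _)]
      exact hT (some i)
    have a2 : T * c * u = 0 := by
      rw [mul_assoc, hc.2.2 _ hu, ← an]
      exact hT none
    rw [hcq, ← hc.2.2 _ (add_mem hq.1 (mul_mem hu (star_mem hu))), ← mul_assoc, mul_add, a1,
      ← mul_assoc, a2, zero_mul, add_zero]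
  have hfin : F.Finite := by
    by_contra hinf
    have : Infinite F := Set.infinite_coe_iff.2 hinf
    obtain ⟨φ⟩ := exists_emb F
    have gram : ∀ (s t : Option F ⊕ Option F) (o o' : Option F),
        star ((φ s).1 * (star (a o) * (a o * c))) * ((φ t).1 * (star (a o') * (a o' * c))) =
          if s = t then star (star (a o) * (a o * c)) * (star (a o') * (a o' * c)) else 0 := by
      intro s t o o'
      rw [star_mul, mul_assoc, ← mul_assoc (star (φ s).1)]
      split_ifs with h
      · subst h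
        have a1 : p * star (a o') = star (a o') := by
          have := congrArg star (ap o')
          rwa [star_mul, hsp] at this
        rw [(h1 _ (φ s).2).2, ← mul_assoc p, a1]
      · rw [h2 (φ s).2 (φ t).2 fun e => h (φ.injective (Subtype.ext e)), zero_mul, mul_zero]
    have gram2 : ∀ f : Option F → Option F ⊕ Option F, Function.Injective f → ∀ o o',
        star (a o * c) * (a o' * c) = star ((φ (f o)).1 * (star (a o) * (a o * c))) *
          ((φ (f o')).1 * (star (a o') * (a o' * c))) := by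
      intro f hf o o'
      rw [gram]
      by_cases h : o = o'
      · subst h
        rw [if_pos rfl, star_mul (star (a o)), star_star, mul_assoc, ← mul_assoc (a o),
          ← mul_assoc (a o * _), api]
      · rw [if_neg fun e => h (hf e), star_mul, mul_assoc, ← mul_assoc (star (a o)), ao o o' h,
          zero_mul, mul_zero]
    have hM : ∀ (s : Option F ⊕ Option F) o, (φ s).1 * (star (a o) * (a o * c)) ∈ vN S :=
      fun s o => mul_mem (h1 _ (φ s).2).1 (mul_mem (star_mem (aM o)) (mul_mem (aM o) hc.1))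
    refine hc0 (hmax c hc (two_of (fun o => (φ (Sum.inl o)).1 * (star (a o) * (a o * c)))
      (fun o => (φ (Sum.inr o)).1 * (star (a o) * (a o * c))) hsup
      (fun o => mul_mem (aM o) hc.1) (fun o => hM _ o) (fun o => hM _ o)
      (gram2 _ Sum.inl_injective) (gram2 _ Sum.inr_injective) fun o o' => ?_) hzc)
    rw [gram, if_neg Sum.inr_ne_inl]
  refine ⟨hfin.subset hF, ?_⟩
  have : Fintype F := hfin.fintype
  let e := (Fintype.equivFin (Option F)).symm
  refine ⟨c, _, fun i => a (e i) * c, hc, hc0, ?_, fun i => ⟨mul_mem (aM _) hc.1, ?_⟩, ?_⟩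
  · rw [mul_sub, mul_one, hc.2.2 z hz.1, hzc, sub_zero]
  · rw [mul_assoc, hc.2.2 p hp, ← mul_assoc, ap]
  · rw [Equiv.sum_comp e fun o => a o * c * star (a o * c)]
    have b1 : ∀ o', (∑ o, a o * c * star (a o * c)) * (a o' * c) = a o' * c := fun o' => by
      rw [Finset.sum_mul, Finset.sum_eq_single o']
      · rw [star_mul, hsc, ← mul_assoc (a o' * c), mul_assoc (a o') c c, hcc,
          mul_assoc (a o') c, hc.2.2 _ (star_mem (aM o')), mul_assoc (a o'), mul_assoc _ c,
          ← mul_assoc c, hc.2.2 _ (aM o'), mul_assoc _ c c, hcc, ← mul_assoc, ← mul_assoc, api]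
      · intro o _ h
        rw [star_mul, mul_assoc, mul_assoc, mul_assoc, ← mul_assoc (star (a o)), ao o o' h]
        simp
      · simp
    have b2 := hsup.2.2.2 (1 - ∑ o, a o * c * star (a o * c)) fun o => by
      rw [sub_mul, one_mul, b1, sub_self]
    rw [sub_mul, one_mul, sub_eq_zero, Finset.sum_mul] at b2
    refine (b2.trans (Finset.sum_congr rfl fun o _ => ?_)).symm
    rw [mul_assoc, ← hc.2.2 _ (star_mem (mul_mem (aM o) hc.1)), ← mul_assoc,
      mul_assoc (a o) c c, hcc]

end St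

variable {H : Type v} [NormedAddCommGroup H] [InnerProductSpace ℂ H] [CompleteSpace H]
variable {S : Set (H →L[ℂ] H)}

theorem exists_pi : ∃ z : vN S, IsCentral S z ∧
    (∀ n : ℕ, ∃ v : Fin n → vN S, ∀ i j, star (v i) * v j = if i = j then z else 0) ∧
    Monic S (1 - z) ∧ FinU S (1 - z) := by
  obtain ⟨z, hz, h2, hmax⟩ := St.exists_two (S := S)
  have hzz : z * z = z := hz.2.1.isIdempotentElem
  have key : ∀ p ∈ vN S, p * (1 - z) = p → z * p = 0 := fun p hp h => by
    rw [hz.2.2 p hp, ← h, mul_assoc, sub_mul, one_mul, hzz, sub_self, mul_zero]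
  refine ⟨⟨z, hz.1⟩, hz, fun n => ?_, fun p hp pp hp0 hpz => ?_, fun c v hc hcz hv hvv => ?_⟩
  · obtain ⟨u, hu, hk⟩ := St.many hz h2 n
    refine ⟨fun i => ⟨u i, hu i⟩, fun i j => Subtype.ext ?_⟩
    have := hk i j
    split_ifs at this ⊢
    · exact this
    · exact this
  · exact (St.core hz hmax hp pp hp0 (key p hp hpz) ∅ (by simp) (by simp)).2
  · by_contra hne
    have hcc : c * c = c := hc.2.1.isIdempotentElem
    have hsc : star c = c := hc.2.1.isSelfAdjoint
    have a1 : v * c = v := St.pi_of_src hc.2.1 hvv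
    have a2 : c * v = v := by rw [hc.2.2 v hv, a1]
    have a3 : v * star v * v = v := by rw [mul_assoc, hvv, a1]
    have a4 : v * star v * c = v * star v := by
      rw [← hc.2.2 _ (mul_mem hv (star_mem hv)), ← mul_assoc, a2]
    obtain ⟨p, hp⟩ : ∃ p, p = c - v * star v := ⟨_, rfl⟩
    have pp : IsStarProjection p := hp ▸ C.proj_sub hc.2.1 (C.proj_rng a3) a4
    have hpM : p ∈ vN S := hp ▸ sub_mem hc.1 (mul_mem hv (star_mem hv))
    have hp0 : p ≠ 0 := fun h => hne (by rw [hp, sub_eq_zero] at h; exact h.symm)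
    have hpv : p * v = 0 := by rw [hp, sub_mul, a2, a3, sub_self]
    have hcp : c * p = p := by rw [hp, mul_sub, hcc, ← mul_assoc, a2]
    have hpp : p * p = p := pp.isIdempotentElem
    have hsp : star p = p := pp.isSelfAdjoint
    have hg : ∀ n m : ℕ, star (v ^ n * p) * (v ^ m * p) = if n = m then p else 0 := by
      intro n
      induction n with
      | zero =>
        rintro (_ | m)
        · simp [hsp, hpp]
        · rw [pow_zero, one_mul, hsp, pow_succ', ← mul_assoc, ← mul_assoc, hpv]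
          simp
      | succ n ih =>
        rintro (_ | m)
        · have : star v * p = 0 := by
            have := congrArg star hpv
            rwa [star_mul, hsp, star_zero] at this
          rw [pow_zero, one_mul, pow_succ', mul_assoc, star_mul, mul_assoc, this]
          simp
        · rw [pow_succ', pow_succ', mul_assoc, mul_assoc, star_mul, mul_assoc,
            ← mul_assoc (star v), hvv, ← mul_assoc c, hc.2.2 _ (pow_mem hv m), mul_assoc, hcp, ih]
          simp
    have hinj : Function.Injective fun n : ℕ => v ^ n * p := fun n m h => by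
      by_contra hnm
      have b1 := hg n m
      have b2 := hg n n
      simp only at h
      rw [if_neg hnm, ← h, b2, if_pos rfl] at b1
      exact hp0 b1
    refine Set.infinite_range_of_injective hinj (St.core hz hmax hpM pp hp0 ?_ _ ?_ ?_).1
    · rw [← hcp, ← mul_assoc, key c hc.1 hcz, zero_mul]
    · rintro _ ⟨n, rfl⟩
      exact ⟨mul_mem (pow_mem hv n) hpM, by simpa using hg n n⟩
    · rintro _ ⟨n, rfl⟩ _ ⟨m, rfl⟩ h
      rw [hg, if_neg fun e => h (by rw [e])]

theorem exists_typeI : ∃ z : H →L[ℂ] H, IsCentral S z ∧ NoAbel S (1 - z) ∧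
    ∀ c, IsCentral S c → c ≠ 0 → c * z = c → ∃ e, IsAbel S e ∧ e ≠ 0 ∧ e * c = e := by
  obtain ⟨z, hz⟩ := St.exists_sup (S := S)
    (fun i : vN S × {e // IsAbel S e} => (i.1 : H →L[ℂ] H) * i.2.1)
    fun i => mul_mem i.1.2 i.2.2.1
  have hc : IsCentral S z := St.sup_central hz fun x hx i => by
    rw [← mul_assoc x]
    exact hz.2.2.1 (⟨x * i.1, mul_mem hx i.1.2⟩, i.2)
  refine ⟨z, hc, fun p hp h => ?_, fun c hcc hc0 hcz => ?_⟩
  · have a1 : z * (1 * p) = 1 * p := hz.2.2.1 (1, ⟨p, hp⟩)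
    rw [one_mul, hc.2.2 p hp.1] at a1
    rw [← h, mul_sub, mul_one, a1, sub_self]
  · by_contra hno
    refine hc0 (hcz.symm.trans (hz.2.2.2 c fun i => ?_))
    have hcc2 : c * c = c := hcc.2.1.isIdempotentElem
    have he := i.2.2
    have a1 : c * i.2.1 = 0 := by
      by_contra hne
      refine hno ⟨c * i.2.1, ⟨mul_mem hcc.1 he.1, C.proj_mul hcc.2.1 he.2.1 (hcc.2.2 _ he.1),
        ?_⟩, hne, ?_⟩
      · have k : ∀ x ∈ vN S, ∀ y ∈ vN S, c * i.2.1 * x * (c * i.2.1) * y * (c * i.2.1) =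
            c * (i.2.1 * x * i.2.1 * y * i.2.1) := by
          have k1 : ∀ t ∈ vN S, c * t * (c * i.2.1) = c * (t * i.2.1) := fun t ht => by
            rw [← mul_assoc, mul_assoc c t c, ← hcc.2.2 t ht, ← mul_assoc, hcc2, mul_assoc]
          intro x hx y hy
          rw [mul_assoc c, k1 _ (mul_mem he.1 hx), mul_assoc c,
            k1 _ (mul_mem (mul_mem (mul_mem he.1 hx) he.1) hy)]
        intro x hx y hy
        rw [k x hx y hy, k y hy x hx, he.2.2 x hx y hy]
      · rw [mul_assoc, ← hcc.2.2 _ he.1, ← mul_assoc, hcc2]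
    simp only
    rw [← mul_assoc, hcc.2.2 _ i.1.2, mul_assoc, a1, mul_zero]

end Vale.Agent.P082
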