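import Vale.Agent.P082.T1

/-! Trace bounded vectors are dense on the finite part. -/

namespace Vale.Agent.P082

open scoped InnerProductSpace ComplexOrder ComplexConjugate
open Vale.Agent.P104 Vale.Agent.P104.C Vale.Agent.P104.D

variable {H : Type*} [NormedAddCommGroup H] [InnerProductSpace ℂ H] [CompleteSpace H]
variable {S : Set (H →L[ℂ] H)}

namespace T

/-- the defect of a partial isometry at a vector -/
noncomputable def df (ξ : H) (w : H →L[ℂ] H) : ℝ := ‖w ξ‖ ^ 2 - ‖star w ξ‖ ^ 2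

lemma rng_le {w w' : H →L[ℂ] H} (h : w' * (star w * w) = w) (α : H) : ∃ β, w α = w' β :=
  ⟨(star w * w) α, by rw [← mul_apply_eq_comp, h]⟩

lemma chain_ub {q : H →L[ℂ] H} (hsq : star q = q) (ξ : H) (c : Set (H →L[ℂ] H))
    (hc : ∀ w ∈ c, w ∈ vN S ∧ w * star w * w = w ∧ w * q = w ∧ q * w = w)
    (hch : ∀ w ∈ c, ∀ w' ∈ c, (w' * (star w * w) = w ∧ df ξ w ≤ df ξ w') ∨
      (w * (star w' * w') = w' ∧ df ξ w' ≤ df ξ w)) :
    ∃ v ∈ vN S, v * star v * v = v ∧ v * q = v ∧ q * v = v ∧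
      ∀ w ∈ c, v * (star w * w) = w ∧ df ξ w ≤ df ξ v := by
  have hiso : ∀ w ∈ c, ∀ w' ∈ c, w' * (star w * w) = w → ∀ α β,
      ⟪w α, w' β⟫_ℂ = ⟪(star w * w) α, (star w' * w') β⟫_ℂ := by
    intro w _ w' _ h α β
    rw [mul_apply_eq_comp (star w'), inner_star_right, ← mul_apply_eq_comp w', h]
  obtain ⟨v, hv, v1, v2, v3, v4, v5, -⟩ := graph_vN (S := S)
    {g | ∃ w ∈ c, ∃ α, g = ((star w * w) α, w α)} (by
      rintro _ ⟨w, hw, α, rfl⟩ _ ⟨w', hw', β, rfl⟩
      rcases hch w hw w' hw' with h | h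
      · exact hiso w hw w' hw' h.1 α β
      · simp only
        rw [← inner_conj_symm, hiso w' hw' w hw h.1 β α, inner_conj_symm]) (by
      rintro s hs _ ⟨w, hw, α, rfl⟩
      have h1 := (hc w hw).1
      refine ⟨w, hw, s α, ?_⟩
      simp only [← mul_apply_eq_comp, Prod.mk.injEq]
      rw [C.mem_vN.1 h1 s hs, C.mem_vN.1 (mul_mem (star_mem h1) h1) s hs]
      exact ⟨rfl, rfl⟩)
  have hvw : ∀ w ∈ c, v * (star w * w) = w := fun w hw => by
    ext α; exact v2 _ ⟨w, hw, α, rfl⟩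
  have hvw' : ∀ w ∈ c, star v * w = star w * w := fun w hw => by
    ext α; exact v3 _ ⟨w, hw, α, rfl⟩
  refine ⟨v, hv, v1, v4 q hsq ?_, v5 q ?_, fun w hw => ⟨hvw w hw, ?_⟩⟩
  · rintro _ ⟨w, hw, α, rfl⟩
    simp only [← mul_apply_eq_comp]
    rw [← mul_assoc, star_right hsq (hc w hw).2.2.1]
  · rintro _ ⟨w, hw, α, rfl⟩
    simp only [← mul_apply_eq_comp]
    rw [(hc w hw).2.2.2]
  have hup : ∀ w₁ ∈ c, ∀ w₂ ∈ c, ∃ w₃ ∈ c, w₃ * (star w₁ * w₁) = w₁ ∧ w₃ * (star w₂ * w₂) = w₂ ∧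
      df ξ w₁ ≤ df ξ w₃ := by
    intro w₁ h₁ w₂ h₂
    rcases hch w₁ h₁ w₂ h₂ with h | h
    · exact ⟨w₂, h₂, h.1, by rw [← mul_assoc, (hc _ h₂).2.1], h.2⟩
    · exact ⟨w₁, h₁, by rw [← mul_assoc, (hc _ h₁).2.1], h.1, le_rfl⟩
  let U : Submodule ℂ H :=
    { carrier := {a | ∃ w ∈ c, ∃ α, a = w α}
      add_mem' := by
        rintro _ _ ⟨w₁, h₁, α, rfl⟩ ⟨w₂, h₂, β, rfl⟩
        obtain ⟨w₃, h₃, e1, e2, -⟩ := hup w₁ h₁ w₂ h₂
        obtain ⟨α', hα⟩ := rng_le e1 α
        obtain ⟨β', hβ⟩ := rng_le e2 β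
        exact ⟨w₃, h₃, α' + β', by rw [hα, hβ, map_add]⟩
      zero_mem' := ⟨w, hw, 0, by simp⟩
      smul_mem' := by
        rintro t _ ⟨w₁, h₁, α, rfl⟩
        exact ⟨w₁, h₁, t • α, by simp⟩ }
  set P := U.topologicalClosure.starProjection with hP
  have pP : IsStarProjection P := isStarProjection_starProjection
  have hsP : star P = P := pP.isSelfAdjoint
  have hPw : ∀ w' ∈ c, P * w' = w' := fun w' hw' => by
    ext α
    exact Submodule.starProjection_eq_self_iff.2 (U.le_topologicalClosure ⟨w', hw', α, rfl⟩)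
  have hPv : P * v = v := v5 P (by
    rintro _ ⟨w', hw', α, rfl⟩
    simp only [← mul_apply_eq_comp]
    rw [hPw w' hw'])
  have hPξ : P ξ ∈ closure (U : Set H) := U.topologicalClosure.starProjection_apply_mem ξ
  refine le_of_forall_pos_le_add fun e he => ?_
  set ε := min 1 (e / (4 * ‖ξ‖ + 4)) with hε
  have hε0 : 0 < ε := lt_min one_pos (by positivity)
  have hε1 : ε ≤ 1 := min_le_left _ _
  have hε2 : ε * (4 * ‖ξ‖ + 4) ≤ e := by
    rw [← le_div_iff₀ (by positivity)]; exact min_le_right _ _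
  obtain ⟨_, ⟨w', hw', α, rfl⟩, hd⟩ := Metric.mem_closure_iff.1 hPξ ε hε0
  obtain ⟨w₃, h₃, -, e2, e3⟩ := hup w hw w' hw'
  obtain ⟨β, hβ⟩ := rng_le e2 α
  rw [hβ, dist_eq_norm] at hd
  have p3 := (hc _ h₃).2.1
  have k1 : ‖star v ξ‖ ≤ ‖P ξ‖ := by
    rw [← star_left hsP hPv, mul_apply_eq_comp]; exact norm_star_pi_le v1 _
  have k2 : ‖w₃ β‖ ≤ ‖star w₃ ξ‖ + ε := by
    have f1 : star w₃ (w₃ β) = star w₃ ξ - star w₃ (P ξ - w₃ β) := by
      rw [map_sub, ← mul_apply_eq_comp (star w₃) P, star_left hsP (hPw _ h₃)]; abel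
    rw [← norm_src p3, f1]
    exact (norm_sub_le _ _).trans (by linarith [norm_star_pi_le p3 (P ξ - w₃ β)])
  have k3 : ‖P ξ‖ ≤ ‖w₃ β‖ + ε := by linarith [norm_sub_norm_le (P ξ) (w₃ β)]
  have k4 : ‖w₃ ξ‖ ≤ ‖v ξ‖ := by
    have f1 : star w₃ * v = star w₃ * w₃ := by
      have := congrArg star (hvw' _ h₃)
      rwa [star_mul, star_star, star_mul, star_star] at this
    rw [← norm_src p3, ← mul_apply_eq_comp, ← f1, mul_apply_eq_comp]
    exact norm_star_pi_le p3 _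
  have k5 : ‖star w₃ ξ‖ ≤ ‖ξ‖ := norm_star_pi_le p3 ξ
  have k6 : ‖star v ξ‖ ^ 2 ≤ (‖star w₃ ξ‖ + 2 * ε) ^ 2 :=
    pow_le_pow_left₀ (norm_nonneg _) (by linarith) 2
  have k7 : ‖w₃ ξ‖ ^ 2 ≤ ‖v ξ‖ ^ 2 := pow_le_pow_left₀ (norm_nonneg _) k4 2
  unfold df at e3 ⊢
  nlinarith

lemma exists_corner {z : H →L[ℂ] H} (hz : IsCentral S z) (h2 : FinU S z) {q : H →L[ℂ] H}
    (hq : q ∈ vN S) (pq : IsStarProjection q) (hqz : q * z = q) (hq0 : q ≠ 0) (ξ : H) :
    ∃ g ∈ vN S, IsStarProjection g ∧ g ≠ 0 ∧ g * q = g ∧ ∃ ξ' : H,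
      ∀ v ∈ vN S, v * star v * v = v → v * g = v → g * v = v → ‖v ξ‖ ^ 2 ≤ ‖star v ξ'‖ ^ 2 := by
  have hqq : q * q = q := pq.isIdempotentElem
  have hsq : star q = q := pq.isSelfAdjoint
  by_cases h0 : ∀ v ∈ vN S, v * star v * v = v → v * q = v → q * v = v → df ξ v ≤ 0
  · exact ⟨q, hq, pq, hq0, hqq, ξ, fun v hv a b c => sub_nonpos.1 (h0 v hv a b c)⟩
  push Not at h0
  obtain ⟨w₁, hw₁, a1, a2, a3, a4⟩ := h0
  let X := {w : H →L[ℂ] H // (w ∈ vN S ∧ w * star w * w = w ∧ w * q = w ∧ q * w = w) ∧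
    df ξ w₁ ≤ df ξ w}
  let r : X → X → Prop := fun w w' => w'.1 * (star w.1 * w.1) = w.1 ∧ df ξ w.1 ≤ df ξ w'.1
  obtain ⟨m, hm⟩ : ∃ m : X, ∀ a, r m a → r a m := by
    refine exists_maximal_of_chains_bounded (fun c hc => ?_) ?_
    · rcases c.eq_empty_or_nonempty with rfl | ⟨w₀, hw₀⟩
      · exact ⟨⟨w₁, ⟨hw₁, a1, a2, a3⟩, le_rfl⟩, by simp⟩
      obtain ⟨v, hv, v1, v2, v3, v4⟩ := chain_ub (S := S) hsq ξ (Subtype.val '' c) (by
          rintro _ ⟨w, -, rfl⟩; exact w.2.1) (by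
          rintro _ ⟨w, hw, rfl⟩ _ ⟨w', hw', rfl⟩
          by_cases h : w = w'
          · subst h
            exact Or.inl ⟨by rw [← mul_assoc, w.2.1.2.1], le_rfl⟩
          · exact hc hw hw' h)
      exact ⟨⟨v, ⟨hv, v1, v2, v3⟩, w₀.2.2.trans (v4 _ ⟨w₀, hw₀, rfl⟩).2⟩,
        fun w hw => v4 _ ⟨w, hw, rfl⟩⟩
    · intro a b c hab hbc
      refine ⟨?_, hab.2.trans hbc.2⟩
      have pa := proj_src a.2.1.2.1
      have pb := proj_src b.2.1.2.1
      have e1 : star a.1 * a.1 * (star b.1 * b.1) * (star a.1 * a.1) = star a.1 * a.1 := by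
        have f1 : star a.1 * a.1 * star b.1 = star a.1 := by
          have := congrArg star hab.1
          rwa [star_mul, star_mul, star_star] at this
        rw [← mul_assoc _ (star b.1), f1, mul_assoc, hab.1]
      have e2 : star b.1 * b.1 * (star a.1 * a.1) = star a.1 * a.1 := by
        have hP := pb.isIdempotentElem.eq
        have hp := pa.isIdempotentElem.eq
        have hsP : star (star b.1 * b.1) = star b.1 * b.1 := pb.isSelfAdjoint
        have hsp : star (star a.1 * a.1) = star a.1 * a.1 := pa.isSelfAdjoint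
        generalize star b.1 * b.1 = P at *
        generalize star a.1 * a.1 = p at *
        refine sub_eq_zero.1 (eq_zero_of_src ?_)
        rw [star_sub, star_mul, hsP, hsp, sub_mul, mul_sub, mul_sub, ← mul_assoc, mul_assoc p P P,
          hP, ← mul_assoc, e1, hp]
        abel
      rw [← e2, ← mul_assoc, hbc.1, hab.1]
  obtain ⟨m, ⟨hmM, m1, m2, m3⟩, m4⟩ := m
  obtain ⟨u, hu, u1, u2⟩ := compl_equiv hz h2 hq pq hqz hmM m1 m2 m3
  have pe : IsStarProjection (q - star m * m) :=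
    proj_sub pq (proj_src m1) (by rw [mul_assoc, m2])
  have hee := pe.isIdempotentElem.eq
  have hse : star (q - star m * m) = q - star m * m := pe.isSelfAdjoint
  have hup : u * star u * u = u := by
    have e : star (u * star u * u - u) * (u * star u * u - u) = 0 := by
      have e1 : u * star u * u - u = u * (star u * u - 1) := by rw [mul_sub, mul_one, mul_assoc]
      rw [e1, star_mul, mul_assoc, ← mul_assoc (star u), u1, mul_sub, hee, mul_one, sub_self,
        mul_zero]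
    exact sub_eq_zero.1 (eq_zero_of_src e)
  refine ⟨q - star m * m, sub_mem hq (mul_mem (star_mem hmM) hmM), pe, fun h0 => ?_,
    by rw [sub_mul, hqq, mul_assoc, m2], star u ξ, fun v hv v1 v2 v3 => ?_⟩
  · rw [h0] at u1
    rw [eq_zero_of_src u1, zero_mul] at u2
    have e1 := qf_star_mul m ξ
    have e2 := qf_mul_star m ξ
    rw [← sub_eq_zero.1 h0] at e1
    rw [← sub_eq_zero.1 u2.symm] at e2
    unfold df at m4 a4
    linarith
  have hv' : u * v ∈ vN S := mul_mem hu hv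
  have s1 : star (u * v) * (u * v) = star v * v := by
    rw [star_mul, mul_assoc, ← mul_assoc (star u), u1, v3]
  have p1 : u * v * star (u * v) * (u * v) = u * v := by
    rw [mul_assoc, s1, mul_assoc, ← mul_assoc v, v1]
  have hmu : star m * u = 0 := by
    rw [← hup, u2, ← mul_assoc, mul_sub, star_left hsq m3, ← mul_assoc, star_pi m1, sub_self,
      zero_mul]
  have hvm : v * star m = 0 := by
    rw [← v2, mul_assoc, sub_mul, star_right hsq m2, star_pi m1, sub_self, mul_zero]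
  have o1 : star m * (u * v) = 0 := by rw [← mul_assoc, hmu, zero_mul]
  have o2 : u * v * star m = 0 := by rw [mul_assoc, hvm, mul_zero]
  have o3 : star (u * v) * m = 0 := by
    have := congrArg star o1
    rwa [star_mul, star_star, star_zero] at this
  have o4 : m * star (u * v) = 0 := by
    have := congrArg star o2
    rwa [star_mul, star_star, star_zero] at this
  have hs : star (m + u * v) * (m + u * v) = star m * m + star (u * v) * (u * v) := by
    rw [star_add, add_mul, mul_add, mul_add, o1, o3, add_zero, zero_add]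
  have hr : (m + u * v) * star (m + u * v) = m * star m + u * v * star (u * v) := by
    rw [star_add, add_mul, mul_add, mul_add, o2, o4, add_zero, zero_add]
  have hdf : df ξ (m + u * v) = df ξ m + df ξ (u * v) := by
    unfold df
    rw [← qf_star_mul, ← qf_mul_star, hs, hr, qf_add, qf_add, qf_star_mul, qf_star_mul,
      qf_mul_star, qf_mul_star]
    ring
  have hle : df ξ (u * v) ≤ 0 := by
    by_contra hc
    push Not at hc
    have hX : (m + u * v ∈ vN S ∧ (m + u * v) * star (m + u * v) * (m + u * v) = m + u * v ∧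
        (m + u * v) * q = m + u * v ∧ q * (m + u * v) = m + u * v) ∧
        df ξ w₁ ≤ df ξ (m + u * v) := by
      refine ⟨⟨add_mem hmM hv', ?_, ?_, ?_⟩, by linarith⟩
      · rw [hr, add_mul, mul_add, mul_add, m1, p1, mul_assoc m, o1, mul_assoc (u * v), o3]
        simp
      · rw [add_mul, m2, mul_assoc, ← v2, mul_assoc v, sub_mul, hqq, mul_assoc, m2]
      · rw [mul_add, m3, ← mul_assoc, ← hup, u2, ← mul_assoc, mul_sub, hqq, ← mul_assoc, m3]
    have := (hm ⟨_, hX⟩ ⟨by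
      show (m + u * v) * (star m * m) = m
      rw [add_mul, ← mul_assoc, m1, ← mul_assoc, o2, zero_mul, add_zero],
      by show df ξ m ≤ df ξ (m + u * v); linarith⟩).2
    change df ξ (m + u * v) ≤ df ξ m at this
    linarith
  unfold df at hle
  rw [← qf_star_mul (u * v), s1, qf_star_mul, star_mul, mul_apply_eq_comp] at hle
  linarith

end T

theorem dfin_dense {z : H →L[ℂ] H} (hz : IsCentral S z) (h1 : Monic S z) (h2 : FinU S z)
    (ζ : H) (hζ : z ζ = ζ) : ζ ∈ closure (Dfin S) := by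
  obtain ⟨zf, hzf, f1, f2⟩ := exists_zf (S := S)
  by_contra hne
  set ξ := ζ - zf ζ with hξ
  have hξ0 : ξ ≠ 0 := fun h => hne (by rw [sub_eq_zero.1 h]; exact f1 ζ)
  have hzfξ : zf ξ = 0 := by
    rw [hξ, map_sub, ← mul_apply_eq_comp, hzf.2.1.isIdempotentElem.eq, sub_self]
  have hzξ : (1 - z) ξ = 0 := by
    rw [sub_apply, one_apply_eq_self, hξ, map_sub, hζ, ← mul_apply_eq_comp, hz.2.2 zf hzf.1,
      mul_apply_eq_comp, hζ, sub_self]
  obtain ⟨q, hq, pq, q1, q2⟩ := T.exists_supp (S := S) ξ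
  have hqz : q * z = q := by
    have := q2 _ (sub_mem (one_mem _) hz.1) hzξ
    rw [sub_mul, one_mul, sub_eq_zero, hz.2.2 q hq] at this
    exact this.symm
  obtain ⟨g, hg, pg, g0, gq, ξ', hξ'⟩ := T.exists_corner hz h2 hq pq hqz
    (by rintro rfl; exact hξ0 q1.symm) ξ
  have hsg : star g = g := pg.isSelfAdjoint
  have hgg : g * g = g := pg.isIdempotentElem
  obtain ⟨c, k, u, hc, c0, -, hu, hs⟩ := h1 g hg pg g0 (by rw [← gq, mul_assoc, hqz])
  have hcc : c * c = c := hc.2.1.isIdempotentElem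
  have hsc : star c = c := hc.2.1.isSelfAdjoint
  have hD : (c * g) ξ ∈ Dfin S := by
    refine ⟨∑ i, ‖u i ξ'‖ ^ 2, fun m x hx hx1 => ?_⟩
    have e1 : ∀ j, ‖x j ((c * g) ξ)‖ ^ 2 ≤ ∑ i, ‖star (x j) (u i ξ')‖ ^ 2 := by
      intro j
      have e2 : ‖x j ((c * g) ξ)‖ ^ 2 = qf c ((x j * g) ξ) := by
        rw [← mul_apply_eq_comp, ← mul_assoc, ← hc.2.2 _ (hx j), mul_assoc, mul_apply_eq_comp,
          ← qf_star_mul, hsc, hcc]
      rw [e2, ← hs, qf_sum]
      refine Finset.sum_le_sum fun i _ => ?_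
      rw [T.qf_mul_star, ← mul_apply_eq_comp]
      refine (T.all_of_pi hsg hξ' (mul_mem (star_mem (hu i).1) (mul_mem (hx j) hg))
        (by rw [mul_assoc, mul_assoc, hgg])
        (by rw [← mul_assoc, T.star_right hsg (hu i).2])).trans ?_
      rw [star_mul, star_star, star_mul, hsg, mul_apply_eq_comp, mul_apply_eq_comp]
      exact pow_le_pow_left₀ (norm_nonneg _) (T.norm_pi_le (by rw [hsg, hgg, hgg]) _) 2
    refine (Finset.sum_le_sum fun j _ => e1 j).trans ?_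
    rw [Finset.sum_comm]
    refine Finset.sum_le_sum fun i _ => ?_
    have := qf_mono hx1 (u i ξ')
    rw [qf_sum, qf_one] at this
    simpa only [T.qf_mul_star] using this
  have e3 : (c * g) ξ = 0 := by
    rw [← f2 _ hD, ← mul_apply_eq_comp, hzf.2.2 _ (mul_mem hc.1 hg), mul_apply_eq_comp, hzfξ,
      map_zero]
  have e4 := q2 _ (mul_mem hc.1 hg) e3
  rw [mul_assoc, gq] at e4
  apply c0
  rw [← hcc]
  nth_rewrite 2 [← hs]
  rw [Finset.mul_sum]
  refine Finset.sum_eq_zero fun i _ => ?_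
  rw [← mul_assoc, hc.2.2 _ (hu i).1, ← (hu i).2, mul_assoc (u i), ← hc.2.2 g hg, e4]
  simp

end Vale.Agent.P082
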