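import Vale.Agent.P082.K2
import Vale.Agent.P082.PartS
import Vale.Agent.P082.PartT
import Vale.Agent.P082.PartC
import Vale.Agent.P082.PartG
import Vale.Agent.P082.PartE
import Vale.Agent.P082.PartF

/-! Part K: killing cocycles and assembly. -/

namespace Vale.Agent.P082

open scoped InnerProductSpace ComplexOrder ComplexConjugate
open Vale.Agent.P104 Vale.Agent.P104.F

universe v
variable {H : Type v} [NormedAddCommGroup H] [InnerProductSpace ℂ H] [CompleteSpace H]
variable {S : Set (H →L[ℂ] H)}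

theorem kill_of_uinv {z : vN S} (hz : IsCentral S z) (h : UInv S z) (k : ℕ) : Kill S z k :=
  K.kill_uinv hz h k

theorem kill_pi {z : vN S} (hz : IsCentral S z)
    (hv : ∀ n : ℕ, ∃ v : Fin n → vN S, ∀ i j, star (v i) * v j = if i = j then z else 0)
    (k : ℕ) : Kill S z k :=
  let ⟨m, h1, h2⟩ := ginv (S := S)
  K.kill_fam m h1 h2 hz hv k

theorem kill_all (k : ℕ) : Kill S 1 k :=
  let ⟨_, hz, hv, hm, hf⟩ := exists_pi (S := S)
  let ⟨_, hy, hna, hab⟩ := exists_typeI (S := S)
  K.glue hz hm hf hy hna hab dfin_dense uinv_typeI uinv_II (kill_pi hz hv k)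

theorem kadison_ringrose (N : StarSubalgebra ℂ (H →L[ℂ] H))
    (hN : Set.centralizer (Set.centralizer (N : Set (H →L[ℂ] H))) = N) (k : ℕ)
    (f : ContinuousMultilinearMap ℂ (fun _ : Fin (k + 1) => N) N) (hf : ∀ a, cob (k + 1) f a = 0) :
    ∃ g : ContinuousMultilinearMap ℂ (fun _ : Fin k => N) N, ∀ a, f a = cob k g a := by
  obtain ⟨S, rfl⟩ : ∃ S, N = vN S := by
    refine ⟨Set.centralizer N, StarSubalgebra.ext fun x => ⟨fun hx => mem_vN.2 fun g hg =>
      ⟨(hg x hx).symm, ?_⟩, fun hx => ?_⟩⟩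
    · simpa using congrArg star (hg _ (star_mem hx))
    · rw [← SetLike.mem_coe, ← hN]
      exact fun g hg => (mem_vN.1 hx g hg).1
  simpa only [one_mul] using kill_all k f hf

end Vale.Agent.P082
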