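import Vale.Agent.P082.P3

/-! Part P: the prism reduction to completely bounded first variable. -/

namespace Vale.Agent.P082

open scoped InnerProductSpace ComplexOrder ComplexConjugate
open Vale.Agent.P104 Vale.Agent.P104.F Filter

universe v
variable {H : Type v} [NormedAddCommGroup H] [InnerProductSpace ℂ H] [CompleteSpace H]
variable {S : Set (H →L[ℂ] H)}

open P in
theorem prism {z : vN S} (hz : IsCentral S z)
    (hv : ∀ n : ℕ, ∃ v : Fin n → vN S, ∀ i j, star (v i) * v j = if i = j then z else 0)
    (k : ℕ) (φ : ContinuousMultilinearMap ℂ (fun _ : Fin (k + 1) => vN S) (vN S))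
    (hφ : ∀ a, cob (k + 1) φ a = 0) :
    ∃ g : ContinuousMultilinearMap ℂ (fun _ : Fin k => vN S) (vN S), ∀ a : Fin k → vN S,
      CB S (fun x => (z * (φ (Fin.cons x a) - cob k g (Fin.cons x a)) : vN S))
        (‖φ‖ * ∏ i, ‖a i‖) := by
  choose h h1 h2 h3 using stage hz hv k φ hφ
  obtain ⟨m, hm⟩ := exists_tail
  have hb : ∀ (a : Fin k → vN S) n, ‖h n (List.ofFn a)‖ ≤ (k + 1) * ‖φ‖ * ∏ i, ‖a i‖ :=
    fun a n => by simpa only [List.length_ofFn, pn_ofFn] using h2 n (List.ofFn a)
  choose g g1 g2 using fun a => exists_W m (hb a)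
  have lin : ∀ (a : Fin k → vN S) (i : Fin k) n,
      IsLinearMap ℂ fun x => h n ((List.ofFn a).set i x) := fun a i n => h1 n _ i (by simp)
  let G : MultilinearMap ℂ (fun _ : Fin k => vN S) (vN S) :=
    { toFun := g
      map_update_add' := fun a i x y => (g1 _).unique (by
        have := (g1 (Function.update a i x)).add (g1 (Function.update a i y))
        simpa only [ofFn_update, (lin a i _).map_add] using this)
      map_update_smul' := fun a i c x => (g1 _).unique (by
        have := (g1 (Function.update a i x)).smul c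
        simpa only [ofFn_update, (lin a i _).map_smul] using this) }
  refine ⟨G.mkContinuous _ g2, fun a ι κ _ _ x hx ξ => ?_⟩
  have hW : ∀ b, W m (z * (φ b - cob k (G.mkContinuous _ g2) b))
      fun n => z * (φ b - cob k (fun b => h n (List.ofFn b)) b) := fun b => by
    have := ((W.const (φ b)).add (((((g1 (Fin.tail b)).left (b 0)).add
      (W.sum Finset.univ fun j : Fin k => (g1 (Fin.contractNth j.castSucc (· * ·) b)).left
        ((-1) ^ ((j : ℕ) + 1)))).add (((g1 (Fin.init b)).right (b (Fin.last k))).left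
        ((-1) ^ (k + 1)))).left (-1))).left z
    simp only [neg_one_mul, ← sub_eq_add_neg] at this
    exact this
  have hC : ∀ i, ∃ C, ∀ n, ‖∑ j, ((z * (φ (Fin.cons (x i j) a) - cob k
      (fun b => h n (List.ofFn b)) (Fin.cons (x i j) a)) : vN S) : H →L[ℂ] H) (ξ j)‖ ≤ C := by
    intro i
    choose C hC using fun j => (hW (Fin.cons (x i j) a)).1
    exact ⟨∑ j, C j * ‖ξ j‖, fun n => norm_sum_le_of_le _ fun j _ =>
      ContinuousLinearMap.le_of_opNorm_le _ (hC j n) _⟩
  refine (jensen m _ _ hC fun i η => ?_).trans (hm _ ?_ _ ?_)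
  · simp only [inner_sum]
    rw [m.sum _ fun j _ => (hW (Fin.cons (x i j) a)).bd (ξ j) η]
    exact Finset.sum_congr rfl fun j _ => (hW _).2 _ _
  · choose C hC using hC
    refine ⟨∑ i, C i ^ 2, fun n => ?_⟩
    rw [Complex.norm_real, Real.norm_of_nonneg (by positivity)]
    exact Finset.sum_le_sum fun i _ => pow_le_pow_left₀ (norm_nonneg _) (hC i n) 2
  · filter_upwards [eventually_ge_atTop (Fintype.card ι), eventually_ge_atTop (Fintype.card κ)]
      with n n1 n2
    rw [Complex.ofReal_re]
    exact h3 n a ι κ x hx n1 n2 ξ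

end Vale.Agent.P082
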