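import Vale.Agent.P082.Mean

/-! Interface stubs for P082. Never import this file from a finished file. Real theorems have the
same names and statements in namespace `Vale.Agent.P082`. See notes/P082_blueprint.md. -/

namespace Vale.Agent.P082.Stub

open scoped InnerProductSpace ComplexOrder ComplexConjugate
open Vale.Agent.P104 Vale.Agent.P104.F

universe v

/-! ## Part M (final `Vale.Agent.P082.PartM`) -/
section M
variable {Γ : Type*} {E : Type*} [NormedAddCommGroup E] [InnerProductSpace ℂ E] [CompleteSpace E]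

theorem compactSpace_mean [Nonempty Γ] : CompactSpace (Mean Γ) := sorry

theorem re_le (m : Mean Γ) {f : Γ → ℂ} (hf : Bd f) {c : ℝ} (h : ∀ g, (f g).re ≤ c) :
    (m.I f).re ≤ c := sorry

theorem re_mono (m : Mean Γ) {f f' : Γ → ℂ} (hf : Bd f) (hf' : Bd f')
    (h : ∀ g, (f g).re ≤ (f' g).re) : (m.I f).re ≤ (m.I f').re := sorry

theorem I_conj (m : Mean Γ) (f : Γ → ℂ) : m.I (fun g => conj (f g)) = conj (m.I f) := sorry

theorem exists_absorbs [Monoid Γ] {Q : Set (Mean Γ)} (hQ : Good Q) : ∃ e ∈ Q, Absorbs e Q := sorry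

theorem exists_iter [Monoid Γ] {e : Mean Γ} (he : Absorbs e Set.univ) (ι : Type) [Fintype ι]
    [DecidableEq ι] : ∃ M : Mean (ι → Γ), ∀ (j : ι) (A : (ι → Γ) → Γ) (χ : Γ → ℂ), Bd χ →
      (∀ x g, A (Function.update x j g) = A x) →
      M.I (fun x => e.I fun κ => χ (κ * (A x * x j))) = e.I χ := sorry

theorem exists_vec (m : Mean Γ) (F : Γ → E) (C : ℝ) (hF : ∀ g, ‖F g‖ ≤ C) :
    ∃ x : E, (∀ η, ⟪η, x⟫_ℂ = m.I fun g => ⟪η, F g⟫_ℂ) ∧ ‖x‖ ≤ C := sorry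

theorem jensen (m : Mean Γ) {ι : Type*} [Fintype ι] (F : ι → Γ → E) (x : ι → E)
    (hF : ∀ i, ∃ C, ∀ g, ‖F i g‖ ≤ C) (hx : ∀ i η, ⟪η, x i⟫_ℂ = m.I fun g => ⟪η, F i g⟫_ℂ) :
    ∑ i, ‖x i‖ ^ 2 ≤ (m.I fun g => ((∑ i, ‖F i g‖ ^ 2 : ℝ) : ℂ)).re := sorry

theorem exists_op {E' : Type*} [NormedAddCommGroup E'] [InnerProductSpace ℂ E'] (m : Mean Γ)
    (F : Γ → E' →L[ℂ] E) (C : ℝ) (hF : ∀ g, ‖F g‖ ≤ C) :
    ∃ T : E' →L[ℂ] E, (∀ ξ η, ⟪η, T ξ⟫_ℂ = m.I fun g => ⟪η, F g ξ⟫_ℂ) ∧ ‖T‖ ≤ C := sorry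

theorem mem_vN_of_mean {S : Set (E →L[ℂ] E)} (m : Mean Γ) (F : Γ → E →L[ℂ] E) (C : ℝ)
    (hF : ∀ g, ‖F g‖ ≤ C) (hS : ∀ g, F g ∈ vN S) {T : E →L[ℂ] E}
    (hT : ∀ ξ η, ⟪η, T ξ⟫_ℂ = m.I fun g => ⟪η, F g ξ⟫_ℂ) : T ∈ vN S := sorry
end M

variable {H : Type v} [NormedAddCommGroup H] [InnerProductSpace ℂ H] [CompleteSpace H]
variable {S : Set (H →L[ℂ] H)}

/-! ## Part S (structure; final `PartS`) -/

theorem exists_pi : ∃ z : vN S, IsCentral S z ∧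
    (∀ n : ℕ, ∃ v : Fin n → vN S, ∀ i j, star (v i) * v j = if i = j then z else 0) ∧
    Monic S (1 - z) ∧ FinU S (1 - z) := sorry

theorem exists_typeI : ∃ z : H →L[ℂ] H, IsCentral S z ∧ NoAbel S (1 - z) ∧
    ∀ c, IsCentral S c → c ≠ 0 → c * z = c → ∃ e, IsAbel S e ∧ e ≠ 0 ∧ e * c = e := sorry

/-! ## Part T (traces on the finite part; final `PartT`) -/

theorem dfin_dense {z : H →L[ℂ] H} (hz : IsCentral S z) (h1 : Monic S z) (h2 : FinU S z)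
    (ζ : H) (hζ : z ζ = ζ) : ζ ∈ closure (Dfin S) := sorry

/-! ## Part W (factorization; final `PartW`) -/

theorem wp (T : vN S →ₗ[ℂ] (H →L[ℂ] H)) (C : ℝ) (hC : 0 ≤ C) (hT : CB S T C) :
    ∃ (K : Type v) (_ : NormedAddCommGroup K) (_ : InnerProductSpace ℂ K) (_ : CompleteSpace K)
      (π : vN S →⋆ₐ[ℂ] (K →L[ℂ] K)) (W : K →L[ℂ] H) (V : H → K),
      (∀ ξ, ‖V ξ‖ ≤ ‖ξ‖) ∧ ‖W‖ ≤ C ∧ ∀ a ξ, T a ξ = W (π a (V ξ)) := sorry

theorem cb_abel {c e : H →L[ℂ] H} (he : IsAbel S e) {k : ℕ} (u : Fin k → H →L[ℂ] H)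
    (hu : ∀ i, u i ∈ vN S ∧ u i * e = u i) (hc : IsCentral S c) (hs : ∑ i, u i * star (u i) = c)
    (G : vN S →L[ℂ] vN S) : ∃ C, 0 ≤ C ∧ CB S (fun a => c * (G a : H →L[ℂ] H)) C := sorry

/-! ## Part C (the completely bounded argument; final `PartC`) -/

theorem cbcore {Γ : Type*} [Monoid Γ] (fam : Γ → List (vN S)) (h1 : fam 1 = [1])
    (hmul : ∀ g h, fam (g * h) = (fam g).flatMap fun m => (fam h).map fun m' => m * m')
    (hle : ∀ g, (((fam g).map fun m => star m * m).sum : vN S) ≤ 1)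
    {Q : Set (Mean Γ)} (hQ : Good Q) {e : Mean Γ} (heQ : e ∈ Q) (he : Absorbs e Q)
    (T : vN S →ₗ[ℂ] vN S) (C : ℝ) (hC : 0 ≤ C) (hT : CB S (fun a => T a) C) :
    ∃ T0 : vN S → vN S, (∀ a ξ η, ⟪η, (T0 a : H →L[ℂ] H) ξ⟫_ℂ = e.I fun g =>
        ((fam g).map fun m : vN S => ⟪(m : H →L[ℂ] H) η, (T (m * a) : H →L[ℂ] H) ξ⟫_ℂ).sum) ∧
      ∀ (s : unitary (vN S)) (g : Γ), fam g = [(s : vN S)] → Mean.dirac g ∈ Q →
        ∀ a, ∀ σ ∈ Q, ∀ η : H, e.I (fun k => σ.I fun w => ((fam (w * k)).map fun m : vN S =>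
          ((‖(star (star (s : vN S) * T0 (s * a) - T0 a) * m : vN S).1 η‖ ^ 2 : ℝ) : ℂ)).sum) = 0 :=
  sorry

theorem uinv_typeI {z : vN S} (hz : IsCentral S z) (h1 : Monic S z)
    (h2 : ∀ c, IsCentral S c → c ≠ 0 → c * z = c → ∃ e, IsAbel S e ∧ e ≠ 0 ∧ e * c = e) :
    UInv S z := sorry

/-! ## Part G (general families; final `PartG`) -/

theorem ginv : ∃ m : Mean (Fam S),
    (∀ ξ η : H, m.I (fun l => (l.1.map fun x : vN S =>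
      ⟪(x : H →L[ℂ] H) η, (x : H →L[ℂ] H) ξ⟫_ℂ).sum) = ⟪η, ξ⟫_ℂ) ∧
    ∀ (T : vN S →ₗ[ℂ] vN S) (C : ℝ), 0 ≤ C → CB S (fun a => T a) C →
      ∀ (s : unitary (vN S)) (ξ η : H),
      m.I (fun l => (l.1.map fun x : vN S =>
        ⟪((x * s : vN S) : H →L[ℂ] H) η, (T (x * s) : H →L[ℂ] H) ξ⟫_ℂ).sum) =
      m.I (fun l => (l.1.map fun x : vN S =>
        ⟪(x : H →L[ℂ] H) η, (T x : H →L[ℂ] H) ξ⟫_ℂ).sum) := sorry

/-! ## Part P (prism; final `PartP`) -/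

theorem prism {z : vN S} (hz : IsCentral S z)
    (hv : ∀ n : ℕ, ∃ v : Fin n → vN S, ∀ i j, star (v i) * v j = if i = j then z else 0)
    (k : ℕ) (φ : ContinuousMultilinearMap ℂ (fun _ : Fin (k + 1) => vN S) (vN S))
    (hφ : ∀ a, cob (k + 1) φ a = 0) :
    ∃ g : ContinuousMultilinearMap ℂ (fun _ : Fin k => vN S) (vN S), ∀ a : Fin k → vN S,
      CB S (fun x => (z * (φ (Fin.cons x a) - cob k g (Fin.cons x a)) : vN S))
        (‖φ‖ * ∏ i, ‖a i‖) := sorry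

/-! ## Part K (killing cocycles and assembly; final `PartK`) -/

theorem kill_of_uinv {z : vN S} (hz : IsCentral S z) (h : UInv S z) (k : ℕ) : Kill S z k := sorry

theorem kill_pi {z : vN S} (hz : IsCentral S z)
    (hv : ∀ n : ℕ, ∃ v : Fin n → vN S, ∀ i j, star (v i) * v j = if i = j then z else 0)
    (k : ℕ) : Kill S z k := sorry

theorem kill_all (k : ℕ) : Kill S 1 k := sorry

end Vale.Agent.P082.Stub
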