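import Vale.Agent.P082.Mean

/-! Interface stubs for P082, type II_1 part. Never import from a finished file. -/

namespace Vale.Agent.P082.Stub

open scoped InnerProductSpace ComplexOrder ComplexConjugate
open Vale.Agent.P104 Vale.Agent.P104.F

variable {H : Type*} [NormedAddCommGroup H] [InnerProductSpace ℂ H] [CompleteSpace H]
variable {S : Set (H →L[ℂ] H)}

/-! ## Part A (final `PartA`): polynomial, star inequality, Lemma A -/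

theorem exists_poly (ω : ℝ) : ∃ (K : ℕ) (α : ℕ → ℝ), (∀ n, 0 ≤ α n ∧ α n ≤ 1) ∧
    ω ≤ ∑ n ∈ Finset.Icc 1 K, α n ∧
    ∀ {A : Type*} [CStarAlgebra A] (v : A), v ∈ unitary A →
      ‖∑ n ∈ Finset.Icc 1 K, (α n : ℂ) • (v ^ n - star v ^ n)‖ ≤ 8 := sorry

theorem star_ineq (t : Tr (vN S)) {u : vN S →ₗ[ℂ] H} (hu : P1 t u) {η : H} (hη : TB t η 1)
    (K : ℕ) (α : ℕ → ℝ) (hα : ∀ v : vN S, v ∈ unitary (vN S) →
      ‖∑ n ∈ Finset.Icc 1 K, (α n : ℂ) • (v ^ n - star v ^ n)‖ ≤ 8)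
    {v : vN S} (hv : v ∈ unitary (vN S)) :
    ‖∑ n ∈ Finset.Icc 1 K, (α n : ℂ) * (cf u η (v ^ n) - cf u η (star v ^ n))‖ ≤
      16 * t.N 1 := sorry

theorem exists_avg (t : Tr (vN S)) (m : Mean (unitary (vN S))) {u : vN S →ₗ[ℂ] H} (hu : P1 t u) :
    ∃ Hm, IsAvg m u Hm ∧ P1 t Hm ∧ ∀ C γ, P2 t u C γ → P2 t Hm C γ := sorry

theorem lemmaA (τ1 ε : ℝ) (hε : 0 < ε) : ∃ N₀ : ℕ, ∀ (N : ℕ), N₀ ≤ N →
    ∀ (t : Tr (vN S)) (z : vN S) (E : Fin N → Fin N → vN S), t.N 1 ≤ τ1 → IsCentral S z →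
    t.N (1 - z) = 0 → MU E z → ∃ m : Mean (unitary (vN S)),
      ∀ u Hm : vN S →ₗ[ℂ] H, P1 t u → IsAvg m u Hm → Mod E z Hm ε := sorry

/-! ## Part B (final `PartB`): blocks and matrix units -/

theorem t1 (t : Tr (vN S)) {I : Type} [Fintype I] [DecidableEq I] [AddCommGroup I] {z : vN S}
    (hz : IsCentral S z) {E : I → I → vN S} (hE : MU E z) {Hm : vN S →ₗ[ℂ] H} {ε C γ CQ L : ℝ}
    (hε : 0 ≤ ε) (hC : 0 ≤ C) (hγ : 0 ≤ γ) (hL : 0 < L) (h1 : P1 t Hm) (h2 : P2 t Hm C γ)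
    (h3 : Mod E z Hm ε) {B : vN S} (hB : B ∈ unitary (vN S))
    (hQ : Qf t (dg E z) B ≤ CQ / Fintype.card I) (a : vN S) :
    ∑ j, ‖Hm (B * (dg E z j * a)) - (B : H →L[ℂ] H) (Hm (dg E z j * a))‖ ^ 2 ≤
      (16 * L ^ 2 * ε + 16 * (C + 1) * CQ / L ^ 2 + 16 * γ) * ‖a‖ ^ 2 := sorry

theorem muq (t : Tr (vN S)) (z : vN S) (hz : IsCentral S z) (hna : NoAbel S z)
    (ht : t.N (1 - z) = 0) {ι : Type} [Fintype ι] (a : ι → vN S) (ha : ∀ i, a i ∈ unitary (vN S))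
    (N₀ : ℕ) : ∃ (N : ℕ) (E : Fin N → Fin N → vN S) (u₀ : vN S), N₀ ≤ N ∧ MU E z ∧
      u₀ ∈ unitary (vN S) ∧
      ∀ i, Qf t (dg E z) (u₀ * a i) ≤ 1000 * (Fintype.card ι + 1) * (t.N 1 + 1) / N := sorry

/-! ## Part D (final `PartD`): decoupling along the walk -/

theorem pinch (t : Tr (vN S)) (J : ℕ) (ρ : ℝ) (hρ : 0 < ρ) : ∃ δ > 0,
    ∀ (Λ : Type) [Fintype Λ] [DecidableEq Λ] (p : Λ → vN S) (B : vN S), PU p →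
      B ∈ unitary (vN S) → Qf t p B ≤ δ → ∀ r ≤ J,
      ∑ θ, ∑ k, t.N (p k * vv p B θ ^ r * B * p k) ≤ Fintype.card (Λ → Bool) * ρ := sorry

theorem walk_step (m : ℕ) : ∃ Cm : ℝ, 0 ≤ Cm ∧ ∀ (t : Tr (vN S)) (Λ : Type) [Fintype Λ]
    [DecidableEq Λ] (p : Λ → vN S) (B y : vN S) (δ : vN S →ₗ[ℂ] H) (ε C γ ρ : ℝ), PU p →
    B ∈ unitary (vN S) → y ∈ unitary (vN S) → 0 ≤ ε → 0 ≤ C → 0 ≤ γ → 0 ≤ ρ →
    (∀ a, ∑ j, ‖δ (p j * a)‖ ^ 2 ≤ ε * ‖a‖ ^ 2) →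
    (∀ a, ‖δ a‖ ^ 2 ≤ C * t.N a + γ * ‖a‖ ^ 2) →
    (∀ r ≤ m, ∑ θ, ∑ k, t.N (p k * vv p B θ ^ r * B * p k) ≤ Fintype.card (Λ → Bool) * ρ) →
    ∑ θ, ‖δ (th p θ * vv p B θ ^ m * y)‖ ^ 2 ≤
      Fintype.card (Λ → Bool) * (Cm * (ε + γ + C * ρ)) := sorry

/-! ## Part E (final `PartE`): core estimate and the case with P2 -/

theorem fa2 (t : Tr (vN S)) (z : vN S) (hz : IsCentral S z) (hna : NoAbel S z)
    (ht : t.N (1 - z) = 0) (ε : ℝ) (hε : 0 < ε) : ∃ γ > 0, ∀ (C : ℝ) (ι : Type) [Fintype ι]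
      (u : ι → vN S →ₗ[ℂ] H) (η : ι → H) (s : ι → unitary (vN S)), 0 ≤ C →
      (∀ i, P1 t (u i)) → (∀ i, P2 t (u i) C γ) → (∀ i, TB t (η i) 1) →
      ∃ m : Mean (unitary (vN S)), ∀ i,
        ‖m.I (fun w => cf (u i) (η i) (w * s i)) - m.I (fun w => cf (u i) (η i) w)‖ ≤ ε := sorry

/-! ## Part F (final `PartF`): cutting and compactness -/

theorem fa (t : Tr (vN S)) (z : vN S) (hz : IsCentral S z) (hna : NoAbel S z)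
    (ht : t.N (1 - z) = 0) (ε : ℝ) (hε : 0 < ε) (ι : Type) [Fintype ι]
    (u : ι → vN S →ₗ[ℂ] H) (η : ι → H) (s : ι → unitary (vN S)) (D : ℝ)
    (hD : ∀ i a, ‖u i a‖ ≤ D * ‖a‖) (h1 : ∀ i, P1 t (u i)) (h2 : ∀ i, TB t (η i) 1) :
    ∃ m : Mean (unitary (vN S)), ∀ i,
      ‖m.I (fun w => cf (u i) (η i) (w * s i)) - m.I (fun w => cf (u i) (η i) w)‖ ≤ ε := sorry

theorem uinv_II {z : vN S} (hz : IsCentral S z) (hna : NoAbel S z)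
    (hd : ∀ ζ : H, (z : H →L[ℂ] H) ζ = ζ → ζ ∈ closure (Dfin S)) : UInv S z := sorry

end Vale.Agent.P082.Stub
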