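import Vale.Agent.P082.Defs
import Vale.Agent.P104.PartC0
import Vale.Agent.P104.D1

/-! Comparison lemmas for finite projections. -/

namespace Vale.Agent.P082.T

open scoped InnerProductSpace ComplexOrder ComplexConjugate
open Vale.Agent.P104 Vale.Agent.P104.C Vale.Agent.P104.D

variable {H : Type*} [NormedAddCommGroup H] [InnerProductSpace ℂ H] [CompleteSpace H]
variable {S : Set (H →L[ℂ] H)}

lemma star_pi {w : H →L[ℂ] H} (h : w * star w * w = w) : star w * w * star w = star w := by
  have := congrArg star h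
  rwa [star_mul, star_mul, star_star, ← mul_assoc] at this

lemma star_right {w e : H →L[ℂ] H} (he : star e = e) (h : w * e = w) : e * star w = star w := by
  have := congrArg star h
  rwa [star_mul, he] at this

lemma star_left {w e : H →L[ℂ] H} (he : star e = e) (h : e * w = w) : star w * e = star w := by
  have := congrArg star h
  rwa [star_mul, he] at this

lemma norm_pi_le {w : H →L[ℂ] H} (h : w * star w * w = w) (β : H) : ‖w β‖ ≤ ‖β‖ := by
  have h1 := qf_mono (proj_src h).le_one β
  rw [qf_star_mul, qf_one] at h1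
  exact abs_le_abs (sq_le_sq.1 h1 |>.trans_eq' (abs_of_nonneg (norm_nonneg _)) |>.trans
    (abs_of_nonneg (norm_nonneg _)).le) (by linarith [norm_nonneg (w β), norm_nonneg β])
    |>.trans_eq' (abs_of_nonneg (norm_nonneg _)) |>.trans (abs_of_nonneg (norm_nonneg _)).le

lemma norm_star_pi_le {w : H →L[ℂ] H} (h : w * star w * w = w) (β : H) : ‖star w β‖ ≤ ‖β‖ :=
  norm_pi_le (by rw [star_star]; exact star_pi h) β

lemma norm_src {w : H →L[ℂ] H} (h : w * star w * w = w) (β : H) : ‖star w (w β)‖ = ‖w β‖ := by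
  refine le_antisymm (norm_star_pi_le h _) ?_
  have := norm_pi_le h (star w (w β))
  rwa [← mul_apply_eq_comp, ← mul_apply_eq_comp, h] at this

lemma qf_mul_star (x : H →L[ℂ] H) (v : H) : qf (x * star x) v = ‖star x v‖ ^ 2 := by
  rw [← qf_star_mul, star_star]

lemma eq_zero_of_src {w : H →L[ℂ] H} (h : star w * w = 0) : w = 0 :=
  (CStarRing.star_mul_self_eq_zero_iff w).1 h

/-- every projection under `z` is finite -/
lemma fin_proj {z : H →L[ℂ] H} (hz : IsCentral S z) (h2 : FinU S z) {q v : H →L[ℂ] H}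
    (hq : q ∈ vN S) (pq : IsStarProjection q) (hqz : q * z = q) (hv : v ∈ vN S)
    (h : star v * v = q) (hqv : q * v = v) : v * star v = q := by
  have hqq : q * q = q := pq.isIdempotentElem
  have hsq : star q = q := pq.isSelfAdjoint
  have hzz : z * z = z := hz.2.1.isIdempotentElem
  have hsz : star z = z := hz.2.1.isSelfAdjoint
  have hzq : z * q = q := by rw [hz.2.2 q hq, hqz]
  have hvq : v * q = v := by
    have e : star (v * q - v) * (v * q - v) = 0 := by
      rw [star_sub, star_mul, hsq, sub_mul, mul_sub, mul_sub, mul_assoc q, mul_assoc q,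
        ← mul_assoc (star v), h, hqq, hqq]
      abel
    exact sub_eq_zero.1 (eq_zero_of_src e)
  have hzv : z * v = v := by rw [← hqv, ← mul_assoc, hzq]
  have hvz : v * z = v := by rw [← hz.2.2 v hv, hzv]
  have e1 := star_right hsq hvq
  have e2 := star_left hsq hqv
  have e3 := star_right hsz hvz
  have e4 := star_left hsz hzv
  have key := h2 z (v + (z - q)) hz hzz (add_mem hv (sub_mem hz.1 hq)) (by
    simp only [star_add, star_sub, hsz, hsq, add_mul, mul_add, sub_mul, mul_sub, h, hzz, hqq, hqz,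
      hzq, e2, e4, hzv, hqv]
    abel)
  simp only [star_add, star_sub, hsz, hsq, add_mul, mul_add, sub_mul, mul_sub, hzz, hqq, hqz,
    hzq, e1, e3, hvz, hvq] at key
  rw [← sub_eq_zero] at key ⊢
  rw [← key]
  abel

/-- complements of equivalent subprojections of a finite projection are equivalent -/
lemma compl_equiv {z : H →L[ℂ] H} (hz : IsCentral S z) (h2 : FinU S z) {q w : H →L[ℂ] H}
    (hq : q ∈ vN S) (pq : IsStarProjection q) (hqz : q * z = q) (hw : w ∈ vN S)
    (h : w * star w * w = w) (hwq : w * q = w) (hqw : q * w = w) :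
    ∃ u ∈ vN S, star u * u = q - star w * w ∧ u * star u = q - w * star w := by
  have hqq : q * q = q := pq.isIdempotentElem
  have hsq : star q = q := pq.isSelfAdjoint
  have h' := star_pi h
  have e1 := star_right hsq hwq
  have e2 := star_left hsq hqw
  have pe : IsStarProjection (q - star w * w) :=
    proj_sub pq (proj_src h) (by rw [mul_assoc, hwq])
  have pf : IsStarProjection (q - w * star w) :=
    proj_sub pq (proj_rng h) (by rw [mul_assoc, e2])
  have he : q - star w * w ∈ vN S := sub_mem hq (mul_mem (star_mem hw) hw)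
  have hf : q - w * star w ∈ vN S := sub_mem hq (mul_mem hw (star_mem hw))
  obtain ⟨u, hu, u1, u2, u3, u4⟩ := exists_max_pi he hf pe pf
  have hwu : star w * u = 0 := by
    rw [← u3, ← mul_assoc, mul_sub, e2, ← mul_assoc, h', sub_self, zero_mul]
  have huw : u * star w = 0 := by
    rw [← u2, mul_assoc, sub_mul, e1, h', sub_self, mul_zero]
  have huw' : star u * w = 0 := by
    have := congrArg star hwu
    rwa [star_mul, star_star, star_zero] at this
  have hwu' : w * star u = 0 := by
    have := congrArg star huw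
    rwa [star_mul, star_star, star_zero] at this
  have hqu : q * u = u := by rw [← u3, ← mul_assoc, mul_sub, hqq, ← mul_assoc, hqw]
  have huq : u * q = u := by rw [← u2, mul_assoc, sub_mul, hqq, mul_assoc, hwq]
  have hv : w + u ∈ vN S := add_mem hw hu
  have hs : star (w + u) * (w + u) = star w * w + star u * u := by
    rw [star_add, add_mul, mul_add, mul_add, hwu, huw', add_zero, zero_add]
  have hr : (w + u) * star (w + u) = w * star w + u * star u := by
    rw [star_add, add_mul, mul_add, mul_add, hwu', huw, add_zero, zero_add]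
  obtain ⟨c, hc, c1, c2⟩ := cover (S := S) (e := q - star w * w - star u * u)
    (sub_mem he (mul_mem (star_mem hu) hu))
  have c3 := c2 _ u4
  have hcc : c * c = c := hc.2.1.isIdempotentElem
  have hsc : star c = c := hc.2.1.isSelfAdjoint
  have hcv := hc.2.2 _ hv
  have hcv' := hc.2.2 _ (star_mem hv)
  have hcq := hc.2.2 _ hq
  have k1 : star (c * star (w + u)) * (c * star (w + u)) = c * q := by
    rw [star_mul, star_star, hsc, mul_assoc, ← mul_assoc c, hcc, hcv', ← mul_assoc, hr, hcq]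
    rw [sub_sub, sub_mul, sub_eq_zero] at c3
    exact c3.symm
  have k2 := fin_proj hz h2 (mul_mem hc.1 hq) (proj_mul hc.2.1 pq hcq) (by rw [mul_assoc, hqz])
    (mul_mem hc.1 (star_mem hv)) k1 (by
      rw [mul_assoc, ← mul_assoc q, ← hcq, mul_assoc, ← mul_assoc c, hcc, star_add, mul_add q, e1,
        star_right hsq huq])
  rw [star_mul, star_star, hsc, ← hcv, mul_assoc, ← mul_assoc _ c, ← hcv', mul_assoc,
    ← mul_assoc c, hcc, hs] at k2
  have k3 : q - star w * w - star u * u = 0 := by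
    rw [← c1, sub_sub, mul_sub, k2, sub_self]
  have k4 : star (w + u) * (w + u) = q := by
    rw [hs]; rw [sub_sub, sub_eq_zero] at k3; exact k3.symm
  have k5 := fin_proj hz h2 hq pq hqz hv k4 (by rw [mul_add, hqw, hqu])
  refine ⟨u, hu, (sub_eq_zero.1 k3).symm, ?_⟩
  rw [← k5, hr]
  abel

/-- the support projection of a vector -/
lemma exists_supp (ξ : H) : ∃ q ∈ vN S, IsStarProjection q ∧ q ξ = ξ ∧
    ∀ p ∈ vN S, p ξ = 0 → p * q = 0 := by
  obtain ⟨q, pq, h1, h2⟩ :=
    exists_pr {w : H | ∃ s : H →L[ℂ] H, (∀ x ∈ vN S, s * x = x * s) ∧ w = s ξ}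
  refine ⟨q, ?_, pq, h1 _ ⟨1, by simp, rfl⟩, fun p hp h0 => ?_⟩
  · rw [C.mem_vN]
    have key : ∀ g : H →L[ℂ] H, (g ∈ S ∨ star g ∈ S) →
        ∀ a ∈ {w : H | ∃ s : H →L[ℂ] H, (∀ x ∈ vN S, s * x = x * s) ∧ w = s ξ},
          g a ∈ {w : H | ∃ s : H →L[ℂ] H, (∀ x ∈ vN S, s * x = x * s) ∧ w = s ξ} := by
      rintro g hg _ ⟨s, hs, rfl⟩
      refine ⟨g * s, fun x hx => ?_, rfl⟩
      rw [mul_assoc, hs x hx, ← mul_assoc, C.mem_vN.1 hx g hg, mul_assoc]
    intro g hg
    exact pr_comm h1 h2 (key g hg) (key _ (by simpa [or_comm] using hg))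
  · refine ext_set {w : H | ∃ s : H →L[ℂ] H, (∀ x ∈ vN S, s * x = x * s) ∧ w = s ξ}
      (fun a ha => ?_) (fun x hx => ?_)
    · rw [mul_apply_eq_comp, h1 a ha]
      obtain ⟨s, hs, rfl⟩ := ha
      rw [← mul_apply_eq_comp, ← hs p hp, mul_apply_eq_comp, h0, map_zero]
      rfl
    · rw [mul_apply_eq_comp, h2 x hx, map_zero]
      rfl

/-- polar decomposition -/
lemma polar {y : H →L[ℂ] H} (hy : y ∈ vN S) : ∃ v ∈ vN S, ∃ b ∈ vN S, v * star v * v = v ∧
    star b = b ∧ v * b = y ∧ star v * y = b ∧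
    (∀ e : H →L[ℂ] H, star e = e → y * e = y → v * e = v) ∧
    (∀ f : H →L[ℂ] H, f * y = y → f * v = v) := by
  obtain ⟨b, hb1, hb2, hb3⟩ := C.exists_sqrt (star_mul_self_nonneg y)
  have hb : b ∈ vN S := C.mem_vN.2 fun g hg =>
    hb3 g (C.mem_vN.1 (mul_mem (star_mem hy) hy) g hg)
  obtain ⟨v, hv, hv1, hv2, hv2', hv3, hv4, -⟩ := graph_vN (S := S) {g | ∃ α, g = (b α, y α)} (by
      rintro _ ⟨α, rfl⟩ _ ⟨β, rfl⟩
      have e1 : ⟪b α, b β⟫_ℂ = ⟪α, (b * b) β⟫_ℂ := by
        rw [mul_apply_eq_comp, ← inner_star_left b α, hb1]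
      simp only
      rw [e1, hb2, mul_apply_eq_comp, inner_star_right]) (by
      rintro s hs _ ⟨α, rfl⟩
      refine ⟨s α, ?_⟩
      simp only [← mul_apply_eq_comp, Prod.mk.injEq]
      rw [C.mem_vN.1 hy s hs, C.mem_vN.1 hb s hs]
      exact ⟨rfl, rfl⟩)
  refine ⟨v, hv, b, hb, hv1, hb1, ?_, ?_, fun e he hye => hv3 e he ?_, fun f hf => hv4 f ?_⟩
  · ext α; exact hv2 _ ⟨α, rfl⟩
  · ext α; exact hv2' _ ⟨α, rfl⟩
  · rintro _ ⟨α, rfl⟩
    have e1 : b * e = b := by
      have e2 : star (b * e - b) * (b * e - b) = 0 := by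
        have e3 := star_right he hye
        rw [star_sub, star_mul, he, hb1, sub_mul, mul_sub, mul_sub, mul_assoc e, mul_assoc e,
          ← mul_assoc b, hb2, mul_assoc (star y), hye, ← mul_assoc e, e3]
        abel
      exact sub_eq_zero.1 (eq_zero_of_src e2)
    have e4 := star_right he e1
    rw [hb1] at e4
    simp only [← mul_apply_eq_comp]
    rw [e4]
  · rintro _ ⟨α, rfl⟩
    simp only [← mul_apply_eq_comp]
    rw [hf]

/-- layer cake -/
lemma layer {p : H →L[ℂ] H} {α β : H}
    (h : ∀ r ∈ vN S, IsStarProjection r → Commute p r → qf r α ≤ qf r β) (n : ℕ) :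
    ∀ (L : ℝ), 0 ≤ L → ∀ b ∈ vN S, Commute p b → 0 ≤ b → b ≤ (L : ℂ) • 1 →
      qf b α ≤ qf b β + L * ‖α‖ ^ 2 * (1 / 2) ^ n := by
  have hs : ∀ (t : ℝ) (a : H →L[ℂ] H) (v : H), qf ((t : ℂ) • a) v = t * qf a v := fun t a v => by
    rw [Complex.coe_smul, qf_smul]
  induction n with
  | zero =>
    intro L hL b _ _ h0 h1
    have e1 := qf_mono h1 α
    have e2 := qf_mono h0 β
    rw [hs, qf_one] at e1
    have e3 : qf 0 β = 0 := by simp [qf]
    linarith
  | succ n ih =>
    intro L hL b hb hpb h0 h1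
    obtain ⟨r, pr, hc, k1, k2⟩ := spectral (IsSelfAdjoint.of_nonneg h0) (L / 2)
    have hrr : r * r = r := pr.isIdempotentElem
    have hsr : star r = r := pr.isSelfAdjoint
    have hs1 : star (1 - r) = 1 - r := by rw [star_sub, star_one, hsr]
    have hbr : b * r = r * b := hc b (Commute.refl b)
    have hrM : r ∈ vN S := C.mem_vN.2 fun g hg => hc g (C.mem_vN.1 hb g hg)
    have hpr := hc p hpb
    have hdec : b = r * b * r + (1 - r) * b * (1 - r) := by
      have : r * b * r = r * b := by rw [mul_assoc, hbr, ← mul_assoc, hrr]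
      simp only [sub_mul, mul_sub, one_mul, mul_one, this, hbr]
      abel
    have := ih (L / 2) (by linarith) (b - ((L / 2 : ℝ) : ℂ) • r)
      (sub_mem hb (SMulMemClass.smul_mem _ hrM)) (hpb.sub_right (hpr.smul_right _)) ?_ ?_
    · rw [qf_sub, qf_sub, hs, hs] at this
      have e := mul_le_mul_of_nonneg_left (h r hrM pr hpr) (show 0 ≤ L / 2 by linarith)
      rw [pow_succ _ n]
      linarith
    · have e : b - ((L / 2 : ℝ) : ℂ) • r =
          (r * b * r - ((L / 2 : ℝ) : ℂ) • r) + star (1 - r) * b * (1 - r) := by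
        rw [hs1]
        nth_rewrite 1 [hdec]
        abel
      rw [e]
      exact add_nonneg (sub_nonneg.2 k1) (star_left_conjugate_nonneg h0 _)
    · rw [← sub_nonneg]
      have e : ((L / 2 : ℝ) : ℂ) • (1 : H →L[ℂ] H) - (b - ((L / 2 : ℝ) : ℂ) • r) =
          (((L / 2 : ℝ) : ℂ) • (1 - r) - (1 - r) * b * (1 - r)) +
            star r * ((L : ℂ) • 1 - b) * r := by
        rw [hsr, mul_sub r, sub_mul _ _ r, mul_smul_comm, smul_mul_assoc, mul_one, hrr]
        nth_rewrite 1 [hdec]
        have : (L : ℂ) = ((L / 2 : ℝ) : ℂ) + ((L / 2 : ℝ) : ℂ) := by push_cast; ring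
        rw [this, add_smul, smul_sub]
        abel
      rw [e]
      exact add_nonneg (sub_nonneg.2 k2) (star_left_conjugate_nonneg (sub_nonneg.2 h1) _)

/-- from partial isometries to all elements of a corner -/
lemma all_of_pi {g : H →L[ℂ] H} (hg : star g = g) {ξ ξ' : H}
    (h : ∀ v ∈ vN S, v * star v * v = v → v * g = v → g * v = v → ‖v ξ‖ ^ 2 ≤ ‖star v ξ'‖ ^ 2)
    {y : H →L[ℂ] H} (hy : y ∈ vN S) (hyg : y * g = y) (hgy : g * y = y) :
    ‖y ξ‖ ^ 2 ≤ ‖star y ξ'‖ ^ 2 := by
  obtain ⟨v, hv, b, hb, v1, b1, e1, e2, v2, v3⟩ := polar hy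
  have hpb : star v * v * b = b := by rw [mul_assoc, e1, e2]
  have pp := proj_src v1
  have hsp : star (star v * v) = star v * v := pp.isSelfAdjoint
  have hbp : b * (star v * v) = b := by
    have := star_left hsp hpb
    rwa [b1] at this
  have hc : Commute (star v * v) (star b * b) := by
    rw [b1]
    exact (show Commute (star v * v) b from hpb.trans hbp.symm).mul_right (hpb.trans hbp.symm)
  have key := fun n => layer (S := S) (p := star v * v) (α := (star v * v) ξ) (β := star v ξ')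
    (fun r hr pr hpr => by
      have hrr : r * r = r := pr.isIdempotentElem
      have hsr : star r = r := pr.isSelfAdjoint
      have hvr : v * r * (star v * v) = v * r := by
        rw [mul_assoc, ← hpr.eq, ← mul_assoc, ← mul_assoc, v1]
      have k := h (v * r) (mul_mem hv hr) (by
          rw [star_mul, hsr, mul_assoc (v * r), mul_assoc r, ← mul_assoc (star v), hpr.eq,
            ← mul_assoc r, hrr, ← mul_assoc, mul_assoc v r r, hrr, hvr])
        (by rw [← hvr, mul_assoc, mul_assoc (star v), v2 g hg hyg])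
        (by rw [← mul_assoc, v3 g hgy])
      have k1 : qf r ((star v * v) ξ) = ‖(v * r) ξ‖ ^ 2 := by
        have f1 : star (star v * v) * r * (star v * v) = r * (star v * v) := by
          rw [hsp, hpr.eq, mul_assoc r, pp.isIdempotentElem.eq]
        have f2 : star (v * r) * (v * r) = r * (star v * v) := by
          rw [star_mul, hsr, mul_assoc r, ← mul_assoc (star v), hpr.eq, ← mul_assoc r r, hrr]
        rw [← qf_conj, ← qf_star_mul, f1, f2]
      have k2 : qf r (star v ξ') = ‖star (v * r) ξ'‖ ^ 2 := by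
        rw [star_mul, hsr, mul_apply_eq_comp, ← qf_star_mul, hsr, hrr]
      rw [k1, k2]
      exact k) n ‖star b * b‖ (norm_nonneg _) (star b * b) (mul_mem (star_mem hb) hb) hc
      (star_mul_self_nonneg b) (by
        rw [Complex.coe_smul]; exact le_norm_smul (IsSelfAdjoint.star_mul_self b))
  have k3 : qf (star b * b) ((star v * v) ξ) = ‖y ξ‖ ^ 2 := by
    rw [qf_star_mul, ← mul_apply_eq_comp, hbp, ← e2, mul_apply_eq_comp,
      ← e1, mul_apply_eq_comp, norm_src v1]
  have k4 : qf (star b * b) (star v ξ') = ‖star y ξ'‖ ^ 2 := by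
    rw [qf_star_mul, ← e1, star_mul, b1, mul_apply_eq_comp]
  rw [k3, k4] at key
  have lim : Filter.Tendsto (fun n : ℕ => ‖star y ξ'‖ ^ 2 +
      ‖star b * b‖ * ‖(star v * v) ξ‖ ^ 2 * (1 / 2 : ℝ) ^ n) Filter.atTop
      (nhds (‖star y ξ'‖ ^ 2 + ‖star b * b‖ * ‖(star v * v) ξ‖ ^ 2 * 0)) :=
    ((tendsto_pow_atTop_nhds_zero_of_lt_one (by norm_num) (by norm_num)).const_mul _).const_add _
  have := ge_of_tendsto' lim key
  simpa using this

end Vale.Agent.P082.T
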