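import Vale.Agent.P082.Defs

/-! Part W, first half: the Hahn-Banach step of the factorization theorem. -/

namespace Vale.Agent.P082.W

open scoped InnerProductSpace ComplexOrder ComplexConjugate
open Vale.Agent.P104

universe v

variable {H : Type v} [NormedAddCommGroup H] [InnerProductSpace ℂ H] [CompleteSpace H]
variable {S : Set (H →L[ℂ] H)}

lemma cb_univ {T : vN S → H →L[ℂ] H} {C : ℝ} (hT : CB S T C) {ι κ : Type*} [Fintype ι]
    [Fintype κ] (x : ι → κ → vN S)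
    (hx : ∀ ξ : κ → H, ∑ i, ‖∑ j, (x i j : H →L[ℂ] H) (ξ j)‖ ^ 2 ≤ ∑ j, ‖ξ j‖ ^ 2) (ξ : κ → H) :
    ∑ i, ‖∑ j, T (x i j) (ξ j)‖ ^ 2 ≤ C ^ 2 * ∑ j, ‖ξ j‖ ^ 2 := by
  let a := (Fintype.equivFin ι).symm
  let b := (Fintype.equivFin κ).symm
  have h := hT _ _ (fun i j => x (a i) (b j)) (fun η => by
    have := hx (fun j => η (b.symm j))
    rw [← a.sum_comp, ← b.sum_comp] at this
    simp only [← b.sum_comp (fun j => (x _ j : H →L[ℂ] H) (η (b.symm j))),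
      Equiv.symm_apply_apply] at this
    exact this) (fun j => ξ (b j))
  rw [← a.sum_comp, ← b.sum_comp]
  simp only [← b.sum_comp (fun j => T (x _ j) (ξ j))]
  exact h

/-- evaluation of a finitely supported row -/
noncomputable def gv (T : vN S →ₗ[ℂ] (H →L[ℂ] H)) (ζ : H → H) : (H →₀ vN S) →ₗ[ℂ] H :=
  Finsupp.lsum ℂ fun ξ => (ContinuousLinearMap.apply ℂ H (ζ ξ)).toLinearMap ∘ₗ T

/-- the inclusion -/
noncomputable def inc (S : Set (H →L[ℂ] H)) : vN S →ₗ[ℂ] (H →L[ℂ] H) := (vN S).subtype.toLinearMap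

lemma gv_single (T : vN S →ₗ[ℂ] (H →L[ℂ] H)) (ζ : H → H) (ξ : H) (a : vN S) :
    gv T ζ (Finsupp.single ξ a) = T a (ζ ξ) := by simp [gv]

lemma gv_eq (T : vN S →ₗ[ℂ] (H →L[ℂ] H)) (ζ : H → H) (x : H →₀ vN S) {F : Finset H}
    (h : x.support ⊆ F) : gv T ζ x = ∑ j : F, T (x j) (ζ j) := by
  rw [gv, Finsupp.lsum_apply, Finsupp.sum_of_support_subset _ h _ (by simp),
    Finset.sum_coe_sort F (fun j => T (x j) (ζ j))]
  rfl

lemma gv_smul (ζ : H → H) (c : vN S) (x : H →₀ vN S) :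
    gv (inc S) ζ (c • x) = (c : H →L[ℂ] H) (gv (inc S) ζ x) := by
  induction x using Finsupp.induction_linear with
  | zero => simp
  | add x y hx hy => rw [smul_add, map_add, map_add, map_add, hx, hy]
  | single ξ a => rw [Finsupp.smul_single, gv_single, gv_single]; rfl

/-- weighted sum of squares -/
noncomputable def dw (ζ : H → H) : (H →₀ ℝ) →ₗ[ℝ] ℝ :=
  Finsupp.linearCombination ℝ fun ξ => ‖ζ ξ‖ ^ 2

omit [InnerProductSpace ℂ H] [CompleteSpace H] in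
lemma dw_single (ζ : H → H) (ξ : H) (c : ℝ) : dw ζ (Finsupp.single ξ c) = c * ‖ζ ξ‖ ^ 2 := by
  simp [dw]

omit [InnerProductSpace ℂ H] [CompleteSpace H] in
lemma dw_eq (ζ : H → H) (w : H →₀ ℝ) {F : Finset H} (h : w.support ⊆ F) :
    dw ζ w = ∑ j : F, w j * ‖ζ j‖ ^ 2 := by
  rw [dw, Finsupp.linearCombination_apply, Finsupp.sum_of_support_subset _ h _ (by simp),
    Finset.sum_coe_sort F (fun j => w j * ‖ζ j‖ ^ 2)]
  rfl

lemma key (T : vN S →ₗ[ℂ] (H →L[ℂ] H)) {C : ℝ} (hC : 0 < C) (hT : CB S T C) {ι : Type}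
    [Fintype ι] (x : ι → H →₀ vN S) (w : H →₀ ℝ) (hw : ∀ ξ, 0 ≤ w ξ)
    (h : ∀ ζ, C ^ 2 * ∑ r, ‖gv (inc S) ζ (x r)‖ ^ 2 ≤ dw ζ w) :
    ∑ r, ‖gv T id (x r)‖ ^ 2 ≤ dw id w := by
  classical
  let F : Finset H := w.support ∪ Finset.univ.biUnion fun r => (x r).support
  have hF1 : w.support ⊆ F := Finset.subset_union_left
  have hF2 : ∀ r, (x r).support ⊆ F := fun r =>
    (Finset.subset_biUnion_of_mem (fun r => (x r).support) (Finset.mem_univ r)).trans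
      Finset.subset_union_right
  refine le_of_forall_pos_le_add fun δ hδ => ?_
  set B := ∑ j : F, ‖(j : H)‖ ^ 2 with hB
  have hB0 : 0 ≤ B := by positivity
  set ε := δ / (B + 1) with hε
  have hε0 : 0 < ε := by positivity
  let μ : H → ℝ := fun j => √(w j + ε)
  have hμ : ∀ j, 0 < μ j := fun j => Real.sqrt_pos.mpr (by linarith [hw j])
  have hμ2 : ∀ j, μ j ^ 2 = w j + ε := fun j => Real.sq_sqrt (by linarith [hw j])
  have h1 := cb_univ hT (fun r (j : F) => ((C / μ j : ℝ) : ℂ) • x r j) (fun ξ => by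
    let ζ : H → H := fun j => if hj : j ∈ F then (((μ j)⁻¹ : ℝ) : ℂ) • ξ ⟨j, hj⟩ else 0
    have hζ : ∀ j : F, ζ j = (((μ j)⁻¹ : ℝ) : ℂ) • ξ j := fun j => by simp [ζ]
    have e1 : ∀ r, ∑ j : F, ((((C / μ j : ℝ) : ℂ) • x r j : vN S) : H →L[ℂ] H) (ξ j) =
        (C : ℂ) • gv (inc S) ζ (x r) := by
      intro r
      rw [gv_eq _ _ _ (hF2 r), Finset.smul_sum]
      refine Finset.sum_congr rfl fun j _ => ?_
      rw [hζ, map_smul, smul_smul, div_eq_mul_inv, Complex.ofReal_mul]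
      rfl
    simp only [e1, norm_smul, mul_pow, Complex.norm_real, Real.norm_eq_abs, sq_abs,
      ← Finset.mul_sum]
    refine (h ζ).trans ?_
    rw [dw_eq _ _ hF1]
    refine Finset.sum_le_sum fun j _ => ?_
    rw [hζ, norm_smul, mul_pow, Complex.norm_real, Real.norm_eq_abs, sq_abs, inv_pow, hμ2,
      ← mul_assoc]
    refine mul_le_of_le_one_left (by positivity) ?_
    rw [← div_eq_mul_inv, div_le_one (by linarith [hw j])]
    linarith) (fun j => (μ j : ℂ) • (j : H))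
  have e2 : ∀ r, ∑ j : F, T (((C / μ j : ℝ) : ℂ) • x r j) ((μ j : ℂ) • (j : H)) =
      (C : ℂ) • gv T id (x r) := by
    intro r
    rw [gv_eq _ _ _ (hF2 r), Finset.smul_sum]
    refine Finset.sum_congr rfl fun j _ => ?_
    rw [map_smul, map_smul, ContinuousLinearMap.smul_apply, smul_smul, ← Complex.ofReal_mul,
      mul_div_cancel₀ _ (hμ j).ne']
    rfl
  simp only [e2, norm_smul, mul_pow, Complex.norm_real, Real.norm_eq_abs, sq_abs,
    ← Finset.mul_sum, hμ2] at h1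
  have h2 := le_of_mul_le_mul_left h1 (by positivity)
  refine h2.trans ?_
  rw [dw_eq _ _ hF1]
  simp only [add_mul, Finset.sum_add_distrib, ← Finset.mul_sum, id]
  have : ε * B ≤ δ := by
    rw [hε, div_mul_eq_mul_div, div_le_iff₀ (by positivity)]; nlinarith
  linarith

/-- functions dominated by a weighted sum of squares -/
def XX (H : Type v) [NormedAddCommGroup H] : Submodule ℝ ((H → H) → ℝ) where
  carrier := {f | ∃ w : H →₀ ℝ, (∀ ξ, 0 ≤ w ξ) ∧ ∀ ζ, |f ζ| ≤ dw ζ w}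
  add_mem' := by
    rintro f g ⟨w, hw, h⟩ ⟨w', hw', h'⟩
    refine ⟨w + w', fun ξ => add_nonneg (hw ξ) (hw' ξ), fun ζ => ?_⟩
    rw [map_add]
    exact (abs_add_le _ _).trans (add_le_add (h ζ) (h' ζ))
  zero_mem' := ⟨0, fun _ => le_rfl, fun ζ => by simp⟩
  smul_mem' := by
    rintro c f ⟨w, hw, h⟩
    refine ⟨|c| • w, fun ξ => mul_nonneg (abs_nonneg c) (hw ξ), fun ζ => ?_⟩
    rw [map_smul, Pi.smul_apply, smul_eq_mul, smul_eq_mul, abs_mul]
    exact mul_le_mul_of_nonneg_left (h ζ) (abs_nonneg c)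

omit [InnerProductSpace ℂ H] [CompleteSpace H] in
lemma XX_mono {f g : (H → H) → ℝ} (hg : g ∈ XX H) (h : ∀ ζ, |f ζ| ≤ g ζ) : f ∈ XX H := by
  obtain ⟨w, hw, h'⟩ := hg
  exact ⟨w, hw, fun ζ => (h ζ).trans ((le_abs_self _).trans (h' ζ))⟩

omit [InnerProductSpace ℂ H] [CompleteSpace H] in
lemma D_mem (ξ : H) : (fun ζ : H → H => ‖ζ ξ‖ ^ 2) ∈ XX H := by
  classical
  refine ⟨Finsupp.single ξ 1, fun η => ?_, fun ζ => by simp [dw_single]⟩
  rw [Finsupp.single_apply]; split_ifs <;> norm_num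

lemma N_mem (x : H →₀ vN S) : (fun ζ => ‖gv (inc S) ζ x‖ ^ 2) ∈ XX H := by
  induction x using Finsupp.induction_linear with
  | zero => exact XX_mono (XX H).zero_mem fun ζ => by simp
  | add x y hx hy =>
    refine XX_mono ((XX H).smul_mem 2 ((XX H).add_mem hx hy)) fun ζ => ?_
    rw [map_add, abs_of_nonneg (by positivity)]
    simp only [Pi.smul_apply, Pi.add_apply, smul_eq_mul]
    have := norm_add_le (gv (inc S) ζ x) (gv (inc S) ζ y)
    have h2 := pow_le_pow_left₀ (norm_nonneg _) this 2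
    nlinarith [sq_nonneg (‖gv (inc S) ζ x‖ - ‖gv (inc S) ζ y‖)]
  | single ξ a =>
    refine XX_mono ((XX H).smul_mem (‖inc S a‖ ^ 2) (D_mem ξ)) fun ζ => ?_
    rw [gv_single, abs_of_nonneg (by positivity)]
    simp only [Pi.smul_apply, smul_eq_mul, ← mul_pow]
    exact pow_le_pow_left₀ (norm_nonneg _) ((inc S a).le_opNorm _) 2

/-- the cone -/
def cone (T : vN S →ₗ[ℂ] (H →L[ℂ] H)) (C : ℝ) : PointedCone ℝ (XX H × ℝ) where
  carrier := {p | ∃ (ι : Type) (_ : Fintype ι) (x : ι → H →₀ vN S) (w : H →₀ ℝ),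
    (∀ ξ, 0 ≤ w ξ) ∧ (∀ ζ, C ^ 2 * ∑ r, ‖gv (inc S) ζ (x r)‖ ^ 2 - dw ζ w ≤ p.1.1 ζ) ∧
    dw id w - ∑ r, ‖gv T id (x r)‖ ^ 2 ≤ p.2}
  add_mem' := by
    rintro p q ⟨ι, _, x, w, hw, h1, h2⟩ ⟨ι', _, x', w', hw', h1', h2'⟩
    refine ⟨ι ⊕ ι', inferInstance, Sum.elim x x', w + w', fun ξ => add_nonneg (hw ξ) (hw' ξ),
      fun ζ => ?_, ?_⟩
    · have := add_le_add (h1 ζ) (h1' ζ)
      simp only [Fintype.sum_sum_type, Sum.elim_inl, Sum.elim_inr, map_add, Prod.fst_add,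
        Submodule.coe_add, Pi.add_apply]
      linarith
    · have := add_le_add h2 h2'
      simp only [Fintype.sum_sum_type, Sum.elim_inl, Sum.elim_inr, map_add, Prod.snd_add]
      linarith
  zero_mem' := ⟨Empty, inferInstance, fun e => e.elim, 0, fun _ => le_rfl, fun ζ => by simp,
    by simp⟩
  smul_mem' := by
    rintro ⟨c, hc⟩ p ⟨ι, _, x, w, hw, h1, h2⟩
    have hs : ∀ (T : vN S →ₗ[ℂ] (H →L[ℂ] H)) (ζ : H → H),
        ∑ r, ‖gv T ζ ((√c : ℂ) • x r)‖ ^ 2 = c * ∑ r, ‖gv T ζ (x r)‖ ^ 2 := by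
      intro T ζ
      simp only [map_smul, norm_smul, mul_pow, Complex.norm_real, Real.norm_eq_abs, sq_abs,
        Real.sq_sqrt hc, Finset.mul_sum]
    refine ⟨ι, inferInstance, fun r => (√c : ℂ) • x r, c • w, fun ξ => mul_nonneg hc (hw ξ),
      fun ζ => ?_, ?_⟩
    · have := mul_le_mul_of_nonneg_left (h1 ζ) hc
      rw [hs, map_smul, smul_eq_mul]
      change _ ≤ c * p.1.1 ζ
      linarith
    · have := mul_le_mul_of_nonneg_left h2 hc
      rw [hs, map_smul, smul_eq_mul]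
      change _ ≤ c * p.2
      linarith

theorem exists_phi (T : vN S →ₗ[ℂ] (H →L[ℂ] H)) {C : ℝ} (hC : 0 < C) (hT : CB S T C) :
    ∃ Φ : ((H → H) → ℝ) →ₗ[ℝ] ℝ, (∀ f ∈ XX H, (∀ ζ, 0 ≤ f ζ) → 0 ≤ Φ f) ∧
      (∀ x, ‖gv T id x‖ ^ 2 ≤ C ^ 2 * Φ fun ζ => ‖gv (inc S) ζ x‖ ^ 2) ∧
      ∀ ξ, (Φ fun ζ => ‖ζ ξ‖ ^ 2) ≤ ‖ξ‖ ^ 2 := by
  classical
  obtain ⟨g, hg1, hg2⟩ := riesz_extension (cone T C)
    ((LinearMap.snd ℝ (XX H) ℝ).toPMap (LinearMap.ker (LinearMap.fst ℝ (XX H) ℝ)))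
    (by
      rintro ⟨⟨f, t⟩, hf⟩ ⟨ι, _, x, w, hw, h1, h2⟩
      obtain rfl : f = 0 := hf
      have := key T hC hT x w hw fun ζ => by simpa using h1 ζ
      change 0 ≤ t
      change _ ≤ t at h2
      linarith)
    (by
      rintro ⟨⟨f, w, hw, h⟩, t⟩
      refine ⟨⟨(0, dw id w - t), rfl⟩, Empty, inferInstance, fun e => e.elim, w, hw, fun ζ => ?_,
        by simp⟩
      have := neg_abs_le (f ζ)
      have := h ζ
      simp only [Finset.univ_eq_empty, Finset.sum_empty, Prod.mk_add_mk, zero_add]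
      linarith)
  obtain ⟨Φ, hΦ⟩ := LinearMap.exists_extend (g ∘ₗ LinearMap.inl ℝ (XX H) ℝ)
  have hΦ' : ∀ f (hf : f ∈ XX H) (t : ℝ), (⟨f, hf⟩, t) ∈ cone T C → 0 ≤ Φ f + t := by
    intro f hf t ht
    have e1 : Φ f = g (⟨f, hf⟩, 0) := LinearMap.congr_fun hΦ ⟨f, hf⟩
    have e2 : g (0, t) = t := hg1 ⟨(0, t), rfl⟩
    rw [e1, ← e2, ← map_add]
    simpa using hg2 _ ht
  refine ⟨Φ, fun f hf h => ?_, fun x => ?_, fun ξ => ?_⟩
  · simpa using hΦ' f hf 0 ⟨Empty, inferInstance, fun e => e.elim, 0, fun _ => le_rfl,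
      fun ζ => by simpa using h ζ, by simp⟩
  · have := hΦ' _ ((XX H).smul_mem (C ^ 2) (N_mem x)) (-‖gv T id x‖ ^ 2)
      ⟨Unit, inferInstance, fun _ => x, 0, fun _ => le_rfl, fun ζ => by simp, by simp⟩
    rw [map_smul, smul_eq_mul] at this
    linarith
  · have := hΦ' _ ((XX H).neg_mem (D_mem ξ)) (‖ξ‖ ^ 2)
      ⟨Empty, inferInstance, fun e => e.elim, Finsupp.single ξ 1, fun η => by
        rw [Finsupp.single_apply]; split_ifs <;> norm_num,
        fun ζ => by simp [dw_single], by simp [dw_single]⟩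
    rw [map_neg] at this
    linarith

end Vale.Agent.P082.W
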