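import Vale.Agent.P082.W1

/-! Part W: the dilation space. -/

namespace Vale.Agent.P082.W

open scoped InnerProductSpace ComplexOrder ComplexConjugate
open Vale.Agent.P104 UniformSpace

universe v

variable {H : Type v} [NormedAddCommGroup H] [InnerProductSpace ℂ H] [CompleteSpace H]

/-- positive functionals on dominated functions -/
def Pos (H : Type v) [NormedAddCommGroup H] : Type v :=
  {Φ : ((H → H) → ℝ) →ₗ[ℝ] ℝ // ∀ f ∈ XX H, (∀ ζ, 0 ≤ f ζ) → 0 ≤ Φ f}

/-- complexification -/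
noncomputable def psi (Φ : Pos H) (g : (H → H) → ℂ) : ℂ :=
  ⟨Φ.1 fun ζ => (g ζ).re, Φ.1 fun ζ => (g ζ).im⟩

omit [InnerProductSpace ℂ H] [CompleteSpace H] in
lemma psi_add (Φ : Pos H) (g g' : (H → H) → ℂ) :
    psi Φ (fun ζ => g ζ + g' ζ) = psi Φ g + psi Φ g' :=
  Complex.ext (Φ.1.map_add (fun ζ => (g ζ).re) fun ζ => (g' ζ).re)
    (Φ.1.map_add (fun ζ => (g ζ).im) fun ζ => (g' ζ).im)

omit [InnerProductSpace ℂ H] [CompleteSpace H] in
lemma psi_mul (Φ : Pos H) (c : ℂ) (g : (H → H) → ℂ) :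
    psi Φ (fun ζ => c * g ζ) = c * psi Φ g := by
  refine Complex.ext ?_ ?_
  · have : (fun ζ => (c * g ζ).re) = c.re • (fun ζ => (g ζ).re) - c.im • fun ζ => (g ζ).im := by
      funext ζ; simp
    rw [Complex.mul_re]
    simp only [psi, this, map_sub, map_smul, smul_eq_mul]
  · have : (fun ζ => (c * g ζ).im) = c.re • (fun ζ => (g ζ).im) + c.im • fun ζ => (g ζ).re := by
      funext ζ; simp
    rw [Complex.mul_im]
    simp only [psi, this, map_add, map_smul, smul_eq_mul]

omit [InnerProductSpace ℂ H] [CompleteSpace H] in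
lemma psi_conj (Φ : Pos H) (g : (H → H) → ℂ) :
    psi Φ (fun ζ => conj (g ζ)) = conj (psi Φ g) :=
  Complex.ext rfl (Φ.1.map_neg fun ζ => (g ζ).im)

/-- the pre-Hilbert space -/
def Pre (S : Set (H →L[ℂ] H)) (_Φ : Pos H) : Type v := H →₀ vN S

variable {S : Set (H →L[ℂ] H)} {Φ : Pos H}

noncomputable instance : AddCommGroup (Pre S Φ) := inferInstanceAs (AddCommGroup (H →₀ vN S))
noncomputable instance : Module ℂ (Pre S Φ) := inferInstanceAs (Module ℂ (H →₀ vN S))

/-- identification -/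
noncomputable def ofPre : Pre S Φ ≃ₗ[ℂ] (H →₀ vN S) := LinearEquiv.refl ℂ _

lemma re_psi (x : H →₀ vN S) :
    (psi Φ fun ζ => ⟪gv (inc S) ζ x, gv (inc S) ζ x⟫_ℂ).re =
      Φ.1 fun ζ => ‖gv (inc S) ζ x‖ ^ 2 := by
  simp only [psi, inner_self_eq_norm_sq_to_K]
  congr 1; funext ζ; norm_cast

/-- the form -/
noncomputable abbrev core (S : Set (H →L[ℂ] H)) (Φ : Pos H) :
    PreInnerProductSpace.Core ℂ (Pre S Φ) where
  inner x y := psi Φ fun ζ => ⟪gv (inc S) ζ (ofPre x), gv (inc S) ζ (ofPre y)⟫_ℂ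
  conj_inner_symm x y := by
    rw [← psi_conj]; simp only [inner_conj_symm]
  re_inner_nonneg x := by
    change 0 ≤ Complex.re _
    rw [re_psi]
    exact Φ.2 _ (N_mem _) fun ζ => by positivity
  add_left x y z := by
    rw [← psi_add]; simp only [map_add, inner_add_left]
  smul_left x y r := by
    rw [← psi_mul]; simp only [map_smul, inner_smul_left]

noncomputable instance : SeminormedAddCommGroup (Pre S Φ) :=
  InnerProductSpace.Core.toSeminormedAddCommGroup (c := core S Φ)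
noncomputable instance : InnerProductSpace ℂ (Pre S Φ) := InnerProductSpace.ofCore (core S Φ)

lemma inner_def (x y : Pre S Φ) :
    ⟪x, y⟫_ℂ = psi Φ fun ζ => ⟪gv (inc S) ζ (ofPre x), gv (inc S) ζ (ofPre y)⟫_ℂ := rfl

lemma norm_sq (x : Pre S Φ) : ‖x‖ ^ 2 = Φ.1 fun ζ => ‖gv (inc S) ζ (ofPre x)‖ ^ 2 := by
  rw [← re_psi, ← inner_def, ← inner_self_eq_norm_sq (𝕜 := ℂ)]; rfl

/-- left multiplication, algebraic -/
noncomputable def lm0 (Φ : Pos H) (a : vN S) : Pre S Φ →ₗ[ℂ] Pre S Φ where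
  toFun x := ofPre.symm (a • ofPre x)
  map_add' x y := by simp
  map_smul' c x := by simp [smul_comm a c]

/-- left multiplication -/
noncomputable def lm (Φ : Pos H) (a : vN S) : Pre S Φ →L[ℂ] Pre S Φ :=
  (lm0 Φ a).mkContinuous ‖(a : H →L[ℂ] H)‖ fun x => by
    refine (sq_le_sq₀ (norm_nonneg _) (by positivity)).mp ?_
    rw [mul_pow, norm_sq, norm_sq, ← sub_nonneg, ← smul_eq_mul, ← map_smul, ← map_sub]
    refine Φ.2 _ ((XX H).sub_mem ((XX H).smul_mem _ (N_mem _)) (N_mem _)) fun ζ => ?_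
    change 0 ≤ _ * _ - ‖gv (inc S) ζ (a • ofPre x)‖ ^ 2
    rw [gv_smul, ← mul_pow, sub_nonneg]
    exact pow_le_pow_left₀ (norm_nonneg _) ((a : H →L[ℂ] H).le_opNorm _) 2

lemma ofPre_lm (a : vN S) (x : Pre S Φ) : ofPre (lm Φ a x) = a • ofPre x := rfl

lemma completion_ext {f g : Completion (Pre S Φ) →L[ℂ] Completion (Pre S Φ)}
    (h : ∀ x : Pre S Φ, f x = g x) : f = g := by
  ext x
  induction x using Completion.induction_on with
  | hp => apply isClosed_eq <;> fun_prop
  | ih x => exact h x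

lemma lm_coe (a : vN S) (x : Pre S Φ) :
    (lm Φ a).completion (x : Completion (Pre S Φ)) = (lm Φ a x : Pre S Φ) := by simp

/-- the representation -/
noncomputable def rp (S : Set (H →L[ℂ] H)) (Φ : Pos H) :
    vN S →⋆ₐ[ℂ] (Completion (Pre S Φ) →L[ℂ] Completion (Pre S Φ)) where
  toFun a := (lm Φ a).completion
  map_one' := completion_ext fun x => by
    rw [lm_coe, ContinuousLinearMap.one_apply]
    congr 1
    exact ofPre.injective (by rw [ofPre_lm, one_smul])
  map_mul' a b := completion_ext fun x => by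
    rw [lm_coe, ContinuousLinearMap.mul_apply, lm_coe, lm_coe]
    congr 1
    exact ofPre.injective (by rw [ofPre_lm, ofPre_lm, ofPre_lm, mul_smul])
  map_zero' := completion_ext fun x => by
    rw [lm_coe, ContinuousLinearMap.zero_apply, ← Completion.coe_zero]
    congr 1
    exact ofPre.injective (by rw [ofPre_lm, zero_smul, map_zero])
  map_add' a b := completion_ext fun x => by
    rw [lm_coe, ContinuousLinearMap.add_apply, lm_coe, lm_coe, ← Completion.coe_add]
    congr 1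
    exact ofPre.injective (by rw [ofPre_lm, map_add, ofPre_lm, ofPre_lm, add_smul])
  commutes' r := completion_ext fun x => by
    rw [lm_coe, Algebra.algebraMap_eq_smul_one, Algebra.algebraMap_eq_smul_one,
      ContinuousLinearMap.smul_apply, ContinuousLinearMap.one_apply, ← Completion.coe_smul]
    exact congrArg _ (ofPre.injective (by rw [ofPre_lm, map_smul, smul_one_smul]))
  map_star' a := by
    rw [ContinuousLinearMap.star_eq_adjoint, ContinuousLinearMap.eq_adjoint_iff]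
    intro x y
    induction x, y using Completion.induction_on₂ with
    | hp => apply isClosed_eq <;> fun_prop
    | ih x y =>
      rw [lm_coe, lm_coe, Completion.inner_coe, Completion.inner_coe, inner_def, inner_def]
      simp only [ofPre_lm, gv_smul, StarMemClass.coe_star, ContinuousLinearMap.star_eq_adjoint,
        ContinuousLinearMap.adjoint_inner_left]

theorem wp_pos (T : vN S →ₗ[ℂ] (H →L[ℂ] H)) (C : ℝ) (hC : 0 < C) (hT : CB S T C) :
    ∃ (K : Type v) (_ : NormedAddCommGroup K) (_ : InnerProductSpace ℂ K) (_ : CompleteSpace K)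
      (π : vN S →⋆ₐ[ℂ] (K →L[ℂ] K)) (W : K →L[ℂ] H) (V : H → K),
      (∀ ξ, ‖V ξ‖ ≤ ‖ξ‖) ∧ ‖W‖ ≤ C ∧ ∀ a ξ, T a ξ = W (π a (V ξ)) := by
  obtain ⟨Φ0, h0, h1, h2⟩ := exists_phi T hC hT
  let Φ : Pos H := ⟨Φ0, h0⟩
  have hb : ∀ x : Pre S Φ, ‖(gv T id ∘ₗ ofPre.toLinearMap) x‖ ≤ C * ‖x‖ := fun x => by
    refine (sq_le_sq₀ (norm_nonneg _) (by positivity)).mp ?_
    rw [mul_pow, norm_sq]
    exact h1 _
  let W0 : Pre S Φ →L[ℂ] H := (gv T id ∘ₗ ofPre.toLinearMap).mkContinuous C hb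
  refine ⟨Completion (Pre S Φ), inferInstance, inferInstance, inferInstance, rp S Φ,
    W0.fromCompletion, fun ξ => (ofPre.symm (Finsupp.single ξ 1) : Pre S Φ), fun ξ => ?_, ?_,
    fun a ξ => ?_⟩
  · rw [Completion.norm_coe]
    refine (sq_le_sq₀ (norm_nonneg _) (norm_nonneg _)).mp ?_
    rw [norm_sq]
    simp only [LinearEquiv.apply_symm_apply, gv_single]
    exact h2 ξ
  · refine ContinuousLinearMap.opNorm_le_bound _ hC.le fun x => ?_
    induction x using Completion.induction_on with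
    | hp => apply isClosed_le <;> fun_prop
    | ih x =>
      rw [ContinuousLinearMap.fromCompletion_apply_coe, Completion.norm_coe]
      exact hb x
  · change _ = W0.fromCompletion ((lm Φ a).completion _)
    rw [lm_coe, ContinuousLinearMap.fromCompletion_apply_coe]
    change _ = gv T id (ofPre (lm Φ a _))
    rw [ofPre_lm, LinearEquiv.apply_symm_apply, Finsupp.smul_single, gv_single, smul_eq_mul,
      mul_one, id]

lemma cb_norm (T : vN S →ₗ[ℂ] (H →L[ℂ] H)) {C : ℝ} (hC : 0 ≤ C) (hT : CB S T C) (a : vN S)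
    (ξ : H) : ‖T a ξ‖ ≤ C * ‖(a : H →L[ℂ] H)‖ * ‖ξ‖ := by
  rcases eq_or_ne a 0 with rfl | ha
  · simp
  have h0 : 0 < ‖(a : H →L[ℂ] H)‖ := norm_pos_iff.mpr fun h => ha (Subtype.ext h)
  set r := ‖(a : H →L[ℂ] H)‖ with hr
  have := hT Unit Unit (fun _ _ => ((r⁻¹ : ℝ) : ℂ) • a) (fun η => by
    simp only [Finset.univ_unique, Finset.sum_singleton]
    refine pow_le_pow_left₀ (norm_nonneg _) ?_ 2
    change ‖((r⁻¹ : ℝ) : ℂ) • (a : H →L[ℂ] H) _‖ ≤ _
    rw [norm_smul, Complex.norm_real, Real.norm_eq_abs, abs_of_pos (by positivity),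
      inv_mul_le_iff₀ h0]
    exact (a : H →L[ℂ] H).le_opNorm _) (fun _ => ξ)
  simp only [Finset.univ_unique, Finset.sum_singleton, map_smul, ← mul_pow,
    ContinuousLinearMap.smul_apply] at this
  have h2 := (sq_le_sq₀ (norm_nonneg _) (by positivity)).mp this
  rw [norm_smul, Complex.norm_real, Real.norm_eq_abs, abs_of_pos (by positivity),
    inv_mul_le_iff₀ h0] at h2
  linarith

end Vale.Agent.P082.W
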